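import Vale.Agent.P217.Cocycle

namespace Vale.Agent.P217

open Finset

variable {B : Type} [CommRing B] {p h : ℕ} [Fact p.Prime]

namespace Compare

open MvPowerSeries LTGroup Cocycle

theorem one_lt (hh : 0 < h) : 1 < p ^ h := Nat.one_lt_pow hh.ne' (Fact.out : p.Prime).one_lt

theorem p_eq_zero (hh : 0 < h) {F : FormalGroup B}
    (hF : mulSeries F p = PowerSeries.X ^ p ^ h) : (p : B) = 0 := by
  rw [← coeff_one_mulSeries F p, hF, PowerSeries.coeff_X_pow, if_neg (one_lt hh).ne]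

theorem fixed_iff {τ : Type} [Finite τ] (hp : (p : B) = 0) (f : MvPowerSeries τ B) :
    subst (fun i => (X i : MvPowerSeries τ B) ^ p ^ h) f = f ^ p ^ h ↔
      ∀ d, coeff d f ^ p ^ h = coeff d f := by
  rcases subsingleton_or_nontrivial B with hB | hB
  · refine ⟨fun _ _ => Subsingleton.elim _ _, fun _ => ?_⟩
    ext d
    exact Subsingleton.elim _ _
  have : CharP B p := (CharP.charP_iff_prime_eq_zero Fact.out).2 hp
  have hp0 : p ≠ 0 := (Fact.out : p.Prime).ne_zero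
  have h1 := map_iterateFrobenius_expand p hp0 f h
  have h2 : expand (p ^ h) (pow_ne_zero h hp0) f =
      subst (fun i => (X i : MvPowerSeries τ B) ^ p ^ h) f := substAlgHom_apply _ f
  rw [← h1, ← h2]
  constructor
  · intro h3 d
    have h4 := congrArg (coeff ((p ^ h) • d)) h3
    rw [coeff_map, coeff_expand_smul] at h4
    exact h4.symm
  · intro h3
    rw [map_expand]
    congr 1
    ext d
    rw [coeff_map]
    exact (h3 d).symm

theorem fixed_iff1 (hp : (p : B) = 0) (f : PowerSeries B) :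
    f.subst (PowerSeries.X ^ p ^ h : PowerSeries B) = f ^ p ^ h ↔
      ∀ i, PowerSeries.coeff i f ^ p ^ h = PowerSeries.coeff i f := by
  refine (fixed_iff (τ := Unit) hp f).trans ⟨fun h i => h _, fun h d => ?_⟩
  rw [coeff_unit]
  exact h _

theorem fixed_sub (hp : (p : B) = 0) {a b : B} (ha : a ^ p ^ h = a) (hb : b ^ p ^ h = b) :
    (a - b) ^ p ^ h = a - b := by
  rcases subsingleton_or_nontrivial B with hB | hB
  · exact Subsingleton.elim _ _
  have : CharP B p := (CharP.charP_iff_prime_eq_zero Fact.out).2 hp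
  rw [sub_pow_char_pow, ha, hb]

theorem fixed_nsmul (hp : (p : B) = 0) {a : B} (ha : a ^ p ^ h = a) (N : ℕ) :
    (N • a) ^ p ^ h = N • a := by
  rcases subsingleton_or_nontrivial B with hB | hB
  · exact Subsingleton.elim _ _
  have : CharP B p := (CharP.charP_iff_prime_eq_zero Fact.out).2 hp
  rw [← iterateFrobenius_def, map_nsmul, iterateFrobenius_def, ha]

variable [Adic B]

/-- The defect of `γ`, as a difference in the ring. -/
noncomputable def df (F G : FormalGroup B) (γ : PowerSeries B) : MvPowerSeries (Fin 2) B :=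
  ev1 C F.toPowerSeries γ -
    ev C ![ev1 C (X 0 : MvPowerSeries (Fin 2) B) γ, ev1 C (X 1) γ] G.toPowerSeries

theorem F_rad (F : FormalGroup B) : F.toPowerSeries ∈ rad (MvPowerSeries (Fin 2) B) :=
  mem_rad_of_constantCoeff_zero F.zero_constantCoeff

omit [Adic B] in
theorem F_mem (F : FormalGroup B) : F.toPowerSeries ∈ J (Fin 2) B := mem_J.2 F.zero_constantCoeff

theorem df_congr (F G : FormalGroup B) {γ γ' : PowerSeries B}
    (h0 : PowerSeries.constantCoeff γ = 0) (h0' : PowerSeries.constantCoeff γ' = 0) {N : ℕ}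
    (hN : ∀ i < N, PowerSeries.coeff i (γ' - γ) = 0) : df F G γ' - df F G γ ∈ J (Fin 2) B ^ N := by
  have h1 := ev1_mem_pow C (F_rad F) (F_mem F) N hN
  have h2 : ∀ i : Fin 2, ev1 C (X i : MvPowerSeries (Fin 2) B) γ' - ev1 C (X i) γ ∈
      J (Fin 2) B ^ N := fun i => by
    rw [← map_sub]
    exact ev1_mem_pow C (X_mem_rad i) (X_mem i) N hN
  have h3 := ev_congr (C : B →+* MvPowerSeries (Fin 2) B)
    (rad2 (ev1_mem_rad C (X_mem_rad 0) h0) (ev1_mem_rad C (X_mem_rad 1) h0))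
    (rad2 (ev1_mem_rad C (X_mem_rad 0) h0') (ev1_mem_rad C (X_mem_rad 1) h0'))
    (𝔠 := J (Fin 2) B ^ N) (fun i => by fin_cases i; exacts [h2 0, h2 1]) G.toPowerSeries
  rw [map_sub] at h1
  have h4 := sub_mem h1 h3
  unfold df
  rwa [sub_sub_sub_comm] at h4

omit [Adic B] in
theorem add_val_cong {S : Type} [CommRing S] [Adic S] {G : FormalGroup B} {φ : B →+* S}
    {𝔞 : Ideal S} {D : ℕ} {x y x' y' : Pt G φ} (hx : x.val ∈ 𝔞) (hy : y.val ∈ 𝔞)
    (hx' : x'.val ∈ 𝔞) (h1 : x'.val - x.val ∈ 𝔞 ^ D) (h2 : y'.val - y.val ∈ 𝔞 ^ D) :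
    (x' + y').val - (x + y).val - (x'.val - x.val) - (y'.val - y.val) ∈ 𝔞 ^ (D + 1) := by
  obtain ⟨r, hr⟩ := fg_exists_eq G
  have h3 := ev_congr φ (rad2 x.mem y.mem) (rad2 x'.mem y'.mem) (𝔠 := 𝔞 ^ D)
    (fun i => by fin_cases i; exacts [h1, h2]) r
  have e : ∀ a b : Pt G φ, (a + b).val = a.val + b.val + a.val * b.val * ev φ ![a.val, b.val] r := by
    intro a b
    rw [Pt.add_val, hr]
    simp [ev_X φ (rad2 a.mem b.mem)]
  rw [e, e]
  set s := ev φ ![x.val, y.val] r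
  set s' := ev φ ![x'.val, y'.val] r
  have e2 : x'.val + y'.val + x'.val * y'.val * s' - (x.val + y.val + x.val * y.val * s) -
      (x'.val - x.val) - (y'.val - y.val) =
      (y'.val - y.val) * x'.val * s' + (x'.val - x.val) * y.val * s' +
        (s' - s) * x.val * y.val := by ring
  rw [e2, pow_succ]
  exact add_mem (add_mem (Ideal.mul_mem_right _ _ (Ideal.mul_mem_mul h2 hx'))
    (Ideal.mul_mem_right _ _ (Ideal.mul_mem_mul h1 hy)))
    (Ideal.mul_mem_right _ _ (Ideal.mul_mem_mul h3 hx))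

theorem df_sub (F G : FormalGroup B) {γ : PowerSeries B} (h0 : PowerSeries.constantCoeff γ = 0)
    (b : B) {D : ℕ} (hD : 0 < D) :
    df F G (γ - PowerSeries.C b * PowerSeries.X ^ D) -
      (df F G γ - cobound F (PowerSeries.C b * PowerSeries.X ^ D)) ∈ J (Fin 2) B ^ (D + 1) := by
  set β := PowerSeries.C b * PowerSeries.X ^ D with hβ
  have hb0 : ∀ i < D, PowerSeries.coeff i β = 0 := fun i hi => by
    rw [hβ, PowerSeries.coeff_C_mul, PowerSeries.coeff_X_pow, if_neg hi.ne, mul_zero]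
  have h0' : PowerSeries.constantCoeff (γ - β) = 0 := by
    rw [map_sub, h0, zero_sub, neg_eq_zero, ← PowerSeries.coeff_zero_eq_constantCoeff_apply]
    exact hb0 0 hD
  let u : Fin 2 → Pt F (C : B →+* MvPowerSeries (Fin 2) B) := Pt.univ F
  have h1 : ∀ i, (Pt.app G C C (γ - β) h0' (u i)).val - (Pt.app G C C γ h0 (u i)).val =
      -ev1 C (X i) β := fun i => by
    rw [Pt.app_val, Pt.app_val, map_sub]
    change _ = -ev1 C (u i).val β
    ring
  have h2 : ∀ i, (Pt.app G C C (γ - β) h0' (u i)).val - (Pt.app G C C γ h0 (u i)).val ∈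
      J (Fin 2) B ^ D := fun i => by
    rw [h1]
    exact neg_mem (ev1_mem_pow C (X_mem_rad i) (X_mem i) D hb0)
  have h3 := add_val_cong (𝔞 := J (Fin 2) B) (ev1_mem C (X_mem_rad 0) (X_mem 0) h0)
    (ev1_mem C (X_mem_rad 1) (X_mem 1) h0) (ev1_mem C (X_mem_rad 0) (X_mem 0) h0') (h2 0) (h2 1)
  rw [h1, h1] at h3
  have h4 := neg_mem h3
  have e : df F G (γ - β) - (df F G γ - cobound F β) =
      -((Pt.app G C C (γ - β) h0' (u 0) + Pt.app G C C (γ - β) h0' (u 1)).val -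
        (Pt.app G C C γ h0 (u 0) + Pt.app G C C γ h0 (u 1)).val - -ev1 C (X 0) β -
          -ev1 C (X 1) β) := by
    rw [df, df, cobound, psubst_eq_ev1 F.zero_constantCoeff, psubst_eq_ev1 (by simp),
      psubst_eq_ev1 (by simp), map_sub (ev1 C F.toPowerSeries)]
    change _ = -(ev C ![ev1 C (X 0) (γ - β), ev1 C (X 1) (γ - β)] G.toPowerSeries -
      ev C ![ev1 C (X 0) γ, ev1 C (X 1) γ] G.toPowerSeries - _ - _)
    ring
  rw [e]
  exact h4

section
variable {F G : FormalGroup B} [F.IsComm] [G.IsComm] {γ : PowerSeries B}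
  {h0 : PowerSeries.constantCoeff γ = 0} {E : MvPowerSeries (Fin 2) B} {D : ℕ}

/-- The defining property of the defect in the group. -/
def IsDef (F G : FormalGroup B) (γ : PowerSeries B) (h0 : PowerSeries.constantCoeff γ = 0)
    (E : MvPowerSeries (Fin 2) B) : Prop :=
  ∀ (τ : Type) [Finite τ] (x y : Pt F (C : B →+* MvPowerSeries τ B)),
    ev C ![x.val, y.val] E =
      (Pt.app G C C γ h0 (x + y) - Pt.app G C C γ h0 x - Pt.app G C C γ h0 y).val

omit [F.IsComm] in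
theorem exists_univ (F : FormalGroup B) (τ : Type) [Finite τ] :
    ∃ u : τ → Pt F (C : B →+* MvPowerSeries τ B), ∀ i, (u i).val = X i :=
  ⟨Pt.univ F, fun _ => rfl⟩

omit [Adic B] in
theorem e2 : ![(X 0 : MvPowerSeries (Fin 2) B), X 1] = X := by funext i; fin_cases i <;> rfl

omit [F.IsComm] in
theorem IsDef.eq (hE : IsDef F G γ h0 E) {u : Fin 2 → Pt F (C : B →+* MvPowerSeries (Fin 2) B)}
    (hu : ∀ i, (u i).val = X i) : E = (Pt.app G C C γ h0 (u 0 + u 1) -
      (Pt.app G C C γ h0 (u 0) + Pt.app G C C γ h0 (u 1))).val := by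
  rw [← sub_sub, ← hE, hu, hu, e2, ev_C_X]

omit [F.IsComm] in
theorem IsDef.mem (hE : IsDef F G γ h0 E) (hdf : df F G γ ∈ J (Fin 2) B ^ D) :
    E ∈ J (Fin 2) B ^ D ∧ E - df F G γ ∈ J (Fin 2) B ^ (D + 1) := by
  obtain ⟨u, hu⟩ := exists_univ F (Fin 2)
  have hE0 := hE.eq hu
  have hd0 : df F G γ = (Pt.app G C C γ h0 (u 0 + u 1)).val -
      (Pt.app G C C γ h0 (u 0) + Pt.app G C C γ h0 (u 1)).val := by
    rw [Pt.add_val, Pt.app_val, Pt.app_val, Pt.app_val, Pt.add_val, hu, hu, e2, ev_C_X, df]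
  have a1 : ∀ i, (Pt.app G C C γ h0 (u i)).val ∈ J (Fin 2) B := fun i => by
    rw [Pt.app_val, hu]
    exact ev1_mem C (X_mem_rad i) (X_mem i) h0
  rw [hd0] at hdf
  rw [hE0, hd0, pow_succ, Pt.sub_val_mem_iff]
  exact ⟨hdf, Pt.sub_val_sub_mem hdf (Pt.add_val_mem (a1 0) (a1 1))⟩

omit [Adic B] in
theorem sq_le {τ : Type} (hD : 1 ≤ D) : J τ B ^ D * J τ B ^ D ≤ J τ B ^ (D + 1) := by
  rw [← pow_add]
  exact Ideal.pow_le_pow_right (by omega)

omit [F.IsComm] [G.IsComm] in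
theorem IsDef.val_mem (hE : IsDef F G γ h0 E) (hEJ : E ∈ J (Fin 2) B ^ D) {τ : Type} [Finite τ]
    {x y : Pt F (C : B →+* MvPowerSeries τ B)} (hx : x.val ∈ J τ B) (hy : y.val ∈ J τ B) :
    (Pt.app G C C γ h0 (x + y) - Pt.app G C C γ h0 x - Pt.app G C C γ h0 y).val ∈ J τ B ^ D := by
  rw [← hE]
  exact ev_mem_pow C (rad2 x.mem y.mem) (two_mem hx hy) D (mem_pow.1 hEJ)

theorem IsDef.symm (hE : IsDef F G γ h0 E) :
    E.subst ![(X 1 : MvPowerSeries (Fin 2) B), X 0] = E := by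
  obtain ⟨u, hu⟩ := exists_univ F (Fin 2)
  rw [subst_eq_ev (cc2 (by simp) (by simp)), ← hu, ← hu, hE, sub_sub, add_comm (u 1),
    add_comm (Pt.app G C C γ h0 (u 1)), ← hE.eq hu]

omit [Adic B] in
theorem grp {S : Type} [CommRing S] [Adic S] {φ : B →+* S} {𝔞 : Ideal S} {a b c s t w : Pt G φ}
    (h1 : (b - s - t).val ∈ 𝔞) (h2 : (a - b - w).val ∈ 𝔞) (h3 : (c - t - w).val ∈ 𝔞)
    (h4 : (a - s - c).val ∈ 𝔞) :
    (b - s - t).val + (a - b - w).val - ((c - t - w).val + (a - s - c).val) ∈ 𝔞 * 𝔞 := by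
  have a1 := Pt.add_val_sub_mem h1 h2
  have a2 := Pt.add_val_sub_mem h3 h4
  have a3 : b - s - t + (a - b - w) = c - t - w + (a - s - c) := by abel
  rw [a3] at a1
  have a4 := sub_mem a2 a1
  rwa [sub_sub_sub_cancel_left] at a4

omit [F.IsComm] in
theorem IsDef.cocycle_pt (hE : IsDef F G γ h0 E) (hEJ : E ∈ J (Fin 2) B ^ D) (hD : 1 ≤ D)
    {τ : Type} [Finite τ] {x y z : Pt F (C : B →+* MvPowerSeries τ B)} (hx : x.val ∈ J τ B)
    (hy : y.val ∈ J τ B) (hz : z.val ∈ J τ B) :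
    ev C ![x.val, y.val] E + ev C ![(x + y).val, z.val] E -
      (ev C ![y.val, z.val] E + ev C ![x.val, (y + z).val] E) ∈ J τ B ^ (D + 1) := by
  simp only [hE τ]
  have hxy : (x + y).val ∈ J τ B := Pt.add_val_mem hx hy
  have hyz : (y + z).val ∈ J τ B := Pt.add_val_mem hy hz
  have b1 := hE.val_mem hEJ hx hy
  have b2 := hE.val_mem (x := x + y) hEJ hxy hz
  have b3 := hE.val_mem hEJ hy hz
  have b4 := hE.val_mem (y := y + z) hEJ hx hyz
  simp only [← add_assoc x y z] at b4 ⊢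
  exact sq_le hD (grp b1 b2 b3 b4)

omit [F.IsComm] in
theorem IsDef.cocycle (hE : IsDef F G γ h0 E) (hEJ : E ∈ J (Fin 2) B ^ D) (hD : 1 ≤ D)
    (d : Fin 3 →₀ ℕ) (hd : d.degree = D) :
    coeff d (E.subst ![(X 0 : MvPowerSeries (Fin 3) B), X 1] +
      E.subst ![F.toPowerSeries.subst ![(X 0 : MvPowerSeries (Fin 3) B), X 1], X 2]) =
    coeff d (E.subst ![(X 1 : MvPowerSeries (Fin 3) B), X 2] +
      E.subst ![X 0, F.toPowerSeries.subst ![(X 1 : MvPowerSeries (Fin 3) B), X 2]]) := by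
  obtain ⟨v, hv'⟩ := exists_univ F (Fin 3)
  have hv : ∀ i, (v i).val ∈ J (Fin 3) B := fun i => by rw [hv']; exact X_mem i
  have a4 := mem_pow.1 (hE.cocycle_pt hEJ hD (hv 0) (hv 1) (hv 2)) d (by omega)
  rw [map_sub, sub_eq_zero, Pt.add_val, Pt.add_val, hv', hv', hv'] at a4
  rw [subst_eq_ev (cc2 (cc_subst2 (by simp) (by simp) F) (by simp)),
    subst_eq_ev (cc2 (a := X 0) (by simp) (cc_subst2 (by simp) (by simp) F)),
    subst_eq_ev (cc2 (by simp) (by simp)), subst_eq_ev (cc2 (by simp) (by simp)),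
    subst_eq_ev (cc2 (by simp) (by simp)), subst_eq_ev (cc2 (by simp) (by simp))]
  exact a4

omit [F.IsComm] [G.IsComm] in
theorem app_nsmul (hh : 0 < h) (hF : mulSeries F p = PowerSeries.X ^ p ^ h)
    (hG : mulSeries G p = PowerSeries.X ^ p ^ h)
    (hγ : ∀ i, PowerSeries.coeff i γ ^ p ^ h = PowerSeries.coeff i γ) {τ : Type} [Finite τ]
    (w : Pt F (C : B →+* MvPowerSeries τ B)) :
    Pt.app G C C γ h0 (p • w) = p • Pt.app G C C γ h0 w := by
  refine Pt.ext ?_
  rw [Pt.app_val, Pt.nsmul_val, Pt.nsmul_val, ← ev1_psubst _ w.mem (Ideals.cc_mul F p), hF, hG,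
    (fixed_iff1 (p_eq_zero hh hF) γ).2 hγ, map_pow, map_pow, ev1_X _ (Pt.app G C C γ h0 w).mem,
    Pt.app_val]

theorem IsDef.fixed (hE : IsDef F G γ h0 E) (hh : 0 < h)
    (hF : mulSeries F p = PowerSeries.X ^ p ^ h) (hG : mulSeries G p = PowerSeries.X ^ p ^ h)
    (hγ : ∀ i, PowerSeries.coeff i γ ^ p ^ h = PowerSeries.coeff i γ) (d : Fin 2 →₀ ℕ) :
    coeff d E ^ p ^ h = coeff d E := by
  obtain ⟨u, hu⟩ := exists_univ F (Fin 2)
  refine (fixed_iff (p_eq_zero hh hF) E).1 ?_ d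
  have a1 := hE _ (p • u 0) (p • u 1)
  rw [← nsmul_add, app_nsmul hh hF hG hγ, app_nsmul hh hF hG hγ, app_nsmul hh hF hG hγ,
    ← nsmul_sub, ← nsmul_sub, sub_sub, Pt.nsmul_val, Pt.nsmul_val,
    Pt.nsmul_val, hF, hG, map_pow, map_pow, map_pow, ev1_X _ (u 0).mem, ev1_X _ (u 1).mem,
    ev1_X _ (Pt.mem _), ← hE.eq hu, hu, hu] at a1
  have a2 : (fun i => (X i : MvPowerSeries (Fin 2) B) ^ p ^ h) = ![X 0 ^ p ^ h, X 1 ^ p ^ h] := by
    funext i
    fin_cases i <;> rfl
  rw [subst_eq_ev (fun i => by rw [map_pow, constantCoeff_X, zero_pow (one_lt hh).ne_bot]), ← a1,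
    a2]

omit [F.IsComm] in
theorem IsDef.pSum (hE : IsDef F G γ h0 E) (hEJ : E ∈ J (Fin 2) B ^ D) (hD : 1 ≤ D) (hh : 0 < h)
    (hF : mulSeries F p = PowerSeries.X ^ p ^ h) (hG : mulSeries G p = PowerSeries.X ^ p ^ h)
    (hγ : ∀ i, PowerSeries.coeff i γ ^ p ^ h = PowerSeries.coeff i γ) :
    PowerSeries.coeff D (pSum F p E) = 0 := by
  obtain ⟨u, hu⟩ := exists_univ F Unit
  set w := u ()
  have hw : w.val ∈ J Unit B := hu () ▸ X_mem ()
  have a1 := ev_pSum p E C w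
  have a2 : ∀ m : ℕ, ∑ i ∈ range m, (Pt.app G C C γ h0 (i • w + w) -
      Pt.app G C C γ h0 (i • w) - Pt.app G C C γ h0 w) =
      Pt.app G C C γ h0 (m • w) - m • Pt.app G C C γ h0 w := fun m => by
    induction m with
    | zero =>
      have : Pt.app G C C γ h0 (0 : Pt F (C : B →+* MvPowerSeries Unit B)) = 0 :=
        Pt.ext (by simp [ev1_zero, h0])
      simp [this]
    | succ m ih =>
      rw [sum_range_succ, ih, succ_nsmul, succ_nsmul]
      abel
  have a3 := Pt.sum_val_sub_mem (range p) (fun i => Pt.app G C C γ h0 (i • w + w) -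
      Pt.app G C C γ h0 (i • w) - Pt.app G C C γ h0 w)
    fun i _ => hE.val_mem hEJ (Pt.nsmul_val_mem hw i) hw
  rw [a2, app_nsmul hh hF hG hγ, sub_self, Pt.zero_val, zero_sub, neg_mem_iff, pow_two] at a3
  simp only [hE Unit] at a1
  rw [← a1, hu] at a3
  have a4 : ev1 C (X ()) (P217.pSum F p E) = P217.pSum F p E := ev1_C_X _
  rw [a4] at a3
  exact mem_pow.1 (sq_le hD a3) (Finsupp.single () D) (by simp)

end

theorem step (hh : 0 < h) (F G : FormalGroup B) [F.IsComm] [G.IsComm]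
    (hF : mulSeries F p = PowerSeries.X ^ p ^ h) (hG : mulSeries G p = PowerSeries.X ^ p ^ h)
    {γ : PowerSeries B} (h0 : PowerSeries.constantCoeff γ = 0)
    (hγ : ∀ i, PowerSeries.coeff i γ ^ p ^ h = PowerSeries.coeff i γ) {D : ℕ} (hD : 2 ≤ D)
    (hdf : df F G γ ∈ J (Fin 2) B ^ D) :
    ∃ b : B, b ^ p ^ h = b ∧
      df F G (γ - PowerSeries.C b * PowerSeries.X ^ D) ∈ J (Fin 2) B ^ (D + 1) := by
  have hp := p_eq_zero hh hF
  obtain ⟨E, -, hE'⟩ := exists_defect F G γ h0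
  have hE : IsDef F G γ h0 E := fun τ _ => hE' _ C
  obtain ⟨hEJ, hEd⟩ := hE.mem hdf
  have hEc := mem_pow.1 hEJ
  obtain ⟨c0, cD, hc⟩ := lowest_cocycle F E D (by omega) hEc (hE.cocycle hEJ (by omega))
  have hps := hE.pSum hEJ (by omega) hh hF hG hγ
  obtain ⟨l1, l2⟩ := lazard_hom (p := p) (M := B) (fun x => by rw [nsmul_eq_mul, hp, zero_mul]) D
    (cf E D) (fun i _ hi => lowest_symm E hE.symm D i hi.le) hc
  have hb : ∃ b : B, b ^ p ^ h = b ∧ ∀ i, 0 < i → i < D → cf E D i = D.choose i • b := by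
    by_cases hpow : ∃ e, D = p ^ e
    · refine ⟨0, zero_pow (one_lt hh).ne_bot, fun i h1 h2 => ?_⟩
      rw [l2 hpow ?_ i h1 h2, nsmul_zero]
      rw [lowest_pSum F p E D hEc] at hps
      rw [← hps]
      refine sum_congr rfl fun i _ => ?_
      refine sum_subset (fun t ht => ?_) fun t ht ht' => ?_
      · have := mem_Ioo.1 ht
        exact mem_range.2 (by omega)
      · have a1 := mem_range.1 ht
        have a2 : t = 0 ∨ t = D := by
          rw [mem_Ioo] at ht'
          omega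
        rcases a2 with rfl | rfl
        · rw [c0, nsmul_zero]
        · rw [cD, nsmul_zero]
    · obtain ⟨N, i₀, -, -, h3⟩ := l1 hpow hD
      exact ⟨_, fixed_nsmul hp (hE.fixed hh hF hG hγ _) N, h3⟩
  obtain ⟨b, hb1, hb2⟩ := hb
  refine ⟨b, hb1, ?_⟩
  obtain ⟨k1, k2⟩ := lowest_cobound F b D (by omega)
  have hEb : E - cobound F (PowerSeries.C b * PowerSeries.X ^ D) ∈ J (Fin 2) B ^ (D + 1) := by
    refine mem_pow.2 fun d hd => ?_
    rw [map_sub, sub_eq_zero]
    rcases (Nat.lt_succ_iff.1 hd).lt_or_eq with h1 | h1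
    · rw [hEc d h1, k1 d h1]
    · rw [deg2] at h1
      have a1 : d = m2 (d 0) (D - d 0) := by
        rw [show D - d 0 = d 1 by omega]
        exact eq_m2 d
      rw [a1]
      change cf E D (d 0) = cf _ D (d 0)
      rw [k2 _ (by omega)]
      split_ifs with h2
      · rcases h2 with h2 | h2
        · rw [h2, c0]
        · rw [h2, cD]
      · exact hb2 _ (by omega) (by omega)
  have := add_mem (df_sub F G h0 b (by omega : 0 < D)) (sub_mem hEb hEd)
  simpa using this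

end Compare

theorem IsHom.coeff_pow_eq (hh : 0 < h) {F G : FormalGroup B}
    (hF : mulSeries F p = PowerSeries.X ^ p ^ h) (hG : mulSeries G p = PowerSeries.X ^ p ^ h)
    {γ : PowerSeries B} (hγ : IsHom F G γ) (i : ℕ) :
    PowerSeries.coeff i γ ^ p ^ h = PowerSeries.coeff i γ := by
  refine (Compare.fixed_iff1 (Compare.p_eq_zero hh hF) γ).1 ?_ i
  have h1 := Ideals.hom_mul hγ p
  have h2 := PowerSeries.HasSubst.of_constantCoeff_zero' hγ.1
  rwa [hF, hG, PowerSeries.subst_pow h2, PowerSeries.subst_X h2] at h1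

open Compare LTGroup in
theorem exists_strict_iso (hh : 0 < h) (F G : FormalGroup B) [F.IsComm] [G.IsComm]
    (hF : mulSeries F p = PowerSeries.X ^ p ^ h) (hG : mulSeries G p = PowerSeries.X ^ p ^ h) :
    ∃ γ : PowerSeries B, IsHom F G γ ∧ PowerSeries.coeff 1 γ = 1 := by
  let _ := Adic.discrete B
  have hp := p_eq_zero hh hF
  let P : ℕ → PowerSeries B → Prop := fun n γ => PowerSeries.constantCoeff γ = 0 ∧
    (∀ i, PowerSeries.coeff i γ ^ p ^ h = PowerSeries.coeff i γ) ∧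
    df F G γ ∈ J (Fin 2) B ^ (n + 2)
  have h0 : P 0 PowerSeries.X := by
    refine ⟨by simp, fun i => ?_, ?_⟩
    · rw [PowerSeries.coeff_X]
      split_ifs
      · exact one_pow _
      · exact zero_pow (one_lt hh).ne_bot
    · have e2 : ![(MvPowerSeries.X 0 : MvPowerSeries (Fin 2) B), MvPowerSeries.X 1] =
          MvPowerSeries.X := by funext i; fin_cases i <;> rfl
      rw [df, ev1_X _ (F_rad F), ev1_X _ (X_mem_rad 0), ev1_X _ (X_mem_rad 1), e2, ev_C_X]
      simpa using sub_mem (Cocycle.fg_lin F) (Cocycle.fg_lin G)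
  have hs : ∀ n γ, P n γ → ∃ γ', P (n + 1) γ' ∧
      ∀ i < n + 2, PowerSeries.coeff i (γ' - γ) = 0 := by
    rintro n γ ⟨a1, a2, a3⟩
    obtain ⟨b, b1, b2⟩ := step hh F G hF hG a1 a2 (by omega) a3
    refine ⟨_, ⟨by simp [a1], fun i => ?_, b2⟩, fun i hi => ?_⟩
    · rw [map_sub]
      refine fixed_sub hp (a2 i) ?_
      rw [PowerSeries.coeff_C_mul, PowerSeries.coeff_X_pow]
      split_ifs
      · rw [mul_one, b1]
      · rw [mul_zero, zero_pow (one_lt hh).ne_bot]
    · rw [sub_sub_cancel_left, map_neg, PowerSeries.coeff_C_mul, PowerSeries.coeff_X_pow,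
        if_neg hi.ne, mul_zero, neg_zero]
  choose! f hf1 hf2 using hs
  let g : ℕ → PowerSeries B := fun n => Nat.rec PowerSeries.X f n
  have hg : ∀ n, P n (g n) := fun n => by
    induction n with
    | zero => exact h0
    | succ n ih => exact hf1 n _ ih
  have hdeg : ∀ d : Unit →₀ ℕ, d.degree = d () := fun d => by rw [Finsupp.degree_eq_sum]; simp
  obtain ⟨L, hL⟩ := prec (σ := Unit) (A := B) g fun n => mem_pow.2 fun d hd => by
    rw [coeff_unit]
    exact hf2 n _ (hg n) _ (by rw [hdeg] at hd; omega)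
  have hL' : ∀ n, ∀ i < n, PowerSeries.coeff i (L - g n) = 0 := fun n i hi =>
    mem_pow.1 (hL n) (Finsupp.single () i) (by simpa using hi)
  have hL0 : PowerSeries.constantCoeff L = 0 := by
    have := hL' 1 0 one_pos
    rwa [PowerSeries.coeff_zero_eq_constantCoeff_apply, map_sub, (hg 1).1, sub_zero] at this
  have hg1 : ∀ n, PowerSeries.coeff 1 (g n) = 1 := fun n => by
    induction n with
    | zero => exact PowerSeries.coeff_one_X
    | succ n ih =>
      have := hf2 n _ (hg n) 1 (by omega)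
      rw [map_sub, sub_eq_zero] at this
      exact this.trans ih
  refine ⟨L, isHom_of_ev hL0 (sub_eq_zero.1 (haus _ fun n => ?_)), ?_⟩
  · have := add_mem (df_congr F G (hg n).1 hL0 (hL' n))
      (Ideal.pow_le_pow_right (by omega) (hg n).2.2)
    rwa [sub_add_cancel] at this
  · have := hL' 2 1 (by omega)
    rwa [map_sub, hg1, sub_eq_zero] at this

end Vale.Agent.P217
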