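import Vale.Agent.P217.Setup

/-! The family of deformations around a point of Lubin-Tate space. -/

namespace Vale.Agent.P217

open Finset MvPowerSeries

variable {p n : ℕ} [Fact p.Prime]

theorem p_mem_heightIdeal {h : ℕ} (hh : 0 < h) : (p : LTRing p n) ∈ heightIdeal p n h := by
  rw [heightIdeal, if_neg hh.ne']
  exact Ideal.subset_span (Or.inl rfl)

theorem X_mem_heightIdeal {h : ℕ} {j : Fin (n - 1)} (hj : j.val + 1 < h) :
    (X j : LTRing p n) ∈ heightIdeal p n h := by
  rw [heightIdeal, if_neg (by omega)]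
  exact Ideal.subset_span (Or.inr ⟨j, hj, rfl⟩)

theorem X_mem_top (j : Fin (n - 1)) : (X j : LTRing p n) ∈ heightIdeal p n n :=
  X_mem_heightIdeal (by have := j.2; omega)

theorem heightIdeal_le_of {h : ℕ} {J : Ideal (LTRing p n)} (hp : (p : LTRing p n) ∈ J)
    (hX : ∀ j : Fin (n - 1), j.val + 1 < h → X j ∈ J) : heightIdeal p n h ≤ J := by
  unfold heightIdeal
  split_ifs
  · exact bot_le
  · refine Ideal.span_le.2 ?_
    rintro x (rfl | ⟨j, hj, rfl⟩)
    exacts [hp, hX j hj]

variable {S : Type} [CommRing S] [Adic S] {z : LTRing p n →+* S} (hz : ∀ j, z (X j) ∈ rad S)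
  (h : ℕ) (c : S)
include hz

theorem fam_arg_mem (j : Fin (n - 1)) : (C (z (X j)) + if hj : h ≤ j.val + 1 then C c * X ⟨j, hj⟩
    else 0 : MvPowerSeries (Ix n h) S) ∈ rad _ := by
  refine add_mem (C_mem_rad (hz j)) ?_
  split_ifs
  · exact Ideal.mul_mem_left _ _ (X_mem_rad _)
  · exact zero_mem _

omit hz in
@[simp] theorem fam_C (w : WittVector p (GaloisField p n)) : fam z h c (C w) = C (z (C w)) :=
  ev_C _ _ _

theorem fam_X (j : Fin (n - 1)) : fam z h c (X j) =
    C (z (X j)) + if hj : h ≤ j.val + 1 then C c * X ⟨j, hj⟩ else 0 :=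
  ev_X _ (fam_arg_mem hz h c) j

theorem ev_comp_fam {T : Type} [CommRing T] [Adic T] (χ : S →+* T)
    (hχ : ∀ x ∈ rad S, χ x ∈ rad T) {e : Ix n h → T} (he : ∀ i, e i ∈ rad T)
    (z' : LTRing p n →+* T) (hC : ∀ w, z' (C w) = χ (z (C w)))
    (hX : ∀ j, z' (X j) = χ (z (X j)) + if hj : h ≤ j.val + 1 then χ c * e ⟨j, hj⟩ else 0) :
    (ev χ e).comp (fam z h c) = z' := by
  refine hom_ext (fun j => ?_) (fun w => by simp [hC]) fun j => ?_
  · rw [RingHom.comp_apply, fam_X hz]
    exact ev_rad_of χ hχ he _ (fam_arg_mem hz h c j)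
  · rw [RingHom.comp_apply, fam_X hz, hX, map_add, ev_C]
    split_ifs
    · rw [map_mul, ev_C, ev_X _ he]
    · rw [map_zero]

theorem constantCoeff_fam (r : LTRing p n) : constantCoeff (fam z h c r) = z r := by
  have := ev_comp_fam hz h c (RingHom.id S) (fun _ h => h) (e := fun _ => 0)
    (fun _ => zero_mem _) z (fun _ => rfl) (fun j => by simp)
  conv_rhs => rw [← this]
  rw [RingHom.comp_apply, ev_zero]; rfl

theorem fam_sub_mem_span (r : LTRing p n) :
    fam z h c r - C (z r) ∈ Ideal.span {(C c : MvPowerSeries (Ix n h) S)} := by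
  have h1 : C.comp z = ev (C.comp (z.comp C))
      fun j => (C (z (X j)) : MvPowerSeries (Ix n h) S) :=
    eq_ev (fun j => C_mem_rad (hz j)) _ (fun _ => rfl) fun _ => rfl
  have := ev_congr (C.comp (z.comp C)) (fun j => C_mem_rad (hz j)) (fam_arg_mem hz h c)
    (𝔠 := Ideal.span {(C c : MvPowerSeries (Ix n h) S)}) (fun j => by
      rw [add_sub_cancel_left]
      split_ifs
      · exact Ideal.mul_mem_right _ _ (Ideal.mem_span_singleton_self _)
      · exact zero_mem _) r
  rwa [← h1] at this

theorem fam_sub_mem_I (r : LTRing p n) :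
    fam z h c r - C (z r) ∈ (Adic.I : Ideal (MvPowerSeries (Ix n h) S)) := by
  rw [mem_I_ps, map_sub, constantCoeff_fam hz]; simp

theorem fam_mem_I {r : LTRing p n} (hr : z r ∈ (Adic.I : Ideal S)) :
    fam z h c r ∈ (Adic.I : Ideal (MvPowerSeries (Ix n h) S)) := by
  rwa [mem_I_ps, constantCoeff_fam hz]

theorem fam_eq_zero (hzh : ∀ x ∈ heightIdeal p n h, z x = 0) :
    ∀ x ∈ heightIdeal p n h, fam z h c x = 0 := by
  rcases Nat.eq_zero_or_pos h with rfl | hh
  · intro x hx
    rw [heightIdeal, if_pos rfl] at hx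
    rw [show x = 0 from hx, map_zero]
  refine heightIdeal_le_of (J := RingHom.ker (fam z h c)) ?_ fun j hj => ?_
  · have := hzh _ (p_mem_heightIdeal hh)
    rw [map_natCast] at this
    rw [RingHom.mem_ker, map_natCast, ← map_natCast (C : S →+* _), this, map_zero]
  · rw [RingHom.mem_ker, fam_X hz, dif_neg (by omega), hzh _ (X_mem_heightIdeal hj)]; simp

theorem fam_scale (r : LTRing p n) :
    fam z h c r = ev C (fun i => (C c * X i : MvPowerSeries (Ix n h) S)) (fam z h 1 r) := by
  have := ev_comp_fam hz h 1 C (fun _ => C_mem_rad)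
    (e := fun i => (C c * X i : MvPowerSeries (Ix n h) S))
    (fun i => Ideal.mul_mem_left _ _ (X_mem_rad i)) (fam z h c) (fun w => by simp)
    (fun j => by rw [fam_X hz]; simp)
  rw [← this]; rfl

omit hz in
theorem coeff_ev_scale {σ : Type} [Finite σ] (f : MvPowerSeries σ S) (d : σ →₀ ℕ) :
    coeff d (ev C (fun i => (C c * X i : MvPowerSeries σ S)) f) = c ^ d.degree * coeff d f := by
  have := eq_ev (φ := C) (a := fun i => (C c * X i : MvPowerSeries σ S))
    (fun i => Ideal.mul_mem_left _ _ (X_mem_rad i)) (rescale fun _ => c)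
    (fun r => by
      classical
      ext e
      rw [coeff_rescale, coeff_C]
      split_ifs with he
      · subst he; simp
      · simp)
    (fun i => by
      classical
      ext e
      rw [coeff_rescale, coeff_C_mul, coeff_X]
      split_ifs with he
      · subst he; simp
      · simp)
  rw [← this, coeff_rescale, Finsupp.prod, prod_pow_eq_pow_sum]
  rfl

theorem coeff_eq_zero_of_fam [IsDomain S] (hc : c ≠ 0) (hzh : ∀ j, j.val + 1 < h → z (X j) = 0)
    {f : LTRing p n} (hf : fam z h c f = 0) (d : Fin (n - 1) →₀ ℕ)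
    (hd : ∀ j : Fin (n - 1), j.val + 1 < h → d j = 0) : z (C (coeff d f)) = 0 := by
  classical
  have h1 : fam z h 1 f = 0 := by
    ext e
    have := congrArg (coeff e) hf
    rw [fam_scale hz, coeff_ev_scale, map_zero] at this
    simpa [hc] using this
  have he : ∀ i : Ix n h, (X i.1 - C (z (X i.1)) : MvPowerSeries (Fin (n - 1)) S) ∈ rad _ :=
    fun i => sub_mem (X_mem_rad _) (C_mem_rad (hz _))
  have h2 := ev_comp_fam hz h 1 C (fun _ => C_mem_rad) he
    ((MvPowerSeries.map (z.comp C)).comp (Ideals.kill fun j : Fin (n - 1) => j.val + 1 < h))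
    (fun w => by
      ext e
      rw [RingHom.comp_apply, coeff_map]
      by_cases he : ∀ j : Fin (n - 1), j.val + 1 < h → e j = 0
      · rw [Ideals.coeff_kill_pos _ _ _ he, coeff_C, coeff_C]
        split_ifs <;> simp
      · rw [Ideals.coeff_kill_neg _ _ _ he, coeff_C, if_neg, map_zero]
        rintro rfl
        exact he fun _ _ => rfl)
    (fun j => by
      ext e
      rw [RingHom.comp_apply, coeff_map]
      split_ifs with hj
      · rw [map_one, one_mul, add_sub_cancel]
        by_cases he : ∀ j : Fin (n - 1), j.val + 1 < h → e j = 0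
        · rw [Ideals.coeff_kill_pos _ _ _ he, coeff_X, coeff_X]
          split_ifs <;> simp
        · rw [Ideals.coeff_kill_neg _ _ _ he, coeff_X, if_neg, map_zero]
          rintro rfl
          refine he fun i hi => Finsupp.single_eq_of_ne ?_
          rintro rfl
          omega
      · rw [hzh j (by omega), map_zero, add_zero, map_zero]
        by_cases he : ∀ j : Fin (n - 1), j.val + 1 < h → e j = 0
        · rw [Ideals.coeff_kill_pos _ _ _ he, coeff_X, if_neg, map_zero]
          rintro rfl
          simpa using he j (by omega)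
        · rw [Ideals.coeff_kill_neg _ _ _ he, map_zero])
  have h3 := congrArg (coeff d) (DFunLike.congr_fun h2 f)
  rw [RingHom.comp_apply, h1, map_zero, map_zero, RingHom.comp_apply, coeff_map,
    Ideals.coeff_kill_pos _ _ _ hd] at h3
  exact h3.symm

theorem mem_heightIdeal_of_fam [IsDomain S] (hc : c ≠ 0) (hh : 0 < h)
    (hzh : ∀ x ∈ heightIdeal p n h, z x = 0) {f : LTRing p n} (hf : fam z h c f = 0) :
    f ∈ heightIdeal p n h := by
  refine (mem_heightIdeal_iff p n hh f).2 fun d hd => ?_
  have h1 := coeff_eq_zero_of_fam hz h c hc (fun j hj => hzh _ (X_mem_heightIdeal hj)) hf d hd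
  by_contra hne
  have hu : IsUnit (coeff d f) := WittVector.isUnit_of_coeff_zero_ne_zero _ hne
  exact ((hu.map C).map z).ne_zero h1

omit h in
theorem eq_zero_of_fam [IsDomain S] (hc : c ≠ 0) (hp : (p : S) ≠ 0) {f : LTRing p n}
    (hf : fam z 0 c f = 0) : f = 0 := by
  ext1 d
  have h1 := coeff_eq_zero_of_fam hz 0 c hc (fun j hj => by omega) hf d fun j hj => by omega
  by_contra hne
  obtain ⟨m, u, hu⟩ := WittVector.exists_eq_pow_p_mul' (coeff d f) (by simpa using hne)
  rw [hu, map_mul, map_mul, map_pow, map_pow, map_natCast, map_natCast] at h1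
  exact mul_ne_zero (pow_ne_zero _ hp) ((u.isUnit.map C).map z).ne_zero h1

omit hz in
theorem Near.fam {K : Type} [NormedField K] [IsUltrametricDist K] [HasPi K] [CompleteSpace K]
    {F : FormalGroup (LTRing p n)} {z₀ z : LTRing p n →+* O K} (hz : ∀ j, z (X j) ∈ rad (O K))
    (H : Near p n F z₀ z (RingHom.id _)) (h : ℕ) (c : O K) : Near p n F z₀ (fam z h c) C :=
  ⟨H.pos, H.mul_p, C_mem_I, fun r => by
    have := add_mem (fam_sub_mem_I hz h c r) (C_mem_I (τ := Ix n h) _ (H.cong r))
    rwa [map_sub, sub_add_sub_cancel] at this⟩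

end Vale.Agent.P217
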