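import Vale.Agent.P217.Cocycle
import Vale.Agent.P217.Fam

namespace Vale.Agent.P217

open Finset MvPowerSeries

namespace Exist

theorem exists_seq {α : Type} (P : ℕ → α → Prop) (Rel : ℕ → α → α → Prop) (a₀ : α) (h0 : P 0 a₀)
    (hs : ∀ k a, P k a → ∃ b, P (k + 1) b ∧ Rel k a b) :
    ∃ f : ℕ → α, ∀ k, P k (f k) ∧ Rel k (f k) (f (k + 1)) := by
  choose nx h1 h2 using hs
  let g : ∀ k, {a // P k a} := fun k =>
    Nat.rec ⟨a₀, h0⟩ (fun k a => ⟨nx k a.1 a.2, h1 k a.1 a.2⟩) k
  exact ⟨fun k => (g k).1, fun k => ⟨(g k).2, h2 k (g k).1 (g k).2⟩⟩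

section general
variable {A B D : Type} [CommRing A] [CommRing B] [CommRing D]

theorem map_eq_zero {τ : Type} {π : B →+* A} {f : MvPowerSeries τ B} :
    MvPowerSeries.map π f = 0 ↔ ∀ d, π (coeff d f) = 0 :=
  ⟨fun h d => by simpa using congrArg (coeff d) h, fun h => by ext d; simpa using h d⟩

theorem pmap_eq_zero {π : B →+* A} {f : PowerSeries B} :
    PowerSeries.map π f = 0 ↔ ∀ d, π (PowerSeries.coeff d f) = 0 :=
  ⟨fun h d => by simpa using congrArg (PowerSeries.coeff d) h, fun h => by ext d; simpa using h d⟩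

theorem mul_eq_zero_of {τ : Type} {π : B →+* A} {ρ : B →+* D}
    (h : ∀ x y, π x = 0 → ρ y = 0 → x * y = 0) {f g : MvPowerSeries τ B}
    (hf : MvPowerSeries.map π f = 0) (hg : MvPowerSeries.map ρ g = 0) : f * g = 0 := by
  classical
  ext d
  rw [coeff_mul, map_zero]
  exact sum_eq_zero fun x _ => h _ _ (map_eq_zero.1 hf _) (map_eq_zero.1 hg _)

theorem rad_discrete (π : B →+* A) :
    ∀ x ∈ @rad B _ (Adic.discrete B), π x ∈ @rad A _ (Adic.discrete A) := by
  rintro x ⟨N, hN⟩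
  have : x ^ N = 0 := hN
  exact ⟨N, by rw [← map_pow, this, map_zero]; exact zero_mem _⟩

theorem map_ev_zero [Adic A] [Adic B] {σ τ : Type} [Finite σ] [Finite τ] (π : B →+* A)
    (hπ : ∀ x ∈ rad B, π x ∈ rad A) {a : σ → MvPowerSeries τ B} (ha : ∀ i, a i ∈ rad _)
    {f : MvPowerSeries σ B} (hf : MvPowerSeries.map π f = 0) :
    MvPowerSeries.map π (ev C a f) = 0 := by
  have hb : ∀ i, MvPowerSeries.map π (a i) ∈ rad _ := fun i =>
    mem_rad_ps.2 (hπ _ (mem_rad_ps.1 (ha i)))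
  have e : (MvPowerSeries.map (σ := τ) π).comp C = C.comp π := RingHom.ext fun r => map_C π r
  rw [hom_ev _ _ ha hb, e, ← ev_map π C hb, hf, map_zero]

theorem isHom_of_forall_mod [Adic B] {F G : FormalGroup B} {g : PowerSeries B}
    (h0 : PowerSeries.constantCoeff g = 0)
    (h : ∀ k : ℕ, IsHom (F.map (Ideal.Quotient.mk (Adic.I ^ (k + 1))))
      (G.map (Ideal.Quotient.mk (Adic.I ^ (k + 1))))
      (PowerSeries.map (Ideal.Quotient.mk (Adic.I ^ (k + 1))) g)) : IsHom F G g := by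
  refine ⟨h0, ?_⟩
  ext d
  refine eq_of_forall_sub_mem fun k => Ideal.pow_le_pow_right (Nat.le_succ k) ?_
  rw [← Ideal.Quotient.eq, ← coeff_map, ← coeff_map,
    PowerSeries.map_subst (PowerSeries.HasSubst.of_constantCoeff_zero F.zero_constantCoeff),
    MvPowerSeries.map_subst (Ideals.has_two (cc_psubst (by simp) h0) (cc_psubst (by simp) h0)),
    comp2, PowerSeries.map_subst (PowerSeries.HasSubst.X _),
    PowerSeries.map_subst (PowerSeries.HasSubst.X _), map_X, map_X]
  exact congrArg _ (h k).2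

/-- Points with values in an ideal of square zero add like ring elements. -/
theorem add_val_ker [Adic B] {τ : Type} [Finite τ] {π : B →+* A}
    (h : ∀ x y, π x = 0 → π y = 0 → x * y = 0) {G : FormalGroup B}
    {x y : Pt G (C : B →+* MvPowerSeries τ B)} (hx : MvPowerSeries.map π x.val = 0)
    (hy : MvPowerSeries.map π y.val = 0) : (x + y).val = x.val + y.val := by
  obtain ⟨r, hr⟩ := Pt.exists_add_val x y
  rw [hr, mul_eq_zero_of h hx hy, zero_mul, add_zero]

/-- Correcting an approximate homomorphism. -/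
theorem correct {p n : ℕ} [Fact p.Prime] (hn : 0 < n) (F G : FormalGroup B) [F.IsComm] [G.IsComm]
    (π : B →+* A) (ρ : B →+* D) (hm : ∀ x y, π x = 0 → ρ y = 0 → x * y = 0)
    (hle : ∀ x, π x = 0 → ρ x = 0)
    (hF : PowerSeries.map ρ (mulSeries F p - PowerSeries.X ^ p ^ n) = 0)
    (hG : PowerSeries.map ρ (mulSeries G p - PowerSeries.X ^ p ^ n) = 0)
    (γ : PowerSeries B) (h0 : PowerSeries.constantCoeff γ = 0)
    (h : IsHom (F.map π) (G.map π) (PowerSeries.map π γ))
    (hH : ∀ j, 1 ≤ j → j < n → PowerSeries.coeff (p ^ j)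
      (γ.subst (mulSeries F p) - (mulSeries G p).subst γ : PowerSeries B) = 0) :
    ∃ γ', PowerSeries.map π γ' = PowerSeries.map π γ ∧ IsHom F G γ' := by
  let _ := Adic.discrete B
  let _ := Adic.discrete A
  let _ := Adic.discrete D
  have hm' : ∀ x y, π x = 0 → π y = 0 → x * y = 0 := fun x y hx hy => hm x y hx (hle y hy)
  obtain ⟨E, E0, hE⟩ := exists_defect F G γ h0
  have e01 : ∀ (T : Type) [CommRing T], ![(X 0 : MvPowerSeries (Fin 2) T), X 1] = X := fun T _ => by
    funext i; fin_cases i <;> rfl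
  have hE0 : MvPowerSeries.map π E = 0 := by
    let u : Fin 2 → Pt F ((C : A →+* MvPowerSeries (Fin 2) A).comp π) := fun i => ⟨X i, X_mem_rad i⟩
    have h1 := hE _ _ (u 0) (u 1)
    have h2 : Pt.app G (C.comp π) (C.comp π) γ h0 (u 0 + u 1) =
        Pt.app G (C.comp π) (C.comp π) γ h0 (u 0) + Pt.app G (C.comp π) (C.comp π) γ h0 (u 1) := by
      refine Pt.ext ?_
      have h3 := h.ev C (u 0).mem (u 1).mem
      rw [FormalGroup.map_toPowerSeries, FormalGroup.map_toPowerSeries,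
        ev_map _ _ (rad2 (u 0).mem (u 1).mem), ev1_map _ _ (u 0).mem, ev1_map _ _ (u 1).mem,
        ev_map _ _ (rad2 (ev1_mem_rad _ (u 0).mem h0) (ev1_mem_rad _ (u 1).mem h0)),
        ← Pt.add_val, ev1_map _ _ (u 0 + u 1).mem] at h3
      exact h3
    rw [h2, add_sub_cancel_left, sub_self] at h1
    change ev _ ![X 0, X 1] E = 0 at h1
    rwa [e01, ev_map_X] at h1
  have hd : ∀ {τ : Type} [Finite τ] (x y : Pt F (C : B →+* MvPowerSeries τ B)),
      MvPowerSeries.map π (Pt.app G C C γ h0 (x + y) - Pt.app G C C γ h0 x -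
        Pt.app G C C γ h0 y).val = 0 := fun x y => by
    rw [← hE]
    exact map_ev_zero π (rad_discrete π) (rad2 x.mem y.mem) hE0
  have hc : IsCocycle F E := by
    refine isCocycle_of_pt E0 (fun x y => ?_) fun x y z => ?_
    · rw [hE, hE, add_comm x y, sub_right_comm]
    · rw [hE, hE, hE, hE, ← add_val_ker hm' (hd _ _) (hd _ _), ← add_val_ker hm' (hd _ _) (hd _ _),
        add_assoc x y z]
      refine congrArg Pt.val ?_
      abel
  let u : Pt F (C : B →+* MvPowerSeries Unit B) := Pt.univ F ()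
  have hz : Pt.app G C C γ h0 (0 : Pt F (C : B →+* MvPowerSeries Unit B)) = 0 :=
    Pt.ext (by simp [ev1_zero, h0])
  have hs : ∀ m : ℕ, ∑ i ∈ range m, ev C ![(i • u).val, u.val] E =
      (Pt.app G C C γ h0 (m • u) - m • Pt.app G C C γ h0 u).val ∧
      MvPowerSeries.map π (Pt.app G C C γ h0 (m • u) - m • Pt.app G C C γ h0 u).val = 0 := by
    intro m
    induction m with
    | zero => simp [hz]
    | succ m ih =>
      have e : Pt.app G C C γ h0 ((m + 1) • u) - (m + 1) • Pt.app G C C γ h0 u =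
          (Pt.app G C C γ h0 (m • u) - m • Pt.app G C C γ h0 u) +
          (Pt.app G C C γ h0 (m • u + u) - Pt.app G C C γ h0 (m • u) - Pt.app G C C γ h0 u) := by
        rw [succ_nsmul, succ_nsmul]; abel
      rw [sum_range_succ, ih.1, hE, e, add_val_ker hm' ih.2 (hd _ _), map_add, ih.2, hd, add_zero]
      exact ⟨rfl, rfl⟩
  have hp : ∀ j, 1 ≤ j → j < n → PowerSeries.coeff (p ^ j) (pSum F p E) = 0 := by
    intro j h1 h2
    have h3 := ev_pSum p E C u
    rw [(hs p).1] at h3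
    have h4 : ev1 C u.val (pSum F p E) = pSum F p E := ev1_C_X _
    rw [h4] at h3
    obtain ⟨r, -, hr⟩ := Pt.exists_sub_val (Pt.app G C C γ h0 (p • u)) (p • Pt.app G C C γ h0 u)
    have h5 := (hs p).2
    rw [← h3] at hr h5
    have h6 : (Pt.app G C C γ h0 u).val = γ := ev1_C_X _
    have h7 : (p • u).val = mulSeries F p := (Pt.nsmul_val p u).trans (ev1_C_X _)
    have hγ : γ ∈ rad (MvPowerSeries Unit B) := mem_rad_of_constantCoeff_zero h0
    rw [Pt.app_val, Pt.nsmul_val p (Pt.app G C C γ h0 u), h6, h7] at hr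
    have h8 := mul_eq_zero_of hm h5 (map_ev_zero ρ (rad_discrete ρ) (a := fun _ : Unit => γ)
      (fun _ => hγ) hG)
    rw [← ev1_def, map_sub, map_pow, ev1_X _ hγ] at h8
    have h9 := hH j h1 h2
    rw [psubst_eq_ev1 (Ideals.cc_mul F p), psubst_eq_ev1 h0, hr] at h9
    obtain ⟨γ₁, hγ₁⟩ := PowerSeries.X_dvd_iff.2 h0
    have e : pSum F p E * (1 + ev1 C γ (mulSeries G p) * r) =
        pSum F p E + PowerSeries.X ^ p ^ n * (γ₁ ^ p ^ n * pSum F p E * r) := by
      have : γ ^ p ^ n = PowerSeries.X ^ p ^ n * γ₁ ^ p ^ n := by rw [← mul_pow, ← hγ₁]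
      linear_combination r * h8 + pSum F p E * r * this
    rw [e, map_add, PowerSeries.coeff_X_pow_mul', if_neg, add_zero] at h9
    · exact h9
    · exact not_le.2 (Nat.pow_lt_pow_right (Fact.out : p.Prime).one_lt h2)
  obtain ⟨b, b0, hb, hEb⟩ := cocycle_eq_cobound hn F (RingHom.ker π)
    (fun x hx i => hm _ _ hx (pmap_eq_zero.1 hF i)) E hc (fun d => map_eq_zero.1 hE0 d) hp
  have b1 : PowerSeries.constantCoeff (-b) = 0 := by rw [map_neg, b0, neg_zero]
  have hb' : PowerSeries.map π (-b) = 0 := by rw [map_neg, pmap_eq_zero.2 hb, neg_zero]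
  have hb2 : ∀ {τ : Type} [Finite τ] (x : Pt F (C : B →+* MvPowerSeries τ B)),
      MvPowerSeries.map π (Pt.app G C C (-b) b1 x).val = 0 := fun x =>
    map_ev_zero π (rad_discrete π) (a := fun _ : Unit => x.val) (fun _ => x.mem) hb'
  refine ⟨G.toPowerSeries.subst ![γ, -b], ?_, isHom_of_pt (cc_subst2 h0 b1 G)
    (AddMonoidHom.mk' (fun x => Pt.app G C C γ h0 x + Pt.app G C C (-b) b1 x) fun x y => ?_)
    fun x => (ev1_subst2 _ x.mem h0 b1 _).symm⟩
  · obtain ⟨r, hr⟩ := Pt.exists_add_val (F := G) (φ := (C : B →+* MvPowerSeries Unit B))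
      ⟨γ, mem_rad_of_constantCoeff_zero h0⟩ ⟨-b, mem_rad_of_constantCoeff_zero b1⟩
    rw [subst_eq_ev (cc2 h0 b1)]
    refine (congrArg (PowerSeries.map π) hr).trans ?_
    simp only [map_add, map_mul, hb', mul_zero, zero_mul, add_zero]
  · have h1 : (Pt.app G C C γ h0 (x + y) - Pt.app G C C γ h0 x - Pt.app G C C γ h0 y) +
        Pt.app G C C (-b) b1 (x + y) = Pt.app G C C (-b) b1 x + Pt.app G C C (-b) b1 y := by
      refine Pt.ext ?_
      rw [add_val_ker hm' (hd _ _) (hb2 _), add_val_ker hm' (hb2 _) (hb2 _), ← hE, hEb, ev_cobound]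
      simp only [Pt.app_val, map_neg]
      ring
    rw [add_add_add_comm, ← h1]
    abel

end general

section LT
variable {A B D : Type} [CommRing A] [CommRing B] [CommRing D]
variable {p n : ℕ} [Fact p.Prime] {F : FormalGroup (LTRing p n)}

/-- Changing one coordinate of the deformation. -/
theorem adjust_one (hF : IsLubinTate p n F) (π : B →+* A) (ρ : B →+* D)
    (hm : ∀ x y, π x = 0 → ρ y = 0 → x * y = 0) (hle : ∀ x, π x = 0 → ρ x = 0)
    (hnil : ∀ x, ρ x = 0 → IsNilpotent x) (z : LTRing p n →+* B)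
    (hz : ∀ x ∈ heightIdeal p n n, ρ (z x) = 0) (γ : PowerSeries B)
    (h0 : PowerSeries.constantCoeff γ = 0) (hu : IsUnit (PowerSeries.coeff 1 γ))
    (j : Fin (n - 1)) (c : B) (hc : π c = 0) :
    ∃ z' : LTRing p n →+* B, (∀ w, z' (C w) = z (C w)) ∧ π.comp z' = π.comp z ∧
      ∃ r : PowerSeries B, (PowerSeries.map z' (mulSeries F p)).subst γ =
        (PowerSeries.map z (mulSeries F p)).subst γ + PowerSeries.X ^ p ^ (j.val + 1) * r ∧
        PowerSeries.constantCoeff r = c := by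
  classical
  let _ := Adic.discrete B
  obtain ⟨v, hv⟩ := hu.pow (p ^ (j.val + 1))
  set δ : B := ↑v⁻¹ * c with hδ
  have hδ0 : π δ = 0 := by rw [hδ, map_mul, hc, mul_zero]
  have hr : ∀ x, ρ x = 0 → x ∈ rad B := fun x hx => by
    obtain ⟨N, hN⟩ := hnil x hx
    exact ⟨N, hN⟩
  have ha : ∀ i, z (X i) ∈ rad B := fun i => hr _ (hz _ (X_mem_top i))
  have hb : ∀ i, z (X i) + (if i = j then δ else 0) ∈ rad B := fun i =>
    add_mem (ha i) (by split_ifs; exacts [hr _ (hle _ hδ0), zero_mem _])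
  set z' := ev (z.comp C) fun i => z (X i) + (if i = j then δ else 0) with hz'
  have h1 : ∀ x, π (z' x - z x) = 0 := fun x => by
    have := ev_congr (z.comp C) ha hb (𝔠 := RingHom.ker π) (fun i => by
      rw [add_sub_cancel_left]
      split_ifs
      exacts [hδ0, zero_mem _]) x
    rwa [← eq_ev ha z (fun _ => rfl) fun _ => rfl] at this
  have h2 : ∀ x ∈ heightIdeal p n (j.val + 1), z' x = z x := by
    let J : Ideal (LTRing p n) :=
      { carrier := {x | ρ (z x) = 0 ∧ z' x = z x}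
        add_mem' := fun {a b} ha hb => ⟨by rw [map_add, map_add, ha.1, hb.1, add_zero],
          by rw [map_add, map_add, ha.2, hb.2]⟩
        zero_mem' := ⟨by simp, by simp⟩
        smul_mem' := fun a x hx => ⟨by rw [smul_eq_mul, map_mul, map_mul, hx.1, mul_zero], by
          have := hm _ _ (h1 a) hx.1
          rw [smul_eq_mul, map_mul, map_mul, hx.2]
          linear_combination this⟩ }
    have : heightIdeal p n (j.val + 1) ≤ J := by
      refine heightIdeal_le_of ⟨hz _ (p_mem_heightIdeal (by have := j.2; omega)), by simp⟩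
        fun i hi => ⟨hz _ (X_mem_top i), ?_⟩
      rw [hz', ev_X _ hb, if_neg (fun h => by subst h; omega), add_zero]
    exact fun x hx => (this hx).2
  have h3 : PowerSeries.X ^ p ^ (j.val + 1) * PowerSeries.X ∣ PowerSeries.map z' (mulSeries F p) -
      PowerSeries.map z (mulSeries F p) - PowerSeries.C δ * PowerSeries.X ^ p ^ (j.val + 1) := by
    rw [← pow_succ]
    refine PowerSeries.X_pow_dvd_iff.2 fun m hm => ?_
    have h4 := h2 _ (hF.2.2 j m (by omega))
    simp only [map_sub, PowerSeries.coeff_C_mul, map_mul, PowerSeries.coeff_X_pow] at h4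
    rw [hz', ev_X _ hb, if_pos rfl, ← hz'] at h4
    simp only [map_sub, PowerSeries.coeff_C_mul, PowerSeries.coeff_map, PowerSeries.coeff_X_pow]
    split_ifs at h4 ⊢
    · simp only [map_one] at h4
      linear_combination h4
    · simp only [map_zero] at h4
      linear_combination h4
  obtain ⟨s, hs⟩ := h3
  obtain ⟨γ₁, hγ₁⟩ := PowerSeries.X_dvd_iff.2 h0
  have hγ : γ ∈ rad (PowerSeries B) := mem_rad_of_constantCoeff_zero h0
  have h5 := congrArg (ev1 PowerSeries.C γ) hs
  simp only [map_sub, map_mul, map_pow, ev1_C, ev1_X _ hγ] at h5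
  have h6 : PowerSeries.coeff 1 γ = PowerSeries.constantCoeff γ₁ := by
    rw [hγ₁, PowerSeries.coeff_succ_X_mul, PowerSeries.coeff_zero_eq_constantCoeff_apply]
  refine ⟨z', fun w => ev_C _ _ _, RingHom.ext fun x => ?_,
    γ₁ ^ p ^ (j.val + 1) * (PowerSeries.C δ + γ * ev1 PowerSeries.C γ s), ?_, ?_⟩
  · have := h1 x
    rwa [map_sub, sub_eq_zero] at this
  · rw [psubst_eq_ev1' h0, psubst_eq_ev1' h0, ← mul_assoc, ← mul_pow, ← hγ₁]
    linear_combination h5
  · rw [map_mul, map_add, PowerSeries.constantCoeff_C, map_mul _ γ, h0, zero_mul, add_zero,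
      map_pow, ← h6, ← hv, hδ, Units.mul_inv_cancel_left]

theorem adjust (hF : IsLubinTate p n F) (π : B →+* A) (ρ : B →+* D)
    (hm : ∀ x y, π x = 0 → ρ y = 0 → x * y = 0) (hle : ∀ x, π x = 0 → ρ x = 0)
    (hnil : ∀ x, ρ x = 0 → IsNilpotent x) (z : LTRing p n →+* B)
    (hz : ∀ x ∈ heightIdeal p n n, ρ (z x) = 0) (γ : PowerSeries B)
    (h0 : PowerSeries.constantCoeff γ = 0) (hu : IsUnit (PowerSeries.coeff 1 γ))
    (H : PowerSeries B)
    (hH : PowerSeries.map π (H - (PowerSeries.map z (mulSeries F p)).subst γ) = 0)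
    (k : ℕ) (hk : k ≤ n - 1) :
    ∃ z' : LTRing p n →+* B, (∀ w, z' (C w) = z (C w)) ∧ π.comp z' = π.comp z ∧
      ∀ j, 1 ≤ j → j ≤ k → PowerSeries.coeff (p ^ j)
        (H - (PowerSeries.map z' (mulSeries F p)).subst γ : PowerSeries B) = 0 := by
  induction k with
  | zero => exact ⟨z, fun _ => rfl, rfl, fun j h1 h2 => by omega⟩
  | succ k ih =>
    obtain ⟨z₁, c1, e1, h1⟩ := ih (by omega)
    have hz₁ : ∀ x ∈ heightIdeal p n n, ρ (z₁ x) = 0 := fun x hx => by
      have := hle (z₁ x - z x) (by rw [map_sub, sub_eq_zero]; exact DFunLike.congr_fun e1 x)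
      rwa [map_sub, hz x hx, sub_zero] at this
    have hH₁ : PowerSeries.map π (H - (PowerSeries.map z₁ (mulSeries F p)).subst γ) = 0 := by
      have e : ∀ y : LTRing p n →+* B, PowerSeries.map π (PowerSeries.map y (mulSeries F p)) =
          PowerSeries.map (π.comp y) (mulSeries F p) := fun y => by rw [PowerSeries.map_comp]; rfl
      rw [map_sub, pmap_subst π h0, e] at hH ⊢
      rw [e1, hH]
    obtain ⟨z₂, c2, e2, r, hr, hr0⟩ := adjust_one hF π ρ hm hle hnil z₁ hz₁ γ h0 hu ⟨k, hk⟩ _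
      (pmap_eq_zero.1 hH₁ (p ^ (k + 1)))
    refine ⟨z₂, fun w => (c2 w).trans (c1 w), e2.trans e1, fun j hj hj' => ?_⟩
    rw [hr, ← sub_sub, map_sub, PowerSeries.coeff_X_pow_mul']
    rcases hj'.lt_or_eq with h | rfl
    · rw [if_neg (not_le.2 (Nat.pow_lt_pow_right (Fact.out : p.Prime).one_lt h)), sub_zero]
      exact h1 j hj (by omega)
    · rw [if_pos le_rfl, Nat.sub_self, PowerSeries.coeff_zero_eq_constantCoeff_apply, hr0, sub_self]

theorem step (hn : 0 < n) (hF : IsLubinTate p n F) (π : B →+* A) (ρ : B →+* D)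
    (hm : ∀ x y, π x = 0 → ρ y = 0 → x * y = 0) (hle : ∀ x, π x = 0 → ρ x = 0)
    (hnil : ∀ x, ρ x = 0 → IsNilpotent x) (z₀ z : LTRing p n →+* B)
    (hz₀ : ∀ x ∈ heightIdeal p n n, ρ (z₀ x) = 0)
    (hz : ∀ x ∈ heightIdeal p n n, ρ (z x) = 0) (γ : PowerSeries B)
    (h0 : PowerSeries.constantCoeff γ = 0) (hu : IsUnit (PowerSeries.coeff 1 γ))
    (h : IsHom (F.map (π.comp z₀)) (F.map (π.comp z)) (PowerSeries.map π γ)) :
    ∃ (z' : LTRing p n →+* B) (γ' : PowerSeries B), (∀ w, z' (C w) = z (C w)) ∧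
      π.comp z' = π.comp z ∧ PowerSeries.map π γ' = PowerSeries.map π γ ∧
      IsHom (F.map z₀) (F.map z') γ' := by
  have := hF.1
  obtain ⟨z', c1, e1, h1⟩ := adjust hF π ρ hm hle hnil z hz γ h0 hu
    (γ.subst (mulSeries (F.map z₀) p)) (by
      have h2 := Ideals.hom_mul h p
      rw [← fg_map_map, ← fg_map_map, Ideals.map_mul_series _ π, Ideals.map_mul_series _ π,
        Ideals.map_mul_series _ z] at h2
      rw [map_sub, pmap_subst π h0, pmap_subst π (Ideals.cc_mul _ p), h2, sub_self]) _ le_rfl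
  have hz' : ∀ x ∈ heightIdeal p n n, ρ (z' x) = 0 := fun x hx => by
    have := hle (z' x - z x) (by rw [map_sub, sub_eq_zero]; exact DFunLike.congr_fun e1 x)
    rwa [map_sub, hz x hx, sub_zero] at this
  have hP : ∀ y : LTRing p n →+* B, (∀ x ∈ heightIdeal p n n, ρ (y x) = 0) →
      PowerSeries.map ρ (mulSeries (F.map y) p - PowerSeries.X ^ p ^ n) = 0 := fun y hy => by
    rw [Ideals.map_mul_series, ← PowerSeries.map_X y, ← map_pow, ← map_sub]
    exact pmap_eq_zero.2 fun i => by rw [PowerSeries.coeff_map]; exact hy _ (hF.2.1 i)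
  obtain ⟨γ', h2, h3⟩ := correct hn (F.map z₀) (F.map z') π ρ hm hle (hP _ hz₀) (hP _ hz') γ h0
    (by rw [fg_map_map, fg_map_map, e1]; exact h) fun j hj hj' => by
      rw [Ideals.map_mul_series _ z']; exact h1 j hj (by omega)
  exact ⟨z', γ', c1, e1, h2, h3⟩

/-- The data at level `k`. -/
structure St (F : FormalGroup (LTRing p n)) (g : PowerSeries (GaloisField p n)) (k : ℕ)
    (s : (LTRing p n →+* LTRing p n) × PowerSeries (LTRing p n)) : Prop where
  const : ∀ w, s.1 (C w) = C w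
  loc : ∀ x ∈ heightIdeal p n n, s.1 x ∈ heightIdeal p n n
  zero : PowerSeries.constantCoeff s.2 = 0
  red : PowerSeries.map (res p n) s.2 = g
  hom : IsHom (F.map (Ideal.Quotient.mk (heightIdeal p n n ^ (k + 1))))
    (F.map ((Ideal.Quotient.mk (heightIdeal p n n ^ (k + 1))).comp s.1))
    (PowerSeries.map (Ideal.Quotient.mk (heightIdeal p n n ^ (k + 1))) s.2)

theorem St.next (hn : 0 < n) (hF : IsLubinTate p n F) {g : PowerSeries (GaloisField p n)}
    (hu : IsUnit (PowerSeries.coeff 1 g)) (k : ℕ)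
    (s : (LTRing p n →+* LTRing p n) × PowerSeries (LTRing p n)) (hs : St F g k s) :
    ∃ t, St F g (k + 1) t ∧ (∀ x, t.1 x - s.1 x ∈ heightIdeal p n n ^ (k + 1)) ∧
      ∀ i, PowerSeries.coeff i t.2 - PowerSeries.coeff i s.2 ∈ heightIdeal p n n ^ (k + 1) := by
  set m := heightIdeal p n n with hmdef
  let mk := Ideal.Quotient.mk (m ^ (k + 1 + 1))
  let π := Ideal.Quotient.factor (Ideal.pow_le_pow_right (I := m) (Nat.le_succ (k + 1)))
  let ρ := Ideal.Quotient.factor (Ideal.pow_le_self (I := m) (Nat.succ_ne_zero (k + 1)))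
  have hπ : π.comp mk = Ideal.Quotient.mk (m ^ (k + 1)) := Ideal.Quotient.factor_comp_mk _
  have hπ' : ∀ x, π (mk x) = 0 ↔ x ∈ m ^ (k + 1) := fun x => Ideal.Quotient.eq_zero_iff_mem
  have hρ' : ∀ x, ρ (mk x) = 0 ↔ x ∈ m := fun x => Ideal.Quotient.eq_zero_iff_mem
  have hu' : IsUnit (PowerSeries.coeff 1 s.2) := by
    by_contra hc
    have h1 : PowerSeries.coeff 1 s.2 ∈ m := by
      rw [hmdef, heightIdeal_top p n hn]; exact hc
    rw [← hs.red, PowerSeries.coeff_map, (mem_top_iff p n hn).1 h1] at hu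
    exact not_isUnit_zero hu
  have hnil : ∀ x, ρ x = 0 → IsNilpotent x := fun x hx => by
    obtain ⟨x, rfl⟩ := Ideal.Quotient.mk_surjective x
    exact ⟨k + 1 + 1, by
      rw [← map_pow, Ideal.Quotient.eq_zero_iff_mem]
      exact Ideal.pow_mem_pow ((hρ' x).1 hx) _⟩
  have hle : ∀ x, π x = 0 → ρ x = 0 := fun x hx => by
    obtain ⟨x, rfl⟩ := Ideal.Quotient.mk_surjective x
    exact (hρ' x).2 (Ideal.pow_le_self (Nat.succ_ne_zero k) ((hπ' x).1 hx))
  obtain ⟨z', γ', c1, e1, h2, h3⟩ := step hn hF π ρ (fun x y hx hy => by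
      obtain ⟨x, rfl⟩ := Ideal.Quotient.mk_surjective x
      obtain ⟨y, rfl⟩ := Ideal.Quotient.mk_surjective y
      rw [← map_mul, Ideal.Quotient.eq_zero_iff_mem, pow_succ]
      exact Ideal.mul_mem_mul ((hπ' x).1 hx) ((hρ' y).1 hy)) hle hnil mk (mk.comp s.1)
    (fun x hx => (hρ' x).2 hx) (fun x hx => (hρ' _).2 (hs.loc x hx)) (PowerSeries.map mk s.2)
    (by rw [cc_pmap, hs.zero, map_zero]) (by rw [PowerSeries.coeff_map]; exact hu'.map _) (by
      rw [← RingHom.comp_assoc, hπ, ← RingHom.comp_apply, ← PowerSeries.map_comp, hπ]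
      exact hs.hom)
  choose lf hlf using (Ideal.Quotient.mk_surjective : Function.Surjective mk)
  have e2 : ∀ x, π (z' x) = π (mk (s.1 x)) := DFunLike.congr_fun e1
  have hsub : ∀ x y, π x = π (mk y) → lf x - y ∈ m ^ (k + 1) := fun x y h => by
    rw [← hπ', map_sub, map_sub, hlf, h, sub_self]
  have hX : ∀ j, lf (z' (X j)) ∈ m := fun j => by
    simpa using add_mem (Ideal.pow_le_self (Nat.succ_ne_zero k) (hsub _ _ (e2 (X j))))
      (hs.loc _ (X_mem_top j))
  have hX' : ∀ j, lf (z' (X j)) ∈ rad (LTRing p n) := fun j =>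
    I_le_rad (by rw [I_LT p n hn]; exact hX j)
  set φ := ev C fun j => lf (z' (X j)) with hφ
  have e3 : mk.comp φ = z' := by
    let _ := Adic.discrete (LTRing p n ⧸ m ^ (k + 1 + 1))
    refine hom_ext (fun j => ?_) (fun w => ?_) fun j => ?_
    · rw [RingHom.comp_apply, hφ, ev_X _ hX']
      exact hnil _ ((hρ' _).2 (hX j))
    · rw [RingHom.comp_apply, hφ, ev_C, c1, RingHom.comp_apply, hs.const]
    · rw [RingHom.comp_apply, hφ, ev_X _ hX', hlf]
  have e4 : ∀ x, φ x - s.1 x ∈ m ^ (k + 1) := fun x => by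
    rw [← hπ', map_sub, map_sub, ← e2, ← e3, RingHom.comp_apply, sub_self]
  let γ : PowerSeries (LTRing p n) :=
    PowerSeries.mk fun i => if i = 0 then 0 else lf (PowerSeries.coeff i γ')
  have e5 : PowerSeries.map mk γ = γ' := by
    ext i
    rw [PowerSeries.coeff_map, PowerSeries.coeff_mk]
    split_ifs with h
    · rw [h, map_zero, PowerSeries.coeff_zero_eq_constantCoeff_apply, h3.1]
    · exact hlf _
  have e6 : ∀ i, PowerSeries.coeff i γ - PowerSeries.coeff i s.2 ∈ m ^ (k + 1) := fun i => by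
    have := congrArg (PowerSeries.coeff i) h2
    rw [← e5] at this
    simp only [PowerSeries.coeff_map] at this
    rw [← hπ', map_sub, map_sub, this, sub_self]
  refine ⟨(φ, γ), ⟨fun w => ev_C _ _ _, fun x hx => ?_, ?_, ?_, ?_⟩, e4, e6⟩
  · simpa using add_mem (Ideal.pow_le_self (Nat.succ_ne_zero k) (e4 x)) (hs.loc x hx)
  · change PowerSeries.constantCoeff γ = 0
    rw [← PowerSeries.coeff_zero_eq_constantCoeff_apply, PowerSeries.coeff_mk, if_pos rfl]
  · rw [← hs.red]
    ext i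
    rw [PowerSeries.coeff_map, PowerSeries.coeff_map, ← sub_eq_zero, ← map_sub]
    exact (mem_top_iff p n hn).1 (Ideal.pow_le_self (Nat.succ_ne_zero k) (e6 i))
  · change IsHom (F.map mk) (F.map (mk.comp φ)) (PowerSeries.map mk γ)
    rw [e3, e5]
    exact h3

end LT

end Exist

variable {p n : ℕ} [Fact p.Prime] {F : FormalGroup (LTRing p n)}

open Exist in
theorem exists_lift_aut (hn : 0 < n) (hF : IsLubinTate p n F) (g : PowerSeries (GaloisField p n))
    (hg : IsHom (F.map (res p n)) (F.map (res p n)) g) (hu : IsUnit (PowerSeries.coeff 1 g)) :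
    ∃ (φ : LTRing p n →+* LTRing p n) (g' : PowerSeries (LTRing p n)), (∀ w, φ (C w) = C w) ∧
      (∀ x ∈ heightIdeal p n n, φ x ∈ heightIdeal p n n) ∧ IsHom F (F.map φ) g' ∧
      PowerSeries.map (res p n) g' = g := by
  obtain ⟨g₀, g0, g1⟩ := exists_lift_series p n g hg.1
  have base : St F g 0 (RingHom.id _, g₀) := by
    refine ⟨fun _ => rfl, fun _ h => h, g0, g1, ?_⟩
    have hk : ∀ x, x ∈ heightIdeal p n n ^ (0 + 1) ↔ res p n x = 0 := fun x => by
      rw [zero_add, pow_one, mem_top_iff p n hn]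
    let l := Ideal.Quotient.lift _ (res p n) fun x hx => (hk x).1 hx
    have hl : l.comp (Ideal.Quotient.mk _) = res p n := Ideal.Quotient.lift_comp_mk _ _ _
    refine isHom_of_map_injective (φ := l) ((injective_iff_map_eq_zero _).2 fun x hx => ?_) ?_
    · obtain ⟨x, rfl⟩ := Ideal.Quotient.mk_surjective x
      exact Ideal.Quotient.eq_zero_iff_mem.2 ((hk x).2 hx)
    · rw [RingHom.comp_id, fg_map_map, hl, ← RingHom.comp_apply, ← PowerSeries.map_comp, hl, g1]
      exact hg
  obtain ⟨f, hf⟩ := exists_seq (St F g) _ _ base (St.next hn hF hu)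
  have lim : ∀ a : ℕ → LTRing p n, (∀ k, a (k + 1) - a k ∈ heightIdeal p n n ^ (k + 1)) →
      ∃ L, ∀ k, L - a k ∈ heightIdeal p n n ^ (k + 1) := fun a ha => by
    rw [← I_LT p n hn] at ha ⊢
    obtain ⟨L, hL⟩ := Adic.prec a fun k => Ideal.pow_le_pow_right (Nat.le_succ k) (ha k)
    exact ⟨L, fun k => by simpa using add_mem (hL (k + 1)) (ha k)⟩
  choose u hu' using fun j => lim (fun k => (f k).1 (X j)) fun k => (hf k).2.1 _
  choose c hc using fun i => lim (fun k => PowerSeries.coeff i (f k).2) fun k => (hf k).2.2 i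
  have hr : ∀ x ∈ heightIdeal p n n, x ∈ rad (LTRing p n) := fun x hx =>
    I_le_rad (by rw [I_LT p n hn]; exact hx)
  have h1 : ∀ k j, (f k).1 (X j) ∈ rad (LTRing p n) := fun k j =>
    hr _ ((hf k).1.loc _ (X_mem_top j))
  have h2 : ∀ j, u j ∈ rad (LTRing p n) := fun j => by
    simpa using add_mem (hr _ (Ideal.pow_le_self one_ne_zero (hu' j 0))) (h1 0 j)
  have h3 : ∀ k x, ev C u x - (f k).1 x ∈ heightIdeal p n n ^ (k + 1) := fun k x => by
    have := ev_congr C (h1 k) h2 (fun j => hu' j k) x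
    rwa [← eq_ev (h1 k) (f k).1 (hf k).1.const fun _ => rfl] at this
  have h4 : PowerSeries.constantCoeff (PowerSeries.mk c) = 0 := by
    rw [← PowerSeries.coeff_zero_eq_constantCoeff_apply, PowerSeries.coeff_mk]
    refine Adic.haus _ fun k => Ideal.pow_le_pow_right (Nat.le_succ k) ?_
    have := hc 0 k
    rwa [PowerSeries.coeff_zero_eq_constantCoeff_apply, (hf k).1.zero, sub_zero,
      ← I_LT p n hn] at this
  refine ⟨ev C u, PowerSeries.mk c, fun w => ev_C _ _ _, fun x hx => ?_,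
    isHom_of_forall_mod h4 fun k => ?_, ?_⟩
  · simpa using add_mem (Ideal.pow_le_self one_ne_zero (h3 0 x)) ((hf 0).1.loc x hx)
  · rw [I_LT p n hn, fg_map_map]
    have e1 : (Ideal.Quotient.mk (heightIdeal p n n ^ (k + 1))).comp (ev C u) =
        (Ideal.Quotient.mk (heightIdeal p n n ^ (k + 1))).comp (f k).1 :=
      RingHom.ext fun x => Ideal.Quotient.eq.2 (h3 k x)
    have e2 : PowerSeries.map (Ideal.Quotient.mk (heightIdeal p n n ^ (k + 1))) (PowerSeries.mk c) =
        PowerSeries.map (Ideal.Quotient.mk (heightIdeal p n n ^ (k + 1))) (f k).2 := by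
      ext i
      rw [PowerSeries.coeff_map, PowerSeries.coeff_map, PowerSeries.coeff_mk]
      exact Ideal.Quotient.eq.2 (hc i k)
    rw [e1, e2]
    exact (hf k).1.hom
  · rw [← (hf 0).1.red]
    ext i
    rw [PowerSeries.coeff_map, PowerSeries.coeff_map, ← sub_eq_zero, ← map_sub, PowerSeries.coeff_mk]
    exact (mem_top_iff p n hn).1 (Ideal.pow_le_self one_ne_zero (hc i 0))

end Vale.Agent.P217
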