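import Vale.Agent.P217.Setup

namespace Vale.Agent.P217

open Finset MvPowerSeries

namespace Uniq

variable {B : Type} [CommRing B]

/-- Series with all coefficients in an ideal. -/
noncomputable def cI (K : Ideal B) : Ideal (PowerSeries B) :=
  RingHom.ker (PowerSeries.map (Ideal.Quotient.mk K))

theorem mem_cI {K : Ideal B} {f : PowerSeries B} :
    f ∈ cI K ↔ ∀ i, PowerSeries.coeff i f ∈ K := by
  rw [cI, RingHom.mem_ker, PowerSeries.ext_iff]
  simp only [PowerSeries.coeff_map, map_zero, Ideal.Quotient.eq_zero_iff_mem]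

theorem cI_mul {K L : Ideal B} {f g : PowerSeries B} (hf : f ∈ cI K) (hg : g ∈ cI L) :
    f * g ∈ cI (K * L) :=
  mem_cI.2 (PowerSeries.coeff_mul_mem_ideal_mul_ideal_of_coeff_mem_ideal' (mem_cI.1 hf)
    (mem_cI.1 hg))

theorem cI_pow {K : Ideal B} {f : PowerSeries B} (hf : f ∈ cI K) (d : ℕ) : f ^ d ∈ cI (K ^ d) := by
  induction d with
  | zero => exact mem_cI.2 fun i => by simp
  | succ d ih => rw [pow_succ, pow_succ]; exact cI_mul ih hf

theorem cI_mono {K L : Ideal B} (h : K ≤ L) {f : PowerSeries B} (hf : f ∈ cI K) : f ∈ cI L :=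
  mem_cI.2 fun i => h (mem_cI.1 hf i)

theorem cI_bot {f : PowerSeries B} (hf : f ∈ cI (⊥ : Ideal B)) : f = 0 := by
  ext i
  exact mem_cI.1 hf i

theorem subst_congr {K L : Ideal B} (hKL : K * L = ⊥) {b a a' : PowerSeries B} (hb : b ∈ cI K)
    (ha : PowerSeries.constantCoeff a = 0) (ha' : PowerSeries.constantCoeff a' = 0)
    (h : a - a' ∈ cI L) : b.subst a = b.subst a' := by
  ext e
  rw [PowerSeries.coeff_subst' (PowerSeries.HasSubst.of_constantCoeff_zero' ha),
    PowerSeries.coeff_subst' (PowerSeries.HasSubst.of_constantCoeff_zero' ha')]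
  refine finsum_congr fun d => ?_
  have h1 : a ^ d - a' ^ d ∈ cI L := Ideal.mem_of_dvd _ (sub_dvd_pow_sub_pow _ _ d) h
  have h2 := Ideal.mul_mem_mul (mem_cI.1 hb d) (mem_cI.1 h1 e)
  rw [hKL, Ideal.mem_bot, map_sub, mul_sub, sub_eq_zero] at h2
  exact h2

theorem subst_mem {K L : Ideal B} {P w : PowerSeries B} (hw0 : PowerSeries.constantCoeff w = 0)
    (hw : w ∈ cI K) (hs : ∀ i, ∀ x ∈ K ^ i, PowerSeries.coeff i P * x ∈ L) :
    (P.subst w : PowerSeries B) ∈ cI L := by
  refine mem_cI.2 fun e => ?_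
  rw [PowerSeries.coeff_subst' (PowerSeries.HasSubst.of_constantCoeff_zero' hw0)]
  exact finsum_induction (· ∈ L) (zero_mem _) (fun _ _ => add_mem)
    fun d => hs d _ (mem_cI.1 (cI_pow hw d) e)

theorem cc_X_pow {q : ℕ} (hq : q ≠ 0) :
    PowerSeries.constantCoeff (PowerSeries.X ^ q : PowerSeries B) = 0 := by
  rw [map_pow, PowerSeries.constantCoeff_X, zero_pow hq]

/-- The comparison of two `p`-series to first order. -/
theorem compare {p n : ℕ} (hp : p.Prime) (hn : 0 < n) {I N : Ideal B} (hNI : N * I = ⊥)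
    (hle : N ≤ I) (hpI : (p : B) ∈ I) {P P' β β₀ : PowerSeries B}
    (hP0 : PowerSeries.constantCoeff P = 0) (hP : P - PowerSeries.X ^ p ^ n ∈ cI I)
    (hP' : P' - PowerSeries.X ^ p ^ n ∈ cI I) (h0 : PowerSeries.constantCoeff β = 0)
    (h0' : PowerSeries.constantCoeff β₀ = 0) (hβ : β - β₀ ∈ cI N)
    (h1 : β.subst P = P'.subst β) (h2 : β₀.subst P = P.subst β₀) :
    (β - β₀).subst (PowerSeries.X ^ p ^ n : PowerSeries B) = (P' - P).subst β₀ := by
  have hq : p ^ n ≠ 0 := pow_ne_zero _ hp.ne_zero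
  have s0 := PowerSeries.HasSubst.of_constantCoeff_zero' h0
  have s0' := PowerSeries.HasSubst.of_constantCoeff_zero' h0'
  have sP := PowerSeries.HasSubst.of_constantCoeff_zero' hP0
  have a1 := subst_congr hNI hβ hP0 (cc_X_pow hq) hP
  have a2 := subst_congr (by rw [mul_comm, hNI]) hP' h0 h0' hβ
  have a3 : β ^ p ^ n = β₀ ^ p ^ n := by
    obtain ⟨r, hr⟩ := exists_add_pow_prime_pow_eq hp (β - β₀) β₀ n
    have b1 : (β - β₀) * (β - β₀) = 0 := cI_bot (hNI ▸ cI_mul hβ (cI_mono hle hβ))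
    have b2 : (β - β₀) * (p : PowerSeries B) = 0 := by
      refine cI_bot (hNI ▸ cI_mul hβ (mem_cI.2 fun i => ?_))
      rw [← map_natCast (PowerSeries.C : B →+* PowerSeries B), PowerSeries.coeff_C]
      split_ifs
      exacts [hpI, zero_mem _]
    have b3 : (β - β₀) ^ p ^ n = 0 :=
      pow_eq_zero_of_le (Nat.one_lt_pow hn.ne' hp.one_lt) (by rw [pow_two, b1])
    rw [sub_add_cancel, b3, mul_comm (p : PowerSeries B), b2] at hr
    simpa using hr
  rw [PowerSeries.subst_sub s0, PowerSeries.subst_sub s0', PowerSeries.subst_pow s0,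
    PowerSeries.subst_pow s0', PowerSeries.subst_X s0, PowerSeries.subst_X s0', a3,
    sub_left_inj] at a2
  rw [← a1, PowerSeries.subst_sub sP, PowerSeries.subst_sub s0', h1, h2, a2]

theorem coeff_eq_zero {q : ℕ} (hq : q ≠ 0) {b D β₀ : PowerSeries B}
    (hb : PowerSeries.constantCoeff b = 0) (h0 : PowerSeries.constantCoeff β₀ = 0)
    (hu : IsUnit (PowerSeries.coeff 1 β₀))
    (h : b.subst (PowerSeries.X ^ q : PowerSeries B) = D.subst β₀) {i : ℕ} (hi : i < q) :
    PowerSeries.coeff i D = 0 := by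
  obtain ⟨g, g0, -, g1, -⟩ := exists_psubst_inv h0 hu
  have sg := PowerSeries.HasSubst.of_constantCoeff_zero' g0
  have s0 := PowerSeries.HasSubst.of_constantCoeff_zero' h0
  have sq : PowerSeries.HasSubst (PowerSeries.X ^ q : PowerSeries B) := PowerSeries.HasSubst.X_pow hq
  obtain ⟨c, rfl⟩ := PowerSeries.X_dvd_iff.2 hb
  have a1 := congrArg (PowerSeries.subst g) h
  rw [PowerSeries.subst_comp_subst_apply s0 sg, g1, PowerSeries.X_subst, PowerSeries.subst_mul sq,
    PowerSeries.subst_X sq, PowerSeries.subst_mul sg, PowerSeries.subst_pow sg,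
    PowerSeries.subst_X sg] at a1
  rw [← a1]
  exact PowerSeries.X_pow_dvd_iff.1
    (dvd_mul_of_dvd_left (pow_dvd_pow_of_dvd (PowerSeries.X_dvd_iff.2 g0) q) _) i hi

variable {p n : ℕ} [Fact p.Prime] {F : FormalGroup (LTRing p n)}

theorem p_mem (hn : 0 < n) : (p : LTRing p n) ∈ heightIdeal p n n :=
  heightIdeal_mono p n hn (by rw [heightIdeal_one]; exact Ideal.mem_span_singleton_self _)

theorem X_mem (j : Fin (n - 1)) : (X j : LTRing p n) ∈ heightIdeal p n n := by
  refine heightIdeal_mono p n (show j.val + 2 ≤ n by have := j.2; omega) ?_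
  rw [heightIdeal_succ]
  exact Ideal.mem_sup_right (Ideal.mem_span_singleton_self _)

theorem sub_C_mem (hn : 0 < n) (r : LTRing p n) :
    r - C (constantCoeff r) ∈ heightIdeal p n n := by
  rw [mem_top_iff p n hn]
  simp [res]

theorem map_mul_p (hF : IsLubinTate p n F) {I : Ideal B} {z : LTRing p n →+* B}
    (hz : ∀ x ∈ heightIdeal p n n, z x ∈ I) :
    PowerSeries.map z (mulSeries F p) - PowerSeries.X ^ p ^ n ∈ cI I := by
  refine mem_cI.2 fun i => ?_
  rw [← PowerSeries.map_X z, ← map_pow, ← map_sub, PowerSeries.coeff_map]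
  exact hz _ (hF.2.1 i)

theorem step (hn : 0 < n) (hF : IsLubinTate p n F) {I N : Ideal B} (hNI : N * I = ⊥) (hle : N ≤ I)
    {z z' : LTRing p n →+* B} (hC : ∀ w, z (C w) = z' (C w))
    (hz : ∀ x ∈ heightIdeal p n n, z x ∈ I) (hz' : ∀ x ∈ heightIdeal p n n, z' x ∈ I)
    (hzz : ∀ r, z r - z' r ∈ N) {β β₀ : PowerSeries B} (h0 : PowerSeries.constantCoeff β = 0)
    (h0' : PowerSeries.constantCoeff β₀ = 0) (hu : IsUnit (PowerSeries.coeff 1 β₀))
    (hβ : β - β₀ ∈ cI N)
    (h1 : β.subst (PowerSeries.map z (mulSeries F p)) =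
      (PowerSeries.map z' (mulSeries F p)).subst β)
    (h2 : β₀.subst (PowerSeries.map z (mulSeries F p)) =
      (PowerSeries.map z (mulSeries F p)).subst β₀) : z = z' ∧ β = β₀ := by
  have hp : p.Prime := Fact.out
  have hq : p ^ n ≠ 0 := pow_ne_zero _ hp.ne_zero
  have a1 := compare hp hn hNI hle (by simpa using hz _ (p_mem hn))
    (by rw [cc_pmap, Ideals.cc_mul, map_zero]) (map_mul_p hF hz) (map_mul_p hF hz') h0 h0' hβ h1 h2
  have a2 : ∀ i < p ^ n, z (PowerSeries.coeff i (mulSeries F p)) =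
      z' (PowerSeries.coeff i (mulSeries F p)) := fun i hi => by
    have := coeff_eq_zero hq (by rw [map_sub, h0, h0', sub_zero]) h0' hu a1 hi
    rw [map_sub, PowerSeries.coeff_map, PowerSeries.coeff_map, sub_eq_zero] at this
    exact this.symm
  have a3 : ∀ x ∈ heightIdeal p n n, z x = z' x → ∀ c ∈ Ideal.span {x}, z c = z' c := by
    intro x hx h c hc
    obtain ⟨r, rfl⟩ := Ideal.mem_span_singleton'.1 hc
    have := Ideal.mul_mem_mul (hzz r) (hz x hx)
    rw [hNI, Ideal.mem_bot, sub_mul, sub_eq_zero] at this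
    rw [map_mul, map_mul, this, h]
  have a4 : ∀ j, j + 1 ≤ n → ∀ c ∈ heightIdeal p n (j + 1), z c = z' c := by
    intro j
    induction j with
    | zero =>
      intro _
      rw [heightIdeal_one]
      exact a3 _ (p_mem hn) (by simp)
    | succ j ih =>
      intro hj c hc
      let i : Fin (n - 1) := ⟨j, by omega⟩
      have b1 : PowerSeries.coeff (p ^ (j + 1)) (mulSeries F p) - X i ∈
          heightIdeal p n (j + 1) := by
        simpa [PowerSeries.coeff_X_pow] using hF.2.2 i _ le_rfl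
      have b2 := ih (by omega) _ b1
      rw [map_sub, map_sub, a2 _ (Nat.pow_lt_pow_right hp.one_lt (by omega)), sub_right_inj] at b2
      rw [heightIdeal_succ p n i] at hc
      obtain ⟨a, ha, b, hb, rfl⟩ := Submodule.mem_sup.1 hc
      rw [map_add, map_add, ih (by omega) a ha, a3 _ (X_mem i) b2 b hb]
  have a5 : z = z' := by
    ext r
    obtain ⟨k, rfl⟩ := Nat.exists_eq_add_of_lt hn
    have := a4 (0 + k) le_rfl _ (sub_C_mem hn r)
    rwa [map_sub, map_sub, hC, sub_left_inj] at this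
  refine ⟨a5, ?_⟩
  rw [a5, sub_self, ← PowerSeries.coe_substAlgHom (PowerSeries.HasSubst.of_constantCoeff_zero' h0'),
    map_zero] at a1
  rw [← sub_eq_zero]
  ext i
  have := congrArg (PowerSeries.coeff (p ^ n * i)) a1
  rwa [PowerSeries.coeff_subst_X_pow hq, if_pos (dvd_mul_right _ _),
    Nat.mul_div_cancel_left _ (Nat.pos_of_ne_zero hq)] at this

theorem pmap_pmap {A A' : Type} [CommRing A] [CommRing A'] (χ : A →+* B) (φ : B →+* A')
    (f : PowerSeries A) :
    PowerSeries.map φ (PowerSeries.map χ f) = PowerSeries.map (φ.comp χ) f := rfl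

omit [Fact p.Prime] in
theorem mulSeries_pow_of {G : FormalGroup B} {q : ℕ} (hq : q ≠ 0)
    (h : mulSeries G p = PowerSeries.X ^ q) (m : ℕ) :
    mulSeries G (p ^ m) = PowerSeries.X ^ q ^ m := by
  induction m with
  | zero => simpa using mulSeries_one G
  | succ m ih =>
    have hs : PowerSeries.HasSubst (PowerSeries.X ^ q ^ m : PowerSeries B) :=
      PowerSeries.HasSubst.X_pow (pow_ne_zero _ hq)
    rw [pow_succ', mulSeries_mul, h, ih, PowerSeries.subst_pow hs, PowerSeries.subst_X hs,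
      ← pow_mul, ← pow_succ]

section pts
variable [Adic B] {G : FormalGroup B} {ξ : PowerSeries B}

theorem val_subst (hξ : PowerSeries.constantCoeff ξ = 0) (k : ℕ)
    {u : Pt G (PowerSeries.C : B →+* PowerSeries B)} (hu : u.val = PowerSeries.X)
    (w : Pt G (PowerSeries.C : B →+* PowerSeries B)) :
    ev1 PowerSeries.C w.val (u - k • Pt.app G PowerSeries.C PowerSeries.C ξ hξ u).val =
      (w - k • Pt.app G PowerSeries.C PowerSeries.C ξ hξ w).val := by
  have hr : ∀ f ∈ rad (PowerSeries B), ev1 PowerSeries.C w.val f ∈ rad (PowerSeries B) :=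
    ev_rad_of _ (fun _ hx => pC_mem_rad hx) fun _ => w.mem
  have e0 : Pt.map G _ hr (ev1_comp_C _ _) u = w :=
    Pt.ext (by rw [Pt.map_val, hu, ev1_X _ w.mem])
  have e1 : Pt.map G _ hr (ev1_comp_C _ _) (Pt.app G PowerSeries.C PowerSeries.C ξ hξ u) =
      Pt.app G PowerSeries.C PowerSeries.C ξ hξ w :=
    Pt.ext (by rw [Pt.map_val, Pt.app_val, Pt.app_val, hu, ev1_C_X])
  rw [← Pt.map_val G _ hr (ev1_comp_C _ _), map_sub, map_nsmul, e0, e1]

theorem grp {A : Type} [AddCommGroup A] (u a a' : A) (p k : ℕ) :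
    p • u - k • a' - p • (u - k • a) = k • (p • a - a') := by
  rw [nsmul_sub, nsmul_sub, smul_comm p k]
  abel

omit [Fact p.Prime] in
theorem comm_mem [G.IsComm] (hξ : PowerSeries.constantCoeff ξ = 0) (𝔠 : ℕ → Ideal B)
    (ha : ((mulSeries G p).subst ξ : PowerSeries B) - ξ.subst (mulSeries G p) ∈ cI (𝔠 0))
    (hs : ∀ j i, ∀ x ∈ 𝔠 j ^ i, PowerSeries.coeff i (mulSeries G p) * x ∈ 𝔠 (j + 1)) (m : ℕ)
    {u : Pt G (PowerSeries.C : B →+* PowerSeries B)} (hu : u.val = PowerSeries.X)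
    {β : PowerSeries B}
    (hβ : β = (u - p ^ m • Pt.app G PowerSeries.C PowerSeries.C ξ hξ u).val) :
    PowerSeries.constantCoeff β = 0 ∧
      (β.subst (mulSeries G p) : PowerSeries B) - (mulSeries G p).subst β ∈ cI (𝔠 m) := by
  let K : Ideal (PowerSeries B) := RingHom.ker PowerSeries.constantCoeff
  have k0 : u.val ∈ K := by rw [hu]; exact PowerSeries.constantCoeff_X
  have k1 : ∀ w : Pt G (PowerSeries.C : B →+* PowerSeries B), w.val ∈ K →
      (Pt.app G PowerSeries.C PowerSeries.C ξ hξ w).val ∈ K := fun w hw => by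
    rw [Pt.app_val]
    exact ev1_mem _ w.mem hw hξ
  have hβ0 : PowerSeries.constantCoeff β = 0 := by
    rw [hβ]
    exact Pt.sub_val_mem k0 (Pt.nsmul_val_mem (k1 u k0) _)
  have hpu : (p • u).val = mulSeries G p := by rw [Pt.nsmul_val, hu, ev1_C_X]
  obtain ⟨a, hadef⟩ : ∃ a, a = p • Pt.app G PowerSeries.C PowerSeries.C ξ hξ u -
    Pt.app G PowerSeries.C PowerSeries.C ξ hξ (p • u) := ⟨_, rfl⟩
  have a0 : a.val ∈ K := by
    rw [hadef]
    exact Pt.sub_val_mem (Pt.nsmul_val_mem (k1 u k0) _) (k1 _ (Pt.nsmul_val_mem k0 _))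
  have a1 : ∀ j, (p ^ j • a).val ∈ cI (𝔠 j) := fun j => by
    induction j with
    | zero =>
      rw [pow_zero, one_nsmul, hadef, Pt.sub_val_mem_iff, Pt.nsmul_val, Pt.app_val, Pt.app_val,
        hpu, hu, ev1_C_X, ← psubst_eq_ev1' hξ, ← psubst_eq_ev1' (Ideals.cc_mul G p)]
      exact ha
    | succ j ih =>
      have b0 : PowerSeries.constantCoeff (p ^ j • a).val = 0 := Pt.nsmul_val_mem a0 _
      rw [pow_succ', mul_nsmul', Pt.nsmul_val p, ← psubst_eq_ev1' b0]
      exact subst_mem b0 ih (hs j)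
  refine ⟨hβ0, ?_⟩
  have a2 := a1 m
  rw [hadef, ← grp, Pt.sub_val_mem_iff, ← val_subst hξ _ hu, Pt.nsmul_val p (u - _), ← hβ,
    hpu] at a2
  rw [psubst_eq_ev1' hβ0, psubst_eq_ev1' (Ideals.cc_mul G p)]
  exact a2

theorem coeff_one_val (hξ : PowerSeries.constantCoeff ξ = 0) (k : ℕ)
    {u : Pt G (PowerSeries.C : B →+* PowerSeries B)} (hu : u.val = PowerSeries.X) :
    PowerSeries.coeff 1 (u - k • Pt.app G PowerSeries.C PowerSeries.C ξ hξ u).val =
      1 - k * PowerSeries.coeff 1 ξ := by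
  obtain ⟨y, hy⟩ : ∃ y, y = k • Pt.app G PowerSeries.C PowerSeries.C ξ hξ u := ⟨_, rfl⟩
  obtain ⟨r, hr⟩ := Pt.exists_nsmul_val k (Pt.app G PowerSeries.C PowerSeries.C ξ hξ u)
  rw [← hy, Pt.app_val, hu, ev1_C_X] at hr
  rw [← hy]
  obtain ⟨c, rfl⟩ := PowerSeries.X_dvd_iff.2 hξ
  have a1 : y.val ∈ Ideal.span {(PowerSeries.X : PowerSeries B)} := by
    rw [hr, Ideal.mem_span_singleton]
    exact ⟨(k : PowerSeries B) * c + PowerSeries.X * c ^ 2 * r, by ring⟩
  have a2 := Pt.sub_val_sub_mem (x := u) (y := y)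
    (sub_mem (by rw [hu]; exact Ideal.mem_span_singleton_self _) a1) a1
  rw [Ideal.span_singleton_mul_span_singleton, Ideal.mem_span_singleton, ← pow_two] at a2
  have a3 := PowerSeries.X_pow_dvd_iff.1 a2 1 (by norm_num)
  rw [map_sub, sub_eq_zero] at a3
  have a4 : PowerSeries.coeff 1 ((PowerSeries.X * c) ^ 2 * r) = 0 :=
    PowerSeries.X_pow_dvd_iff.1 (⟨c ^ 2 * r, by ring⟩ :
      PowerSeries.X ^ 2 ∣ (PowerSeries.X * c) ^ 2 * r) 1 (by norm_num)
  rw [a3, hu, hr, map_sub, map_add, a4, add_zero, PowerSeries.coeff_one_X,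
    ← map_natCast (PowerSeries.C : B →+* PowerSeries B), PowerSeries.coeff_C_mul]

theorem sub_mem_of_add {𝔞 : Ideal (PowerSeries B)}
    {u g y : Pt G (PowerSeries.C : B →+* PowerSeries B)} (h : (g + y).val - u.val ∈ 𝔞) :
    g.val - (u - y).val ∈ 𝔞 := by
  rw [← Pt.sub_val_mem_iff] at h ⊢
  rwa [sub_sub_eq_add_sub]

end pts

theorem mem_cI_top (hn : 0 < n) {f : PowerSeries (LTRing p n)} :
    f ∈ cI (heightIdeal p n n) ↔ PowerSeries.map (res p n) f = 0 := by
  rw [mem_cI, PowerSeries.ext_iff]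
  simp only [PowerSeries.coeff_map, map_zero, mem_top_iff p n hn]

end Uniq

variable {p n : ℕ} [Fact p.Prime] {F : FormalGroup (LTRing p n)}

open Uniq in
theorem unique_deformation (hn : 0 < n) (hF : IsLubinTate p n F) {B : Type} [CommRing B]
    (I : Ideal B) (hI : IsNilpotent I) (z z' : LTRing p n →+* B) (hC : ∀ w, z (C w) = z' (C w))
    (hz : ∀ x ∈ heightIdeal p n n, z x ∈ I) (hz' : ∀ x ∈ heightIdeal p n n, z' x ∈ I)
    (β β₀ : PowerSeries B) (h0 : PowerSeries.constantCoeff β = 0)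
    (h0' : PowerSeries.constantCoeff β₀ = 0) (hu : IsUnit (PowerSeries.coeff 1 β₀))
    (hβ : ∀ i, PowerSeries.coeff i (β - β₀) ∈ I)
    (h1 : β.subst (PowerSeries.map z (mulSeries F p)) =
      (PowerSeries.map z' (mulSeries F p)).subst β)
    (h2 : β₀.subst (PowerSeries.map z (mulSeries F p)) =
      (PowerSeries.map z (mulSeries F p)).subst β₀) : z = z' := by
  have key : ∀ k, (∀ r, z r - z' r ∈ I ^ (k + 1)) ∧ β - β₀ ∈ cI (I ^ (k + 1)) := by
    intro k
    induction k with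
    | zero =>
      rw [zero_add, pow_one]
      refine ⟨fun r => ?_, mem_cI.2 hβ⟩
      have := sub_mem (hz _ (sub_C_mem hn r)) (hz' _ (sub_C_mem hn r))
      rwa [map_sub, map_sub, hC, sub_sub_sub_cancel_right] at this
    | succ k ih =>
      let π := Ideal.Quotient.mk (I ^ (k + 1 + 1))
      have hP : PowerSeries.constantCoeff (PowerSeries.map z (mulSeries F p)) = 0 := by
        rw [cc_pmap, Ideals.cc_mul, map_zero]
      have a1 := congrArg (PowerSeries.map π) h1
      have a2 := congrArg (PowerSeries.map π) h2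
      rw [pmap_subst π hP, pmap_subst π h0, pmap_pmap, pmap_pmap] at a1
      rw [pmap_subst π hP, pmap_subst π h0', pmap_pmap] at a2
      obtain ⟨b1, b2⟩ := step hn hF (I := I.map π) (N := (I ^ (k + 1)).map π)
        (by rw [← Ideal.map_mul, ← pow_succ, Ideal.map_quotient_self])
        (Ideal.map_mono (Ideal.pow_le_self (by omega))) (z := π.comp z) (z' := π.comp z')
        (fun w => by rw [RingHom.comp_apply, RingHom.comp_apply, hC])
        (fun x hx => Ideal.mem_map_of_mem _ (hz x hx))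
        (fun x hx => Ideal.mem_map_of_mem _ (hz' x hx))
        (fun r => by
          rw [RingHom.comp_apply, RingHom.comp_apply, ← map_sub]
          exact Ideal.mem_map_of_mem _ (ih.1 r))
        (by rw [cc_pmap, h0, map_zero]) (by rw [cc_pmap, h0', map_zero])
        (by rw [PowerSeries.coeff_map]; exact hu.map _)
        (mem_cI.2 fun i => by
          rw [← map_sub, PowerSeries.coeff_map]
          exact Ideal.mem_map_of_mem _ (mem_cI.1 ih.2 i)) a1 a2
      refine ⟨fun r => Ideal.Quotient.eq.1 (DFunLike.congr_fun b1 r), ?_⟩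
      rw [cI, RingHom.mem_ker, map_sub, sub_eq_zero]
      exact b2
  obtain ⟨k, hk⟩ := hI
  ext r
  have := (key k).1 r
  rwa [pow_succ, hk, zero_mul, Ideal.zero_eq_bot, Ideal.mem_bot, sub_eq_zero] at this

open Uniq in
theorem IsAct.sub_mem (hn : 0 < n) (hF : IsLubinTate p n F) {m : ℕ} (hm : 0 < m)
    {ξ : PowerSeries (LTRing p n)} (hξ : IsEndLift p n F ξ) {φ : LTRing p n →+* LTRing p n}
    (hφ : IsAct p n F m ξ φ) (𝔠 : ℕ → Ideal (LTRing p n)) (h0 : heightIdeal p n n ≤ 𝔠 0)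
    (hopen : ∃ M, heightIdeal p n n ^ M ≤ 𝔠 m)
    (hs : ∀ j i, ∀ x ∈ 𝔠 j ^ i, PowerSeries.coeff i (mulSeries F p) * x ∈ 𝔠 (j + 1))
    (r : LTRing p n) : φ r - r ∈ 𝔠 m := by
  have := hF.1
  have hq : p ^ n ≠ 0 := pow_ne_zero _ (Fact.out : p.Prime).ne_zero
  obtain ⟨g, hg, hg'⟩ := hφ.hom
  obtain ⟨u, hu⟩ : ∃ u : Pt F (PowerSeries.C : LTRing p n →+* PowerSeries (LTRing p n)),
    u.val = PowerSeries.X := ⟨⟨_, pX_mem_rad⟩, rfl⟩
  obtain ⟨y, hy⟩ : ∃ y, y = p ^ m • Pt.app F PowerSeries.C PowerSeries.C ξ hξ.zero u := ⟨_, rfl⟩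
  obtain ⟨β, hβ⟩ : ∃ β, β = (u - y).val := ⟨_, rfl⟩
  have hP0 := Ideals.cc_mul F p
  have ha : ((mulSeries F p).subst ξ : PowerSeries (LTRing p n)) - ξ.subst (mulSeries F p) ∈
      cI (heightIdeal p n n) := by
    rw [mem_cI_top hn, map_sub, pmap_subst _ hξ.zero, pmap_subst _ hP0, ← Ideals.map_mul_series,
      Ideals.hom_mul hξ.hom p, sub_self]
  obtain ⟨b0, b1⟩ := comm_mem hξ.zero 𝔠 (cI_mono h0 ha) hs m hu (β := β) (by rw [hβ, hy])
  have b2 : PowerSeries.coeff 1 β = 1 - (p ^ m : ℕ) * PowerSeries.coeff 1 ξ := by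
    rw [hβ, hy]
    exact coeff_one_val hξ.zero _ hu
  have hyv : y.val = (mulSeries F (p ^ m)).subst ξ := by
    rw [hy, Pt.nsmul_val, Pt.app_val, hu, ev1_C_X, psubst_eq_ev1' hξ.zero]
  have hy0 : PowerSeries.constantCoeff y.val = 0 := by
    rw [hyv]
    exact cc_psubst1 hξ.zero (Ideals.cc_mul F _)
  have b3 : g - β ∈ cI (heightIdeal p n n) := by
    rw [hβ]
    refine sub_mem_of_add (g := ⟨g, mem_rad_of_constantCoeff_zero hg.1⟩) ?_
    have sξ : PowerSeries.HasSubst (PowerSeries.map (res p n) ξ) :=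
      PowerSeries.HasSubst.of_constantCoeff_zero' hξ.hom.1
    have e1 : PowerSeries.map (res p n) y.val = PowerSeries.map (res p n) ξ ^ (p ^ n) ^ m := by
      rw [hyv, pmap_subst _ hξ.zero, ← Ideals.map_mul_series,
        mulSeries_pow_of hq (hF.mul_p_res hn), PowerSeries.subst_pow sξ, PowerSeries.subst_X sξ]
    have e2 : PowerSeries.map (res p n) (F.toPowerSeries.subst ![g, y.val]) = PowerSeries.X := by
      rw [← hg', ← e1]
      refine (MvPowerSeries.map_subst (Ideals.has_two hg.1 hy0) _).trans ?_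
      rw [comp2]
      rfl
    rw [mem_cI_top hn, map_sub, hu, PowerSeries.map_X, sub_eq_zero, ← e2,
      subst_eq_ev (cc2 hg.1 hy0)]
    rfl
  let π := Ideal.Quotient.mk (𝔠 m)
  have hI : IsNilpotent ((heightIdeal p n n).map π) := by
    obtain ⟨M, hM⟩ := hopen
    refine ⟨M, ?_⟩
    rw [← Ideal.map_pow, Ideal.zero_eq_bot, Ideal.map_eq_bot_iff_le_ker, Ideal.mk_ker]
    exact hM
  have key := unique_deformation hn hF _ hI π (π.comp φ)
    (fun w => by rw [RingHom.comp_apply, hφ.const])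
    (fun x hx => Ideal.mem_map_of_mem _ hx) (fun x hx => Ideal.mem_map_of_mem _ (hφ.loc x hx))
    (PowerSeries.map π g) (PowerSeries.map π β) (by rw [cc_pmap, hg.1, map_zero])
    (by rw [cc_pmap, b0, map_zero])
    (by
      rw [PowerSeries.coeff_map, b2, map_sub, map_one]
      refine IsNilpotent.isUnit_one_sub ?_
      obtain ⟨M, hM⟩ := hI
      refine ⟨M, ?_⟩
      have c1 : π ((p ^ m : ℕ) * PowerSeries.coeff 1 ξ) ∈ (heightIdeal p n n).map π := by
        refine Ideal.mem_map_of_mem _ (Ideal.mul_mem_right _ _ ?_)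
        rw [Nat.cast_pow]
        exact Ideal.pow_mem_of_mem _ (p_mem hn) _ hm
      have c2 := Ideal.pow_mem_pow c1 M
      rwa [hM] at c2)
    (fun i => by
      rw [← map_sub, PowerSeries.coeff_map]
      exact Ideal.mem_map_of_mem _ (mem_cI.1 b3 i))
    (by
      rw [← pmap_subst π hP0, Ideals.hom_mul hg p, pmap_subst π hg.1, Ideals.map_mul_series,
        pmap_pmap])
    (by
      rw [← pmap_subst π hP0, ← pmap_subst π b0, ← sub_eq_zero, ← map_sub]
      exact b1)
  exact Ideal.Quotient.eq.1 (DFunLike.congr_fun key r).symm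

end Vale.Agent.P217
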