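import Vale.Agent.P217.Fam
import Vale.Agent.P217.Unique
import Vale.Agent.P217.Exist
import Vale.Agent.P217.Compare

/-! The action of the elements `1 - p ^ m ξ`. -/

namespace Vale.Agent.P217

open Finset MvPowerSeries

theorem mulSeries_pow_of {B : Type} [CommRing B] {F : FormalGroup B} {p q : ℕ} (hq : q ≠ 0)
    (h : mulSeries F p = PowerSeries.X ^ q) (m : ℕ) :
    mulSeries F (p ^ m) = PowerSeries.X ^ q ^ m := by
  induction m with
  | zero => simpa using mulSeries_one F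
  | succ m ih =>
    have hs : PowerSeries.HasSubst (PowerSeries.X ^ q ^ m : PowerSeries B) :=
      PowerSeries.HasSubst.X_pow (pow_ne_zero _ hq)
    rw [pow_succ', mulSeries_mul, h, ih, PowerSeries.subst_pow hs, PowerSeries.subst_X hs,
      ← pow_mul, ← pow_succ]

theorem cc_X_pow {B : Type} [CommRing B] {q : ℕ} (hq : q ≠ 0) :
    PowerSeries.constantCoeff (PowerSeries.X ^ q : PowerSeries B) = 0 := by
  rw [map_pow, PowerSeries.constantCoeff_X, zero_pow hq]

theorem ev_hom_congr {R S σ : Type} [CommRing R] [CommRing S] [Adic S] [Finite σ]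
    {φ φ' : R →+* S} {a : σ → S} (ha : ∀ i, a i ∈ rad S) {𝔠 : Ideal S}
    (hopen : ∃ N, (Adic.I : Ideal S) ^ N ≤ 𝔠) (h : ∀ r, φ r - φ' r ∈ 𝔠) (f : MvPowerSeries σ R) :
    ev φ a f - ev φ' a f ∈ 𝔠 := by
  have e1 := ev_map φ (RingHom.id S) ha f
  have e2 := ev_map φ' (RingHom.id S) ha f
  rw [RingHom.id_comp] at e1 e2
  rw [← e1, ← e2, ← map_sub]
  exact ev_mem_of_coeff _ ha hopen fun d => by simpa using h (coeff d f)

theorem coeff_one_subst2 {B : Type} [CommRing B] (F : FormalGroup B) {a b : PowerSeries B}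
    (ha : PowerSeries.constantCoeff a = 0) (hb : PowerSeries.constantCoeff b = 0) :
    PowerSeries.coeff 1 (F.toPowerSeries.subst ![a, b] : PowerSeries B) =
      PowerSeries.coeff 1 a + PowerSeries.coeff 1 b := by
  let _ := Adic.discrete B
  obtain ⟨r, hr⟩ := Pt.exists_add_val (F := F) (φ := (PowerSeries.C : B →+* PowerSeries B))
    ⟨a, mem_rad_of_constantCoeff_zero ha⟩ ⟨b, mem_rad_of_constantCoeff_zero hb⟩
  rw [subst_eq_ev (cc2 ha hb)]
  refine (congrArg (PowerSeries.coeff 1) hr).trans ?_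
  obtain ⟨a', rfl⟩ := PowerSeries.X_dvd_iff.2 ha
  obtain ⟨b', rfl⟩ := PowerSeries.X_dvd_iff.2 hb
  simp [mul_assoc, PowerSeries.coeff_succ_X_mul, mul_left_comm a']

variable {p n : ℕ} [Fact p.Prime] {F : FormalGroup (LTRing p n)}

theorem q_ne_zero (p n : ℕ) [Fact p.Prime] : p ^ n ≠ 0 :=
  pow_ne_zero _ (Fact.out : p.Prime).ne_zero

theorem one_lt_q_pow {p n m : ℕ} [Fact p.Prime] (hn : 0 < n) (hm : 0 < m) : 1 < (p ^ n) ^ m :=
  Nat.one_lt_pow hm.ne' (Nat.one_lt_pow hn.ne' (Fact.out : p.Prime).one_lt)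

theorem coeff_one_pow_eq_zero {B : Type} [CommRing B] {a : PowerSeries B}
    (ha : PowerSeries.constantCoeff a = 0) {N : ℕ} (hN : 1 < N) :
    PowerSeries.coeff 1 (a ^ N) = 0 :=
  PowerSeries.X_pow_dvd_iff.1 (pow_dvd_pow_of_dvd (PowerSeries.X_dvd_iff.2 ha) N) 1 hN

theorem exists_isAct (hn : 0 < n) (hF : IsLubinTate p n F) {m : ℕ} (hm : 0 < m)
    {ξ : PowerSeries (LTRing p n)} (hξ : IsEndLift p n F ξ) : ∃ φ, IsAct p n F m ξ φ := by
  have := hF.1
  let _ := Adic.discrete (GaloisField p n)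
  set Γ := F.map (res p n) with hΓ
  set η := PowerSeries.map (res p n) ξ with hη
  have hη0 : PowerSeries.constantCoeff η = 0 := hξ.hom.1
  obtain ⟨ι, hι, hι'⟩ := exists_negSeries Γ
  have hpow : IsHom Γ Γ (η ^ (p ^ n) ^ m) := by
    have h1 := (isHom_mulSeries Γ (p ^ m)).comp hξ.hom
    have hs := PowerSeries.HasSubst.of_constantCoeff_zero' hη0
    rwa [mulSeries_pow_of (q_ne_zero p n) (hF.mul_p_res hn), PowerSeries.subst_pow hs,
      PowerSeries.subst_X hs] at h1
  have hg := (isHom_X Γ).add (hι.comp hpow)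
  have hsum : Γ.toPowerSeries.subst ![(Γ.toPowerSeries.subst
      ![PowerSeries.X, ι.subst (η ^ (p ^ n) ^ m)] : PowerSeries (GaloisField p n)),
        η ^ (p ^ n) ^ m] = PowerSeries.X := by
    let u : Pt Γ (PowerSeries.C : _ →+* PowerSeries (GaloisField p n)) :=
      ⟨PowerSeries.X, pX_mem_rad⟩
    let v : Pt Γ (PowerSeries.C : _ →+* PowerSeries (GaloisField p n)) :=
      ⟨η ^ (p ^ n) ^ m, mem_rad_of_constantCoeff_zero hpow.1⟩
    have e : (u + -v + v).val = u.val := by rw [neg_add_cancel_right]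
    rw [subst_eq_ev (cc2 hg.1 hpow.1), subst_eq_ev (cc2 (isHom_X Γ).1 (hι.comp hpow).1),
      psubst_eq_ev1' hpow.1]
    rw [Pt.add_val, Pt.add_val, hι'] at e
    exact e
  have hu : IsUnit (PowerSeries.coeff 1 (Γ.toPowerSeries.subst
      ![PowerSeries.X, ι.subst (η ^ (p ^ n) ^ m)] : PowerSeries (GaloisField p n))) := by
    have := congrArg (PowerSeries.coeff 1) hsum
    rw [coeff_one_subst2 Γ hg.1 hpow.1, coeff_one_pow_eq_zero hη0 (one_lt_q_pow hn hm), add_zero,
      PowerSeries.coeff_one_X] at this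
    rw [this]; exact isUnit_one
  obtain ⟨φ, g', h1, h2, h3, h4⟩ := exists_lift_aut hn hF _ hg hu
  exact ⟨φ, h1, h2, g', h3, by rw [h4]; exact hsum⟩

section
variable (hn : 0 < n) (hF : IsLubinTate p n F) {m : ℕ} (hm : 0 < m)
  {ξ : PowerSeries (LTRing p n)} (hξ : IsEndLift p n F ξ) {φ : LTRing p n →+* LTRing p n}
  (hφ : IsAct p n F m ξ φ)
include hn hF hm hξ hφ

theorem IsAct.sub_mem_pow (r : LTRing p n) : φ r - r ∈ heightIdeal p n n ^ (m + 1) := by
  refine IsAct.sub_mem hn hF hm hξ hφ (fun j => heightIdeal p n n ^ (j + 1)) (by simp)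
    ⟨m + 1, le_rfl⟩ (fun j i x hx => ?_) r
  rcases i with _ | _ | i
  · rw [PowerSeries.coeff_zero_eq_constantCoeff_apply, Ideals.cc_mul, zero_mul]; exact zero_mem _
  · rw [zero_add, coeff_one_mulSeries, pow_succ']
    exact Ideal.mul_mem_mul (p_mem_heightIdeal hn) (by simpa using hx)
  · rw [← pow_mul] at hx
    exact Ideal.mul_mem_left _ _ (Ideal.pow_le_pow_right (by nlinarith) hx)

theorem IsAct.exists_equiv : ∃ e : LTRing p n ≃+* LTRing p n, e.toRingHom = φ ∧
    IsStabilizerAction p n F e := by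
  have hb := bijective_of_near_id φ fun x => by
    rw [I_LT p n hn]
    exact Ideal.pow_le_pow_right (by omega) (hφ.sub_mem_pow hn hF hm hξ x)
  obtain ⟨g, hg, hg'⟩ := hφ.hom
  refine ⟨RingEquiv.ofBijective φ hb, rfl, ⟨RingEquiv.refl _, fun w => ?_⟩, g, ?_, hg⟩
  · exact (hφ.const w).trans (congrArg C (by ext; simp))
  · have h1 := congrArg (PowerSeries.coeff 1) hg'
    rw [coeff_one_subst2 _ (by rw [cc_pmap, hg.1, map_zero])
      (by rw [map_pow, hξ.hom.1, zero_pow (pow_ne_zero _ (q_ne_zero p n))]),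
      coeff_one_pow_eq_zero hξ.hom.1 (one_lt_q_pow hn hm), add_zero, PowerSeries.coeff_one_X,
      PowerSeries.coeff_map] at h1
    refine isUnit_of_sub_mem isUnit_one (I_le_rad ?_)
    rw [I_LT p n hn, mem_top_iff p n hn, map_sub, h1, map_one, sub_self]

theorem IsAct.map_height {h : ℕ} (hh : h ≤ n) :
    ∀ x ∈ heightIdeal p n h, φ x ∈ heightIdeal p n h := by
  obtain ⟨e, rfl, he⟩ := hφ.exists_equiv hn hF hm hξ
  intro x hx
  rw [← heightIdeal_invariant p n F hF h hh e he]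
  exact Ideal.mem_map_of_mem _ hx

end

theorem IsLubinTate.coeff_lt (hF : IsLubinTate p n F) {h : ℕ} (hh : 0 < h) (hhn : h < n) {i : ℕ}
    (hi : i < p ^ h) : PowerSeries.coeff i (mulSeries F p) ∈ heightIdeal p n h := by
  obtain ⟨h, rfl⟩ := Nat.exists_eq_add_of_lt hh
  have := hF.2.2 ⟨h, by omega⟩ i (by simpa using hi.le)
  simp only [map_sub, PowerSeries.coeff_C_mul, PowerSeries.coeff_X_pow] at this
  rw [if_neg (by simpa using hi.ne)] at this
  simpa using this

theorem IsLubinTate.coeff_eq (hF : IsLubinTate p n F) (j : Fin (n - 1)) :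
    PowerSeries.coeff (p ^ (j.val + 1)) (mulSeries F p) - X j ∈ heightIdeal p n (j.val + 1) := by
  simpa [PowerSeries.coeff_X_pow] using hF.2.2 j _ le_rfl

section
variable (hn : 0 < n) (hF : IsLubinTate p n F) {m : ℕ} (hm : 0 < m)
  {ξ : PowerSeries (LTRing p n)} (hξ : IsEndLift p n F ξ) {φ : LTRing p n →+* LTRing p n}
  (hφ : IsAct p n F m ξ φ) {S : Type} [CommRing S] [Adic S] (z : LTRing p n →+* S)
  (hz : ∀ x ∈ heightIdeal p n n, z x ∈ (Adic.I : Ideal S))

include hz in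
theorem map_height_pow (N : ℕ) : heightIdeal p n n ^ N ≤ ((Adic.I : Ideal S) ^ N).comap z := by
  rw [← Ideal.map_le_iff_le_comap, Ideal.map_pow]
  exact Ideal.pow_right_mono (Ideal.map_le_iff_le_comap.2 hz) N

include hn hF hm hξ hφ hz

/-- Lipschitz estimate in characteristic `p`. -/
theorem IsAct.sub_mem_charP {h : ℕ} (hh : 0 < h) (hhn : h < n)
    (hzh : ∀ x ∈ heightIdeal p n h, z x = 0) (r : LTRing p n) :
    z (φ r) - z r ∈ (Adic.I : Ideal S) ^ (p ^ h) ^ m := by
  rw [← map_sub]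
  refine IsAct.sub_mem hn hF hm hξ hφ (fun j => ((Adic.I : Ideal S) ^ (p ^ h) ^ j).comap z)
    (fun x hx => by simpa using hz x hx) ⟨_, map_height_pow z hz _⟩ (fun j i x hx => ?_) r
  rw [Ideal.mem_comap, map_mul]
  by_cases hi : i < p ^ h
  · rw [hzh _ (hF.coeff_lt hh hhn hi), zero_mul]; exact zero_mem _
  · have h1 := Ideal.le_comap_pow z i hx
    rw [Ideal.mem_comap, ← pow_mul] at h1
    exact Ideal.mul_mem_left _ _ (Ideal.pow_le_pow_right
      (by rw [pow_succ]; exact Nat.mul_le_mul_left _ (not_lt.1 hi)) h1)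

omit hm hφ in
theorem IsRootSys.endLift {y : ℕ → S} (hy : IsRootSys (p ^ n) y) :
    IsRootSys (p ^ n) fun k => ev1 z (y k) ξ := by
  refine ⟨fun k => ev1_mem_rad z (hy.mem k) hξ.zero, fun k => ?_⟩
  have h1 : ∀ i, z (PowerSeries.coeff i (ξ ^ p ^ n - ξ.subst (PowerSeries.X ^ p ^ n :
      PowerSeries (LTRing p n)))) ∈ (Adic.I : Ideal S) := by
    intro i
    refine hz _ ((mem_top_iff p n hn).2 ?_)
    have h2 := Ideals.hom_mul hξ.hom p
    have hs := PowerSeries.HasSubst.of_constantCoeff_zero' hξ.hom.1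
    rw [hF.mul_p_res hn, PowerSeries.subst_pow hs, PowerSeries.subst_X hs] at h2
    rw [← PowerSeries.coeff_map, map_sub, map_pow,
      pmap_subst _ (cc_X_pow (q_ne_zero p n)), map_pow, PowerSeries.map_X, h2, sub_self, map_zero]
  have h2 := ev1_mem_of_coeff z (hy.mem (k + 1)) ⟨1, by simp⟩ h1
  rw [map_sub, map_pow, ev1_psubst _ (hy.mem _) (cc_X_pow (q_ne_zero p n)), map_pow,
    ev1_X _ (hy.mem _)] at h2
  have h3 := ev1_congr z (hy.mem k) (Ideal.pow_mem_of_mem _ (hy.mem (k + 1)) _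
    (Nat.pos_of_ne_zero (q_ne_zero p n))) (hy.pow k) ξ
  have := add_mem h2 h3
  rwa [sub_add_sub_cancel] at this

omit hm hξ hφ hn in
theorem IsLubinTate.isSys {y : ℕ → S} (hy : IsRootSys (p ^ n) y) : IsSys p (hy.pt F z) :=
  hy.isSys fun i => hz _ (hF.2.1 i)

omit hF hm hξ hφ in
theorem p_mem_I_of : (p : S) ∈ (Adic.I : Ideal S) := by
  simpa using hz _ (p_mem_heightIdeal hn)

omit hm in
/-- Equivariance of the projection from the universal cover. -/
theorem IsAct.theta_eq [F.IsComm] : ∃ (f : Pt F z →+ Pt F (z.comp φ)) (g : PowerSeries S),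
    PowerSeries.constantCoeff g = 0 ∧ (∀ x, (f x).val = ev1 (RingHom.id S) x.val g) ∧
    ∀ (y : ℕ → S) (hy : IsRootSys (p ^ n) y), theta p (hy.pt F (z.comp φ)) =
      f (theta p (hy.pt F z)) +
        p ^ m • theta p ((hy.endLift hn hF hξ z hz).pt F (z.comp φ)) := by
  obtain ⟨g, hg, hg'⟩ := hφ.hom
  have hgz := hg.map z
  rw [fg_map_map] at hgz
  have hp := p_mem_I_of hn z hz
  have hz' : ∀ x ∈ heightIdeal p n n, z.comp φ x ∈ (Adic.I : Ideal S) :=
    fun x hx => hz _ (hφ.loc x hx)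
  refine ⟨Pt.hom _ hgz, _, hgz.1, fun _ => rfl, fun y hy => ?_⟩
  have s1 := hF.isSys z hz hy
  have s2 := hF.isSys _ hz' (hy.endLift hn hF hξ z hz)
  have hI : ∀ (k : ℕ) (x : Pt F z), x.val ∈ (Adic.I : Ideal S) ^ k →
      (Pt.hom _ hgz x).val ∈ (Adic.I : Ideal S) ^ k := fun k x hx => ev1_mem _ x.mem hx hgz.1
  have s3 := s1.map (Pt.hom _ hgz) fun x hx => ev1_mem _ x.mem hx hgz.1
  rw [← theta_map hp s1 _ hI, ← theta_nsmul hp s2, ← theta_add hp s3 (s2.nsmul _)]
  refine theta_congr hp (s3.add (s2.nsmul _)) fun k => ?_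
  -- reduce modulo `I`
  have hyk := hy.mem k
  have hres : ∀ r, z.comp φ r - z r ∈ (Adic.I : Ideal S) := by
    intro r
    have e : r - C (constantCoeff r) ∈ heightIdeal p n n := by
      rw [mem_top_iff p n hn]; simp [res]
    have := Ideal.sub_mem _ (hz' _ e) (hz _ e)
    rw [map_sub, map_sub, RingHom.comp_apply z φ (C _), hφ.const] at this
    rwa [sub_sub_sub_cancel_right] at this
  have hc0 : PowerSeries.constantCoeff (ξ ^ (p ^ n) ^ m) = 0 := by
    rw [map_pow, hξ.zero, zero_pow (pow_ne_zero _ (q_ne_zero p n))]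
  have a1 : ev1 z (y k) (PowerSeries.X - F.toPowerSeries.subst ![g, ξ ^ (p ^ n) ^ m]) ∈
      (Adic.I : Ideal S) := by
    refine ev1_mem_of_coeff z hyk ⟨1, by simp⟩ fun i => hz _ ((mem_top_iff p n hn).2 ?_)
    have := MvPowerSeries.map_subst (h := res p n) (Ideals.has_two hg.1 hc0) F.toPowerSeries
    rw [comp2] at this
    rw [← PowerSeries.coeff_map, map_sub, PowerSeries.map_X]
    change PowerSeries.coeff i (_ - MvPowerSeries.map (res p n) _) = 0
    rw [this, map_pow]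
    exact (congrArg (fun a => PowerSeries.coeff i (PowerSeries.X - a)) hg').trans (by simp)
  rw [map_sub, ev1_X _ hyk, ev1_subst2 _ hyk hg.1 hc0, map_pow] at a1
  have hξk := ev1_mem_rad z hyk hξ.zero
  have hgk := ev1_mem_rad z hyk hg.1
  have hpw := Ideal.pow_mem_of_mem _ hξk _ (Nat.pos_of_ne_zero (pow_ne_zero m (q_ne_zero p n)))
  have a2 : ev z ![ev1 z (y k) g, ev1 z (y k) ξ ^ (p ^ n) ^ m] F.toPowerSeries -
      ev (z.comp φ) ![ev1 z (y k) g, ev1 z (y k) ξ ^ (p ^ n) ^ m] F.toPowerSeries ∈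
        (Adic.I : Ideal S) := by
    refine ev_hom_congr (rad2 hgk hpw) ⟨1, by simp⟩ (fun r => ?_) _
    simpa using neg_mem (hres r)
  have a3 : ∀ j, (p ^ j • (hy.endLift hn hF hξ z hz).pt F (z.comp φ) k).val -
      ev1 z (y k) ξ ^ (p ^ n) ^ j ∈ (Adic.I : Ideal S) := by
    intro j
    induction j with
    | zero => simp
    | succ j ih =>
      have b1 := nsmul_val_sub_pow_mem (fun i => hz' _ (hF.2.1 i))
        (p ^ j • (hy.endLift hn hF hξ z hz).pt F (z.comp φ) k)
      have b2 := Ideal.mem_of_dvd _ (sub_dvd_pow_sub_pow _ _ (p ^ n)) ih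
      have := add_mem b1 b2
      rwa [sub_add_sub_cancel, ← mul_nsmul', ← pow_succ', ← pow_mul, ← pow_succ] at this
  have a4 := ev_congr (z.comp φ) (rad2 hgk (p ^ m • (hy.endLift hn hF hξ z hz).pt F
    (z.comp φ) k).mem) (rad2 hgk hpw) (𝔠 := Adic.I) (fun i => by
      fin_cases i
      · simp
      · simpa using neg_mem (a3 m)) F.toPowerSeries
  have := add_mem (add_mem a1 a2) a4
  rw [sub_add_sub_cancel, sub_add_sub_cancel] at this
  rw [Pt.add_val, Pt.hom_val, ev1_map _ _ (hy.pt F z k).mem]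
  exact this

end

/-- Lipschitz estimate in characteristic zero. -/
theorem exists_lipschitz (hn : 0 < n) (hF : IsLubinTate p n F) {K : Type} [NormedField K]
    [IsUltrametricDist K] [HasPi K] [CompleteSpace K] (hp0 : (p : K) ≠ 0) (z : LTRing p n →+* O K)
    (hz : ∀ x ∈ heightIdeal p n n, z x ∈ (Adic.I : Ideal (O K))) :
    ∃ A : ℝ, ∀ m, 0 < m → ∀ ξ φ, IsEndLift p n F ξ → IsAct p n F m ξ φ → ∀ r,
      ‖(z (φ r) : K) - z r‖ ≤ A * ‖(p : K)‖ ^ m := by
  have hp : 0 < ‖(p : K)‖ := norm_pos_iff.2 hp0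
  have hπ := norm_pi_pos (K := K)
  have hπ1 := (HasPi.lt (K := K)).le
  have hpπ : ‖(p : K)‖ ≤ ‖(HasPi.ϖ : K)‖ := by simpa [mem_I_O] using p_mem_I_of hn z hz
  obtain ⟨N, hN⟩ := exists_pi_pow_lt (K := K) hp
  let ρ : ℕ → ℝ := fun j => ‖(HasPi.ϖ : K)‖ ^ (min j N + 1) * ‖(p : K)‖ ^ (j - N)
  have hρ : ∀ j, 0 < ρ j := fun j => by positivity
  have hle : ∀ j, ρ j ≤ ‖(HasPi.ϖ : K)‖ ^ (min j N + 1) := fun j =>
    mul_le_of_le_one_right (by positivity) (pow_le_one₀ hp.le (hpπ.trans hπ1))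
  have hstep : ∀ j t, t ≤ ‖(p : K)‖ ∨ t ≤ ρ j → t * ρ j ≤ ρ (j + 1) := by
    intro j t ht
    rcases lt_or_ge j N with hj | hj
    · have h1 : t ≤ ‖(HasPi.ϖ : K)‖ := ht.elim (·.trans hpπ) fun h =>
        h.trans ((hle j).trans (pow_le_of_le_one hπ.le hπ1 (by omega)))
      have : ρ (j + 1) = ‖(HasPi.ϖ : K)‖ * ρ j := by
        simp only [ρ]
        rw [min_eq_left hj.le, min_eq_left hj, Nat.sub_eq_zero_of_le hj.le,
          Nat.sub_eq_zero_of_le hj]
        ring
      rw [this]; exact mul_le_mul_of_nonneg_right h1 (hρ j).le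
    · have h1 : t ≤ ‖(p : K)‖ := ht.elim id fun h => h.trans ((hle j).trans
        ((pow_le_pow_of_le_one hπ.le hπ1 (by rw [min_eq_right hj]; omega)).trans hN.le))
      have : ρ (j + 1) = ‖(p : K)‖ * ρ j := by
        simp only [ρ]
        rw [min_eq_right hj, min_eq_right (by omega), show j + 1 - N = j - N + 1 by omega]
        ring
      rw [this]; exact mul_le_mul_of_nonneg_right h1 (hρ j).le
  refine ⟨(‖(p : K)‖ ^ N)⁻¹, fun m hm ξ φ hξ hφ r => ?_⟩
  have key := IsAct.sub_mem hn hF hm hξ hφ (fun j => (ball K (ρ j)).comap z)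
    (fun x hx => by
      rw [Ideal.mem_comap, mem_ball (hρ 0).le]
      simpa [ρ, mem_I_O] using hz x hx)
    (by
      obtain ⟨M, hM⟩ := ball_open (K := K) (hρ m)
      exact ⟨M, (map_height_pow z hz M).trans (Ideal.comap_mono hM)⟩)
    (fun j i x hx => by
      have h1 := Ideal.le_comap_pow z i hx
      rw [Ideal.mem_comap] at h1
      have h2 := (mem_ball (by positivity)).1 (ball_pow (hρ j).le i h1)
      rw [Ideal.mem_comap, map_mul, mem_ball (hρ _).le, Subring.coe_mul, norm_mul]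
      rcases i with _ | _ | i
      · rw [PowerSeries.coeff_zero_eq_constantCoeff_apply, Ideals.cc_mul]
        simpa using (hρ _).le
      · rw [zero_add, coeff_one_mulSeries, map_natCast]
        refine le_trans (mul_le_mul_of_nonneg_left (by simpa using h2) (norm_nonneg _))
          (hstep j _ (Or.inl (by simp)))
      · refine le_trans (mul_le_of_le_one_left (norm_nonneg _) (norm_O_le _)) (h2.trans ?_)
        rw [pow_succ]
        exact hstep j _ (Or.inr (pow_le_of_le_one (hρ j).le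
          ((hle j).trans (pow_le_one₀ hπ.le hπ1)) (by omega)))) r
  rw [Ideal.mem_comap, mem_ball (hρ m).le, map_sub] at key
  refine le_trans key ?_
  rw [inv_mul_eq_div, le_div_iff₀ (by positivity)]
  refine le_trans (mul_le_mul_of_nonneg_right (mul_le_of_le_one_left (by positivity)
    (pow_le_one₀ hπ.le hπ1)) (by positivity)) ?_
  rw [← pow_add]
  exact pow_le_pow_of_le_one hp.le (hpπ.trans hπ1) (by omega)

theorem isEndLift_zero : IsEndLift p n F 0 := ⟨by simp, by simpa using isHom_zero _ _⟩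

theorem IsEndLift.add [F.IsComm] {ξ ξ' : PowerSeries (LTRing p n)} (h : IsEndLift p n F ξ)
    (h' : IsEndLift p n F ξ') : IsEndLift p n F (F.toPowerSeries.subst ![ξ, ξ']) := by
  refine ⟨cc_subst2 h.zero h'.zero F, ?_⟩
  have := MvPowerSeries.map_subst (h := res p n) (Ideals.has_two h.zero h'.zero) F.toPowerSeries
  rw [comp2] at this
  change IsHom _ _ (MvPowerSeries.map (res p n) _)
  rw [this]
  exact h.hom.add h'.hom

end Vale.Agent.P217
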