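import Vale.Agent.P217.Defs

/-! Adically complete rings and evaluation of power series at topologically nilpotent elements. -/

namespace Vale.Agent.P217

open Finset MvPowerSeries

/-- A ring with a distinguished ideal for which it is complete and separated. -/
class Adic (S : Type) [CommRing S] where
  I : Ideal S
  haus : ∀ x : S, (∀ n : ℕ, x ∈ I ^ n) → x = 0
  prec : ∀ f : ℕ → S, (∀ n, f (n + 1) - f n ∈ I ^ n) → ∃ L, ∀ n, L - f n ∈ I ^ n

/-- The topologically nilpotent elements. -/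
def rad (S : Type) [CommRing S] [Adic S] : Ideal S := (Adic.I : Ideal S).radical

/-- The discrete structure. -/
@[reducible] def Adic.discrete (S : Type) [CommRing S] : Adic S where
  I := ⊥
  haus x h := by simpa using h 1
  prec f h := ⟨f 1, fun n => by
    rcases n with _ | n
    · simp
    · have : ∀ m, f (m + 1) = f 1 := by
        intro m
        induction m with
        | zero => rfl
        | succ m ih =>
          have := h (m + 1)
          rw [Ideal.bot_pow (Nat.succ_ne_zero _), Ideal.mem_bot, sub_eq_zero] at this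
          rw [this, ih]
      simp [this n]⟩

section basic
variable {S : Type} [CommRing S] [Adic S]

theorem I_le_rad : (Adic.I : Ideal S) ≤ rad S := Ideal.le_radical

theorem Adic.isAdicComplete : IsAdicComplete (Adic.I : Ideal S) S where
  haus' x h := Adic.haus x fun n => by simpa [SModEq.zero] using h n
  prec' f h := by
    obtain ⟨L, hL⟩ := Adic.prec f fun n => by
      have := (h (Nat.le_succ n)).symm
      simpa [SModEq.sub_mem] using this
    refine ⟨L, fun n => ?_⟩
    have := hL n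
    refine SModEq.symm ?_
    simpa [SModEq.sub_mem] using this

theorem exists_pow_le_of_le_rad {J : Ideal S} (hJ : J.FG) (h : J ≤ rad S) (n : ℕ) :
    ∃ N, J ^ N ≤ (Adic.I : Ideal S) ^ n := by
  obtain ⟨c, hc⟩ := Ideal.exists_pow_le_of_le_radical_of_fg h hJ
  exact ⟨c * n, by rw [pow_mul]; exact Ideal.pow_right_mono hc n⟩

theorem exists_span_pow_le {σ : Type} [Finite σ] {a : σ → S} (h : ∀ i, a i ∈ rad S) (n : ℕ) :
    ∃ N, Ideal.span (Set.range a) ^ N ≤ (Adic.I : Ideal S) ^ n :=
  exists_pow_le_of_le_rad (Submodule.fg_span (Set.finite_range a))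
    (Ideal.span_le.2 (by rintro _ ⟨i, rfl⟩; exact h i)) n

theorem exists_pow_mem {a : S} (h : a ∈ rad S) (n : ℕ) :
    ∃ N, a ^ N ∈ (Adic.I : Ideal S) ^ n := by
  obtain ⟨c, hc⟩ := h
  exact ⟨c * n, by rw [pow_mul]; exact Ideal.pow_mem_pow hc n⟩

theorem eq_of_forall_sub_mem {x y : S} (h : ∀ n : ℕ, x - y ∈ (Adic.I : Ideal S) ^ n) : x = y :=
  sub_eq_zero.1 (Adic.haus _ h)

/-- Convergence of a sequence whose differences eventually lie in every power of `I`. -/
theorem exists_lim (f : ℕ → S)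
    (h : ∀ n, ∃ N, ∀ m, N ≤ m → f (m + 1) - f m ∈ (Adic.I : Ideal S) ^ n) :
    ∃ L, ∀ n, ∃ N, ∀ m, N ≤ m → L - f m ∈ (Adic.I : Ideal S) ^ n := by
  choose N hN using h
  have tel : ∀ n m k, N n ≤ m → f (m + k) - f m ∈ (Adic.I : Ideal S) ^ n := by
    intro n m k hm
    induction k with
    | zero => simp
    | succ k ih =>
      have := Ideal.add_mem _ (hN n (m + k) (by omega)) ih
      simpa [add_assoc] using this
  let M : ℕ → ℕ := fun n => (range (n + 1)).sup N
  have hM : ∀ n, N n ≤ M n := fun n => le_sup (f := N) (self_mem_range_succ n)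
  have hM' : ∀ n, M n ≤ M (n + 1) := fun n => sup_mono (by simp)
  obtain ⟨L, hL⟩ := Adic.prec (fun n => f (M n)) fun n => by
    obtain ⟨k, hk⟩ := Nat.exists_eq_add_of_le (hM' n)
    simp only [hk]
    exact tel n _ k (hM n)
  refine ⟨L, fun n => ⟨M n, fun m hm => ?_⟩⟩
  obtain ⟨k, rfl⟩ := Nat.exists_eq_add_of_le hm
  have := Ideal.sub_mem _ (hL n) (tel n _ k (hM n))
  simpa using this

/-- Tail sums of `∑ c ^ j * d j`. -/
theorem exists_tail {c : S} (hc : c ∈ rad S) (d : ℕ → S) :
    ∃ s : ℕ → S, ∀ k, s k = d k + c * s (k + 1) := by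
  have H : ∀ k, ∃ L, ∀ n, ∃ N, ∀ m, N ≤ m →
      L - ∑ j ∈ range m, c ^ j * d (k + j) ∈ (Adic.I : Ideal S) ^ n := by
    intro k
    refine exists_lim _ fun n => ?_
    obtain ⟨N, hN⟩ := exists_pow_mem hc n
    refine ⟨N, fun m hm => ?_⟩
    obtain ⟨j, rfl⟩ := Nat.exists_eq_add_of_le hm
    rw [sum_range_succ, add_sub_cancel_left, pow_add, mul_assoc]
    exact Ideal.mul_mem_right _ _ hN
  choose s hs using H
  refine ⟨s, fun k => eq_of_forall_sub_mem fun n => ?_⟩
  obtain ⟨N, hN⟩ := hs k n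
  obtain ⟨N', hN'⟩ := hs (k + 1) n
  have h1 := hN (N + N' + 1) (by omega)
  have h2 := Ideal.mul_mem_left _ c (hN' (N + N') (by omega))
  have h3 := Ideal.sub_mem _ h1 h2
  rw [sum_range_succ'] at h3
  have e : ∑ j ∈ range (N + N'), c ^ (j + 1) * d (k + (j + 1)) =
      c * ∑ j ∈ range (N + N'), c ^ j * d (k + 1 + j) := by
    rw [mul_sum]
    refine sum_congr rfl fun j _ => ?_
    rw [pow_succ', mul_assoc, add_assoc, add_comm 1 j]
  rw [e] at h3
  have e2 : s k - (d k + c * s (k + 1)) =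
      s k - (c * ∑ j ∈ range (N + N'), c ^ j * d (k + 1 + j) + c ^ 0 * d (k + 0)) -
        c * (s (k + 1) - ∑ j ∈ range (N + N'), c ^ j * d (k + 1 + j)) := by
    simp only [pow_zero, add_zero]; ring
  rw [e2]; exact h3

theorem isUnit_one_add {x : S} (hx : x ∈ rad S) : IsUnit (1 + x) := by
  obtain ⟨s, hs⟩ := exists_tail ((rad S).neg_mem hx) fun _ => 1
  have h : ∀ k, s k = s (k + 1) := by
    intro k
    refine eq_of_forall_sub_mem fun n => ?_
    obtain ⟨N, hN⟩ := exists_pow_mem ((rad S).neg_mem hx) n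
    have : ∀ j k, s k - s (k + 1) = (-x) ^ j * (s (k + j) - s (k + j + 1)) := by
      intro j
      induction j with
      | zero => simp
      | succ j ih =>
        intro k
        have e1 := hs (k + j)
        have e2 := hs (k + j + 1)
        rw [ih k, pow_succ, ← add_assoc]
        linear_combination (-x) ^ j * (e1 - e2)
    rw [this N k]
    exact Ideal.mul_mem_right _ _ hN
  refine IsUnit.of_mul_eq_one (s 0) ?_
  have := hs 0
  rw [← h 0] at this
  linear_combination this

theorem isUnit_of_sub_mem {u v : S} (hu : IsUnit u) (h : v - u ∈ rad S) : IsUnit v := by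
  obtain ⟨u, rfl⟩ := hu
  have : v = u * (1 + (↑u⁻¹ : S) * (v - u)) := by
    rw [mul_add, ← mul_assoc, Units.mul_inv]; ring
  rw [this]
  exact u.isUnit.mul (isUnit_one_add (Ideal.mul_mem_left _ _ h))

end basic

section span
variable {R : Type} [CommRing R] {σ : Type}

theorem exists_eq_sum_X_mul [Fintype σ] (f : MvPowerSeries σ R) (h0 : constantCoeff f = 0) :
    ∃ g : σ → MvPowerSeries σ R, f = ∑ i, X i * g i ∧
      ∀ i e, coeff e (g i) = 0 ∨ coeff e (g i) = coeff (e + Finsupp.single i 1) f := by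
  classical
  have hsel : ∀ d : σ →₀ ℕ, d ≠ 0 → ∃ i, d i ≠ 0 := fun d hd => by
    by_contra hc
    push Not at hc
    exact hd (Finsupp.ext hc)
  choose sel hsel using hsel
  have hne : ∀ (i : σ) (e : σ →₀ ℕ), e + Finsupp.single i 1 ≠ 0 := by
    intro i e h
    have := DFunLike.congr_fun h i
    simp at this
  let g : σ → MvPowerSeries σ R := fun i e =>
    if sel _ (hne i e) = i then coeff (e + Finsupp.single i 1) f else 0
  have hg : ∀ i e, coeff e (g i) =
      if sel _ (hne i e) = i then coeff (e + Finsupp.single i 1) f else 0 := fun _ _ => rfl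
  refine ⟨g, ?_, fun i e => ?_⟩
  · ext d
    rw [map_sum]
    by_cases hd : d = 0
    · subst hd
      simp [h0]
    · rw [sum_eq_single (sel d hd)]
      · have hle : Finsupp.single (sel d hd) 1 ≤ d := by
          rw [Finsupp.single_le_iff]; exact Nat.one_le_iff_ne_zero.2 (hsel d hd)
        rw [X_def, coeff_monomial_mul, if_pos hle, one_mul, hg]
        have : d - Finsupp.single (sel d hd) 1 + Finsupp.single (sel d hd) 1 = d :=
          tsub_add_cancel_of_le hle
        simp only [this, if_true]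
      · intro i _ hi
        rw [X_def, coeff_monomial_mul]
        split_ifs with hle
        · have : d - Finsupp.single i 1 + Finsupp.single i 1 = d := tsub_add_cancel_of_le hle
          rw [one_mul, hg]
          simp only [this]
          rw [if_neg (Ne.symm hi)]
        · rfl
      · simp
  · rw [hg]
    split_ifs
    · exact Or.inr rfl
    · exact Or.inl rfl

theorem degree_add_single (e : σ →₀ ℕ) (i : σ) :
    (e + Finsupp.single i 1).degree = e.degree + 1 := by
  rw [map_add, Finsupp.degree_single]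

theorem mem_pow_span_X [Finite σ] (N : ℕ) (f : MvPowerSeries σ R)
    (h : ∀ d : σ →₀ ℕ, d.degree < N → coeff d f = 0) :
    f ∈ Ideal.span (Set.range (X : σ → MvPowerSeries σ R)) ^ N := by
  cases nonempty_fintype σ
  induction N generalizing f with
  | zero => simp
  | succ N ih =>
    obtain ⟨g, hg, hg'⟩ := exists_eq_sum_X_mul f (by simpa using h 0 (by simp))
    rw [hg, pow_succ']
    refine Ideal.sum_mem _ fun i _ => Ideal.mul_mem_mul (Ideal.subset_span ⟨i, rfl⟩) (ih _ ?_)
    intro d hd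
    rcases hg' i d with h1 | h1
    · exact h1
    · rw [h1]; exact h _ (by rw [degree_add_single]; omega)

theorem sub_truncTotal_mem [Finite σ] (N : ℕ) (f : MvPowerSeries σ R) :
    f - (truncTotal N f : MvPolynomial σ R) ∈
      Ideal.span (Set.range (X : σ → MvPowerSeries σ R)) ^ N := by
  refine mem_pow_span_X N _ fun d hd => ?_
  rw [map_sub, MvPolynomial.coeff_coe, coeff_truncTotal _ hd, sub_self]

theorem map_mem_pow_of_X {T : Type} [CommRing T] [Finite σ] (ψ : MvPowerSeries σ R →+* T)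
    {𝔠 : Ideal T} (h : ∀ i, ψ (X i) ∈ 𝔠) (N : ℕ) (f : MvPowerSeries σ R)
    (hf : ∀ d : σ →₀ ℕ, d.degree < N → coeff d f = 0) : ψ f ∈ 𝔠 ^ N := by
  have h1 := Ideal.mem_map_of_mem ψ (mem_pow_span_X N f hf)
  rw [Ideal.map_pow] at h1
  refine Ideal.pow_right_mono ?_ N h1
  rw [Ideal.map_span, Ideal.span_le]
  rintro _ ⟨_, ⟨i, rfl⟩, rfl⟩
  exact h i

theorem hom_coe {T : Type} [CommRing T] (ψ : MvPowerSeries σ R →+* T) (P : MvPolynomial σ R) :
    ψ P = MvPolynomial.eval₂ (ψ.comp C) (fun i => ψ (X i)) P := by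
  induction P using MvPolynomial.induction_on with
  | C a => simp
  | add p q hp hq => simp [hp, hq]
  | mul_X p i hp => simp [hp]

/-- Two ring maps out of a power series ring into a separated ring agree if they agree on
constants and variables, the latter going to topologically nilpotent elements. -/
theorem hom_ext_of_haus {T : Type} [CommRing T] [Finite σ] (J : Ideal T)
    (hJ : ∀ x : T, (∀ n : ℕ, x ∈ J ^ n) → x = 0) {ψ₁ ψ₂ : MvPowerSeries σ R →+* T}
    (hr : ∀ i, ψ₁ (X i) ∈ J.radical) (hC : ∀ r, ψ₁ (C r) = ψ₂ (C r))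
    (hX : ∀ i, ψ₁ (X i) = ψ₂ (X i)) : ψ₁ = ψ₂ := by
  ext f
  rw [← sub_eq_zero]
  refine hJ _ fun n => ?_
  let 𝔠 : Ideal T := Ideal.span (Set.range fun i => ψ₁ (X i))
  obtain ⟨c, hc⟩ := Ideal.exists_pow_le_of_le_radical_of_fg (I := 𝔠) (J := J)
    (Ideal.span_le.2 (by rintro _ ⟨i, rfl⟩; exact hr i)) (Submodule.fg_span (Set.finite_range _))
  have hle : 𝔠 ^ (c * n) ≤ J ^ n := by rw [pow_mul]; exact Ideal.pow_right_mono hc n
  set P : MvPolynomial σ R := truncTotal (c * n) f
  have hz : ∀ d : σ →₀ ℕ, d.degree < c * n → coeff d (f - (P : MvPowerSeries σ R)) = 0 :=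
      fun d hd => by
    rw [map_sub, MvPolynomial.coeff_coe, coeff_truncTotal _ hd, sub_self]
  have h1 : ψ₁ (f - P) ∈ 𝔠 ^ (c * n) :=
    map_mem_pow_of_X ψ₁ (fun i => Ideal.subset_span (Set.mem_range_self i)) _ _ hz
  have h2 : ψ₂ (f - P) ∈ 𝔠 ^ (c * n) :=
    map_mem_pow_of_X ψ₂ (fun i => hX i ▸ Ideal.subset_span (Set.mem_range_self i)) _ _ hz
  have h3 : ψ₁ P = ψ₂ P := by
    rw [hom_coe ψ₁, hom_coe ψ₂]
    have : ψ₁.comp C = ψ₂.comp C := RingHom.ext hC
    simp only [this, hX]
  have := Ideal.sub_mem _ h1 h2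
  rw [map_sub, map_sub, h3] at this
  exact hle (by simpa using this)

theorem hom_ext {T : Type} [CommRing T] [Adic T] [Finite σ] {ψ₁ ψ₂ : MvPowerSeries σ R →+* T}
    (hr : ∀ i, ψ₁ (X i) ∈ rad T) (hC : ∀ r, ψ₁ (C r) = ψ₂ (C r))
    (hX : ∀ i, ψ₁ (X i) = ψ₂ (X i)) : ψ₁ = ψ₂ :=
  hom_ext_of_haus Adic.I Adic.haus hr hC hX

end span

section ev
variable {R S : Type} [CommRing R] [CommRing S] {σ : Type} [Finite σ]

theorem exists_ev_nilp (φ : R →+* S) (a : σ → S) (ha : ∀ i, IsNilpotent (a i)) :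
    ∃ ψ : MvPowerSeries σ R →+* S, (∀ r, ψ (C r) = φ r) ∧ ∀ i, ψ (X i) = a i := by
  have hs : HasSubst (fun i => (C (a i) : MvPowerSeries Empty S)) :=
    hasSubst_of_constantCoeff_nilpotent fun i => by simpa using ha i
  refine ⟨constantCoeff.comp ((substAlgHom hs).toRingHom.comp (MvPowerSeries.map φ)), ?_, ?_⟩
  · intro r
    simp [subst_C]
  · intro i
    simp [subst_X hs]

variable [Adic S]

theorem exists_ev (φ : R →+* S) (a : σ → S) (ha : ∀ i, a i ∈ rad S) :
    ∃ ψ : MvPowerSeries σ R →+* S, (∀ r, ψ (C r) = φ r) ∧ ∀ i, ψ (X i) = a i := by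
  have := Adic.isAdicComplete (S := S)
  have hn : ∀ (n : ℕ) i, IsNilpotent (Ideal.Quotient.mk ((Adic.I : Ideal S) ^ n) (a i)) := by
    intro n i
    obtain ⟨N, hN⟩ := exists_pow_mem (ha i) n
    exact ⟨N, by rw [← map_pow, Ideal.Quotient.eq_zero_iff_mem]; exact hN⟩
  choose ψ hC hX using fun n : ℕ => exists_ev_nilp
    ((Ideal.Quotient.mk ((Adic.I : Ideal S) ^ n)).comp φ) _ (hn n)
  have hc : ∀ {m n : ℕ} (hle : m ≤ n),
      (Ideal.Quotient.factorPow (Adic.I : Ideal S) hle).comp (ψ n) = ψ m := by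
    intro m n hle
    refine hom_ext_of_haus ⊥ (fun x h => by simpa using h 1) (fun i => ?_) (fun r => ?_) fun i => ?_
    · simp only [RingHom.comp_apply, hX]
      exact (hn m i)
    · simp [hC]
    · simp [hX]
  refine ⟨IsAdicComplete.liftRingHom Adic.I ψ hc, fun r => ?_, fun i => ?_⟩
  · refine eq_of_forall_sub_mem fun n => ?_
    rw [← Ideal.Quotient.eq, IsAdicComplete.mk_liftRingHom, hC]; rfl
  · refine eq_of_forall_sub_mem fun n => ?_
    rw [← Ideal.Quotient.eq, IsAdicComplete.mk_liftRingHom, hX]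

open Classical in
/-- Evaluation of power series at topologically nilpotent elements. -/
noncomputable def ev (φ : R →+* S) (a : σ → S) : MvPowerSeries σ R →+* S :=
  if h : ∀ i, a i ∈ rad S then (exists_ev φ a h).choose else φ.comp constantCoeff

@[simp] theorem ev_C (φ : R →+* S) (a : σ → S) (r : R) : ev φ a (C r) = φ r := by
  unfold ev
  split_ifs with h
  · exact (exists_ev φ a h).choose_spec.1 r
  · simp

theorem ev_X (φ : R →+* S) {a : σ → S} (ha : ∀ i, a i ∈ rad S) (i : σ) : ev φ a (X i) = a i := by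
  unfold ev
  rw [dif_pos ha]
  exact (exists_ev φ a ha).choose_spec.2 i

theorem ev_comp_C (φ : R →+* S) (a : σ → S) : (ev φ a).comp C = φ := RingHom.ext (ev_C φ a)

theorem eq_ev {φ : R →+* S} {a : σ → S} (ha : ∀ i, a i ∈ rad S)
    (ψ : MvPowerSeries σ R →+* S) (hC : ∀ r, ψ (C r) = φ r) (hX : ∀ i, ψ (X i) = a i) :
    ψ = ev φ a :=
  hom_ext (fun i => hX i ▸ ha i) (fun r => by rw [hC, ev_C]) fun i => by rw [hX, ev_X φ ha]

theorem ev_coe (φ : R →+* S) {a : σ → S} (ha : ∀ i, a i ∈ rad S) (P : MvPolynomial σ R) :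
    ev φ a P = MvPolynomial.eval₂ φ a P := by
  rw [hom_coe, ev_comp_C]
  simp only [ev_X φ ha]

theorem ev_monomial (φ : R →+* S) {a : σ → S} (ha : ∀ i, a i ∈ rad S) (d : σ →₀ ℕ) (r : R) :
    ev φ a (monomial d r) = φ r * d.prod fun i k => a i ^ k := by
  rw [← MvPolynomial.coe_monomial, ev_coe φ ha, MvPolynomial.eval₂_monomial]

theorem hom_ev {T : Type} [CommRing T] [Adic T] (ψ : S →+* T) (φ : R →+* S) {a : σ → S}
    (ha : ∀ i, a i ∈ rad S) (hb : ∀ i, ψ (a i) ∈ rad T) (f : MvPowerSeries σ R) :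
    ψ (ev φ a f) = ev (ψ.comp φ) (fun i => ψ (a i)) f := by
  have := eq_ev (φ := ψ.comp φ) hb (ψ.comp (ev φ a)) (by simp) (fun i => by simp [ev_X φ ha])
  exact DFunLike.congr_fun this f

theorem ev_map {R' : Type} [CommRing R'] (χ : R' →+* R) (φ : R →+* S) {a : σ → S}
    (ha : ∀ i, a i ∈ rad S) (f : MvPowerSeries σ R') :
    ev φ a (MvPowerSeries.map χ f) = ev (φ.comp χ) a f := by
  have := eq_ev (φ := φ.comp χ) ha ((ev φ a).comp (MvPowerSeries.map χ)) (by simp)
    (fun i => by simp [ev_X φ ha])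
  exact DFunLike.congr_fun this f

theorem ev_mem_pow (φ : R →+* S) {a : σ → S} (ha : ∀ i, a i ∈ rad S) {𝔠 : Ideal S}
    (h : ∀ i, a i ∈ 𝔠) (N : ℕ) {f : MvPowerSeries σ R}
    (hf : ∀ d : σ →₀ ℕ, d.degree < N → coeff d f = 0) : ev φ a f ∈ 𝔠 ^ N :=
  map_mem_pow_of_X _ (fun i => by rw [ev_X φ ha]; exact h i) N f hf

theorem ev_sub_constantCoeff_mem (φ : R →+* S) {a : σ → S} (ha : ∀ i, a i ∈ rad S) {𝔠 : Ideal S}
    (h : ∀ i, a i ∈ 𝔠) (f : MvPowerSeries σ R) : ev φ a f - φ (constantCoeff f) ∈ 𝔠 := by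
  have := ev_mem_pow φ ha h 1 (f := f - C (constantCoeff f)) fun d hd => by
    have : d = 0 := (Finsupp.degree_eq_zero_iff d).1 (by omega)
    subst this; simp
  simpa using this

theorem ev_mem_of_constantCoeff (φ : R →+* S) {a : σ → S} (ha : ∀ i, a i ∈ rad S) {𝔠 : Ideal S}
    (h : ∀ i, a i ∈ 𝔠) {f : MvPowerSeries σ R} (hf : φ (constantCoeff f) ∈ 𝔠) :
    ev φ a f ∈ 𝔠 := by
  simpa using Ideal.add_mem _ (ev_sub_constantCoeff_mem φ ha h f) hf

theorem ev_mem_rad (φ : R →+* S) {a : σ → S} (ha : ∀ i, a i ∈ rad S) {f : MvPowerSeries σ R}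
    (hf : constantCoeff f = 0) : ev φ a f ∈ rad S :=
  ev_mem_of_constantCoeff φ ha ha (by simp [hf])

theorem ev_zero (φ : R →+* S) (f : MvPowerSeries σ R) :
    ev φ (fun _ => 0) f = φ (constantCoeff f) := by
  have := ev_sub_constantCoeff_mem φ (a := fun _ : σ => (0 : S)) (fun _ => zero_mem _) (𝔠 := ⊥)
    (fun _ => zero_mem _) f
  simpa [sub_eq_zero] using this

theorem ev_subst {τ : Type} [Finite τ] (φ : R →+* S) {a : τ → S} (ha : ∀ i, a i ∈ rad S)
    {b : σ → MvPowerSeries τ R} (hb : ∀ i, constantCoeff (b i) = 0) (f : MvPowerSeries σ R) :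
    ev φ a (subst b f) = ev φ (fun i => ev φ a (b i)) f := by
  have hs := hasSubst_of_constantCoeff_zero hb
  have := eq_ev (φ := φ) (a := fun i => ev φ a (b i)) (fun i => ev_mem_rad φ ha (hb i))
    ((ev φ a).comp (substAlgHom hs).toRingHom) (by simp [subst_C]) (fun i => by simp [subst_X hs])
  simpa using DFunLike.congr_fun this f

/-- Coefficients in an open ideal. -/
theorem ev_mem_of_coeff (φ : R →+* S) {a : σ → S} (ha : ∀ i, a i ∈ rad S) {𝔠 : Ideal S}
    (hopen : ∃ N, (Adic.I : Ideal S) ^ N ≤ 𝔠) {f : MvPowerSeries σ R}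
    (hf : ∀ d, φ (coeff d f) ∈ 𝔠) : ev φ a f ∈ 𝔠 := by
  obtain ⟨N, hN⟩ := hopen
  obtain ⟨M, hM⟩ := exists_span_pow_le ha N
  set P : MvPolynomial σ R := truncTotal M f
  have h1 : ev φ a (f - P) ∈ 𝔠 := by
    refine hN (hM (ev_mem_pow φ ha (fun i => Ideal.subset_span (Set.mem_range_self i)) M
      fun d hd => ?_))
    rw [map_sub, MvPolynomial.coeff_coe, coeff_truncTotal _ hd, sub_self]
  have h2 : ev φ a P ∈ 𝔠 := by
    rw [ev_coe φ ha, MvPolynomial.eval₂_eq]
    refine Ideal.sum_mem _ fun d _ => Ideal.mul_mem_right _ _ ?_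
    rw [coeff_truncTotal_eq_ite]
    split_ifs
    · exact hf d
    · simp
  simpa using Ideal.add_mem _ h1 h2

/-- Coefficients in a principal ideal. -/
theorem ev_mem_span_of_coeff (φ : R →+* S) {a : σ → S} (ha : ∀ i, a i ∈ rad S) {c : S}
    {f : MvPowerSeries σ R} (hf : ∀ d, φ (coeff d f) ∈ Ideal.span {c}) :
    ev φ a f ∈ Ideal.span {c} := by
  simp only [Ideal.mem_span_singleton'] at hf
  choose g hg using hf
  have : MvPowerSeries.map φ f = C c * (show MvPowerSeries σ S from g) := by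
    ext d
    rw [coeff_map, coeff_C_mul, ← hg, mul_comm]; rfl
  rw [← RingHom.id_comp φ, ← ev_map φ (RingHom.id S) ha, this, map_mul, ev_C]
  exact Ideal.mul_mem_right _ _ (Ideal.subset_span rfl)

end ev

section ps
variable (S : Type) [CommRing S] [Adic S] (τ : Type)

/-- The filtration by total order of vanishing. -/
def filt (N : ℕ) : Ideal (MvPowerSeries τ S) where
  carrier := {f | ∀ d : τ →₀ ℕ, coeff d f ∈ (Adic.I : Ideal S) ^ (N - d.degree)}
  add_mem' hf hg d := by rw [map_add]; exact Ideal.add_mem _ (hf d) (hg d)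
  zero_mem' d := by simp
  smul_mem' g f hf d := by
    classical
    rw [smul_eq_mul, coeff_mul]
    refine Ideal.sum_mem _ fun x hx => Ideal.mul_mem_left _ _ ?_
    refine Ideal.pow_le_pow_right ?_ (hf x.2)
    have := congrArg Finsupp.degree (mem_antidiagonal.1 hx)
    rw [map_add] at this
    omega

variable {S τ}

theorem mem_filt {N : ℕ} {f : MvPowerSeries τ S} :
    f ∈ filt S τ N ↔ ∀ d : τ →₀ ℕ, coeff d f ∈ (Adic.I : Ideal S) ^ (N - d.degree) := Iff.rfl

theorem filt_mul (a b : ℕ) : filt S τ a * filt S τ b ≤ filt S τ (a + b) := by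
  classical
  refine Ideal.mul_le.2 fun f hf g hg d => ?_
  rw [coeff_mul]
  refine Ideal.sum_mem _ fun x hx => ?_
  refine Ideal.pow_le_pow_right (n := (a - x.1.degree) + (b - x.2.degree)) ?_ ?_
  · have := congrArg Finsupp.degree (mem_antidiagonal.1 hx)
    rw [map_add] at this
    omega
  · rw [pow_add]; exact Ideal.mul_mem_mul (hf x.1) (hg x.2)

theorem pow_eq_filt [Finite τ] (N : ℕ) :
    ((Adic.I : Ideal S).map (C : S →+* MvPowerSeries τ S) ⊔ Ideal.span (Set.range X)) ^ N =
      filt S τ N := by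
  classical
  cases nonempty_fintype τ
  apply le_antisymm
  · induction N with
    | zero => intro f _ d; simp
    | succ N ih =>
      rw [pow_succ]
      refine le_trans (Ideal.mul_mono ih ?_) (filt_mul N 1)
      refine sup_le (Ideal.map_le_iff_le_comap.2 fun x hx d => ?_) (Ideal.span_le.2 ?_)
      · rw [coeff_C]
        split_ifs with h
        · subst h; simpa using hx
        · simp
      · rintro _ ⟨i, rfl⟩ d
        rw [coeff_X]
        split_ifs with h
        · subst h; simp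
        · simp
  · induction N with
    | zero => simp
    | succ N ih =>
      intro f hf
      obtain ⟨g, hg, hg'⟩ := exists_eq_sum_X_mul (f - C (constantCoeff f)) (by simp)
      have : f = C (constantCoeff f) + ∑ i, X i * g i := by rw [← hg]; ring
      rw [this]
      refine Ideal.add_mem _ ?_ (Ideal.sum_mem _ fun i _ => ?_)
      · refine Ideal.pow_right_mono le_sup_left _ ?_
        rw [← Ideal.map_pow]
        exact Ideal.mem_map_of_mem _ (by simpa using hf 0)
      · rw [pow_succ']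
        refine Ideal.mul_mem_mul (Ideal.mem_sup_right (Ideal.subset_span ⟨i, rfl⟩)) (ih fun d => ?_)
        rcases hg' i d with h1 | h1
        · simp [h1]
        · have hne : d + Finsupp.single i 1 ≠ 0 := by
            intro h
            have := DFunLike.congr_fun h i
            simp at this
          rw [h1, map_sub, coeff_C, if_neg hne, sub_zero]
          have := hf (d + Finsupp.single i 1)
          rwa [degree_add_single, Nat.add_sub_add_right] at this

noncomputable instance adicPS [Finite τ] : Adic (MvPowerSeries τ S) where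
  I := (Adic.I : Ideal S).map (C : S →+* MvPowerSeries τ S) ⊔ Ideal.span (Set.range X)
  haus f h := by
    ext d
    refine Adic.haus _ fun n => ?_
    have := h (n + d.degree)
    rw [pow_eq_filt] at this
    simpa using this d
  prec f h := by
    simp only [pow_eq_filt] at h ⊢
    have H : ∀ d : τ →₀ ℕ, ∃ L, ∀ n, L - coeff d (f (n + d.degree)) ∈ (Adic.I : Ideal S) ^ n := by
      intro d
      refine Adic.prec _ fun n => ?_
      have := h (n + d.degree) d
      rw [map_sub, Nat.add_sub_cancel] at this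
      rwa [add_right_comm]
    choose L hL using H
    refine ⟨L, fun n d => ?_⟩
    by_cases hd : d.degree ≤ n
    · obtain ⟨k, rfl⟩ := Nat.exists_eq_add_of_le' hd
      rw [Nat.add_sub_cancel]
      exact hL d k
    · rw [Nat.sub_eq_zero_of_le (not_le.1 hd).le]; simp

variable [Finite τ]

theorem mem_I_pow_ps {N : ℕ} {f : MvPowerSeries τ S} :
    f ∈ (Adic.I : Ideal (MvPowerSeries τ S)) ^ N ↔
      ∀ d : τ →₀ ℕ, coeff d f ∈ (Adic.I : Ideal S) ^ (N - d.degree) := by
  rw [← mem_filt, ← pow_eq_filt]; rfl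

theorem mem_I_ps {f : MvPowerSeries τ S} :
    f ∈ (Adic.I : Ideal (MvPowerSeries τ S)) ↔ constantCoeff f ∈ (Adic.I : Ideal S) := by
  rw [← pow_one (Adic.I : Ideal (MvPowerSeries τ S)), mem_I_pow_ps]
  constructor
  · intro h; simpa using h 0
  · intro h d
    by_cases hd : d = 0
    · subst hd; simpa using h
    · have : 1 - d.degree = 0 := by
        have : d.degree ≠ 0 := fun h0 => hd ((Finsupp.degree_eq_zero_iff d).1 h0)
        omega
      simp [this]

theorem mem_rad_ps {f : MvPowerSeries τ S} :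
    f ∈ rad (MvPowerSeries τ S) ↔ constantCoeff f ∈ rad S := by
  simp only [rad, Ideal.mem_radical_iff, mem_I_ps, map_pow]

theorem mem_rad_of_constantCoeff_zero {f : MvPowerSeries τ S} (h : constantCoeff f = 0) :
    f ∈ rad (MvPowerSeries τ S) := by
  rw [mem_rad_ps, h]; exact zero_mem _

theorem X_mem_rad (i : τ) : (X i : MvPowerSeries τ S) ∈ rad (MvPowerSeries τ S) :=
  mem_rad_of_constantCoeff_zero (by simp)

theorem C_mem_rad {x : S} (hx : x ∈ rad S) : (C x : MvPowerSeries τ S) ∈ rad _ := by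
  rw [mem_rad_ps]; simpa using hx

theorem subst_eq_ev {σ : Type} [Finite σ] {b : σ → MvPowerSeries τ S}
    (hb : ∀ i, constantCoeff (b i) = 0) (f : MvPowerSeries σ S) : subst b f = ev C b f := by
  have hs := hasSubst_of_constantCoeff_zero hb
  have := eq_ev (φ := C) (a := b) (fun i => mem_rad_of_constantCoeff_zero (hb i))
    (substAlgHom hs).toRingHom (by simp [subst_C]) (fun i => by simp [subst_X hs])
  simpa using DFunLike.congr_fun this f

theorem ev_C_X (f : MvPowerSeries τ S) : ev C X f = f := by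
  rw [← subst_eq_ev (by simp), subst_self]; rfl

theorem ev_map_X {R : Type} [CommRing R] (φ : R →+* S) (f : MvPowerSeries τ R) :
    ev (C.comp φ) X f = MvPowerSeries.map φ f := by
  rw [← ev_map φ C X_mem_rad, ev_C_X]

theorem constantCoeff_ev {R σ : Type} [CommRing R] [Finite σ] (φ : R →+* MvPowerSeries τ S)
    {b : σ → MvPowerSeries τ S} (hb : ∀ i, b i ∈ rad _) (f : MvPowerSeries σ R) :
    constantCoeff (ev φ b f) = ev (constantCoeff.comp φ) (fun i => constantCoeff (b i)) f :=
  hom_ev constantCoeff φ hb (fun i => mem_rad_ps.1 (hb i)) f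

end ps

section congr
variable {R S : Type} [CommRing R] [CommRing S] [Adic S] {σ : Type} [Finite σ]

theorem ev_shift (φ : R →+* S) {a δ : σ → S} (ha : ∀ i, a i ∈ rad S) (hδ : ∀ i, δ i ∈ rad S)
    (f : MvPowerSeries σ R) :
    ev (RingHom.id S) δ (ev (C.comp φ) (fun i => C (a i) + X i) f) = ev φ (a + δ) f := by
  rw [hom_ev (ev (RingHom.id S) δ) _ (fun i => add_mem (C_mem_rad (ha i)) (X_mem_rad i))
    (fun i => by rw [map_add, ev_C, ev_X _ hδ]; exact add_mem (ha i) (hδ i))]
  have h1 : (ev (RingHom.id S) δ).comp (C.comp φ) = φ := by ext r; simp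
  have h2 : (fun i => ev (RingHom.id S) δ (C (a i) + X i)) = a + δ := by
    funext i; rw [map_add, ev_C, ev_X _ hδ]; rfl
  rw [h1, h2]

theorem constantCoeff_ev_shift (φ : R →+* S) {a : σ → S} (ha : ∀ i, a i ∈ rad S)
    (f : MvPowerSeries σ R) :
    constantCoeff (ev (C.comp φ) (fun i => (C (a i) + X i : MvPowerSeries σ S)) f) = ev φ a f := by
  rw [constantCoeff_ev _ (fun i => add_mem (C_mem_rad (ha i)) (X_mem_rad i))]
  have h1 : (constantCoeff : MvPowerSeries σ S →+* S).comp (C.comp φ) = φ := by ext r; simp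
  simp [h1]

theorem ev_congr (φ : R →+* S) {a b : σ → S} (ha : ∀ i, a i ∈ rad S) (hb : ∀ i, b i ∈ rad S)
    {𝔠 : Ideal S} (h : ∀ i, b i - a i ∈ 𝔠) (f : MvPowerSeries σ R) :
    ev φ b f - ev φ a f ∈ 𝔠 := by
  have hδ : ∀ i, (b - a) i ∈ rad S := fun i => sub_mem (hb i) (ha i)
  have := ev_sub_constantCoeff_mem (RingHom.id S) hδ h
    (ev (C.comp φ) (fun i => C (a i) + X i) f)
  rwa [ev_shift φ ha hδ, constantCoeff_ev_shift φ ha, add_sub_cancel] at this

end congr

end Vale.Agent.P217
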