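import Vale.Agent.P217.Valued

/-! Two ultrametric estimates. -/

namespace Vale.Agent.P217

open Finset

namespace Approx

theorem pow_sub_le {K : Type} [NormedField K] [IsUltrametricDist K] {p r : ℕ} [Fact p.Prime]
    (hr : 0 < r) {x s : K} (hx : ‖x‖ ≤ 1) (hs : ‖s‖ ≤ 1) :
    ‖x ^ p ^ r - s ^ p ^ r‖ ≤ max (‖x - s‖ * ‖x - s‖) (‖(p : K)‖ * ‖s‖ * ‖x - s‖) := by
  have hd : ‖x - s‖ ≤ 1 := by
    rw [sub_eq_add_neg]
    exact (IsUltrametricDist.norm_add_le_max _ _).trans (max_le hx (by rwa [norm_neg]))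
  obtain ⟨ρ, hρ⟩ := exists_add_pow_prime_pow_eq (Fact.out : p.Prime) (⟨s, hs⟩ : O K)
    ⟨x - s, hd⟩ r
  have h1 := congrArg Subtype.val hρ
  simp only [Subring.coe_add, Subring.coe_mul, SubmonoidClass.coe_pow, Subring.coe_natCast,
    add_sub_cancel] at h1
  rw [h1, add_assoc, add_sub_cancel_left]
  refine (IsUltrametricDist.norm_add_le_max _ _).trans (max_le_max ?_ ?_)
  · rw [norm_pow, ← sq]
    exact pow_le_pow_of_le_one (norm_nonneg _) hd
      (Nat.one_lt_pow hr.ne' (Fact.out : p.Prime).one_lt)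
  · simp only [norm_mul]
    exact mul_le_of_le_one_right (by positivity) (norm_O_le ρ)

theorem add_lt {K : Type} [NormedField K] [IsUltrametricDist K] {a b : K} {R : ℝ} (ha : ‖a‖ < R)
    (hb : ‖b‖ < R) : ‖a + b‖ < R :=
  (IsUltrametricDist.norm_add_le_max a b).trans_lt (max_lt ha hb)

theorem exists_min {v ρ Q : ℝ} (hv : 0 < v) (hρ : 0 < ρ) (hQ : 1 < Q)
    (h : ∀ k : ℤ, v * Q ^ k * (Q - 1) ≠ ρ) :
    ∃ k₀ : ℤ, ∀ k : ℤ, k ≠ k₀ → v * Q ^ k₀ - k₀ * ρ < v * Q ^ k - k * ρ := by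
  have hc : 0 < v * (Q - 1) := mul_pos hv (by linarith)
  obtain ⟨n, h1, h2⟩ := exists_mem_Ico_zpow (div_pos hρ hc) hQ
  rw [le_div_iff₀ hc] at h1
  rw [div_lt_iff₀ hc] at h2
  have h3 : Q ^ n * (v * (Q - 1)) < ρ := lt_of_le_of_ne h1 fun e => h n (by rw [← e]; ring)
  have hs : ∀ k : ℤ, Q ^ (k + 1) = Q ^ k * Q := fun k => zpow_add_one₀ (by linarith) k
  have up : ∀ k : ℤ, n + 1 ≤ k →
      v * Q ^ (n + 1) - (n + 1 : ℤ) * ρ < v * Q ^ (k + 1) - (k + 1 : ℤ) * ρ := by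
    have st : ∀ k : ℤ, n + 1 ≤ k → v * Q ^ k - k * ρ < v * Q ^ (k + 1) - (k + 1 : ℤ) * ρ := by
      intro k hk
      have := mul_le_mul_of_nonneg_right (zpow_le_zpow_right₀ hQ.le hk) hc.le
      rw [hs k]; push_cast; linarith
    intro k hk
    induction k, hk using Int.le_induction with
    | base => exact st _ le_rfl
    | succ k hk ih => exact ih.trans (st _ (by omega))
  have down : ∀ k : ℤ, k ≤ n → v * Q ^ (n + 1) - (n + 1 : ℤ) * ρ < v * Q ^ k - k * ρ := by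
    have st : ∀ k : ℤ, k ≤ n → v * Q ^ (k + 1) - (k + 1 : ℤ) * ρ < v * Q ^ k - k * ρ := by
      intro k hk
      have := mul_le_mul_of_nonneg_right (zpow_le_zpow_right₀ hQ.le hk) hc.le
      rw [hs k]; push_cast; linarith
    intro k hk
    induction k, hk using Int.le_induction_down with
    | base => exact st _ le_rfl
    | pred k hk ih =>
      have := st (k - 1) (by omega)
      rw [sub_add_cancel] at this
      exact ih.trans this
  refine ⟨n + 1, fun k hk => ?_⟩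
  rcases lt_or_gt_of_ne hk with hk | hk
  · exact down k (by omega)
  · have := up (k - 1) (by omega)
    rwa [sub_add_cancel] at this

theorem norm_frob {C : Type} [NormedField C] {p : ℕ} [Fact p.Prime] [CharP C p] [PerfectRing C p]
    (n : ℕ) (Y : C) (k : ℤ) :
    Real.log ‖((frobeniusEquiv C p : RingAut C) ^ ((n : ℤ) * k)) Y‖
      = Real.log ‖Y‖ * ((p : ℝ) ^ n) ^ k := by
  have hp : (0 : ℝ) < (p : ℝ) ^ n := pow_pos (by exact_mod_cast (Fact.out : p.Prime).pos) n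
  have h1 : ∀ (m : ℕ) (Z : C), ((frobeniusEquiv C p : RingAut C) ^ m) Z = Z ^ p ^ m := by
    intro m Z
    induction m with
    | zero => simp
    | succ m ih => rw [pow_succ', RingAut.mul_apply, ih, pow_succ, pow_mul]; rfl
  have st : ∀ k : ℤ, Real.log ‖((frobeniusEquiv C p : RingAut C) ^ ((n : ℤ) * (k + 1))) Y‖ =
      Real.log ‖((frobeniusEquiv C p : RingAut C) ^ ((n : ℤ) * k)) Y‖ * (p : ℝ) ^ n := by
    intro k
    rw [mul_add, mul_one, add_comm, zpow_add, RingAut.mul_apply, zpow_natCast, h1, norm_pow,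
      Real.log_pow, mul_comm]
    push_cast; rfl
  induction k using Int.induction_on with
  | zero => simp
  | succ k ih => rw [st, ih, zpow_add_one₀ hp.ne', mul_assoc]
  | pred k ih =>
    have := st (-(k : ℤ) - 1)
    rw [sub_add_cancel, ih] at this
    rw [zpow_sub_one₀ hp.ne', ← mul_assoc, this, mul_inv_cancel_right₀ hp.ne']

end Approx

open Approx

theorem approx_formula {K : Type} [NormedField K] [IsUltrametricDist K] {p r : ℕ} [Fact p.Prime]
    (hr : 0 < r) (hp0 : 0 < ‖(p : K)‖) (hp1 : ‖(p : K)‖ < 1) (x s : ℤ → K)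
    (hx : ∀ k, ‖x k‖ < 1) (hs : ∀ k, ‖s k‖ < 1)
    (hxr : ∀ k, x (k + 1) = p * x k + x k ^ p ^ r) (hsr : ∀ k, s (k + 1) = s k ^ p ^ r)
    (hxs : ∀ k, ‖x k - s k‖ ≤ ‖(p : K)‖) (L : K)
    (hL : Filter.Tendsto (fun k : ℕ => x k / (p : K) ^ k) Filter.atTop (nhds L))
    (R : ℝ) (k₀ : ℤ) (h1 : ∀ k : ℤ, k ≠ k₀ → ‖s k / (p : K) ^ k‖ < R)
    (h2 : ‖s k₀ / (p : K) ^ k₀‖ ≤ R) : ‖L - s k₀ / (p : K) ^ k₀‖ < R := by
  have hR : 0 < R := (norm_nonneg _).trans_lt (h1 (k₀ + 1) (by omega))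
  have hp : (p : K) ≠ 0 := norm_pos_iff.1 hp0
  have hT : ∀ k, ‖s k / (p : K) ^ k‖ ≤ R := fun k => by
    by_cases e : k = k₀
    · rw [e]; exact h2
    · exact (h1 k e).le
  have hlt : ∀ k, ‖x k - s k‖ < ‖(p : K)‖ := by
    intro k
    rw [← sub_add_cancel k 1, hxr, hsr, add_sub_assoc]
    refine add_lt ?_ ((pow_sub_le hr (hx _).le (hs _).le).trans_lt (max_lt ?_ ?_))
    · rw [norm_mul]; exact mul_lt_of_lt_one_right hp0 (hx _)
    · exact (mul_le_mul (hxs _) (hxs _) (norm_nonneg _) hp0.le).trans_lt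
        (mul_lt_of_lt_one_right hp0 hp1)
    · rw [mul_assoc]
      exact mul_lt_of_lt_one_right hp0 (mul_lt_one_of_nonneg_of_lt_one_left (norm_nonneg _) (hs _)
        ((hxs _).trans hp1.le))
  have step : ∀ k, ‖x k / (p : K) ^ k‖ ≤ R →
      ‖x (k + 1) / (p : K) ^ (k + 1) - x k / (p : K) ^ k - s (k + 1) / (p : K) ^ (k + 1)‖ < R := by
    intro k hk
    have hpk : 0 < ‖(p : K)‖ ^ k := zpow_pos hp0 k
    have e : x (k + 1) / (p : K) ^ (k + 1) - x k / (p : K) ^ k - s (k + 1) / (p : K) ^ (k + 1)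
        = (x k ^ p ^ r - s k ^ p ^ r) / ((p : K) ^ k * p) := by
      rw [hxr, hsr, zpow_add_one₀ hp]
      have := zpow_ne_zero k hp
      field_simp
      ring
    have hd : ‖x k - s k‖ ≤ R * ‖(p : K)‖ ^ k := by
      rw [← div_le_iff₀ hpk, ← norm_zpow, ← norm_div, sub_div, sub_eq_add_neg]
      exact (IsUltrametricDist.norm_add_le_max _ _).trans (max_le hk (by rw [norm_neg]; exact hT k))
    have hB : 0 < R * ‖(p : K)‖ ^ k := mul_pos hR hpk
    rw [e, norm_div, norm_mul, norm_zpow, div_lt_iff₀ (mul_pos hpk hp0), ← mul_assoc]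
    refine (pow_sub_le hr (hx _).le (hs _).le).trans_lt (max_lt ?_ ?_)
    · exact (mul_le_mul_of_nonneg_right hd (norm_nonneg _)).trans_lt
        (mul_lt_mul_of_pos_left (hlt k) hB)
    · rw [mul_comm]
      exact (mul_le_mul_of_nonneg_right hd (by positivity)).trans_lt
        (mul_lt_mul_of_pos_left (mul_lt_of_lt_one_right hp0 (hs k)) hB)
  obtain ⟨n, hn⟩ := exists_pow_lt_of_lt_one hR hp1
  have main : ∀ k, min (-(n : ℤ)) (k₀ - 1) ≤ k →
      ‖x k / (p : K) ^ k - if k₀ ≤ k then s k₀ / (p : K) ^ k₀ else 0‖ < R := by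
    intro k hk
    induction k, hk using Int.le_induction with
    | base =>
      rw [if_neg (by omega), sub_zero, norm_div, norm_zpow, div_eq_mul_inv, ← zpow_neg]
      refine (mul_lt_of_lt_one_left (zpow_pos hp0 _) (hx _)).trans (lt_of_le_of_lt ?_ hn)
      rw [← zpow_natCast]
      exact zpow_le_zpow_right_of_le_one₀ hp0 hp1.le (by omega)
    | succ k hk ih =>
      have hu : ‖x k / (p : K) ^ k‖ ≤ R := by
        rw [← sub_add_cancel (x k / (p : K) ^ k) (if k₀ ≤ k then s k₀ / (p : K) ^ k₀ else 0)]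
        refine (IsUltrametricDist.norm_add_le_max _ _).trans (max_le ih.le ?_)
        split_ifs
        · exact h2
        · rw [norm_zero]; exact hR.le
      have h3 := add_lt ih (step k hu)
      by_cases e : k + 1 = k₀
      · rw [if_neg (by omega)] at h3
        rw [if_pos e.ge]
        refine lt_of_eq_of_lt (congrArg _ ?_) h3
        rw [e]; ring
      · refine lt_of_eq_of_lt (congrArg _ ?_) (add_lt h3 (h1 _ e))
        rw [if_congr (show k₀ ≤ k + 1 ↔ k₀ ≤ k by omega) rfl rfl]; ring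
  obtain ⟨N, hN⟩ := Metric.tendsto_atTop.1 hL R hR
  have h4 := hN (max N k₀.toNat) (le_max_left _ _)
  have h5 := main (max N k₀.toNat : ℕ) (by omega)
  rw [if_pos (by omega), zpow_natCast] at h5
  rw [dist_comm, dist_eq_norm] at h4
  refine lt_of_eq_of_lt (congrArg _ ?_) (add_lt h4 h5)
  ring

theorem ne_zero_of_dominant {C K : Type} [NormedField C] [NormedField K] {p : ℕ} [Fact p.Prime]
    [CharP C p] [PerfectRing C p] {n : ℕ} (hn : 0 < n)
    (hp0 : 0 < ‖(p : K)‖) (hp1 : ‖(p : K)‖ < 1) (sh : C →* K) (hnorm : ∀ x, ‖sh x‖ = ‖x‖)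
    (L : C → K)
    (hL : ∀ Y : C, ‖Y‖ < 1 → ∀ (R : ℝ) (k₀ : ℤ),
      (∀ k : ℤ, k ≠ k₀ →
        ‖sh (((frobeniusEquiv C p : RingAut C) ^ ((n : ℤ) * k)) Y) / (p : K) ^ k‖ < R) →
      ‖sh (((frobeniusEquiv C p : RingAut C) ^ ((n : ℤ) * k₀)) Y) / (p : K) ^ k₀‖ ≤ R →
      ‖L Y - sh (((frobeniusEquiv C p : RingAut C) ^ ((n : ℤ) * k₀)) Y) / (p : K) ^ k₀‖ < R)
    (Y Y' : C) (hY : ‖Y‖ < 1) (hlt : ‖Y'‖ < ‖Y‖) (hsq : ‖Y‖ ^ 2 < ‖Y'‖) :
    L Y ≠ 0 ∨ L Y' ≠ 0 := by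
  have hQ : (2 : ℝ) ≤ (p : ℝ) ^ n := by
    exact_mod_cast Nat.one_lt_pow hn.ne' (Fact.out : p.Prime).one_lt
  have hρ : 0 < -Real.log ‖(p : K)‖ := neg_pos.2 (Real.log_neg hp0 hp1)
  have key : ∀ Z : C, 0 < ‖Z‖ → ‖Z‖ < 1 →
      (∀ k : ℤ, -Real.log ‖Z‖ * ((p : ℝ) ^ n) ^ k * ((p : ℝ) ^ n - 1) ≠ -Real.log ‖(p : K)‖) →
      L Z ≠ 0 := by
    intro Z h0 h1 h e
    obtain ⟨k₀, hk⟩ := exists_min (neg_pos.2 (Real.log_neg h0 h1)) hρ (by linarith) h
    have hpos : ∀ k : ℤ, 0 < ‖((frobeniusEquiv C p : RingAut C) ^ ((n : ℤ) * k)) Z‖ := fun k =>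
      norm_pos_iff.2 ((map_ne_zero _).2 (norm_pos_iff.1 h0))
    have h2 := hL Z h1 _ k₀ (fun k hk' => ?_) le_rfl
    · rw [e, zero_sub, norm_neg] at h2
      exact lt_irrefl _ h2
    · simp only [norm_div, norm_zpow, hnorm]
      rw [← Real.log_lt_log_iff (div_pos (hpos _) (zpow_pos hp0 _))
        (div_pos (hpos _) (zpow_pos hp0 _)), Real.log_div (hpos _).ne' (zpow_pos hp0 _).ne',
        Real.log_div (hpos _).ne' (zpow_pos hp0 _).ne', norm_frob, norm_frob, Real.log_zpow,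
        Real.log_zpow]
      linarith [hk k hk']
  have h0' : 0 < ‖Y'‖ := (sq_nonneg _).trans_lt hsq
  have h0 : 0 < ‖Y‖ := h0'.trans hlt
  by_contra hc
  rw [not_or] at hc
  obtain ⟨k, hk⟩ := not_forall.1 fun h => hc.1 (key Y h0 hY h)
  obtain ⟨k', hk'⟩ := not_forall.1 fun h => hc.2 (key Y' h0' (hlt.trans hY) h)
  rw [not_not] at hk hk'
  have e := mul_right_cancel₀ (by linarith) (hk.trans hk'.symm)
  have a1 := Real.log_lt_log h0' hlt
  have a2 := Real.log_lt_log (by positivity) hsq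
  rw [Real.log_pow] at a2
  have a3 := Real.log_neg h0 hY
  have b0 : 0 < ((p : ℝ) ^ n) ^ k' := zpow_pos (by linarith) _
  have b1 : ((p : ℝ) ^ n) ^ k' < ((p : ℝ) ^ n) ^ k := by nlinarith
  have b2 : ((p : ℝ) ^ n) ^ k < ((p : ℝ) ^ n) ^ (k' + 1) := by
    rw [zpow_add_one₀ (by linarith)]
    push_cast at a2
    have : ((p : ℝ) ^ n) ^ k < ((p : ℝ) ^ n) ^ k' * 2 := by nlinarith
    nlinarith
  rw [zpow_lt_zpow_iff_right₀ (by linarith)] at b1 b2
  omega

end Vale.Agent.P217
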