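import Vale.Agent.P217.Compare

namespace Vale.Agent.P217

open Finset PowerSeries

namespace Height

/-- First order Taylor expansion along a square zero increment. -/
theorem taylor {R S : Type} [CommRing R] [CommRing S] [Adic S] (φ : R →+* S) {a δ : S}
    (ha : a ∈ rad S) (hδ : δ * δ = 0) (f : PowerSeries R) :
    ev1 φ (a + δ) f = ev1 φ a f + δ * ev1 φ a (derivative R f) := by
  have hr : δ ∈ rad S := ⟨2, by rw [pow_two, hδ]; exact zero_mem _⟩
  let ψ : PowerSeries R →+* S :=
    { toFun := fun g => ev1 φ a g + δ * ev1 φ a (derivative R g)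
      map_one' := by simp
      map_mul' := fun g k => by
        rw [Derivation.leibniz, smul_eq_mul, smul_eq_mul, map_add, map_mul, map_mul, map_mul]
        linear_combination (-(ev1 φ a (derivative R g) * ev1 φ a (derivative R k))) * hδ
      map_zero' := by simp
      map_add' := fun g k => by rw [map_add, map_add, map_add]; ring }
  have := eq_ev1 (φ := φ) (add_mem ha hr) ψ (fun r => by simp [ψ]) (by simp [ψ, ev1_X φ ha])
  exact (DFunLike.congr_fun this f).symm

theorem derivative_eq_zero {B : Type} [CommRing B] {F G : FormalGroup B} {f : PowerSeries B}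
    (hf : IsHom F G f) (h1 : coeff 1 f = 0) : derivative B f = 0 := by
  let _ := Adic.discrete (DualNumber B)
  let χ : B →+* DualNumber B := algebraMap B (DualNumber B)
  let φ : B →+* PowerSeries (DualNumber B) := C.comp χ
  let ε : PowerSeries (DualNumber B) := C DualNumber.eps
  have hε : ε * ε = 0 := by rw [← map_mul, DualNumber.eps_mul_eps, map_zero]
  have hr : ε ∈ rad (PowerSeries (DualNumber B)) := ⟨2, by rw [pow_two, hε]; exact zero_mem _⟩
  let x : Pt F φ := ⟨X, pX_mem_rad⟩
  let e : Pt F φ := ⟨ε, hr⟩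
  have he : Pt.homR φ f hf e = 0 := by
    obtain ⟨r, h⟩ := ev1_eq_lin φ hr f
    refine Pt.ext ?_
    rw [Pt.homR_val, Pt.zero_val]
    change ev1 φ ε f = 0
    rw [h, hf.1, h1, pow_two, hε]
    simp
  have h2 := congrArg Pt.val ((Pt.homR φ f hf).map_add x e)
  rw [he, add_zero, Pt.homR_val, Pt.homR_val] at h2
  obtain ⟨r, h3⟩ := Pt.exists_add_val x e
  have h4 : (x + e).val = X + ε * (1 + X * r) := by
    rw [h3]
    change X + ε + X * ε * r = _
    ring
  rw [h4, taylor φ pX_mem_rad (by linear_combination (1 + X * r) ^ 2 * hε)] at h2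
  have h5 : (1 + X * r) * (ε * ev1 φ X (derivative B f)) = 0 := by
    change _ = ev1 φ X f at h2
    linear_combination h2
  have h6 := (isUnit_one_add (Ideal.mul_mem_right r _ pX_mem_rad)).mul_right_eq_zero.1 h5
  rw [ev1_map_X] at h6
  ext i
  have h7 := congrArg (fun g => TrivSqZeroExt.snd (coeff i g)) h6
  simpa [ε, χ, coeff_C_mul, TrivSqZeroExt.algebraMap_eq_inl] using h7

theorem exists_expand_one {B : Type} [CommRing B] {p : ℕ} [Fact p.Prime] (hp : (p : B) = 0)
    {f : PowerSeries B} (hf : derivative B f = 0) :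
    f = expand p (Fact.out : p.Prime).ne_zero (mk fun i => coeff (p * i) f) := by
  ext n
  rw [coeff_expand]
  split_ifs with h
  · rw [coeff_mk, Nat.mul_div_cancel' h]
  · obtain ⟨m, rfl⟩ : ∃ m, n = m + 1 := Nat.exists_eq_succ_of_ne_zero (by rintro rfl; simp at h)
    have h1 := congrArg (coeff m) hf
    rw [coeff_derivative, map_zero] at h1
    have h2 : IsCoprime ((m + 1 : ℕ) : B) (p : B) :=
      (((Nat.Prime.coprime_iff_not_dvd Fact.out).2 h).symm).cast
    rw [hp, isCoprime_zero_right, Nat.cast_succ] at h2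
    exact h2.mul_left_eq_zero.1 h1

theorem expand_subst_left {B τ : Type} [CommRing B] {q : ℕ} (hq : q ≠ 0) (g : PowerSeries B)
    {a : MvPowerSeries τ B} (ha : MvPowerSeries.constantCoeff a = 0) :
    (expand q hq g).subst a = g.subst (a ^ q) := by
  have h := HasSubst.of_constantCoeff_zero ha
  rw [expand_apply, subst_comp_subst_apply (HasSubst.X_pow hq) h, subst_pow h, subst_X h]

theorem mv_expand_injective {B τ : Type} [CommRing B] {q : ℕ} (hq : q ≠ 0) :
    Function.Injective (MvPowerSeries.expand (σ := τ) (R := B) q hq) := by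
  intro f g h
  ext d
  rw [← MvPowerSeries.coeff_expand_smul q hq f, h, MvPowerSeries.coeff_expand_smul]

theorem isHom_of_expand {B : Type} [CommRing B] {p : ℕ} [ExpChar B p] (hp : p ≠ 0)
    {F G : FormalGroup B} {g : PowerSeries B} (hg : IsHom F G (expand p hp g)) :
    IsHom (F.map (frobenius B p)) G g := by
  have h0 : constantCoeff g = 0 := by rw [← constantCoeff_expand p hp g]; exact hg.1
  refine ⟨h0, mv_expand_injective hp ?_⟩
  have h := hg.2
  rw [expand_subst_left hp g F.zero_constantCoeff, expand_subst_left hp g (by simp),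
    expand_subst_left hp g (by simp)] at h
  rw [expand_subst p hp (HasSubst.of_constantCoeff_zero (F.map _).zero_constantCoeff),
    MvPowerSeries.expand_subst p hp
      (Ideals.has_two (cc_psubst (by simp) h0) (cc_psubst (by simp) h0)),
    comp2, expand_subst p hp (HasSubst.X _), expand_subst p hp (HasSubst.X _),
    MvPowerSeries.expand_X, MvPowerSeries.expand_X, FormalGroup.map_toPowerSeries,
    ← MvPowerSeries.map_expand, MvPowerSeries.map_frobenius_expand]
  exact h

theorem pow_eq_expand {B : Type} [CommRing B] {p : ℕ} [ExpChar B p] (hp : p ≠ 0) (e : ℕ)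
    (g : PowerSeries B) :
    g ^ p ^ e = expand (p ^ e) (pow_ne_zero e hp) (PowerSeries.map (iterateFrobenius B p e) g) := by
  rw [← map_expand]
  exact (MvPowerSeries.map_iterateFrobenius_expand p hp g e).symm

end Height

theorem IsHom.exists_expand {B : Type} [CommRing B] {p : ℕ} [Fact p.Prime] (hp : (p : B) = 0)
    {F G : FormalGroup B} {f : PowerSeries B} (hf : IsHom F G f) (h : ℕ)
    (hc : ∀ i < p ^ h, coeff i f = 0) :
    ∃ V : PowerSeries B, constantCoeff V = 0 ∧ f = V.subst (X ^ p ^ h : PowerSeries B) := by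
  have hpp : p.Prime := Fact.out
  rcases subsingleton_or_nontrivial B with hB | hB
  · exact ⟨0, map_zero _, Subsingleton.elim _ _⟩
  have : CharP B p := (CharP.charP_iff_prime_eq_zero hpp).2 hp
  induction h generalizing F f with
  | zero => exact ⟨f, hf.1, by rw [pow_zero, pow_one, X_subst]⟩
  | succ h ih =>
    have h1 : coeff 1 f = 0 := hc 1 (Nat.one_lt_pow (Nat.succ_ne_zero h) hpp.one_lt)
    have h2 := Height.exists_expand_one hp (Height.derivative_eq_zero hf h1)
    obtain ⟨V, V0, hV⟩ := ih (Height.isHom_of_expand hpp.ne_zero (h2 ▸ hf)) fun i hi => by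
      rw [coeff_mk]
      exact hc _ (by rw [pow_succ']; exact Nat.mul_lt_mul_of_pos_left hi hpp.pos)
    refine ⟨V, V0, ?_⟩
    rw [h2, hV, ← expand_apply _ (pow_ne_zero h hpp.ne_zero), ← expand_mul, expand_apply,
      ← pow_succ']

theorem exists_V_pow {B : Type} [CommRing B] {p : ℕ} [Fact p.Prime] (hp : (p : B) = 0)
    (F : FormalGroup B) (h : ℕ) (V : PowerSeries B) (h0 : constantCoeff V = 0)
    (hV : mulSeries F p = V.subst (X ^ p ^ h : PowerSeries B)) (k : ℕ) :
    ∃ W : PowerSeries B, constantCoeff W = 0 ∧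
      mulSeries F (p ^ k) = W.subst (X ^ (p ^ h) ^ k : PowerSeries B) ∧
      coeff 1 W = coeff 1 V ^ ∑ i ∈ range k, (p ^ h) ^ i := by
  have hpp : p.Prime := Fact.out
  rcases subsingleton_or_nontrivial B with hB | hB
  · exact ⟨0, map_zero _, Subsingleton.elim _ _, Subsingleton.elim _ _⟩
  have : CharP B p := (CharP.charP_iff_prime_eq_zero hpp).2 hp
  induction k with
  | zero =>
    exact ⟨X, constantCoeff_X, by rw [pow_zero, pow_zero, pow_one, X_subst, mulSeries_one], by simp⟩
  | succ k ih =>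
    obtain ⟨W, W0, hW, W1⟩ := ih
    have hq : p ^ h ≠ 0 := pow_ne_zero h hpp.ne_zero
    have hV0 : constantCoeff (PowerSeries.map (iterateFrobenius B p (h * k)) V) = 0 := by
      rw [cc_pmap, h0, map_zero]
    refine ⟨W.subst (PowerSeries.map (iterateFrobenius B p (h * k)) V), cc_psubst1 hV0 W0, ?_, ?_⟩
    · rw [pow_succ, mulSeries_mul, hW, ← expand_apply _ (pow_ne_zero k hq),
        Height.expand_subst_left _ _ (Ideals.cc_mul F p), hV, ← expand_apply _ hq, ← pow_mul,
        Height.pow_eq_expand hpp.ne_zero, map_expand, ← expand_mul, expand_apply,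
        subst_comp_subst_apply (HasSubst.of_constantCoeff_zero' hV0)
          (HasSubst.X_pow (pow_ne_zero _ hq)), pow_mul p, ← pow_succ]
    · rw [coeff_one_subst hV0, W1, coeff_map, iterateFrobenius_def, sum_range_succ, pow_add, pow_mul]

namespace Height

theorem coeff_subst_eq {A : Type} [CommRing A] {V : PowerSeries A} (h0 : constantCoeff V = 0)
    (α : PowerSeries A) (j : ℕ) : coeff j (α.subst V : PowerSeries A) =
      coeff 1 V ^ j * coeff j α + ∑ i : Fin j, coeff i α * coeff j (V ^ (i : ℕ)) := by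
  obtain ⟨U, rfl⟩ := X_dvd_iff.2 h0
  rw [coeff_subst' (HasSubst.of_constantCoeff_zero' h0),
    finsum_eq_sum_of_support_subset (s := range (j + 1)) _ (fun i hi => by
      by_contra hc
      have hlt : j < i := by simpa using hc
      apply hi
      simp only [mul_pow, coeff_X_pow_mul', if_neg (not_le.2 hlt), smul_zero]),
    sum_range_succ, add_comm, Fin.sum_univ_eq_sum_range
      (fun i => coeff i α * coeff j ((X * U) ^ i))]
  rw [mul_pow, coeff_X_pow_mul', if_pos le_rfl, Nat.sub_self, smul_eq_mul, mul_comm]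
  simp [coeff_succ_X_mul]

/-- A recursively defined sequence. -/
noncomputable def seq {A : Type} [CommRing A] (r : ℕ → A → A) (c : ℕ → ℕ → A) : ℕ → A
  | j => r j (∑ i : Fin j, seq r c i * c i j)
decreasing_by exact i.2

theorem seq_eq {A : Type} [CommRing A] (r : ℕ → A → A) (c : ℕ → ℕ → A) (j : ℕ) :
    seq r c j = r j (∑ i : Fin j, seq r c i * c i j) := by rw [seq]

variable {K : Type} [NormedField K] [IsUltrametricDist K]

theorem norm_le_one {Q : ℕ} (hQ : 1 < Q) {x b c : K} (hb : ‖b‖ ≤ 1) (hc : ‖c‖ ≤ 1)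
    (h : x ^ Q = b * x + c) : ‖x‖ ≤ 1 := by
  by_contra hx
  rw [not_le] at hx
  have h1 : ‖x‖ ^ Q ≤ ‖x‖ := by
    rw [← norm_pow, h]
    refine (IsUltrametricDist.norm_add_le_max _ _).trans (max_le ?_ (hc.trans hx.le))
    rw [norm_mul]
    exact mul_le_of_le_one_left (norm_nonneg _) hb
  have h2 := pow_lt_pow_right₀ hx hQ
  rw [pow_one] at h2
  exact absurd h1 (not_le.2 h2)

theorem exists_rt [IsAlgClosed K] {Q : ℕ} (hQ : 1 < Q) (b c : O K) :
    ∃ x : O K, x ^ Q = b * x + c := by
  have hd : (Polynomial.X ^ Q - (Polynomial.C (b : K) * Polynomial.X + Polynomial.C (c : K))).degree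
      = (Q : WithBot ℕ) := by
    rw [Polynomial.degree_sub_eq_left_of_degree_lt, Polynomial.degree_X_pow]
    rw [Polynomial.degree_X_pow]
    exact Polynomial.degree_linear_le.trans_lt (by exact_mod_cast hQ)
  have hQ0 : (Q : WithBot ℕ) ≠ 0 := by exact_mod_cast (by omega : Q ≠ 0)
  obtain ⟨x, hx⟩ := IsAlgClosed.exists_root _ (hd.trans_ne hQ0)
  have h : x ^ Q = b * x + c := by simpa [sub_eq_zero] using hx
  exact ⟨⟨x, norm_le_one hQ b.2 c.2 h⟩, Subtype.ext h⟩

theorem exists_rt_ne [IsAlgClosed K] {Q : ℕ} (hQ : 1 < Q) {b : O K} (hb : b ≠ 0) :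
    ∃ x : O K, x ^ Q = b * x ∧ x ≠ 0 := by
  obtain ⟨x, hx⟩ := IsAlgClosed.exists_pow_nat_eq (b : K) (by omega : 0 < Q - 1)
  have h : x ^ Q = b * x + 0 := by
    rw [← hx, add_zero, ← pow_succ, Nat.sub_add_cancel hQ.le]
  refine ⟨⟨x, norm_le_one hQ b.2 (by simp) h⟩, Subtype.ext (by simpa using h), fun h0 => hb ?_⟩
  have : x = 0 := congrArg Subtype.val h0
  rw [this, zero_pow (by omega)] at hx
  exact Subtype.ext hx.symm

theorem exists_alpha [IsAlgClosed K] {Q : ℕ} (hQ : 1 < Q) {V : PowerSeries (O K)}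
    (h0 : constantCoeff V = 0) (h1 : coeff 1 V ≠ 0) :
    ∃ α : PowerSeries (O K), constantCoeff α = 0 ∧ coeff 1 α ≠ 0 ∧
      ∀ j, coeff j (α.subst V : PowerSeries (O K)) = coeff j α ^ Q := by
  have H : ∀ (j : ℕ) (c : O K), ∃ x : O K, x ^ Q = coeff 1 V ^ j * x + c ∧
      (c = 0 → (j = 0 → x = 0) ∧ (j = 1 → x ≠ 0)) := by
    intro j c
    by_cases hc : c = 0
    · by_cases hj : j = 1
      · obtain ⟨x, hx, hx0⟩ := exists_rt_ne hQ h1
        exact ⟨x, by rw [hj, hc, pow_one, add_zero, hx], fun _ => ⟨fun h => by omega, fun _ => hx0⟩⟩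
      · exact ⟨0, by rw [hc, zero_pow (by omega)]; simp, fun _ => ⟨fun _ => rfl, fun h => absurd h hj⟩⟩
    · obtain ⟨x, hx⟩ := exists_rt hQ (coeff 1 V ^ j) c
      exact ⟨x, hx, fun h => absurd h hc⟩
  choose r hr hr' using H
  have a0 : seq r (fun i j => coeff j (V ^ i)) 0 = 0 := by
    rw [seq_eq]
    exact (hr' 0 _ (by simp)).1 rfl
  refine ⟨mk (seq r fun i j => coeff j (V ^ i)), ?_, ?_, fun j => ?_⟩
  · rw [← coeff_zero_eq_constantCoeff_apply, coeff_mk, a0]
  · rw [coeff_mk, seq_eq]
    exact (hr' 1 _ (by simp [a0])).2 rfl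
  · rw [coeff_subst_eq h0]
    simp only [coeff_mk]
    conv_rhs => rw [seq_eq, hr, ← seq_eq r (fun i j => coeff j (V ^ i)) j]

end Height

theorem exists_boettcher {C : Type} [NormedField C] [IsUltrametricDist C] [IsAlgClosed C]
    {p h : ℕ} [Fact p.Prime] [CharP C p] (hh : 0 < h) (F : FormalGroup (O C)) [F.IsComm]
    (V : PowerSeries (O C)) (h0 : constantCoeff V = 0) (h1 : coeff 1 V ≠ 0)
    (hV : mulSeries F p = V.subst (X ^ p ^ h : PowerSeries (O C)))
    (G : FormalGroup (O C)) [G.IsComm] (hG : mulSeries G p = X ^ p ^ h) :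
    ∃ α : PowerSeries (O C), IsHom F G α ∧ coeff 1 α ≠ 0 := by
  have hpp : p.Prime := Fact.out
  have hQ : 1 < p ^ h := Nat.one_lt_pow hh.ne' hpp.one_lt
  have hq : p ^ h ≠ 0 := by omega
  obtain ⟨α, a0, a1, ha⟩ := Height.exists_alpha hQ h0 h1
  have h2 : α.subst V = PowerSeries.map (iterateFrobenius (O C) p h) α := by
    ext1 j
    rw [ha, coeff_map, iterateFrobenius_def]
  have h3 : α.subst (mulSeries F p) = α ^ p ^ h := by
    rw [hV, ← subst_comp_subst_apply (HasSubst.of_constantCoeff_zero' h0) (HasSubst.X_pow hq), h2,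
      Height.pow_eq_expand hpp.ne_zero h α, expand_apply]
  set ι : O C →+* C := (O C).subtype with hι
  have hinj : Function.Injective ι := Subtype.val_injective
  have b0 : constantCoeff (PowerSeries.map ι α) = 0 := by rw [cc_pmap, a0, map_zero]
  have b1 : IsUnit (coeff 1 (PowerSeries.map ι α)) := by
    rw [coeff_map]
    exact IsUnit.mk0 _ fun h => a1 (hinj (by rw [h, map_zero]))
  obtain ⟨G', hG', hα⟩ := exists_conj (F.map ι) b0 b1
  obtain ⟨β, β0, -, hβ, -⟩ := exists_psubst_inv b0 b1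
  have sα := HasSubst.of_constantCoeff_zero' b0
  have sβ := HasSubst.of_constantCoeff_zero' β0
  have h4 : mulSeries G' p = X ^ p ^ h := by
    have e := Ideals.hom_mul hα p
    rw [Ideals.map_mul_series, ← pmap_subst ι (Ideals.cc_mul F p), h3, map_pow] at e
    have e2 := congrArg (subst β) e
    rw [subst_pow sβ, subst_comp_subst_apply sα sβ, hβ, X_subst] at e2
    exact e2.symm
  have h5 : mulSeries (G.map ι) p = X ^ p ^ h := by
    rw [Ideals.map_mul_series, hG, map_pow, map_X]
  obtain ⟨γ, hγ, γ1⟩ := exists_strict_iso hh G' (G.map ι) h4 h5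
  have h6 : ∀ i, coeff i γ ∈ O C := fun i =>
    Height.norm_le_one hQ (b := 1) (c := 0) (by simp) (by simp)
      (by rw [hγ.coeff_pow_eq hh h4 h5, one_mul, add_zero])
  have h7 : PowerSeries.map ι (mk fun i => ⟨coeff i γ, h6 i⟩) = γ := by
    ext i
    rw [coeff_map, coeff_mk]
    rfl
  refine ⟨(mk fun i => (⟨coeff i γ, h6 i⟩ : O C)).subst α, isHom_of_map_injective hinj ?_, ?_⟩
  · rw [pmap_subst ι a0, h7]
    exact hγ.comp hα
  · rw [coeff_one_subst a0, coeff_mk]
    refine mul_ne_zero (fun h => ?_) a1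
    have : coeff 1 γ = 0 := congrArg Subtype.val h
    rw [γ1] at this
    exact one_ne_zero this

end Vale.Agent.P217
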