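import Vale.Agent.P217.Valued

/-! Zeros of power series over the ring of integers, by Weierstrass preparation. -/

namespace Vale.Agent.P217

open Finset

namespace Weier

variable {C : Type} [NormedField C] [IsUltrametricDist C] [HasPi C] [CompleteSpace C]

omit [HasPi C] in
theorem complete_span {c : O C} (h0 : (c : C) ≠ 0) (h1 : ‖(c : C)‖ < 1) :
    IsAdicComplete (Ideal.span {c}) (O C) :=
  @Adic.isAdicComplete (O C) _ (@adicO C _ _ ⟨c, h0, h1⟩ _)

theorem exists_bound (a : ℕ → O C) (N : ℕ) (h : ∀ i < N, a i ∈ rad (O C)) :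
    ∃ c : O C, (c : C) ≠ 0 ∧ ‖(c : C)‖ < 1 ∧ ∀ i < N, ‖(a i : C)‖ ≤ ‖(c : C)‖ := by
  induction N with
  | zero => exact ⟨piO C, HasPi.ne, HasPi.lt, fun i hi => absurd hi (Nat.not_lt_zero i)⟩
  | succ N ih =>
    obtain ⟨c, c0, c1, hc⟩ := ih fun i hi => h i (by omega)
    by_cases hN : ‖(a N : C)‖ ≤ ‖(c : C)‖
    · refine ⟨c, c0, c1, fun i hi => ?_⟩
      rcases Nat.lt_succ_iff_lt_or_eq.1 hi with hi | rfl
      · exact hc i hi
      · exact hN
    · push Not at hN
      refine ⟨a N, norm_pos_iff.1 ((norm_nonneg _).trans_lt hN), mem_rad_O.1 (h N (by omega)),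
        fun i hi => ?_⟩
      rcases Nat.lt_succ_iff_lt_or_eq.1 hi with hi | rfl
      · exact (hc i hi).trans hN.le
      · exact le_rfl

/-- Weierstrass preparation. -/
theorem prep (f : PowerSeries (O C)) (N : ℕ) (hN : IsUnit (PowerSeries.coeff N f))
    (hlt : ∀ i < N, PowerSeries.coeff i f ∈ rad (O C)) :
    ∃ (P : Polynomial (O C)) (q : PowerSeries (O C)), P.Monic ∧ P.natDegree = N ∧
      (∀ i < N, P.coeff i ∈ rad (O C)) ∧ IsUnit q ∧ f = P * q := by
  obtain ⟨c, c0, c1, hc⟩ := exists_bound _ N hlt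
  have := complete_span c0 c1
  have hJ : Ideal.span {c} ≤ rad (O C) := fun x hx => mem_rad_O.2 ((mem_span_O.1 hx).trans_lt c1)
  have hord : (f.map (Ideal.Quotient.mk (Ideal.span {c}))).order.toNat = N := by
    have : (f.map (Ideal.Quotient.mk (Ideal.span {c}))).order = N := by
      rw [PowerSeries.order_eq_nat]
      refine ⟨?_, fun i hi => ?_⟩
      · rw [PowerSeries.coeff_map, Ne, Ideal.Quotient.eq_zero_iff_mem, mem_span_O,
          isUnit_O.1 hN]
        exact not_le.2 c1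
      · rw [PowerSeries.coeff_map, Ideal.Quotient.eq_zero_iff_mem, mem_span_O]
        exact hc i hi
    rw [this, ENat.toNat_natCast]
  have H : f.IsWeierstrassDivisorAt (Ideal.span {c}) := by
    rwa [PowerSeries.IsWeierstrassDivisorAt, hord]
  have H1 := H.isWeierstrassDivisionAt_div_mod (PowerSeries.X ^ N)
  generalize H.div (PowerSeries.X ^ N) = q at H1
  generalize H.mod (PowerSeries.X ^ N) = r at H1
  have hdeg : r.degree < N := hord ▸ H1.degree_lt
  have heq : f * q = ((Polynomial.X ^ N - r : Polynomial (O C)) : PowerSeries (O C)) := by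
    rw [Polynomial.coe_sub, Polynomial.coe_pow, Polynomial.coe_X, H1.eq_mul_add]
    ring
  have hq : IsUnit q := by
    have h1 := congrArg (PowerSeries.coeff N) heq
    rw [Polynomial.coeff_coe, Polynomial.coeff_sub, Polynomial.coeff_X_pow_self,
      Polynomial.coeff_eq_zero_of_degree_lt hdeg, sub_zero, PowerSeries.coeff_mul,
      Finset.Nat.sum_antidiagonal_eq_sum_range_succ_mk, sum_range_succ, Nat.sub_self] at h1
    have h2 : PowerSeries.coeff N f * PowerSeries.coeff 0 q - 1 ∈ rad (O C) := by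
      rw [← h1, sub_add_cancel_right]
      exact neg_mem (Ideal.sum_mem _ fun i hi =>
        Ideal.mul_mem_right _ _ (hlt i (mem_range.1 hi)))
    rw [PowerSeries.isUnit_iff_constantCoeff, ← PowerSeries.coeff_zero_eq_constantCoeff_apply]
    exact isUnit_of_mul_isUnit_right (isUnit_of_sub_mem isUnit_one h2)
  obtain ⟨q, rfl⟩ := hq
  refine ⟨Polynomial.X ^ N - r, ↑q⁻¹, Polynomial.monic_X_pow_sub hdeg, ?_, fun i hi => ?_,
    Units.isUnit _, by rw [← heq, mul_assoc, Units.mul_inv, mul_one]⟩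
  · refine Polynomial.natDegree_eq_of_degree_eq_some ?_
    rw [Polynomial.degree_sub_eq_left_of_degree_lt (by rwa [Polynomial.degree_X_pow]),
      Polynomial.degree_X_pow]
  · have := H1.coeff_f_sub_r_mem (i := i) (by rwa [hord])
    rw [← Polynomial.coeff_coe, Polynomial.coe_sub, Polynomial.coe_pow, Polynomial.coe_X]
    exact hJ this

theorem ev1_eq_zero_iff {P : Polynomial (O C)} {q : PowerSeries (O C)} (hq : IsUnit q) {x : O C}
    (hx : x ∈ rad (O C)) : ev1 (RingHom.id _) x (P * q) = 0 ↔ P.IsRoot x := by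
  rw [map_mul, (hq.map _).mul_left_eq_zero, ev1_coe _ hx, Polynomial.eval₂_id,
    Polynomial.IsRoot.def]

theorem norm_root_lt {P : Polynomial (O C)} {N : ℕ} (hP : P.Monic) (hN : P.natDegree = N)
    (hlt : ∀ i < N, P.coeff i ∈ rad (O C)) {z : C} (hz : (P.map (O C).subtype).IsRoot z) :
    ‖z‖ < 1 := by
  by_contra hc
  push Not at hc
  obtain ⟨c, -, c1, hc1⟩ := exists_bound _ N hlt
  rw [Polynomial.IsRoot.def, Polynomial.eval_map, Polynomial.eval₂_eq_sum_range, hN,
    sum_range_succ, ← hN, hP.coeff_natDegree, map_one, one_mul, hN, add_comm,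
    add_eq_zero_iff_eq_neg] at hz
  have h1 : ‖∑ i ∈ range N, (O C).subtype (P.coeff i) * z ^ i‖ ≤ ‖(c : C)‖ * ‖z‖ ^ N := by
    refine IsUltrametricDist.norm_sum_le_of_forall_le_of_nonneg (by positivity) fun i hi => ?_
    rw [norm_mul, norm_pow]
    exact mul_le_mul (hc1 i (mem_range.1 hi)) (pow_le_pow_right₀ hc (mem_range.1 hi).le)
      (by positivity) (norm_nonneg _)
  rw [← norm_neg, ← hz, norm_pow] at h1
  have h2 : 0 < ‖z‖ ^ N := by positivity
  nlinarith

theorem exists_least (f : PowerSeries (O C)) (N : ℕ) (hN : IsUnit (PowerSeries.coeff N f)) :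
    ∃ N' ≤ N, IsUnit (PowerSeries.coeff N' f) ∧ ∀ i < N', PowerSeries.coeff i f ∈ rad (O C) := by
  classical
  have hex : ∃ n, IsUnit (PowerSeries.coeff n f) := ⟨N, hN⟩
  refine ⟨Nat.find hex, Nat.find_min' hex hN, Nat.find_spec hex, fun i hi => ?_⟩
  have := Nat.find_min hex hi
  rw [isUnit_O] at this
  exact mem_rad_O.2 (lt_of_le_of_ne (norm_O_le _) this)

end Weier

section

open Weier

variable {C : Type} [NormedField C] [IsUltrametricDist C] [HasPi C] [CompleteSpace C]

theorem card_roots_le (f : PowerSeries (O C)) (N : ℕ) (hN : IsUnit (PowerSeries.coeff N f))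
    (s : Finset (O C)) (hs : ∀ x ∈ s, x ∈ rad (O C) ∧ ev1 (RingHom.id _) x f = 0) :
    s.card ≤ N := by
  classical
  obtain ⟨N', hle, hN', hlt⟩ := exists_least f N hN
  obtain ⟨P, q, hP, hdeg, -, hq, rfl⟩ := prep f N' hN' hlt
  refine le_trans (Polynomial.card_le_degree_of_subset_roots fun x hx => ?_) (hdeg.le.trans hle)
  exact (Polynomial.mem_roots hP.ne_zero).2 ((ev1_eq_zero_iff hq (hs x hx).1).1 (hs x hx).2)

theorem exists_zero [IsAlgClosed C] (f : PowerSeries (O C)) (N : ℕ)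
    (hN : IsUnit (PowerSeries.coeff N f)) (h0 : PowerSeries.constantCoeff f ∈ rad (O C)) :
    ∃ x ∈ rad (O C), ev1 (RingHom.id _) x f = 0 := by
  obtain ⟨N', -, hN', hlt⟩ := exists_least f N hN
  have hpos : N' ≠ 0 := by
    rintro rfl
    rw [PowerSeries.coeff_zero_eq_constantCoeff_apply, isUnit_O] at hN'
    exact absurd (mem_rad_O.1 h0) (by rw [hN']; exact lt_irrefl _)
  obtain ⟨P, q, hP, hdeg, hc, hq, rfl⟩ := prep f N' hN' hlt
  obtain ⟨z, hz⟩ := IsAlgClosed.exists_root (P.map (O C).subtype) (by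
    rw [hP.degree_map, Polynomial.degree_eq_natDegree hP.ne_zero, hdeg]
    exact_mod_cast hpos)
  have hz1 := norm_root_lt hP hdeg hc hz
  have hx : (⟨z, hz1.le⟩ : O C) ∈ rad (O C) := mem_rad_O.2 hz1
  refine ⟨_, hx, (ev1_eq_zero_iff hq hx).2 ?_⟩
  exact (Polynomial.isRoot_map_iff (O C).subtype_injective).1 hz

theorem exists_many_roots [IsAlgClosed C] (f : PowerSeries (O C)) (N M : ℕ)
    (hN : IsUnit (PowerSeries.coeff N f)) (hlt : ∀ i < N, PowerSeries.coeff i f ∈ rad (O C))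
    (hM : ∀ x ∈ rad (O C), ev1 (RingHom.id _) x f = 0 → ∃ u : PowerSeries (O C),
      PowerSeries.constantCoeff u = 0 ∧
        PowerSeries.coeff M (ev1 PowerSeries.C (PowerSeries.C x + u) f) ≠ 0) :
    ∃ s : Finset (O C), (∀ x ∈ s, x ∈ rad (O C) ∧ ev1 (RingHom.id _) x f = 0) ∧
      N ≤ M * s.card := by
  classical
  obtain ⟨P, q, hP, hdeg, hc, hq, rfl⟩ := prep f N hN hlt
  set Q := P.map (O C).subtype with hQ
  have hQm : Q.Monic := hP.map _
  have hroot : ∀ z ∈ Q.roots.toFinset, Q.IsRoot z := fun z hz =>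
    (Polynomial.mem_roots hQm.ne_zero).1 (Multiset.mem_toFinset.1 hz)
  have hx : ∀ x : O C, (x : C) ∈ Q.roots.toFinset →
      x ∈ rad (O C) ∧ ev1 (RingHom.id _) x (P * q) = 0 := by
    intro x hx
    have h1 : x ∈ rad (O C) := mem_rad_O.2 (norm_root_lt hP hdeg hc (hroot _ hx))
    exact ⟨h1, (ev1_eq_zero_iff hq h1).2
      ((Polynomial.isRoot_map_iff (O C).subtype_injective).1 (hroot _ hx))⟩
  refine ⟨Q.roots.toFinset.subtype (· ∈ O C), fun x h => hx x (mem_subtype.1 h), ?_⟩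
  rw [card_subtype, filter_true_of_mem fun z hz =>
    mem_O.2 (norm_root_lt hP hdeg hc (hroot z hz)).le]
  have hcard : Q.roots.card = N := by
    rw [← (IsAlgClosed.splits Q).natDegree_eq_card_roots, hQ, hP.natDegree_map, hdeg]
  rw [← hcard, ← Multiset.toFinset_sum_count_eq, mul_comm]
  refine (sum_le_card_nsmul _ _ M fun z hz => ?_).trans (le_of_eq (smul_eq_mul _ _))
  by_contra hcon
  push Not at hcon
  set x : O C := ⟨z, (norm_root_lt hP hdeg hc (hroot z hz)).le⟩ with hxz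
  obtain ⟨h1, h2⟩ := hx x hz
  obtain ⟨u, u0, hu⟩ := hM x h1 h2
  rw [Polynomial.count_roots] at hcon
  have hd : (Polynomial.X - Polynomial.C z) ^ (M + 1) ∣ Q :=
    (Polynomial.le_rootMultiplicity_iff hQm.ne_zero).1 hcon
  have hd' : (Polynomial.X - Polynomial.C x) ^ (M + 1) ∣ P := by
    rw [← Polynomial.map_dvd_map (O C).subtype (O C).subtype_injective
      ((Polynomial.monic_X_sub_C x).pow _)]
    simpa using hd
  obtain ⟨R, hR⟩ := hd'
  have hu' : PowerSeries.C x + u ∈ rad (PowerSeries (O C)) := by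
    rw [mem_rad_ps1]; simpa [u0] using h1
  apply hu
  obtain ⟨v, rfl⟩ := PowerSeries.X_dvd_iff.2 u0
  refine PowerSeries.X_pow_dvd_iff.1 ?_ M (Nat.lt_succ_self M)
  rw [hR, Polynomial.coe_mul, Polynomial.coe_pow, Polynomial.coe_sub, Polynomial.coe_X,
    Polynomial.coe_C, map_mul, map_mul, map_pow, map_sub, ev1_X _ hu', ev1_C, add_sub_cancel_left,
    mul_pow, mul_assoc, mul_assoc]
  exact Dvd.intro _ rfl

end

end Vale.Agent.P217
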