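import Vale.Agent.P217.Act
import Vale.Agent.P217.Height
import Vale.Agent.P217.Weier

namespace Vale.Agent.P217

open Finset MvPowerSeries

namespace Jac

section
variable {B : Type} [CommRing B]

theorem mem_sq {f : PowerSeries B} : f ∈ Ideal.span {(PowerSeries.X ^ 2 : PowerSeries B)} ↔
    PowerSeries.constantCoeff f = 0 ∧ PowerSeries.coeff 1 f = 0 := by
  rw [Ideal.mem_span_singleton, PowerSeries.X_pow_dvd_iff]
  constructor
  · exact fun h => ⟨by simpa using h 0 (by omega), h 1 (by omega)⟩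
  · intro h m hm
    interval_cases m
    · simpa using h.1
    · exact h.2

variable [Adic B]

theorem coeff_one_ev {σ : Type} [Fintype σ] (δ : σ → B) (g : MvPowerSeries σ B) :
    PowerSeries.coeff 1 (ev PowerSeries.C (fun j => PowerSeries.C (δ j) * PowerSeries.X) g) =
      ∑ j, coeff (Finsupp.single j 1) g * δ j := by
  classical
  have hr : ∀ j, (PowerSeries.C (δ j) * PowerSeries.X : PowerSeries B) ∈ rad _ := fun j =>
    Ideal.mul_mem_left _ _ pX_mem_rad
  have h1 := ev_mem_pow PowerSeries.C hr (𝔠 := Ideal.span {PowerSeries.X})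
    (fun j => Ideal.mul_mem_left _ _ (Ideal.mem_span_singleton_self _)) 2
    (f := g - C (constantCoeff g) - ∑ j, C (coeff (Finsupp.single j 1) g) * X j) fun d hd => by
      by_cases h : d = 0
      · subst h; simp
      · obtain ⟨j, rfl⟩ : ∃ j, d = Finsupp.single j 1 := by
          have : d.degree = 1 := by
            have := (Finsupp.degree_eq_zero_iff d).not.2 h
            omega
          obtain ⟨j, hj⟩ := (Set.ext_iff.1 Finsupp.range_single_one d).2 this
          exact ⟨j, hj.symm⟩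
        simp [coeff_index_single_X, coeff_C]
  rw [Ideal.span_singleton_pow] at h1
  have h2 := (mem_sq.1 h1).2
  simp only [map_sub, map_sum, map_mul, ev_C, ev_X _ hr, PowerSeries.coeff_C_mul,
    PowerSeries.coeff_one_X, mul_one, PowerSeries.coeff_succ_C (n := 0), sub_zero] at h2
  exact sub_eq_zero.1 h2

theorem coeff_one_ev1 (V : PowerSeries (PowerSeries B)) {s : B} (hs : s ∈ rad B) :
    PowerSeries.coeff 1 (ev1 (RingHom.id _) (PowerSeries.C s) V) =
      ev1 (RingHom.id _) s (PowerSeries.mk fun i => PowerSeries.coeff 1 (PowerSeries.coeff i V)) := by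
  have h1 : ∀ f : PowerSeries B, ev1 (RingHom.id _) (PowerSeries.C s)
      (PowerSeries.map PowerSeries.C f) = PowerSeries.C (ev1 (RingHom.id _) s f) := fun f => by
    rw [ev1_map _ _ (pC_mem_rad hs), hom_ev1 PowerSeries.C _ hs (pC_mem_rad hs)]
    rfl
  have h2 := ev1_mem_span_of_coeff (RingHom.id _) (pC_mem_rad hs) (c := PowerSeries.X ^ 2)
    (f := V - PowerSeries.map PowerSeries.C (PowerSeries.map PowerSeries.constantCoeff V) -
      PowerSeries.C PowerSeries.X * PowerSeries.map PowerSeries.C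
        (PowerSeries.mk fun i => PowerSeries.coeff 1 (PowerSeries.coeff i V))) fun i => by
      rw [mem_sq]
      simp
  rw [map_sub, map_sub, map_mul, h1, h1, ev1_C] at h2
  have h3 := (mem_sq.1 h2).2
  simpa [PowerSeries.coeff_succ_X_mul, PowerSeries.coeff_C, sub_eq_zero] using h3

end

theorem exists_delta {K ι : Type} [NormedField K] [IsUltrametricDist K] [Fintype ι]
    [DecidableEq ι] (M : Matrix ι ι (O K)) (h : M.det = 0) :
    ∃ δ : ι → O K, M.mulVec δ = 0 ∧ ∃ j, IsUnit (δ j) := by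
  obtain ⟨v, hv, hM⟩ := Matrix.exists_mulVec_eq_zero_iff.2 h
  obtain ⟨i₀, hi₀⟩ := Function.ne_iff.1 hv
  obtain ⟨j, -, hj⟩ := exists_max_image univ (fun j => ‖(v j : K)‖) ⟨i₀, mem_univ _⟩
  have hj0 : v j ≠ 0 := fun h0 => hi₀ (Subtype.ext (norm_le_zero_iff.1 (by
    simpa [h0] using hj i₀ (mem_univ _))))
  choose δ hδ using fun i => Ideal.mem_span_singleton'.1 (mem_span_O.2 (hj i (mem_univ _)))
  refine ⟨δ, ?_, j, ?_⟩
  · have e : v = v j • δ := by funext i; rw [Pi.smul_apply, smul_eq_mul, mul_comm, hδ]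
    rw [e, Matrix.mulVec_smul] at hM
    exact (smul_eq_zero.1 hM).resolve_left hj0
  · rw [mul_right_cancel₀ hj0 ((hδ j).trans (one_mul _).symm)]
    exact isUnit_one

theorem le_card_Ix {n h : ℕ} (hh : 0 < h) : n - h ≤ Fintype.card (Ix n h) := by
  have := Fintype.card_le_of_injective
    (fun k : Fin (n - h) => (⟨⟨h - 1 + k.val, by have := k.2; omega⟩, by simp; omega⟩ : Ix n h))
    fun a b hab => Fin.ext (by simpa using hab)
  simpa only [Fintype.card_fin] using this

theorem inj {G ι : Type} [AddCommGroup G] [Fintype ι] {p : ℕ} (T : ι → G) (hT : ∀ i, p • T i = 0)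
    (hind : ∀ c : ι → ℕ, ∑ i, c i • T i = 0 → ∀ i, p ∣ c i) {c c' : ι → Fin p}
    (h : ∑ i, (c i).val • T i = ∑ i, (c' i).val • T i) : c = c' := by
  funext i
  have h1 := hind (fun i => (c i).val + (p - (c' i).val)) (by
    simp only [add_nsmul]
    rw [sum_add_distrib, h, ← sum_add_distrib]
    refine sum_eq_zero fun i _ => ?_
    rw [← add_nsmul, Nat.add_sub_cancel' (c' i).2.le, hT]) i
  obtain ⟨k, hk⟩ := h1
  have h2 := (c i).2
  have h3 := (c' i).2
  rcases k with _ | _ | k
  · omega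
  · exact Fin.ext (by omega)
  · have : p * (k + 1 + 1) = p * k + p + p := by ring
    omega

end Jac

open Jac in
theorem jacobian_ne_zero {C : Type} [NormedField C] [IsUltrametricDist C] [HasPi C]
    [CompleteSpace C] {p n h : ℕ} [Fact p.Prime] [CharP C p] [PerfectRing C p]
    {F : FormalGroup (LTRing p n)} [F.IsComm] (hF : IsLubinTate p n F) (hh : 0 < h) (hhn : h < n)
    {z₀ z : LTRing p n →+* O C} (hz : ∀ x ∈ heightIdeal p n n, z x ∈ (Adic.I : Ideal (O C)))
    (hzh : ∀ x ∈ heightIdeal p n h, z x = 0) (H : Near p n F z₀ z (RingHom.id _))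
    (H' : Near p n F z₀ (fam z h 1) MvPowerSeries.C) (Y : Ix n h → Pt F z₀)
    (hY : ∀ i, p • H.th (Y i) = 0)
    (hind : ∀ c : Ix n h → ℕ, ∑ i, c i • H.th (Y i) = 0 → ∀ i, p ∣ c i) :
    (Matrix.of fun i j => coeff (Finsupp.single j 1) (H'.th (p • Y i)).val).det ≠ 0 := by
  classical
  intro hdet
  obtain ⟨δ, hδ, hex⟩ := exists_delta _ hdet
  have hz' : ∀ j, z (X j) ∈ rad (O C) := fun j => I_le_rad (hz _ (X_mem_top j))
  have hr : ∀ j, (PowerSeries.C (δ j) * PowerSeries.X : PowerSeries (O C)) ∈ rad _ := fun j =>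
    Ideal.mul_mem_left _ _ pX_mem_rad
  set χ : MvPowerSeries (Ix n h) (O C) →+* PowerSeries (O C) :=
    ev PowerSeries.C fun j => PowerSeries.C (δ j) * PowerSeries.X with hχ
  have hχ0 : ∀ f, PowerSeries.constantCoeff (χ f) = constantCoeff f := fun f => by
    have := ev_sub_constantCoeff_mem PowerSeries.C hr (𝔠 := RingHom.ker PowerSeries.constantCoeff)
      (fun j => by simp [RingHom.mem_ker]) f
    rwa [RingHom.mem_ker, map_sub, PowerSeries.constantCoeff_C, sub_eq_zero] at this
  have hχI : ∀ x ∈ (Adic.I : Ideal (MvPowerSeries (Ix n h) (O C))),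
      χ x ∈ (Adic.I : Ideal (PowerSeries (O C))) := fun x hx =>
    mem_I_ps.2 ((hχ0 x).symm ▸ mem_I_ps.1 hx)
  set u := χ.comp (fam z h 1) with hu
  have Hu : Near p n F z₀ u PowerSeries.C := H'.comp χ hχI rfl (ev_comp_C _ _)
  have hcc : ∀ W, (H.th W).val = PowerSeries.constantCoeff (Hu.th W).val := fun W =>
    Hu.th_comp PowerSeries.constantCoeff (fun x hx => mem_I_ps.1 hx)
      (RingHom.ext fun r => (hχ0 _).trans (constantCoeff_fam hz' h 1 r))
      (RingHom.ext fun r => PowerSeries.constantCoeff_C r) H W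
  have ha : ∀ i, p • Hu.th (Y i) ∈ Pt.idealSub F u (Ideal.span {PowerSeries.X ^ 2}) := fun i => by
    rw [← map_nsmul, Pt.mem_idealSub, mem_sq, ← hcc, map_nsmul, hY,
      H'.th_comp χ hχI rfl (ev_comp_C _ _) Hu, hχ, coeff_one_ev]
    exact ⟨rfl, congrFun hδ i⟩
  have hpO : (p : O C) = 0 := O_cast_p
  have hpS : (p : PowerSeries (O C)) = 0 := by
    rw [← map_natCast (PowerSeries.C : O C →+* _), hpO, map_zero]
  have : CharP (O C) p := (CharP.charP_iff_prime_eq_zero Fact.out).2 hpO
  have : CharP (PowerSeries (O C)) p := (CharP.charP_iff_prime_eq_zero Fact.out).2 hpS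
  have hQ : p ^ h ≠ 0 := q_ne_zero p h
  have hQ2 : 2 ≤ p ^ h := Nat.one_lt_pow hh.ne' (Fact.out : p.Prime).one_lt
  obtain ⟨V, -, hV⟩ := (isHom_mulSeries (F.map u) p).exists_expand hpS h fun i hi => by
    rw [Ideals.map_mul_series, PowerSeries.coeff_map, hu, RingHom.comp_apply,
      fam_eq_zero hz' h 1 hzh _ (hF.coeff_lt hh hhn hi), map_zero]
  rw [Ideals.map_mul_series] at hV
  set D : PowerSeries (O C) :=
    PowerSeries.mk fun i => PowerSeries.coeff 1 (PowerSeries.coeff i V) with hD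
  have hroot : ∀ c : Ix n h → ℕ,
      ev1 (RingHom.id _) ((∑ i, c i • H.th (Y i)).val ^ p ^ h) D = 0 := fun c => by
    have e1 : ∑ i, c i • H.th (Y i) = H.th (∑ i, c i • Y i) := by simp
    have hx := Ideal.pow_mem_of_mem _ (H.th (∑ i, c i • Y i)).mem _ (Nat.pos_of_ne_zero hQ)
    rw [e1, hD, ← coeff_one_ev1 V hx]
    set y := Hu.th (∑ i, c i • Y i) with hy
    have h1 : p • y ∈ Pt.idealSub F u (Ideal.span {PowerSeries.X ^ 2}) := by
      rw [hy, map_sum, smul_sum]
      refine sum_mem fun i _ => ?_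
      rw [map_nsmul, smul_comm]
      exact nsmul_mem (ha i) _
    have e2 := ev1_map u (RingHom.id _) y.mem (mulSeries F p)
    rw [RingHom.id_comp] at e2
    rw [Pt.mem_idealSub, Pt.nsmul_val, ← e2, hV,
      ev1_psubst _ y.mem (cc_X_pow hQ), map_pow, ev1_X _ y.mem] at h1
    have h2 := ev1_congr (RingHom.id _)
      (Ideal.pow_mem_of_mem _ y.mem _ (Nat.pos_of_ne_zero hQ)) (pC_mem_rad hx)
      (𝔠 := Ideal.span {PowerSeries.X ^ 2}) (by
        rw [hcc, map_pow, ← sub_pow_char_pow, Ideal.mem_span_singleton]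
        exact (pow_dvd_pow _ hQ2).trans
          (pow_dvd_pow_of_dvd (PowerSeries.X_dvd_iff.2 (by simp [hy])) _)) V
    have h3 := add_mem h2 h1
    rw [sub_add_cancel] at h3
    exact (mem_sq.1 h3).2
  obtain ⟨j₀, hj₀, hmin⟩ := exists_min_image (univ.filter fun j => IsUnit (δ j))
    (fun j => j.1.val) (hex.imp fun j hj => mem_filter.2 ⟨mem_univ _, hj⟩)
  have huX : ∀ j, u (X j) = PowerSeries.C (z (X j)) + if hj : h ≤ j.val + 1 then
      PowerSeries.C (δ ⟨j, hj⟩) * PowerSeries.X else 0 := fun j => by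
    rw [hu, RingHom.comp_apply, fam_X hz', map_add, hχ, ev_C]
    split_ifs
    · rw [map_one, one_mul, ev_X _ hr]
    · rw [map_zero]
  have hunit : IsUnit (PowerSeries.coeff (p ^ (j₀.1.val + 1 - h)) D) := by
    have e1 := congrArg (PowerSeries.coeff (p ^ h * p ^ (j₀.1.val + 1 - h))) hV
    rw [← PowerSeries.expand_apply _ hQ, PowerSeries.coeff_expand_mul, ← pow_add,
      Nat.add_sub_cancel' j₀.2, PowerSeries.coeff_map] at e1
    rw [hD, PowerSeries.coeff_mk, ← e1]
    have hK : heightIdeal p n (j₀.1.val + 1) ≤ ((Ideal.span {PowerSeries.X ^ 2}).comap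
        (PowerSeries.map (Ideal.Quotient.mk (rad (O C))))).comap u := by
      refine heightIdeal_le_of ?_ fun j hj => ?_
      · rw [Ideal.mem_comap, map_natCast, hpS]; exact zero_mem _
      · rw [Ideal.mem_comap, Ideal.mem_comap, huX, map_add, PowerSeries.map_C,
          Ideal.Quotient.eq_zero_iff_mem.2 (hz' j), map_zero, zero_add]
        split_ifs with h1
        · have h2 : δ ⟨j, h1⟩ ∈ rad (O C) := by
            refine mem_rad_O.2 (lt_of_le_of_ne (norm_O_le _) fun h3 => ?_)
            have := hmin ⟨j, h1⟩ (mem_filter.2 ⟨mem_univ _, isUnit_O.2 h3⟩)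
            simp only at this
            omega
          rw [map_mul, PowerSeries.map_C, Ideal.Quotient.eq_zero_iff_mem.2 h2, map_zero, zero_mul]
          exact zero_mem _
        · rw [map_zero]; exact zero_mem _
    have h4 := (mem_sq.1 (hK (hF.coeff_eq j₀.1))).2
    rw [PowerSeries.coeff_map, Ideal.Quotient.eq_zero_iff_mem, map_sub, map_sub, huX,
      dif_pos j₀.2] at h4
    refine isUnit_of_sub_mem (mem_filter.1 hj₀).2 ?_
    simpa [PowerSeries.coeff_C] using h4
  have hcard := card_roots_le D _ hunit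
    (univ.image fun c : Ix n h → Fin p => (∑ i, (c i).val • H.th (Y i)).val ^ p ^ h) fun x hx => by
      obtain ⟨c, -, rfl⟩ := mem_image.1 hx
      exact ⟨Ideal.pow_mem_of_mem _ (Pt.mem _) _ (Nat.pos_of_ne_zero hQ), hroot _⟩
  rw [card_image_of_injective _ fun c c' hc => inj _ hY hind (Pt.ext (by
    have h1 := sub_eq_zero.2 hc
    rw [← sub_pow_char_pow] at h1
    exact sub_eq_zero.1 (pow_eq_zero_iff hQ |>.1 h1))), card_univ, Fintype.card_fun,
    Fintype.card_fin, Nat.pow_le_pow_iff_right (Fact.out : p.Prime).one_lt] at hcard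
  have h5 := le_card_Ix (n := n) hh
  have h6 := j₀.1.2
  have h7 := j₀.2
  omega

end Vale.Agent.P217
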