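import Vale.Agent.P217.LTDefs

/-! Existence of the Lubin-Tate group over the integers localised at `p`. -/

namespace Vale.Agent.P217

open Finset

namespace LTGroup

open MvPowerSeries

variable {A B σ τ : Type} [CommRing A] [CommRing B] [Finite σ] [Finite τ]

/-- The ideal of series without constant term. -/
noncomputable abbrev J (σ A : Type) [CommRing A] : Ideal (MvPowerSeries σ A) := Ideal.span (Set.range X)

theorem I_eq : (letI := Adic.discrete A; (Adic.I : Ideal (MvPowerSeries σ A))) = J σ A := by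
  change Ideal.map C ⊥ ⊔ J σ A = J σ A
  rw [Ideal.map_bot, bot_sup_eq]

theorem mem_pow {N : ℕ} {f : MvPowerSeries σ A} :
    f ∈ J σ A ^ N ↔ ∀ d : σ →₀ ℕ, d.degree < N → coeff d f = 0 := by
  refine ⟨fun h d hd => ?_, mem_pow_span_X N f⟩
  letI := Adic.discrete A
  rw [← I_eq, mem_I_pow_ps] at h
  have h1 : coeff d f ∈ (⊥ : Ideal A) ^ (N - d.degree) := h d
  rwa [Ideal.bot_pow (by omega), Ideal.mem_bot] at h1

theorem mem_J {f : MvPowerSeries σ A} : f ∈ J σ A ↔ constantCoeff f = 0 := by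
  letI := Adic.discrete A
  rw [← I_eq, mem_I_ps]
  exact Ideal.mem_bot

theorem haus (f : MvPowerSeries σ A) (h : ∀ n : ℕ, f ∈ J σ A ^ n) : f = 0 := by
  ext d
  exact mem_pow.1 (h (d.degree + 1)) d (Nat.lt_succ_self _)

theorem prec (f : ℕ → MvPowerSeries σ A) (h : ∀ n, f (n + 1) - f n ∈ J σ A ^ n) :
    ∃ L, ∀ n, L - f n ∈ J σ A ^ n := by
  letI := Adic.discrete A
  rw [← I_eq] at h ⊢
  exact Adic.prec f h

omit [Finite σ] in
theorem X_mem (i : σ) : (X i : MvPowerSeries σ A) ∈ J σ A := Ideal.subset_span ⟨i, rfl⟩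

theorem ext {θ₁ θ₂ : MvPowerSeries σ A →+* MvPowerSeries τ B} (hr : ∀ i, θ₁ (X i) ∈ J τ B)
    (hC : ∀ r, θ₁ (C r) = θ₂ (C r)) (hX : ∀ i, θ₁ (X i) = θ₂ (X i)) : θ₁ = θ₂ :=
  hom_ext_of_haus (J τ B) haus (fun i => Ideal.le_radical (hr i)) hC hX

omit [Finite τ] in
theorem map_pow_mem (θ : MvPowerSeries σ A →+* MvPowerSeries τ B) (h : ∀ i, θ (X i) ∈ J τ B)
    {N : ℕ} {f : MvPowerSeries σ A} (hf : f ∈ J σ A ^ N) : θ f ∈ J τ B ^ N :=
  map_mem_pow_of_X θ h N f (mem_pow.1 hf)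

/-- Substitution as a ring map. -/
noncomputable def sb (b : σ → MvPowerSeries τ A) (hb : ∀ i, b i ∈ J τ A) :
    MvPowerSeries σ A →+* MvPowerSeries τ A :=
  (substAlgHom (hasSubst_of_constantCoeff_zero fun i => mem_J.1 (hb i))).toRingHom

theorem sb_apply {b : σ → MvPowerSeries τ A} (hb : ∀ i, b i ∈ J τ A) (f : MvPowerSeries σ A) :
    sb b hb f = subst b f := substAlgHom_apply _ f

theorem sb_C {b : σ → MvPowerSeries τ A} (hb : ∀ i, b i ∈ J τ A) (r : A) :
    sb b hb (C r) = C r := by rw [sb_apply, subst_C]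

theorem sb_X {b : σ → MvPowerSeries τ A} (hb : ∀ i, b i ∈ J τ A) (i : σ) :
    sb b hb (X i) = b i := substAlgHom_X _ i

/-- A map scaling the variables to first order scales the leading form. -/
theorem lead (θ : MvPowerSeries σ A →+* MvPowerSeries σ A) {π : A} (hC : ∀ r, θ (C r) = C r)
    (hX : ∀ i, θ (X i) - C π * X i ∈ J σ A ^ 2) (D : ℕ) {f : MvPowerSeries σ A}
    (hf : f ∈ J σ A ^ D) : θ f - C π ^ D * f ∈ J σ A ^ (D + 1) := by
  have h0 : ∀ i, θ (X i) ∈ J σ A := fun i => by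
    simpa using add_mem (Ideal.pow_le_self two_ne_zero (hX i))
      (Ideal.mul_mem_left _ (C π) (X_mem i))
  have hm : ∀ {a b : ℕ} {x y : MvPowerSeries σ A}, x ∈ J σ A ^ a → y ∈ J σ A ^ b →
      θ x - C π ^ a * x ∈ J σ A ^ (a + 1) → θ y - C π ^ b * y ∈ J σ A ^ (b + 1) →
      θ (x * y) - C π ^ (a + b) * (x * y) ∈ J σ A ^ (a + b + 1) := by
    intro a b x y hx hy h1 h2
    have e : θ (x * y) - C π ^ (a + b) * (x * y) =
        (θ x - C π ^ a * x) * θ y + C π ^ a * (x * (θ y - C π ^ b * y)) := by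
      rw [map_mul]; ring
    rw [e]
    refine add_mem ?_ (Ideal.mul_mem_left _ _ ?_)
    · rw [add_right_comm, pow_add]; exact Ideal.mul_mem_mul h1 (map_pow_mem θ h0 hy)
    · rw [add_assoc, pow_add]; exact Ideal.mul_mem_mul hx h2
  have ha : ∀ {a : ℕ} {x y : MvPowerSeries σ A}, θ x - C π ^ a * x ∈ J σ A ^ (a + 1) →
      θ y - C π ^ a * y ∈ J σ A ^ (a + 1) → θ (x + y) - C π ^ a * (x + y) ∈ J σ A ^ (a + 1) := by
    intro a x y h1 h2
    rw [map_add, mul_add, add_sub_add_comm]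
    exact add_mem h1 h2
  have h1 : ∀ x, θ x - C π ^ 0 * x ∈ J σ A ^ (0 + 1) := fun x => by
    have h2 : x - C (constantCoeff x) ∈ J σ A ^ 1 := by rw [pow_one, mem_J]; simp
    have h3 := sub_mem (map_pow_mem θ h0 h2) h2
    rw [map_sub, hC, sub_sub_sub_cancel_right] at h3
    rwa [pow_zero, one_mul]
  have h2 : ∀ x ∈ J σ A, θ x - C π ^ 1 * x ∈ J σ A ^ (1 + 1) := fun x hx => by
    induction hx using Submodule.span_induction with
    | mem x hx => obtain ⟨i, rfl⟩ := hx; rw [pow_one]; exact hX i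
    | zero => simp
    | add x y _ _ h3 h4 => exact ha h3 h4
    | smul g x hx h3 => exact hm (a := 0) (b := 1) (by simp) (by rwa [pow_one]) (h1 g) h3
  induction D generalizing f with
  | zero => exact h1 f
  | succ D ih =>
    rw [pow_succ] at hf
    exact Submodule.mul_induction_on hf
      (fun x hx y hy => hm hx (by rwa [pow_one]) (ih hx) (h2 y hy)) fun x y => ha

variable (π : A) (q : ℕ)

omit [Finite σ] in
theorem f_mem {f : MvPowerSeries σ A} (hf : f ∈ J σ A) : C π * f + f ^ (q + 2) ∈ J σ A :=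
  add_mem (Ideal.mul_mem_left _ _ hf) (Ideal.pow_mem_of_mem _ hf _ (by omega))

/-- Substitution of the Lubin-Tate polynomial in every variable. -/
noncomputable def ψ : MvPowerSeries σ A →+* MvPowerSeries σ A :=
  sb (fun i => C π * X i + X i ^ (q + 2)) fun i => f_mem π q (X_mem i)

theorem ψ_C (r : A) : ψ π q (C r : MvPowerSeries σ A) = C r := sb_C _ r

theorem ψ_X (i : σ) : ψ π q (X i : MvPowerSeries σ A) = C π * X i + X i ^ (q + 2) := sb_X _ i

/-- The defect of commutation with the Lubin-Tate polynomial. -/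
noncomputable def E (f : MvPowerSeries σ A) : MvPowerSeries σ A := C π * f + f ^ (q + 2) - ψ π q f

omit [Finite σ] in
theorem sq_mem {f : MvPowerSeries σ A} (hf : f ∈ J σ A) : f ^ (q + 2) ∈ J σ A ^ 2 := by
  rw [pow_add]; exact Ideal.mul_mem_left _ _ (Ideal.pow_mem_pow hf 2)

theorem E_add {D : ℕ} (hD : D ≠ 0) {f g : MvPowerSeries σ A} (hf : f ∈ J σ A)
    (hg : g ∈ J σ A ^ D) : E π q (f + g) - E π q f - C (π - π ^ D) * g ∈ J σ A ^ (D + 1) := by
  have h1 := lead (ψ π q) (ψ_C π q)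
    (fun i => by rw [ψ_X, add_sub_cancel_left]; exact sq_mem q (X_mem i)) D hg
  have h2 : (f + g) ^ (q + 2) - f ^ (q + 2) ∈ J σ A ^ (D + 1) := by
    rw [← geom_sum₂_mul, add_sub_cancel_left, pow_succ']
    refine Ideal.mul_mem_mul (Ideal.sum_mem _ fun i _ => ?_) hg
    rcases Nat.eq_zero_or_pos i with rfl | hi
    · exact Ideal.mul_mem_left _ _ (Ideal.pow_mem_of_mem _ hf _ (by omega))
    · exact Ideal.mul_mem_right _ _
        (Ideal.pow_mem_of_mem _ (add_mem hf (Ideal.pow_le_self hD hg)) _ hi)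
  have e : E π q (f + g) - E π q f - C (π - π ^ D) * g =
      (f + g) ^ (q + 2) - f ^ (q + 2) - (ψ π q g - C π ^ D * g) := by
    simp only [E, map_add, map_sub, map_pow]; ring
  rw [e]
  exact sub_mem h2 h1

/-- Series commuting with the Lubin-Tate polynomial. -/
def Good (f : MvPowerSeries σ A) : Prop := f ∈ J σ A ∧ E π q f = 0

variable {π q}

theorem uniq (hA : ∀ D, 2 ≤ D → ∀ a : A, (π - π ^ D) * a = 0 → a = 0) {f g l : MvPowerSeries σ A}
    (hf : Good π q f) (hg : Good π q g) (h1 : f - l ∈ J σ A ^ 2) (h2 : g - l ∈ J σ A ^ 2) :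
    f = g := by
  have h3 : ∀ n, f - g ∈ J σ A ^ (n + 2) := fun n => by
    induction n with
    | zero => simpa using sub_mem h1 h2
    | succ n ih =>
      have h4 := E_add π q (by omega) hg.1 ih
      rw [add_sub_cancel, hf.2, hg.2, sub_zero, zero_sub, neg_mem_iff, mem_pow] at h4
      exact mem_pow.2 fun d hd => hA (n + 2) (by omega) _ (by rw [← coeff_C_mul]; exact h4 d hd)
  exact sub_eq_zero.1 (haus _ fun n => Ideal.pow_le_pow_right (by omega) (h3 n))

theorem good_X (i : σ) : Good π q (X i : MvPowerSeries σ A) :=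
  ⟨X_mem i, by rw [E, ψ_X, sub_self]⟩

theorem Good.hom {f : MvPowerSeries σ A} (hf : Good π q f)
    (θ : MvPowerSeries σ A →+* MvPowerSeries τ B) (χ : A →+* B) (hC : ∀ r, θ (C r) = C (χ r))
    (hX : ∀ i, Good (χ π) q (θ (X i))) : Good (χ π) q (θ f) := by
  have h1 : θ.comp (ψ π q) = (ψ (χ π) q).comp θ := by
    refine ext (fun i => ?_) (fun r => ?_) fun i => ?_
    · rw [RingHom.comp_apply, ψ_X, map_add, map_mul, map_pow, hC]
      exact f_mem _ _ (hX i).1
    · rw [RingHom.comp_apply, RingHom.comp_apply, ψ_C, hC, ψ_C]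
    · rw [RingHom.comp_apply, RingHom.comp_apply, ψ_X, map_add, map_mul, map_pow, hC]
      exact sub_eq_zero.1 (hX i).2
  refine ⟨by simpa using map_pow_mem θ (fun i => (hX i).1) (N := 1) (by simpa using hf.1), ?_⟩
  have h2 := congrArg θ hf.2
  rwa [E, map_sub, map_add, map_mul, map_pow, hC, map_zero, ← RingHom.comp_apply θ (ψ π q),
    h1] at h2

theorem two_mem {a b : MvPowerSeries τ A} (ha : a ∈ J τ A) (hb : b ∈ J τ A) (i : Fin 2) :
    ![a, b] i ∈ J τ A := by
  fin_cases i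
  exacts [ha, hb]

theorem Good.two {F : MvPowerSeries (Fin 2) A} (hF : Good π q F) {a b : MvPowerSeries τ A}
    (ha : Good π q a) (hb : Good π q b) : Good π q (subst ![a, b] F) := by
  rw [← sb_apply (two_mem ha.1 hb.1)]
  refine hF.hom _ (RingHom.id A) (sb_C _) fun i => ?_
  rw [sb_X]
  fin_cases i
  exacts [ha, hb]

theorem lin_two {F : MvPowerSeries (Fin 2) A} (hF : F - (X 0 + X 1) ∈ J (Fin 2) A ^ 2)
    {a b a' b' : MvPowerSeries τ A} (ha : a ∈ J τ A) (hb : b ∈ J τ A) (ha' : a - a' ∈ J τ A ^ 2)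
    (hb' : b - b' ∈ J τ A ^ 2) : subst ![a, b] F - (a' + b') ∈ J τ A ^ 2 := by
  have h1 := map_pow_mem (sb _ (two_mem ha hb)) (fun i => by rw [sb_X]; exact two_mem ha hb i) hF
  rw [map_sub, map_add, sb_X, sb_X, sb_apply] at h1
  have h2 := add_mem h1 (add_mem ha' hb')
  have e : subst ![a, b] F - (a' + b') = subst ![a, b] F - (a + b) + (a - a' + (b - b')) := by ring
  rw [e]
  exact h2

theorem root_eq (hA : ∀ D, 2 ≤ D → ∀ a : A, (π - π ^ D) * a = 0 → a = 0)
    {F : MvPowerSeries (Fin 2) A} (hF : Good π q F) {ζ : A} (hζ : ζ ^ (q + 2) = ζ) :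
    C ζ * F = subst ![C ζ * X 0, C ζ * X 1] F := by
  have h1 : ∀ f : MvPowerSeries (Fin 2) A, Good π q f → Good π q (C ζ * f) := fun f hf =>
    ⟨Ideal.mul_mem_left _ _ hf.1, by
      rw [← mul_zero (C ζ), ← hf.2, E, E, map_mul, ψ_C, mul_pow, ← map_pow, hζ]; ring⟩
  have h2 := two_mem (h1 _ (good_X 0)).1 (h1 _ (good_X 1)).1
  refine uniq hA (h1 F hF) (hF.two (h1 _ (good_X 0)) (h1 _ (good_X 1))) (l := C ζ * F) (by simp) ?_
  have h3 := lead (sb _ h2) (π := ζ) (sb_C _) (fun i => by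
    rw [sb_X]; fin_cases i <;> simp) 1 (f := F) (by simpa using hF.1)
  rwa [pow_one, sb_apply] at h3

theorem exists_good (hA : ∀ a : A, π * a = 0 → a = 0) (hu : ∀ D, IsUnit (1 - π ^ (D + 1)))
    (hE : ∀ f : MvPowerSeries σ A, ∃ g, E π q f = C π * g) {l : MvPowerSeries σ A}
    (hl : l ∈ J σ A) : ∃ f, Good π q f ∧ f - l ∈ J σ A ^ 2 := by
  have h1 : ∀ (n : ℕ) (f : MvPowerSeries σ A), ∃ g, f ∈ J σ A → E π q f ∈ J σ A ^ (n + 2) →
      g ∈ J σ A ^ (n + 2) ∧ E π q (f + g) ∈ J σ A ^ (n + 3) := fun n f => by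
    obtain ⟨g, hg⟩ := hE f
    obtain ⟨u, hu⟩ := (hu n).exists_right_inv
    refine ⟨-(C u * g), fun h2 h3 => ?_⟩
    have h4 : -(C u * g) ∈ J σ A ^ (n + 2) := neg_mem (Ideal.mul_mem_left _ _ (mem_pow.2
      fun d hd => hA _ (by rw [← coeff_C_mul, ← hg]; exact mem_pow.1 h3 d hd)))
    have h5 := E_add π q (by omega) h2 h4
    have e : C π * g + C (π - π ^ (n + 2)) * -(C u * g) = 0 := by
      have h6 := congrArg (C : A →+* MvPowerSeries σ A) hu
      simp only [map_mul, map_sub, map_pow, map_one] at h6 ⊢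
      linear_combination -(C π * g) * h6
    rw [hg, sub_sub, e, sub_zero] at h5
    exact ⟨h4, h5⟩
  choose δ hδ using h1
  let s : ℕ → MvPowerSeries σ A := fun n => Nat.rec l (fun n f => f + δ n f) n
  have h2 : ∀ n, s n ∈ J σ A ∧ E π q (s n) ∈ J σ A ^ (n + 2) ∧ s n - l ∈ J σ A ^ 2 := fun n => by
    induction n with
    | zero =>
      have h3 := E_add π q one_ne_zero (zero_mem _) (g := l) (by rwa [pow_one])
      exact ⟨hl, by simpa [E, s] using h3, by simp [s]⟩
    | succ n ih =>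
      obtain ⟨h3, h4⟩ := hδ n (s n) ih.1 ih.2.1
      refine ⟨add_mem ih.1 (Ideal.pow_le_self (by omega) h3), h4, ?_⟩
      change s n + δ n (s n) - l ∈ _
      rw [add_sub_right_comm]
      exact add_mem ih.2.2 (Ideal.pow_le_pow_right (by omega) h3)
  obtain ⟨L, hL⟩ := prec s fun n => by
    change s n + δ n (s n) - s n ∈ _
    rw [add_sub_cancel_left]
    exact Ideal.pow_le_pow_right (by omega) (hδ n (s n) (h2 n).1 (h2 n).2.1).1
  refine ⟨L, ⟨by simpa using add_mem (Ideal.pow_le_self one_ne_zero (hL 1)) (h2 1).1,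
    haus _ fun n => ?_⟩, by simpa using add_mem (hL 2) (h2 2).2.2⟩
  have h3 := E_add π q (Nat.succ_ne_zero n) (h2 (n + 1)).1 (hL (n + 1))
  rw [add_sub_cancel] at h3
  simpa using add_mem (add_mem (Ideal.pow_le_pow_right (by omega : n ≤ _) h3)
    (Ideal.pow_le_pow_right (by omega : n ≤ _) (Ideal.mul_mem_left _
      (C (π - π ^ (n + 1))) (hL (n + 1))))) (Ideal.pow_le_pow_right (by omega) (h2 (n + 1)).2.1)

variable {p : ℕ} [Fact p.Prime]

theorem le_nzd : coprimeSub p ≤ nonZeroDivisors ℤ := fun m hm =>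
  mem_nonZeroDivisors_of_ne_zero fun h => by
    have h1 : IsCoprime m (p : ℤ) := hm
    rw [h, isCoprime_zero_left] at h1
    exact (Nat.prime_iff_prime_int.1 (Fact.out : p.Prime)).not_unit h1

theorem zp_domain : IsDomain (Zp p) := IsLocalization.isDomain_localization le_nzd

theorem zp_ne : (p : Zp p) ≠ 0 := fun h =>
  (Nat.cast_ne_zero.2 (Fact.out : p.Prime).ne_zero : (p : ℤ) ≠ 0)
    (IsLocalization.injective (Zp p) (le_nzd (p := p)) (by rwa [map_natCast, map_zero]))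

theorem zp_unit (D : ℕ) : IsUnit (1 - (p : Zp p) ^ (D + 1)) := by
  simpa using IsLocalization.map_units (Zp p) (⟨1 - p ^ (D + 1), 1, p ^ D, by ring⟩ : coprimeSub p)

theorem zp_ne' {D : ℕ} (hD : 2 ≤ D) : (p : Zp p) - p ^ D ≠ 0 := by
  have := zp_domain (p := p)
  obtain ⟨D, rfl⟩ := Nat.exists_eq_add_of_le' hD
  rw [pow_succ', ← mul_one_sub]
  exact mul_ne_zero zp_ne (zp_unit D).ne_zero

theorem E_dvd {r : ℕ} (hq : p ^ r = q + 2) (f : MvPowerSeries σ (Zp p)) :
    ∃ g, E (p : Zp p) q f = C (p : Zp p) * g := by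
  set φ := Ideal.Quotient.mk (Ideal.span {(p : Zp p)})
  have h0 : φ p = 0 := Ideal.Quotient.eq_zero_iff_mem.2 (Ideal.mem_span_singleton_self _)
  have h1 : MvPowerSeries.map φ (E (p : Zp p) q f) = 0 := by
    rcases subsingleton_or_nontrivial (MvPowerSeries σ (Zp p ⧸ Ideal.span {(p : Zp p)})) with h | h
    · exact Subsingleton.elim _ _
    have : CharP (MvPowerSeries σ (Zp p ⧸ Ideal.span {(p : Zp p)})) p :=
      (CharP.charP_iff_prime_eq_zero Fact.out).2 (by
        rw [← map_natCast C, ← map_natCast φ, h0, map_zero])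
    have h2 : (iterateFrobenius _ p r).comp (MvPowerSeries.map (σ := σ) φ) =
        (MvPowerSeries.map φ).comp (ψ (p : Zp p) q) := by
      refine ext (fun i => ?_) (fun a => ?_) fun i => ?_
      · rw [RingHom.comp_apply, map_X, iterateFrobenius_def, hq]
        exact Ideal.pow_mem_of_mem _ (X_mem i) _ (by omega)
      · exact DFunLike.congr_fun (zp_hom_eq
          (((iterateFrobenius _ p r).comp (MvPowerSeries.map (σ := σ) φ)).comp C)
          (((MvPowerSeries.map φ).comp (ψ (p : Zp p) q)).comp C)) a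
      · simp only [RingHom.comp_apply, map_X, iterateFrobenius_def, hq, ψ_X, map_add, map_mul,
          map_pow, map_C, h0, map_zero, zero_mul, zero_add]
    have h3 := DFunLike.congr_fun h2 f
    rw [RingHom.comp_apply, RingHom.comp_apply, iterateFrobenius_def, hq] at h3
    rw [E, map_sub, map_add, map_mul, map_pow, map_C, h0, map_zero, zero_mul, zero_add, h3,
      sub_self]
  have h2 : ∀ d, ∃ c, c * (p : Zp p) = coeff d (E (p : Zp p) q f) := fun d =>
    Ideal.mem_span_singleton'.1 (Ideal.Quotient.eq_zero_iff_mem.1 (by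
      rw [← coeff_map, h1, map_zero]))
  choose c hc using h2
  exact ⟨c, MvPowerSeries.ext fun d => ((coeff_C_mul d c _).trans ((mul_comm _ _).trans (hc d))).symm⟩

theorem root_map {F : MvPowerSeries (Fin 2) (Zp p)} (hF : Good (p : Zp p) q F) {S : Type}
    [CommRing S] (φ : Zp p →+* S) {ζ : S} (hζ : ζ ^ (q + 2) = ζ) :
    C ζ * MvPowerSeries.map φ F = subst ![C ζ * X 0, C ζ * X 1] (MvPowerSeries.map φ F) := by
  have := zp_domain (p := p)
  set g : Polynomial (Zp p) := Polynomial.X ^ (q + 2) - Polynomial.X with hg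
  have hm : g.Monic := Polynomial.monic_X_pow_sub (by
    rw [Polynomial.degree_X]; exact_mod_cast (by omega : 1 < q + 2))
  have : Module.Free (Zp p) (AdjoinRoot g) := .of_basis (AdjoinRoot.powerBasis' hm).basis
  have h1 : AdjoinRoot.root g ^ (q + 2) = AdjoinRoot.root g := by
    have h2 := AdjoinRoot.eval₂_root g
    rwa [hg, Polynomial.eval₂_sub, Polynomial.eval₂_X_pow, Polynomial.eval₂_X, sub_eq_zero] at h2
  have h2 := root_eq (fun D hD a ha => (smul_eq_zero.1 (by
      rwa [Algebra.smul_def, map_sub, map_pow])).resolve_left (zp_ne' (p := p) hD))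
    (hF.hom (MvPowerSeries.map (algebraMap (Zp p) (AdjoinRoot g))) _ (map_C _) fun i => by
      rw [map_X]; exact good_X i) h1
  have h3 : g.eval₂ φ ζ = 0 := by
    rw [hg, Polynomial.eval₂_sub, Polynomial.eval₂_X_pow, Polynomial.eval₂_X, hζ, sub_self]
  have h4 := congrArg (MvPowerSeries.map (AdjoinRoot.lift φ ζ h3)) h2
  have h5 : MvPowerSeries.map (AdjoinRoot.lift φ ζ h3)
      (MvPowerSeries.map (algebraMap (Zp p) (AdjoinRoot g)) F) = MvPowerSeries.map φ F := by
    rw [← RingHom.comp_apply, ← MvPowerSeries.map_comp, zp_hom_eq (RingHom.comp _ _) φ]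
  rw [map_subst (hasSubst_of_constantCoeff_zero fun i => by fin_cases i <;> simp), map_mul, h5,
    map_C, AdjoinRoot.lift_root] at h4
  refine h4.trans (congrArg (fun b => subst b (MvPowerSeries.map φ F)) (funext fun i => ?_))
  fin_cases i <;> simp

end LTGroup

open LTGroup MvPowerSeries in
theorem exists_isLT (p r : ℕ) [Fact p.Prime] (hr : 0 < r) :
    ∃ G : FormalGroup (Zp p), IsLT p r G := by
  have := zp_domain (p := p)
  obtain ⟨q, hq⟩ := Nat.exists_eq_add_of_le'
    (Nat.one_lt_pow hr.ne' (Fact.out : p.Prime).one_lt : 2 ≤ p ^ r)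
  have hA : ∀ D, 2 ≤ D → ∀ a : Zp p, ((p : Zp p) - p ^ D) * a = 0 → a = 0 := fun D hD a ha =>
    (mul_eq_zero.1 ha).resolve_left (zp_ne' hD)
  obtain ⟨F, hF, hl⟩ := exists_good (fun a ha => (mul_eq_zero.1 ha).resolve_left zp_ne) zp_unit
    (E_dvd (σ := Fin 2) hq) (add_mem (X_mem 0) (X_mem 1))
  have hc : ∀ i : Fin 2, coeff (Finsupp.single i 1) F = 1 := fun i => by
    have h1 := mem_pow.1 hl (Finsupp.single i 1) (by simp)
    rw [map_sub, sub_eq_zero] at h1
    rw [h1]
    fin_cases i <;> simp [coeff_index_single_X]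
  have hz : ∀ {σ : Type} (f : MvPowerSeries σ (Zp p)), f - f ∈ J σ (Zp p) ^ 2 := fun f => by simp
  let G : FormalGroup (Zp p) := ⟨F, mem_J.1 hF.1, hc 0, hc 1, uniq hA
    (hF.two (hF.two (good_X 0) (good_X 1)) (good_X 2))
    (hF.two (good_X 0) (hF.two (good_X 1) (good_X 2)))
    (lin_two hl (hF.two (good_X 0) (good_X 1)).1 (X_mem 2)
      (lin_two hl (X_mem 0) (X_mem 1) (hz _) (hz _)) (hz _))
    (by
      rw [add_assoc]
      exact lin_two hl (X_mem 0) (hF.two (good_X 1) (good_X 2)).1 (hz _)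
        (lin_two hl (X_mem 1) (X_mem 2) (hz _) (hz _)))⟩
  refine ⟨G, ⟨uniq hA hF (hF.two (good_X 1) (good_X 0)) hl ?_⟩, ?_, fun S _ φ ζ hζ => ⟨by simp, ?_⟩⟩
  · rw [add_comm]
    exact lin_two hl (X_mem 1) (X_mem 0) (hz _) (hz _)
  · have h1 : ∀ m : ℕ, Good (σ := Unit) (p : Zp p) q (mulSeries G m) ∧
        mulSeries G m - C (m : Zp p) * X () ∈ J Unit (Zp p) ^ 2 := fun m => by
      induction m with
      | zero => exact ⟨⟨zero_mem _, by simp [E, mulSeries]⟩, by simp [mulSeries]⟩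
      | succ m ih =>
        refine ⟨hF.two ih.1 (good_X ()), ?_⟩
        rw [Nat.cast_add_one, map_add, map_one, add_one_mul]
        exact lin_two hl ih.1.1 (X_mem ()) ih.2 (hz _)
    rw [hq]
    refine uniq hA (h1 p).1 (g := C (p : Zp p) * X () + X () ^ (q + 2)) ?_ (h1 p).2 ?_
    · refine ⟨f_mem _ _ (X_mem ()), ?_⟩
      rw [E, map_add, map_mul, map_pow, ψ_C, ψ_X, sub_self]
    · rw [add_sub_cancel_left]
      exact sq_mem q (X_mem ())
  · have h1 : ∀ a : MvPowerSeries (Fin 2) S, constantCoeff a = 0 →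
        (PowerSeries.C ζ * PowerSeries.X).subst a = C ζ * a := fun a ha => by
      have h2 := PowerSeries.HasSubst.of_constantCoeff_zero ha
      rw [PowerSeries.subst_mul h2, PowerSeries.subst_X h2, PowerSeries.subst_C]
    rw [h1 _ (G.map φ).zero_constantCoeff, h1 _ (constantCoeff_X 0), h1 _ (constantCoeff_X 1)]
    exact root_map hF φ (hq ▸ hζ)

end Vale.Agent.P217
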