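import Vale.Agent.P217.Ev1

/-! The localisation of the integers at `p`, Lubin-Tate groups, and ring maps close to the
identity. -/

namespace Vale.Agent.P217

open PowerSeries

/-- Integers coprime to `p`. -/
def coprimeSub (p : ℕ) : Submonoid ℤ where
  carrier := {m | IsCoprime m (p : ℤ)}
  mul_mem' ha hb := IsCoprime.mul_left ha hb
  one_mem' := isCoprime_one_left

/-- The integers localised at `p`. -/
abbrev Zp (p : ℕ) : Type := Localization (coprimeSub p)

theorem zp_hom_eq {p : ℕ} {S : Type} [CommRing S] (φ ψ : Zp p →+* S) : φ = ψ :=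
  IsLocalization.ringHom_ext (coprimeSub p) (RingHom.ext_int _ _)

theorem exists_zp_hom_of_unit {p : ℕ} {S : Type} [CommRing S]
    (h : ∀ x : S, IsUnit (1 + p * x)) : Nonempty (Zp p →+* S) := by
  refine ⟨IsLocalization.lift (M := coprimeSub p) (g := Int.castRingHom S) fun y => ?_⟩
  obtain ⟨a, b, hab⟩ := y.2
  have h1 := congrArg (Int.castRingHom S) hab
  simp only [map_add, map_mul, map_one, map_natCast] at h1
  have h2 := h (-(Int.castRingHom S b))
  have h3 : 1 + (p : S) * -(Int.castRingHom S b) = Int.castRingHom S a * Int.castRingHom S y := by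
    linear_combination -h1
  rw [h3] at h2
  exact isUnit_of_mul_isUnit_right h2

theorem exists_zp_hom {p : ℕ} {S : Type} [CommRing S] [Adic S] (h : (p : S) ∈ rad S) :
    Nonempty (Zp p →+* S) :=
  exists_zp_hom_of_unit fun _ => isUnit_one_add (Ideal.mul_mem_right _ _ h)

theorem exists_zp_hom_of_zero {p : ℕ} {S : Type} [CommRing S] (h : (p : S) = 0) :
    Nonempty (Zp p →+* S) :=
  exists_zp_hom_of_unit fun _ => by simp [h]

theorem zp_pow_p {p : ℕ} [Fact p.Prime] {S : Type} [CommRing S] (h : (p : S) = 0)
    (φ : Zp p →+* S) (a : Zp p) : φ a ^ p = φ a := by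
  rcases subsingleton_or_nontrivial S with hS | hS
  · exact Subsingleton.elim _ _
  have : CharP S p := (CharP.charP_iff_prime_eq_zero Fact.out).2 h
  exact DFunLike.congr_fun (zp_hom_eq ((frobenius S p).comp φ) φ) a

/-- The Lubin-Tate group with `[p](x) = p x + x ^ p ^ r`. -/
structure IsLT (p r : ℕ) (G : FormalGroup (Zp p)) : Prop where
  comm : G.IsComm
  mul_p : mulSeries G p = C (p : Zp p) * X + X ^ p ^ r
  root : ∀ (S : Type) [CommRing S] (φ : Zp p →+* S) (ζ : S), ζ ^ p ^ r = ζ →
    IsHom (G.map φ) (G.map φ) (C ζ * X)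

/-- A ring endomorphism congruent to the identity modulo `I ^ 2` is bijective. -/
theorem bijective_of_near_id {S : Type} [CommRing S] [Adic S] (φ : S →+* S)
    (h : ∀ x, φ x - x ∈ (Adic.I : Ideal S) ^ 2) : Function.Bijective φ := by
  have hI : ∀ k, ∀ x ∈ (Adic.I : Ideal S) ^ k, φ x - x ∈ (Adic.I : Ideal S) ^ (k + 1) := by
    intro k
    induction k with
    | zero => intro x _; exact Ideal.pow_le_pow_right (by omega) (h x)
    | succ k ih =>
      intro x hx
      rw [pow_succ] at hx
      refine Submodule.mul_induction_on hx (fun a ha b hb => ?_) fun a b ha hb => ?_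
      · have e : φ (a * b) - a * b = (φ a - a) * φ b + a * (φ b - b) := by rw [map_mul]; ring
        have hb' : φ b ∈ (Adic.I : Ideal S) := by
          have := add_mem (Ideal.pow_le_self two_ne_zero (h b)) hb
          simpa using this
        rw [e]
        refine add_mem ?_ ?_
        · rw [pow_succ]; exact Ideal.mul_mem_mul (ih a ha) hb'
        · rw [add_assoc, pow_add]; exact Ideal.mul_mem_mul ha (h b)
      · have e : φ (a + b) - (a + b) = (φ a - a) + (φ b - b) := by rw [map_add]; ring
        rw [e]; exact add_mem ha hb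
  constructor
  · rw [injective_iff_map_eq_zero]
    intro x hx
    refine Adic.haus x fun n => ?_
    induction n with
    | zero => simp
    | succ n ih => simpa [hx] using hI n x ih
  · intro y
    let a : ℕ → S := fun n => Nat.rec 0 (fun _ x => x + (y - φ x)) n
    have ha : ∀ n, y - φ (a n) ∈ (Adic.I : Ideal S) ^ n := by
      intro n
      induction n with
      | zero => simp
      | succ n ih =>
        have := neg_mem (hI n _ ih)
        have e : y - φ (a (n + 1)) = -(φ (y - φ (a n)) - (y - φ (a n))) := by
          change y - φ (a n + (y - φ (a n))) = _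
          rw [map_add]; ring
        rw [e]; exact this
    obtain ⟨L, hL⟩ := Adic.prec a fun n => by
      change a n + (y - φ (a n)) - a n ∈ _
      simpa using ha n
    refine ⟨L, eq_of_forall_sub_mem fun n => ?_⟩
    have h1 := Ideal.pow_le_pow_right (Nat.le_succ n) (hI n _ (hL n))
    have := sub_mem (add_mem h1 (hL n)) (ha n)
    rw [map_sub] at this
    have e : φ L - y = φ L - φ (a n) - (L - a n) + (L - a n) - (y - φ (a n)) := by ring
    rw [e]; exact this

end Vale.Agent.P217
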