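import Mathlib

namespace Vale.Agent.P217
open Finset

namespace Moore

lemma one_term {Q : ℕ} (hQ : 1 < Q) {e b r K : ℝ} (he : 0 < e) (hr : 0 ≤ r) (m₀ : ℕ)
    (H : ∀ m, m₀ ≤ m → e * b ^ Q ^ m ≤ K * r ^ Q ^ m) : b ≤ r := by
  by_contra hc
  push Not at hc
  have hb : 0 < b := lt_of_le_of_lt hr hc
  rcases hr.eq_or_lt with h0 | h0
  · have := H m₀ le_rfl
    rw [← h0, zero_pow (by positivity), mul_zero] at this
    have h2 : 0 < e * b ^ Q ^ m₀ := by positivity
    linarith
  · have h1 : 1 < b / r := (one_lt_div h0).2 hc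
    obtain ⟨n, hn⟩ := pow_unbounded_of_one_lt (K / e) h1
    have h2 := H (max n m₀) (le_max_right _ _)
    have h3 : n ≤ Q ^ max n m₀ :=
      le_trans (le_max_left _ _) (Nat.lt_pow_self hQ).le
    have h4 : (b / r) ^ n ≤ (b / r) ^ Q ^ max n m₀ := pow_le_pow_right₀ h1.le h3
    have h5 : K / e < (b / r) ^ Q ^ max n m₀ := lt_of_lt_of_le hn h4
    rw [div_pow, div_lt_div_iff₀ he (by positivity)] at h5
    nlinarith

lemma indep {C : Type} [NormedField C] {p : ℕ} [Fact p.Prime]
    [CharP C p] {h : ℕ} (hh : 0 < h) (k : Subfield C) (hk : ∀ x, x ∈ k ↔ x ^ p ^ h = x)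
    (r : ℝ) (hr : 0 ≤ r) (n : ℕ) : ∀ (e b : Fin n → C) (K : ℝ) (m₀ : ℕ), LinearIndependent k e →
      (∀ m, m₀ ≤ m → ‖∑ j, e j * b j ^ (p ^ h) ^ m‖ ≤ K * r ^ (p ^ h) ^ m) →
      ∀ j, ‖b j‖ ≤ r := by
  have hQ : 1 < p ^ h := Nat.one_lt_pow hh.ne' (Fact.out : p.Prime).one_lt
  induction n with
  | zero => intro e b K m₀ _ _ j; exact j.elim0
  | succ n ih =>
    intro e b K m₀ he H
    have h0 : e 0 ≠ 0 := he.ne_zero 0
    have hn0 : 0 < ‖e 0‖ := norm_pos_iff.2 h0
    let e' : Fin n → C := fun j => e j.succ / e 0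
    have hS : ∀ m, m₀ ≤ m → ‖b 0 ^ (p ^ h) ^ m + ∑ j, e' j * b j.succ ^ (p ^ h) ^ m‖
        ≤ K / ‖e 0‖ * r ^ (p ^ h) ^ m := by
      intro m hm
      have := H m hm
      rw [Fin.sum_univ_succ] at this
      have e1 : b 0 ^ (p ^ h) ^ m + ∑ j, e' j * b j.succ ^ (p ^ h) ^ m =
          (e 0 * b 0 ^ (p ^ h) ^ m + ∑ j : Fin n, e j.succ * b j.succ ^ (p ^ h) ^ m) / e 0 := by
        rw [add_div, Finset.sum_div]
        congr 1
        · field_simp
        · refine Finset.sum_congr rfl (fun j _ => ?_)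
          simp only [e']
          ring
      rw [e1, norm_div, div_mul_eq_mul_div]
      exact div_le_div_of_nonneg_right this hn0.le
    have hf : LinearIndependent k (fun j => e' j ^ p ^ h - e' j) := by
      rw [Fintype.linearIndependent_iff] at he ⊢
      intro g hg
      have hy : (∑ j, (g j : C) * e' j) ∈ k := by
        rw [hk, sum_pow_char_pow]
        rw [← sub_eq_zero, ← Finset.sum_sub_distrib, ← hg]
        refine Finset.sum_congr rfl (fun j _ => ?_)
        rw [mul_pow, (hk _).1 (g j).2, Subfield.smul_def, smul_eq_mul]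
        ring
      have := he (Fin.cons (-⟨_, hy⟩) g) (by
        rw [Fin.sum_univ_succ]
        simp only [Fin.cons_zero, Fin.cons_succ, Subfield.smul_def, smul_eq_mul,
          NegMemClass.coe_neg, neg_mul, Finset.sum_mul]
        rw [neg_add_eq_zero]
        refine Finset.sum_congr rfl (fun j _ => ?_)
        simp only [e']
        field_simp)
      intro j
      simpa using this j.succ
    have hb : ∀ j : Fin n, ‖b j.succ‖ ≤ r := by
      apply ih _ (fun j => b j.succ) ((K / ‖e 0‖) ^ p ^ h + K / ‖e 0‖) (m₀ + 1) hf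
      intro m hm
      obtain ⟨m, rfl⟩ : ∃ m', m = m' + 1 := ⟨m - 1, by omega⟩
      have a1 := hS m (by omega)
      have a2 := hS (m + 1) (by omega)
      have e1 : ∑ j, (e' j ^ p ^ h - e' j) * b j.succ ^ (p ^ h) ^ (m + 1) =
          (b 0 ^ (p ^ h) ^ m + ∑ j, e' j * b j.succ ^ (p ^ h) ^ m) ^ p ^ h -
          (b 0 ^ (p ^ h) ^ (m + 1) + ∑ j, e' j * b j.succ ^ (p ^ h) ^ (m + 1)) := by
        rw [add_pow_char_pow, sum_pow_char_pow, ← pow_mul (b 0), ← pow_succ,
          add_sub_add_left_eq_sub, ← Finset.sum_sub_distrib]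
        refine Finset.sum_congr rfl (fun j _ => ?_)
        rw [mul_pow, ← pow_mul (b j.succ), ← pow_succ, sub_mul]
      rw [e1]
      refine le_trans (norm_sub_le _ _) ?_
      rw [add_mul, norm_pow]
      refine add_le_add ?_ a2
      refine le_trans (pow_le_pow_left₀ (norm_nonneg _) a1 _) ?_
      rw [mul_pow, ← pow_mul, ← pow_succ]
    intro j
    refine Fin.cases ?_ hb j
    apply one_term hQ hn0 hr m₀ (K := K + ∑ j : Fin n, ‖e j.succ‖)
    intro m hm
    have a1 := H m hm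
    rw [Fin.sum_univ_succ] at a1
    have a2 : ‖∑ j : Fin n, e j.succ * b j.succ ^ (p ^ h) ^ m‖ ≤
        (∑ j : Fin n, ‖e j.succ‖) * r ^ (p ^ h) ^ m := by
      refine le_trans (norm_sum_le _ _) ?_
      rw [Finset.sum_mul]
      refine Finset.sum_le_sum (fun j _ => ?_)
      rw [norm_mul, norm_pow]
      exact mul_le_mul_of_nonneg_left (pow_le_pow_left₀ (norm_nonneg _) (hb j) _) (norm_nonneg _)
    have a3 := norm_sub_le (e 0 * b 0 ^ (p ^ h) ^ m + ∑ j : Fin n, e j.succ * b j.succ ^ (p ^ h) ^ m)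
      (∑ j : Fin n, e j.succ * b j.succ ^ (p ^ h) ^ m)
    rw [add_sub_cancel_right, norm_mul, norm_pow] at a3
    rw [add_mul]
    linarith

end Moore

theorem moore_norm {C : Type} [NormedField C] [IsUltrametricDist C] {p : ℕ} [Fact p.Prime]
    [CharP C p] {h : ℕ} (hh : 0 < h) (k : Subfield C) (hk : ∀ x, x ∈ k ↔ x ^ p ^ h = x)
    {ι : Type} (s : Finset ι) (c a : ι → C) (r K : ℝ) (hr : 0 ≤ r) (m₀ : ℕ)
    (H : ∀ m, m₀ ≤ m → ‖∑ i ∈ s, c i * a i ^ (p ^ h) ^ m‖ ≤ K * r ^ (p ^ h) ^ m)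
    (lam : C →ₗ[k] k) : ‖∑ i ∈ s, (lam (c i) : C) * a i‖ ≤ r := by
  classical
  have hQ : 1 < p ^ h := Nat.one_lt_pow hh.ne' (Fact.out : p.Prime).one_lt
  let V : Submodule k C := Submodule.span k ((s.image c : Finset C) : Set C)
  have : FiniteDimensional k V := FiniteDimensional.span_finset k _
  let B := Module.finBasis k V
  have hmem : ∀ i ∈ s, c i ∈ V := fun i hi =>
    Submodule.subset_span (by simpa using ⟨i, hi, rfl⟩)
  let t : ι → Fin (Module.finrank k V) → k := fun i j =>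
    if hi : i ∈ s then B.repr ⟨c i, hmem i hi⟩ j else 0
  have hc : ∀ i ∈ s, c i = ∑ j, t i j • (B j : C) := by
    intro i hi
    have := congrArg Subtype.val (B.sum_repr ⟨c i, hmem i hi⟩)
    simp only [AddSubmonoidClass.coe_finsetSum, SetLike.val_smul] at this
    simp only [t, dif_pos hi]
    exact this.symm
  have hpow : ∀ (x : k) (m : ℕ), (x : C) ^ (p ^ h) ^ m = x := by
    intro x m
    induction m with
    | zero => simp
    | succ m ih => rw [pow_succ, pow_mul, ih, (hk _).1 x.2]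
  have hnorm : ∀ x : k, ‖(x : C)‖ ≤ 1 := by
    intro x
    by_contra hc
    push Not at hc
    have h1 := congrArg norm ((hk _).1 x.2)
    rw [norm_pow] at h1
    have h2 := pow_lt_pow_right₀ hc hQ
    rw [pow_one] at h2
    linarith
  have hli : LinearIndependent k (fun j => (B j : C)) :=
    B.linearIndependent.map' V.subtype (Submodule.ker_subtype V)
  have hb := Moore.indep hh k hk r hr _ (fun j => (B j : C))
    (fun j => ∑ i ∈ s, (t i j : C) * a i) K m₀ hli (by
      intro m hm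
      refine le_of_eq_of_le (congrArg norm ?_) (H m hm)
      have e1 : ∀ j, (∑ i ∈ s, (t i j : C) * a i) ^ (p ^ h) ^ m =
          ∑ i ∈ s, (t i j : C) * a i ^ (p ^ h) ^ m := by
        intro j
        rw [← pow_mul, sum_pow_char_pow]
        refine Finset.sum_congr rfl (fun i _ => ?_)
        rw [mul_pow, pow_mul p, hpow]
      simp only [e1, Finset.mul_sum]
      rw [Finset.sum_comm]
      refine Finset.sum_congr rfl (fun i hi => ?_)
      rw [hc i hi, Finset.sum_mul]
      refine Finset.sum_congr rfl (fun j _ => ?_)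
      rw [Subfield.smul_def, smul_eq_mul]
      ring)
  have e2 : ∑ i ∈ s, (lam (c i) : C) * a i =
      ∑ j, (lam (B j) : C) * ∑ i ∈ s, (t i j : C) * a i := by
    simp only [Finset.mul_sum]
    rw [Finset.sum_comm]
    refine Finset.sum_congr rfl (fun i hi => ?_)
    rw [hc i hi, map_sum, AddSubmonoidClass.coe_finsetSum, Finset.sum_mul]
    refine Finset.sum_congr rfl (fun j _ => ?_)
    rw [map_smul, smul_eq_mul, Subfield.coe_mul]
    ring
  rw [e2]
  refine IsUltrametricDist.norm_sum_le_of_forall_le_of_nonneg hr (fun j _ => ?_)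
  rw [norm_mul]
  calc _ ≤ 1 * r := mul_le_mul (hnorm _) (hb j) (norm_nonneg _) zero_le_one
    _ = r := one_mul r

end Vale.Agent.P217
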