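import Vale.Agent.P217.Valued
import Vale.Agent.P217.LTDefs
import Vale.Agent.P217.Moore

/-! Moore descent for power series and an ultrafilter limit. -/

namespace Vale.Agent.P217

open Finset

namespace MooreLim

open MvPowerSeries

section alg
variable {R : Type} [CommRing R] {σ : Type}

/-- The ideal generated by the variables. -/
noncomputable abbrev mX (R : Type) [CommRing R] (σ : Type) : Ideal (MvPowerSeries σ R) :=
  Ideal.span (Set.range (X : σ → MvPowerSeries σ R))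

theorem X_mem (i : σ) : (X i : MvPowerSeries σ R) ∈ mX R σ := Ideal.subset_span ⟨i, rfl⟩

theorem coeff_eq_zero_of_mem (N : ℕ) {f : MvPowerSeries σ R} (hf : f ∈ mX R σ ^ N)
    (d : σ →₀ ℕ) (hd : d.degree < N) : coeff d f = 0 := by
  classical
  induction N generalizing f d with
  | zero => omega
  | succ N ih =>
    rw [pow_succ] at hf
    revert d
    refine Submodule.mul_induction_on hf (fun a ha b hb d hd => ?_) fun a b ha hb d hd => ?_
    · have hb0 : constantCoeff b = 0 := by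
        have : mX R σ ≤ RingHom.ker (constantCoeff : MvPowerSeries σ R →+* R) := by
          rw [Ideal.span_le]
          rintro _ ⟨i, rfl⟩
          simp
        exact this hb
      rw [coeff_mul]
      refine sum_eq_zero fun x hx => ?_
      have h1 := congrArg Finsupp.degree (mem_antidiagonal.1 hx)
      rw [map_add] at h1
      by_cases h2 : x.2 = 0
      · rw [h2, coeff_zero_eq_constantCoeff_apply, hb0, mul_zero]
      · have : x.2.degree ≠ 0 := fun h0 => h2 ((Finsupp.degree_eq_zero_iff _).1 h0)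
        rw [ih ha x.1 (by omega), zero_mul]
    · rw [map_add, ha d hd, hb d hd, add_zero]

theorem hom_mem_pow {T : Type} [CommRing T] (ψ : MvPowerSeries σ R →+* T) {𝔠 : Ideal T}
    (h : ∀ i, ψ (X i) ∈ 𝔠) (N : ℕ) {f : MvPowerSeries σ R} (hf : f ∈ mX R σ ^ N) :
    ψ f ∈ 𝔠 ^ N := by
  have h1 := Ideal.mem_map_of_mem ψ hf
  rw [Ideal.map_pow] at h1
  refine Ideal.pow_right_mono ?_ N h1
  rw [Ideal.map_span, Ideal.span_le]
  rintro _ ⟨_, ⟨i, rfl⟩, rfl⟩
  exact h i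

theorem sub_C_mem [Finite σ] (f : MvPowerSeries σ R) : f - C (constantCoeff f) ∈ mX R σ := by
  have := mem_pow_span_X 1 (f - C (constantCoeff f)) fun d hd => by
    have : d = 0 := (Finsupp.degree_eq_zero_iff d).1 (by omega)
    subst this; simp
  simpa using this

theorem mem_of_constantCoeff [Finite σ] {f : MvPowerSeries σ R} (h : constantCoeff f = 0) :
    f ∈ mX R σ := by simpa [h] using sub_C_mem f

theorem sub_lin_mem [Fintype σ] {f : MvPowerSeries σ R} (h : constantCoeff f = 0) :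
    f - ∑ j, C (coeff (Finsupp.single j 1) f) * X j ∈ mX R σ ^ 2 := by
  classical
  refine mem_pow_span_X 2 _ fun d hd => ?_
  by_cases h0 : d = 0
  · subst h0; simp [h]
  · have h1 : d.degree ≠ 0 := fun h1 => h0 ((Finsupp.degree_eq_zero_iff _).1 h1)
    have h2 : d.degree = 1 := by omega
    obtain ⟨i, rfl⟩ : ∃ i, d = Finsupp.single i 1 := by
      have := (Finsupp.sum_eq_one_iff d).1 (by rw [← h2, Finsupp.degree_apply]; rfl)
      exact this
    rw [map_sub, map_sum, sum_eq_single i]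
    · simp [coeff_C_mul, coeff_X]
    · intro j _ hj
      rw [coeff_C_mul, coeff_X, if_neg, mul_zero]
      intro h3
      exact hj (Finsupp.single_left_injective one_ne_zero h3).symm
    · simp

variable [Fintype σ] [DecidableEq σ] (Φ : MvPowerSeries σ R →+* MvPowerSeries σ R)
  (hC : ∀ r, Φ (C r) = C r) (h0 : ∀ i, constantCoeff (Φ (X i)) = 0) (δ : R)
  (hδ : δ = (Matrix.of fun i j => coeff (Finsupp.single j 1) (Φ (X i))).det)
include hC h0 hδ

theorem approx_X (i : σ) : ∃ P ∈ mX R σ, Φ P - C δ * X i ∈ mX R σ ^ 2 := by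
  set M : Matrix σ σ R := Matrix.of fun i j => coeff (Finsupp.single j 1) (Φ (X i)) with hM
  refine ⟨∑ j, C (M.adjugate i j) * X j,
    Ideal.sum_mem _ fun j _ => Ideal.mul_mem_left _ _ (X_mem j), ?_⟩
  have e1 : (C δ * X i : MvPowerSeries σ R) =
      ∑ j, C (M.adjugate i j) * ∑ l, C (M j l) * X l := by
    simp only [mul_sum, ← mul_assoc, ← map_mul]
    rw [sum_comm]
    simp only [← sum_mul, ← map_sum]
    have e2 : ∀ l, ∑ j, M.adjugate i j * M j l = if i = l then δ else 0 := by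
      intro l
      rw [← Matrix.mul_apply, Matrix.adjugate_mul, ← hδ, Matrix.smul_apply, Matrix.one_apply]
      split_ifs <;> simp
    simp only [e2]
    rw [sum_eq_single i] <;> simp +contextual [eq_comm]
  rw [e1, map_sum, ← sum_sub_distrib]
  refine Ideal.sum_mem _ fun j _ => ?_
  rw [map_mul, hC, ← mul_sub]
  exact Ideal.mul_mem_left _ _ (sub_lin_mem (h0 j))

theorem approx_one {x : MvPowerSeries σ R} (hx : x ∈ mX R σ) :
    ∃ P ∈ mX R σ, Φ P - C δ * x ∈ mX R σ ^ 2 := by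
  choose P hP hP' using approx_X Φ hC h0 δ hδ
  have hx0 : constantCoeff x = 0 := by
    simpa using coeff_eq_zero_of_mem 1 (by simpa using hx) 0 (by simp)
  refine ⟨∑ j, C (coeff (Finsupp.single j 1) x) * P j,
    Ideal.sum_mem _ fun j _ => Ideal.mul_mem_left _ _ (hP j), ?_⟩
  have h1 : ∑ j, C (coeff (Finsupp.single j 1) x) * (Φ (P j) - C δ * X j) ∈ mX R σ ^ 2 :=
    Ideal.sum_mem _ fun j _ => Ideal.mul_mem_left _ _ (hP' j)
  have h2 := Ideal.mul_mem_left _ (C δ) (sub_lin_mem hx0)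
  have h3 := sub_mem h1 h2
  have e : Φ (∑ j, C (coeff (Finsupp.single j 1) x) * P j) - C δ * x =
      ∑ j, C (coeff (Finsupp.single j 1) x) * (Φ (P j) - C δ * X j) -
        C δ * (x - ∑ j, C (coeff (Finsupp.single j 1) x) * X j) := by
    simp only [map_sum, map_mul, hC, mul_sub, sum_sub_distrib, mul_sum]
    have : ∀ j, C (coeff (Finsupp.single j 1) x) * (C δ * X j) =
        C δ * (C (coeff (Finsupp.single j 1) x) * (X j : MvPowerSeries σ R)) := fun j => by ring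
    simp only [this]
    ring
  rw [e]; exact h3

theorem approx_pow (n : ℕ) {x : MvPowerSeries σ R} (hx : x ∈ mX R σ ^ n) :
    ∃ P ∈ mX R σ ^ n, Φ P - C δ ^ n * x ∈ mX R σ ^ (n + 1) := by
  induction n generalizing x with
  | zero =>
    refine ⟨C (constantCoeff x), by simp, ?_⟩
    have := neg_mem (sub_C_mem x)
    simpa [hC] using this
  | succ n ih =>
    rw [pow_succ] at hx
    refine Submodule.mul_induction_on hx (fun a ha b hb => ?_) fun a b ha hb => ?_
    · obtain ⟨P, hP, hP'⟩ := ih ha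
      obtain ⟨Q, hQ, hQ'⟩ := approx_one Φ hC h0 δ hδ hb
      have hΦ : Φ Q ∈ mX R σ := by
        simpa using hom_mem_pow Φ (fun i => mem_of_constantCoeff (h0 i)) 1 (by simpa using hQ)
      refine ⟨P * Q, by rw [pow_succ]; exact Ideal.mul_mem_mul hP hQ, ?_⟩
      have e : Φ (P * Q) - C δ ^ (n + 1) * (a * b) =
          (Φ P - C δ ^ n * a) * Φ Q + C δ ^ n * (a * (Φ Q - C δ * b)) := by
        rw [map_mul]; ring
      rw [e]
      refine add_mem ?_ (Ideal.mul_mem_left _ _ ?_)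
      · rw [pow_succ _ (n + 1)]; exact Ideal.mul_mem_mul hP' hΦ
      · rw [add_assoc, pow_add]; exact Ideal.mul_mem_mul ha hQ'
    · obtain ⟨P, hP, hP'⟩ := ha
      obtain ⟨Q, hQ, hQ'⟩ := hb
      refine ⟨P + Q, add_mem hP hQ, ?_⟩
      have e : Φ (P + Q) - C δ ^ (n + 1) * (a + b) =
          (Φ P - C δ ^ (n + 1) * a) + (Φ Q - C δ ^ (n + 1) * b) := by
        rw [map_add]; ring
      rw [e]; exact add_mem hP' hQ'

theorem approx_all (g : MvPowerSeries σ R) (N : ℕ) :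
    ∃ (j : ℕ) (P : MvPowerSeries σ R), Φ P - C δ ^ j * g ∈ mX R σ ^ N := by
  induction N with
  | zero => exact ⟨0, 0, by simp⟩
  | succ N ih =>
    obtain ⟨j, P, hP⟩ := ih
    obtain ⟨Q, -, hQ⟩ := approx_pow Φ hC h0 δ hδ N hP
    refine ⟨N + j, C δ ^ N * P - Q, ?_⟩
    have e : Φ (C δ ^ N * P - Q) - C δ ^ (N + j) * g =
        -(Φ Q - C δ ^ N * (Φ P - C δ ^ j * g)) := by
      rw [map_sub, map_mul, map_pow, hC]; ring
    rw [e]; exact neg_mem hQ

end alg

section ev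
variable {R S : Type} [CommRing R] [CommRing S] [Adic S] {σ : Type} [Finite σ]

theorem ev_trunc (φ : R →+* S) {a : σ → S} (ha : ∀ i, a i ∈ rad S) (D : ℕ)
    (f : MvPowerSeries σ R) :
    ev φ a (truncTotal D f : MvPolynomial σ R) =
      ∑ d ∈ (Finsupp.finite_of_degree_lt (σ := σ) D).toFinset,
        φ (coeff d f) * d.prod fun i n => a i ^ n := by
  rw [ev_coe φ ha, truncTotal, truncFinset_apply, MvPolynomial.eval₂_sum]
  simp only [MvPolynomial.eval₂_monomial]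

theorem ev_rescale {a : σ → S} (ha : ∀ i, a i ∈ rad S) (c : S) (f : MvPowerSeries σ S) :
    ev (RingHom.id S) a (rescale (fun _ => c) f) = ev (RingHom.id S) (fun i => c * a i) f := by
  classical
  have hC : ∀ r, rescale (fun _ : σ => c) (C r) = C r := by
    intro r
    ext d
    rw [coeff_rescale, coeff_C]
    split_ifs with h
    · subst h; simp
    · simp
  have hX : ∀ i, rescale (fun _ : σ => c) (X i) = C c * X i := by
    intro i
    ext d
    rw [coeff_rescale, coeff_C_mul, coeff_X]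
    split_ifs with h
    · subst h; simp
    · simp
  have := eq_ev (φ := RingHom.id S) (a := fun i => c * a i)
    (fun i => Ideal.mul_mem_left _ _ (ha i)) ((ev (RingHom.id S) a).comp (rescale fun _ => c))
    (fun r => by simp [hC]) (fun i => by simp [hX, ev_X _ ha])
  exact DFunLike.congr_fun this f

end ev

section val
variable {C : Type} [NormedField C] [IsUltrametricDist C] [HasPi C] [CompleteSpace C]

theorem norm_sub_trunc_le {R σ : Type} [CommRing R] [Finite σ] (φ : R →+* O C) {a : σ → O C}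
    {r : ℝ} (hr0 : 0 ≤ r) (hr : r < 1) (ha : ∀ i, ‖(a i : C)‖ ≤ r) (D : ℕ)
    (f : MvPowerSeries σ R) :
    ‖(ev φ a f : C) - ∑ d ∈ (Finsupp.finite_of_degree_lt (σ := σ) D).toFinset,
        (φ (coeff d f) : C) * d.prod fun i n => (a i : C) ^ n‖ ≤ r ^ D := by
  have ha' : ∀ i, a i ∈ rad (O C) := fun i => mem_rad_O.2 ((ha i).trans_lt hr)
  have h1 := norm_ev_le_pow φ hr0 hr ha D (f := f - (truncTotal D f : MvPolynomial σ R))
    fun d hd => by rw [map_sub, MvPolynomial.coeff_coe, coeff_truncTotal _ hd, sub_self]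
  rw [map_sub, ev_trunc φ ha'] at h1
  simpa [Finsupp.prod] using h1

theorem moore_trunc {p : ℕ} [Fact p.Prime] [CharP C p] {h : ℕ} (hh : 0 < h) (k : Subfield C)
    (hk : ∀ x, x ∈ k ↔ x ^ p ^ h = x) (κ : k →+* O C) (hκ : ∀ a, (κ a : C) = a)
    {σ : Type} [Finite σ] (ψ : MvPowerSeries σ (O C)) (w : σ → O C) {ρ : ℝ} (hρ0 : 0 ≤ ρ)
    (hρ : ρ < 1) (hw : ∀ i, ‖(w i : C)‖ ≤ ρ) (D : ℕ) (K : ℝ) (m₀ : ℕ)
    (H : ∀ m, m₀ ≤ m → ‖(ev (RingHom.id _) (fun i => w i ^ (p ^ h) ^ m) ψ : C)‖ ≤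
      K * (ρ ^ D) ^ (p ^ h) ^ m)
    (lam : C →ₗ[k] k) (φ : MvPowerSeries σ k)
    (hφ : ∀ d, coeff d φ = lam (coeff d ψ : O C)) : ‖(ev κ w φ : C)‖ ≤ ρ ^ D := by
  have hp : 0 < p := (Fact.out : p.Prime).pos
  have h1 := moore_norm hh k hk (Finsupp.finite_of_degree_lt (σ := σ) D).toFinset
    (fun d => ((coeff d ψ : O C) : C)) (fun d => d.prod fun i n => (w i : C) ^ n) (ρ ^ D) (K + 1)
    (by positivity) m₀ (fun m hm => by
      have hQ : (p ^ h) ^ m ≠ 0 := by positivity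
      have h2 := norm_sub_trunc_le (RingHom.id (O C)) (a := fun i => w i ^ (p ^ h) ^ m)
        (r := ρ ^ (p ^ h) ^ m) (by positivity) (pow_lt_one₀ hρ0 hρ hQ) (fun i => by
          rw [SubmonoidClass.coe_pow, norm_pow]
          exact pow_le_pow_left₀ (norm_nonneg _) (hw i) _) D ψ
      have e : ∀ d : σ →₀ ℕ, (d.prod fun i n => (w i : C) ^ n) ^ (p ^ h) ^ m =
          d.prod fun i n => ((w i ^ (p ^ h) ^ m : O C) : C) ^ n := by
        intro d
        simp only [Finsupp.prod, ← prod_pow, SubmonoidClass.coe_pow]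
        exact prod_congr rfl fun i _ => pow_right_comm _ _ _
      simp only [e]
      have h3 := H m hm
      rw [pow_right_comm ρ] at h2
      have h4 := norm_sub_le_of_le h3 h2
      rw [sub_sub_cancel] at h4
      rw [add_mul, one_mul]
      exact h4) lam
  have h2 := norm_sub_trunc_le κ hρ0 hρ hw D φ
  simp only [hκ, hφ] at h2
  have h3 := IsUltrametricDist.norm_add_le_max _ _ |>.trans (max_le h2 h1)
  rwa [sub_add_cancel] at h3

omit [HasPi C] [CompleteSpace C] in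
theorem eq_zero_of_norm_le {x : O C} {ρ : ℝ} (hρ : ρ < 1) (h : ∀ D : ℕ, ‖(x : C)‖ ≤ ρ ^ D) :
    x = 0 := by
  by_contra hx
  obtain ⟨D, hD⟩ := exists_pow_lt_of_lt_one
    (norm_pos_iff.2 fun h0 : (x : C) = 0 => hx (Subtype.ext h0)) hρ
  exact absurd (h D) (not_le.2 hD)

omit [IsUltrametricDist C] [HasPi C] [CompleteSpace C] in
theorem finite_k {p : ℕ} [Fact p.Prime] {h : ℕ} (hh : 0 < h) (k : Subfield C)
    (hk : ∀ x, x ∈ k ↔ x ^ p ^ h = x) : Finite k := by
  classical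
  have hQ : 1 < p ^ h := Nat.one_lt_pow hh.ne' (Fact.out : p.Prime).one_lt
  have hne : (Polynomial.X ^ p ^ h - Polynomial.X : Polynomial C) ≠ 0 :=
    FiniteField.X_pow_card_sub_X_ne_zero C hQ
  have : (k : Set C).Finite := by
    refine (Polynomial.X ^ p ^ h - Polynomial.X : Polynomial C).roots.toFinset.finite_toSet.subset ?_
    intro x hx
    have := (hk x).1 hx
    simp [hne, this]
  exact this

/-- One step of the approximation. -/
theorem step {p : ℕ} [Fact p.Prime] [CharP C p] {h : ℕ} (hh : 0 < h) (k : Subfield C)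
    (hk : ∀ x, x ∈ k ↔ x ^ p ^ h = x) (κ : k →+* O C) (hκ : ∀ a, (κ a : C) = a)
    {σ : Type} [Fintype σ] [DecidableEq σ] (W : Set (σ → O C)) {ρ : ℝ} (hρ0 : 0 < ρ) (hρ : ρ < 1)
    (hW : ∀ w ∈ W, ∀ i, ‖(w i : C)‖ ≤ ρ) (f : MvPowerSeries σ (O C)) (d₀ : σ →₀ ℕ)
    (hf : coeff d₀ f ≠ 0) (N : ℕ) (hN : d₀.degree < N) (c : O C) (s : σ → MvPowerSeries σ (O C))
    (hc : c ≠ 0) (hs : ∀ i, constantCoeff (s i) = 0)
    (hdet : (Matrix.of fun i j => coeff (Finsupp.single j 1) (s i)).det ≠ 0)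
    (H : ∀ w ∈ W, ∃ (A : ℝ) (m₀ : ℕ), ∀ m, m₀ ≤ m → ∃ e : σ → O C, (∀ i, e i ∈ rad (O C)) ∧
        (∀ i, ‖(e i : C)‖ ≤ A * ρ ^ m) ∧ ev (RingHom.id _) (fun i => c * e i) f = 0 ∧
        ∀ i, ‖(ev (RingHom.id _) e (s i) : C) - (w i : C) ^ (p ^ h) ^ m‖ ≤
          A * (ρ ^ N) ^ (p ^ h) ^ m) :
    ∃ φ : MvPowerSeries σ k, (∃ d : σ →₀ ℕ, d.degree ≤ d₀.degree ∧ coeff d φ ≠ 0) ∧
      ∀ w ∈ W, ‖(ev κ w φ : C)‖ ≤ ρ ^ N := by
  have hp : 0 < p := (Fact.out : p.Prime).pos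
  have hsr : ∀ i, s i ∈ rad (MvPowerSeries σ (O C)) := fun i => mem_rad_of_constantCoeff_zero (hs i)
  set Φ : MvPowerSeries σ (O C) →+* MvPowerSeries σ (O C) := ev MvPowerSeries.C s with hΦ
  have hΦX : ∀ i, Φ (X i) = s i := ev_X _ hsr
  have hΦC : ∀ r, Φ (MvPowerSeries.C r) = MvPowerSeries.C r := ev_C _ _
  have h0 : ∀ i, constantCoeff (Φ (X i)) = 0 := fun i => by rw [hΦX, hs]
  set δ : O C := (Matrix.of fun i j => coeff (Finsupp.single j 1) (s i)).det with hδ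
  have hδ' : δ = (Matrix.of fun i j => coeff (Finsupp.single j 1) (Φ (X i))).det := by
    simp only [hΦX, hδ]
  obtain ⟨j, P, hP⟩ := approx_all Φ hΦC h0 δ hδ' (rescale (fun _ => c) f) N
  choose Y hY hY' using approx_X Φ hΦC h0 δ hδ'
  obtain ⟨d, hd, hdP⟩ : ∃ d : σ →₀ ℕ, d.degree ≤ d₀.degree ∧ coeff d P ≠ 0 := by
    by_contra hcon
    push Not at hcon
    have h1 : P ∈ mX (O C) σ ^ (d₀.degree + 1) :=
      mem_pow_span_X _ _ fun d hd => hcon d (by omega)
    have h2 := hom_mem_pow Φ (fun i => mem_of_constantCoeff (h0 i)) _ h1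
    have h3 := sub_mem h2 (Ideal.pow_le_pow_right (Nat.succ_le_of_lt hN) hP)
    rw [sub_sub_cancel] at h3
    have h4 := coeff_eq_zero_of_mem _ h3 d₀ (Nat.lt_succ_self _)
    rw [← map_pow, coeff_C_mul, coeff_rescale] at h4
    refine mul_ne_zero (pow_ne_zero j hdet) (mul_ne_zero ?_ hf) h4
    exact prod_ne_zero_iff.2 fun i _ => pow_ne_zero _ hc
  obtain ⟨lam, hlam⟩ := Module.Projective.exists_dual_ne_zero k
    (x := ((coeff d P : O C) : C)) fun h0 => hdP (Subtype.ext h0)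
  let φ : MvPowerSeries σ k := fun d => lam (coeff d P : O C)
  have hφ : ∀ d, coeff d φ = lam (coeff d P : O C) := fun _ => rfl
  refine ⟨φ, ⟨d, hd, hlam⟩, fun w hw => ?_⟩
  obtain ⟨A, m₀, hA⟩ := H w hw
  have hδ0 : 0 < ‖(δ : C)‖ := norm_pos_iff.2 fun h0 => hdet (Subtype.ext h0)
  have hA1 : 0 < max A 1 := lt_of_lt_of_le one_pos (le_max_right _ _)
  obtain ⟨m₁, hm₁⟩ := exists_pow_lt_of_lt_one (div_pos hδ0 hA1) hρ
  refine moore_trunc hh k hk κ hκ P w hρ0.le hρ (hW w hw) N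
    ((max A 1 / ‖(δ : C)‖) ^ N + max A 1) (max m₀ m₁) (fun m hm => ?_) lam φ hφ
  obtain ⟨e, he, heA, hef, hes⟩ := hA m (le_of_max_le_left hm)
  have hQ : (p ^ h) ^ m ≠ 0 := by positivity
  set t : ℝ := ρ ^ (p ^ h) ^ m with ht
  have ht0 : 0 < t := by positivity
  have ht1 : t < 1 := pow_lt_one₀ hρ0.le hρ hQ
  have etN : (ρ ^ N) ^ (p ^ h) ^ m = t ^ N := pow_right_comm _ _ _
  rw [etN] at hes ⊢
  have htN : t ^ N ≤ t := pow_le_of_le_one ht0.le ht1.le (by omega)
  have hwt : ∀ i, ‖((w i ^ (p ^ h) ^ m : O C) : C)‖ ≤ t := fun i => by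
    rw [SubmonoidClass.coe_pow, norm_pow]
    exact pow_le_pow_left₀ (norm_nonneg _) (hW w hw i) _
  set u : σ → O C := fun i => ev (RingHom.id _) e (s i) with hu
  have hur : ∀ i, u i ∈ rad (O C) := fun i => ev_mem_rad _ he (hs i)
  have hes' : ∀ i, ‖((w i ^ (p ^ h) ^ m : O C) : C) - u i‖ ≤ max A 1 * t ^ N := fun i => by
    rw [norm_sub_rev, SubmonoidClass.coe_pow]
    exact (hes i).trans (mul_le_mul_of_nonneg_right (le_max_left _ _) (by positivity))
  have hut : ∀ i, ‖(u i : C)‖ ≤ max A 1 * t := fun i => by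
    have h1 := IsUltrametricDist.norm_add_le_max ((u i : C) - (w i ^ (p ^ h) ^ m : O C))
      (w i ^ (p ^ h) ^ m : O C)
    rw [sub_add_cancel, norm_sub_rev] at h1
    refine h1.trans (max_le ((hes' i).trans (mul_le_mul_of_nonneg_left htN hA1.le)) ?_)
    exact (hwt i).trans (le_mul_of_one_le_left ht0.le (le_max_right _ _))
  have hev : ∀ g, ev (RingHom.id _) e (Φ g) = ev (RingHom.id _) u g := by
    intro g
    rw [hΦ, hom_ev (ev (RingHom.id _) e) _ hsr hur, ev_comp_C]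
  set η : ℝ := ‖fun i => (e i : C)‖ with hη
  have hη0 : 0 ≤ η := norm_nonneg _
  have heη : ∀ i, ‖(e i : C)‖ ≤ η := fun i => norm_le_pi_norm (fun i => (e i : C)) i
  have hηδ : η < ‖(δ : C)‖ := by
    have h1 : η ≤ max A 1 * ρ ^ m := (pi_norm_le_iff_of_nonneg (by positivity)).2 fun i =>
      (heA i).trans (mul_le_mul_of_nonneg_right (le_max_left _ _) (by positivity))
    have h2 : ρ ^ m ≤ ρ ^ m₁ := pow_le_pow_of_le_one hρ0.le hρ.le (le_of_max_le_right hm)
    rw [lt_div_iff₀ hA1] at hm₁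
    nlinarith
  have hball : ∀ (n : ℕ) (g : MvPowerSeries σ (O C)), g ∈ mX (O C) σ ^ n →
      ‖(ev (RingHom.id _) e g : C)‖ ≤ η ^ n := fun n g hg =>
    (mem_ball (by positivity)).1 (ball_pow hη0 n (hom_mem_pow _
      (fun i => by rw [ev_X _ he]; exact (mem_ball hη0).2 (heη i)) n hg))
  have hηt : η ≤ max A 1 / ‖(δ : C)‖ * t := by
    have h1 : ∀ i, ‖(e i : C)‖ ≤ max (max A 1 * t) (η ^ 2) / ‖(δ : C)‖ := by
      intro i
      have h2 := hball 2 _ (hY' i)
      rw [map_sub, map_mul, hev, ev_C, ev_X _ he] at h2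
      have h3 : ‖(ev (RingHom.id _) u (Y i) : C)‖ ≤ max A 1 * t := by
        have := hom_mem_pow (ev (RingHom.id (O C)) u) (𝔠 := ball C (max A 1 * t))
          (fun i => by rw [ev_X _ hur]; exact (mem_ball (by positivity)).2 (hut i)) 1
          (by simpa using hY i)
        rw [pow_one] at this
        exact (mem_ball (by positivity)).1 this
      have h4 := IsUltrametricDist.norm_add_le_max (ev (RingHom.id _) u (Y i) : C)
        (-((ev (RingHom.id _) u (Y i) - RingHom.id (O C) δ * e i : O C) : C))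
      rw [norm_neg] at h4
      have h5 := h4.trans (max_le_max h3 h2)
      rw [le_div_iff₀ hδ0, mul_comm, ← norm_mul]
      simpa using h5
    have h6 : η ≤ max (max A 1 * t) (η ^ 2) / ‖(δ : C)‖ :=
      (pi_norm_le_iff_of_nonneg (by positivity)).2 h1
    rw [le_div_iff₀ hδ0] at h6
    rw [div_mul_eq_mul_div, le_div_iff₀ hδ0]
    rcases le_max_iff.1 h6 with h7 | h7
    · exact h7
    · rcases hη0.eq_or_lt with h8 | h8
      · rw [← h8, zero_mul]; positivity
      · nlinarith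
  have h1 := hball N _ hP
  rw [map_sub, map_mul, hev, ev_rescale he, hef, mul_zero, sub_zero] at h1
  have h2 := norm_ev_sub_le (RingHom.id (O C)) (a := u) (b := fun i => w i ^ (p ^ h) ^ m)
    (fun i => mem_rad_O.1 (hur i)) (fun i => (hwt i).trans_lt ht1) (by positivity) hes' P
  have h3 : η ^ N ≤ (max A 1 / ‖(δ : C)‖) ^ N * t ^ N := by
    rw [← mul_pow]; exact pow_le_pow_left₀ hη0 hηt N
  have h4 := norm_add_le_of_le (h1.trans h3) h2
  rw [add_sub_cancel] at h4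
  rw [add_mul]; exact h4

end val

end MooreLim

section
variable {C : Type} [NormedField C] [IsUltrametricDist C] [HasPi C] [CompleteSpace C]

theorem moore_ev {p : ℕ} [Fact p.Prime] [CharP C p] {h : ℕ} (hh : 0 < h) (k : Subfield C)
    (hk : ∀ x, x ∈ k ↔ x ^ p ^ h = x) (κ : k →+* O C) (hκ : ∀ a, (κ a : C) = a)
    {σ : Type} [Finite σ] (ψ : MvPowerSeries σ (O C)) (w : σ → O C) (hw : ∀ i, w i ∈ rad (O C))
    (H : ∀ m : ℕ, ev (RingHom.id _) (fun i => w i ^ (p ^ h) ^ m) ψ = 0)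
    (lam : C →ₗ[k] k) (φ : MvPowerSeries σ k)
    (hφ : ∀ d, MvPowerSeries.coeff d φ = lam (MvPowerSeries.coeff d ψ : O C)) :
    ev κ w φ = 0 := by
  cases nonempty_fintype σ
  have hρ : ‖fun i => (w i : C)‖ < 1 :=
    (pi_norm_lt_iff one_pos).2 fun i => mem_rad_O.1 (hw i)
  refine MooreLim.eq_zero_of_norm_le hρ fun D => ?_
  exact MooreLim.moore_trunc hh k hk κ hκ ψ w (norm_nonneg _) hρ
    (fun i => norm_le_pi_norm (fun i => (w i : C)) i) D 0 0 (fun m _ => by simp [H m]) lam φ hφ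

theorem moore_limit {p : ℕ} [Fact p.Prime] [CharP C p] {h : ℕ} (hh : 0 < h) (k : Subfield C)
    (hk : ∀ x, x ∈ k ↔ x ^ p ^ h = x) (κ : k →+* O C) (hκ : ∀ a, (κ a : C) = a)
    {σ : Type} [Fintype σ] [DecidableEq σ] (W : Set (σ → O C)) {ρ : ℝ} (hρ0 : 0 < ρ) (hρ : ρ < 1)
    (hW : ∀ w ∈ W, ∀ i, ‖(w i : C)‖ ≤ ρ) (f : MvPowerSeries σ (O C)) (hf : f ≠ 0)
    (H : ∀ r : ℝ, 0 < r → ∃ (c : O C) (s : σ → MvPowerSeries σ (O C)), c ≠ 0 ∧
      (∀ i, MvPowerSeries.constantCoeff (s i) = 0) ∧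
      (Matrix.of fun i j => MvPowerSeries.coeff (Finsupp.single j 1) (s i)).det ≠ 0 ∧
      ∀ w ∈ W, ∃ (A : ℝ) (m₀ : ℕ), ∀ m, m₀ ≤ m → ∃ e : σ → O C, (∀ i, e i ∈ rad (O C)) ∧
        (∀ i, ‖(e i : C)‖ ≤ A * ρ ^ m) ∧ ev (RingHom.id _) (fun i => c * e i) f = 0 ∧
        ∀ i, ‖(ev (RingHom.id _) e (s i) : C) - (w i : C) ^ (p ^ h) ^ m‖ ≤ A * r ^ (p ^ h) ^ m) :
    ∃ φ : MvPowerSeries σ k, φ ≠ 0 ∧ ∀ w ∈ W, ev κ w φ = 0 := by
  obtain ⟨d₀, hd₀⟩ : ∃ d₀, MvPowerSeries.coeff d₀ f ≠ 0 := by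
    by_contra hc
    push Not at hc
    exact hf (MvPowerSeries.ext hc)
  have key : ∀ n : ℕ, ∃ φ : MvPowerSeries σ k,
      (∃ d : σ →₀ ℕ, d.degree ≤ d₀.degree ∧ MvPowerSeries.coeff d φ ≠ 0) ∧
      ∀ w ∈ W, ‖(ev κ w φ : C)‖ ≤ ρ ^ (n + d₀.degree + 1) := by
    intro n
    obtain ⟨c, s, hc, hs, hdet, hH⟩ := H (ρ ^ (n + d₀.degree + 1)) (by positivity)
    exact MooreLim.step hh k hk κ hκ W hρ0 hρ hW f d₀ hd₀ _ (by omega) c s hc hs hdet hH
  choose φs hφ1 hφ2 using key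
  have := MooreLim.finite_k hh k hk
  let U : Ultrafilter ℕ := Filter.hyperfilter ℕ
  have hlim : ∀ d : σ →₀ ℕ, ∃ a : k, {n | MvPowerSeries.coeff d (φs n) = a} ∈ U := by
    intro d
    obtain ⟨a, ha⟩ := (U.map fun n => MvPowerSeries.coeff d (φs n)).eq_pure_of_finite
    refine ⟨a, ?_⟩
    have h1 : ({a} : Set k) ∈ U.map fun n => MvPowerSeries.coeff d (φs n) := by
      rw [ha]; simp
    exact h1
  choose a ha using hlim
  let φ : MvPowerSeries σ k := a
  have hφ : ∀ d, MvPowerSeries.coeff d φ = a d := fun _ => rfl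
  have hagree : ∀ D : ℕ, ∃ n, D ≤ n ∧ ∀ d : σ →₀ ℕ, d.degree < D →
      MvPowerSeries.coeff d (φs n) = MvPowerSeries.coeff d φ := by
    intro D
    have h1 : (⋂ d ∈ {d : σ →₀ ℕ | d.degree < D}, {n | MvPowerSeries.coeff d (φs n) = a d}) ∈
        (U : Filter ℕ) :=
      (Filter.biInter_mem (Finsupp.finite_of_degree_lt D)).2 fun d _ => ha d
    have h2 : {n | D ≤ n} ∈ (U : Filter ℕ) := by
      refine Filter.hyperfilter_le_cofinite ?_
      rw [Nat.cofinite_eq_atTop]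
      exact Filter.mem_atTop D
    obtain ⟨n, hn1, hn2⟩ := Filter.nonempty_of_mem (Filter.inter_mem h1 h2)
    refine ⟨n, hn2, fun d hd => ?_⟩
    rw [Set.mem_iInter₂] at hn1
    exact hn1 d hd
  refine ⟨φ, ?_, fun w hw => MooreLim.eq_zero_of_norm_le hρ fun D => ?_⟩
  · obtain ⟨n, -, hn⟩ := hagree (d₀.degree + 1)
    obtain ⟨d, hd, hd'⟩ := hφ1 n
    intro h0
    rw [hn d (by omega), h0] at hd'
    exact hd' (by simp)
  · obtain ⟨n, hDn, hn⟩ := hagree D
    have h1 := norm_ev_le_pow κ hρ0.le hρ (hW w hw) D (f := φ - φs n) fun d hd => by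
      rw [map_sub, hn d hd, sub_self]
    have h2 : ‖(ev κ w (φs n) : C)‖ ≤ ρ ^ D :=
      (hφ2 n w hw).trans (pow_le_pow_of_le_one hρ0.le hρ.le (by omega))
    have h3 := (IsUltrametricDist.norm_add_le_max _ _).trans (max_le h1 h2)
    simpa using h3

end

end Vale.Agent.P217
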