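import Vale.Agent.P217.Setup
import Vale.Agent.P217.MooreLim

namespace Vale.Agent.P217

open Finset

namespace Subg

open MvPowerSeries

section gen
variable {R S : Type} [CommRing R] [CommRing S] {σ : Type}

/-- A series from its coefficients. -/
def mk (c : (σ →₀ ℕ) → R) : MvPowerSeries σ R := c

@[simp] theorem coeff_mk (c : (σ →₀ ℕ) → R) (d : σ →₀ ℕ) : coeff d (mk c) = c d := rfl

theorem cc_pderiv (i : σ) (f : MvPowerSeries σ R) :
    constantCoeff (pderiv R i f) = coeff (Finsupp.single i 1) f := by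
  rw [← coeff_zero_eq_constantCoeff_apply, coeff_pderiv]; simp

variable [Adic S] [Finite σ]

theorem deriv_ext {a : σ → S} (ha : ∀ i, a i ∈ rad S) (Δ : MvPowerSeries σ R →+ S)
    (hC : ∀ r, Δ (C r) = 0) (hX : ∀ j g, Δ (X j * g) = a j * Δ g) (f : MvPowerSeries σ R) :
    Δ f = 0 := by
  cases nonempty_fintype σ
  have key : ∀ N f, Δ f ∈ Ideal.span (Set.range a) ^ N := by
    intro N
    induction N with
    | zero => simp
    | succ N ih =>
      intro f
      obtain ⟨g, hg, -⟩ := exists_eq_sum_X_mul (f - C (constantCoeff f)) (by simp)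
      have : f = C (constantCoeff f) + ∑ i, X i * g i := by rw [← hg]; ring
      rw [this, map_add, hC, zero_add, map_sum, pow_succ']
      refine Ideal.sum_mem _ fun i _ => ?_
      rw [hX]
      exact Ideal.mul_mem_mul (Ideal.subset_span ⟨i, rfl⟩) (ih _)
  refine Adic.haus _ fun n => ?_
  obtain ⟨N, hN⟩ := exists_span_pow_le ha n
  exact hN (key N f)

theorem lin_coeff (φ : R →+* S) {a : σ → S} (ha : ∀ i, a i ∈ rad S)
    {b : σ → MvPowerSeries σ S} (hb0 : ∀ j, constantCoeff (b j) = a j) (i : σ)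
    (hb1 : ∀ j, j ≠ i → constantCoeff (pderiv S i (b j)) = 0) (f : MvPowerSeries σ R) :
    constantCoeff (pderiv S i (ev (C.comp φ) b f)) =
      constantCoeff (pderiv S i (b i)) * ev φ a (pderiv R i f) := by
  have hb : ∀ j, b j ∈ rad (MvPowerSeries σ S) := fun j => mem_rad_ps.2 (hb0 j ▸ ha j)
  have hc : ∀ g, constantCoeff (ev (C.comp φ) b g) = ev φ a g := fun g => by
    rw [constantCoeff_ev _ hb]
    have h1 : (constantCoeff : MvPowerSeries σ S →+* S).comp (C.comp φ) = φ := by ext r; simp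
    simp only [h1, hb0]
  let Δ : MvPowerSeries σ R →+ S := AddMonoidHom.mk' (fun f =>
    constantCoeff (pderiv S i (ev (C.comp φ) b f)) -
      constantCoeff (pderiv S i (b i)) * ev φ a (pderiv R i f)) fun f g => by
        simp only [map_add]; ring
  have hΔ : ∀ f, Δ f = constantCoeff (pderiv S i (ev (C.comp φ) b f)) -
      constantCoeff (pderiv S i (b i)) * ev φ a (pderiv R i f) := fun _ => rfl
  rw [← sub_eq_zero, ← hΔ]
  refine deriv_ext ha Δ (fun r => by simp [hΔ]) (fun j g => ?_) f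
  rw [hΔ, hΔ, map_mul, ev_X _ hb, Derivation.leibniz, Derivation.leibniz]
  simp only [smul_eq_mul, map_add, map_mul, hb0, hc, ev_X φ ha]
  by_cases hj : j = i
  · subst hj
    rw [pderiv_X_self, map_one]; ring
  · rw [pderiv_X_of_ne hj, hb1 j hj, map_zero]; ring

end gen

section val
variable {K : Type} [NormedField K] [IsUltrametricDist K] [HasPi K] [CompleteSpace K]
  {k : Subfield K} {κ : k →+* O K} {G : FormalGroup k}

/-- The series vanishes on `W`. -/
def Van {σ : Type} [Finite σ] (W : AddSubmonoid (σ → Pt G κ)) (φ : MvPowerSeries σ k) : Prop :=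
  ∀ w ∈ W, ev κ (fun i => (w i).val) φ = 0

variable {p : ℕ} [Fact p.Prime] [CharP K p] {h : ℕ}

omit [Fact p.Prime] [CharP K p] in
theorem pow_nsmul_val (hG : mulSeries G p = PowerSeries.X ^ p ^ h) (m : ℕ) (x : Pt G κ) :
    (p ^ m • x).val = x.val ^ (p ^ h) ^ m := by
  induction m with
  | zero => simp
  | succ m ih =>
    rw [pow_succ' p, mul_nsmul', Pt.nsmul_val, hG, map_pow, ev1_X _ (Pt.mem _), ih, ← pow_mul,
      ← pow_succ]

theorem coeff_zero_of_moore (hh : 0 < h) (hk : ∀ x, x ∈ k ↔ x ^ p ^ h = x)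
    (hκ : ∀ a, (κ a : K) = a) (hG : mulSeries G p = PowerSeries.X ^ p ^ h)
    {σ : Type} [Finite σ] (W : AddSubmonoid (σ → Pt G κ)) (ψ : MvPowerSeries σ (O K))
    (hψ : ∀ w ∈ W, ev (RingHom.id _) (fun i => (w i).val) ψ = 0) (d : σ →₀ ℕ)
    (H : ∀ φ, Van W φ → coeff d φ = 0) : coeff d ψ = 0 := by
  refine Subtype.ext ((Module.forall_dual_apply_eq_zero_iff k _).1 fun lam => ?_)
  refine H (mk fun e => lam (coeff e ψ : O K)) fun w hw => ?_
  refine moore_ev hh k hk κ hκ ψ _ (fun i => (w i).mem) (fun m => ?_) lam _ fun _ => rfl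
  have := hψ _ (W.nsmul_mem hw (p ^ m))
  simpa only [Pi.smul_apply, pow_nsmul_val hG] using this

theorem van_pderiv (hh : 0 < h) (hk : ∀ x, x ∈ k ↔ x ^ p ^ h = x)
    (hκ : ∀ a, (κ a : K) = a) (hG : mulSeries G p = PowerSeries.X ^ p ^ h)
    {σ : Type} [Finite σ] (W : AddSubmonoid (σ → Pt G κ)) (i : σ)
    (H : ∀ φ, Van W φ → coeff (Finsupp.single i 1) φ = 0) {φ : MvPowerSeries σ k}
    (hφ : Van W φ) : Van W (pderiv k i φ) := by
  intro w hw
  let u : σ → Pt G ((C : O K →+* MvPowerSeries σ (O K)).comp κ) :=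
    fun j => ⟨C (w j).val, C_mem_rad (w j).mem⟩
  let v : σ → Pt G ((C : O K →+* MvPowerSeries σ (O K)).comp κ) := fun j => ⟨X j, X_mem_rad j⟩
  choose r hr using fun j => Pt.exists_add_val (u j) (v j)
  have hr' : ∀ j, (u j + v j).val = C (w j).val + X j * (1 + C (w j).val * r j) := fun j => by
    rw [hr]; change C (w j).val + X j + C (w j).val * X j * r j = _; ring
  have h1 := lin_coeff κ (a := fun j => (w j).val) (fun j => (w j).mem)
    (b := fun j => (u j + v j).val) (fun j => by simp [hr']) i (fun j hj => by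
      rw [hr', map_add, Derivation.leibniz, pderiv_X_of_ne hj]; simp) φ
  have h2 : constantCoeff (pderiv (O K) i (u i + v i).val) =
      1 + (w i).val * constantCoeff (r i) := by
    rw [hr', map_add, Derivation.leibniz, pderiv_X_self]; simp
  rw [cc_pderiv, coeff_zero_of_moore hh hk hκ hG W _ (fun y hy => ?_) _ H, h2] at h1
  · exact (isUnit_one_add (Ideal.mul_mem_right _ _ (w i).mem)).mul_right_eq_zero.1 h1.symm
  · have hy' : ∀ j, (y j).val ∈ rad (O K) := fun j => (y j).mem
    have hc : (ev (RingHom.id (O K)) fun j => (y j).val).comp (C.comp κ) = κ := by ext1 a; simp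
    have e : ∀ j, ev (RingHom.id (O K)) (fun j => (y j).val) (u j + v j).val = ((w + y) j).val := by
      intro j
      rw [← Pt.map_val G _ (ev_rad hy') hc, map_add]
      refine congrArg Pt.val (congrArg₂ (· + ·) (Pt.ext ?_) (Pt.ext ?_))
      · exact ev_C _ _ _
      · exact ev_X _ hy' j
    rw [hom_ev _ _ (fun j => (u j + v j).mem) (fun j => by rw [e]; exact Pt.mem _), hc]
    simp only [e]
    exact hφ _ (W.add_mem hw hy)

theorem caseA (hh : 0 < h) (hk : ∀ x, x ∈ k ↔ x ^ p ^ h = x)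
    (hκ : ∀ a, (κ a : K) = a) (hG : mulSeries G p = PowerSeries.X ^ p ^ h)
    {σ : Type} [Finite σ] (W : AddSubmonoid (σ → Pt G κ))
    (H : ∀ i φ, Van W φ → coeff (Finsupp.single i 1) φ = 0) (d : σ →₀ ℕ) :
    ∀ φ, Van W φ → coeff d φ = 0 := by
  classical
  cases nonempty_fintype σ
  have hp : p.Prime := Fact.out
  have : Finite k := MooreLim.finite_k hh k hk
  have hD : ∀ i φ, Van W φ → Van W (pderiv k i φ) := fun i φ hφ =>
    van_pderiv hh hk hκ hG W i (H i) hφ
  have hθ : ∀ i (m : ℕ) φ, Van W φ → Van W (mk fun e => (e i : k) ^ m * coeff e φ) := by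
    intro i m φ hφ
    induction m with
    | zero =>
      have : (mk fun e => (e i : k) ^ 0 * coeff e φ) = φ := by ext1 e; simp
      rwa [this]
    | succ m ih =>
      set ψ : MvPowerSeries σ k := mk fun e => (e i : k) ^ m * coeff e φ with hψ
      have : (mk fun e => (e i : k) ^ (m + 1) * coeff e φ) = X i * pderiv k i ψ := by
        ext1 e
        rw [X_def, coeff_monomial_mul, coeff_mk]
        split_ifs with hle
        · have h1 : 1 ≤ e i := Finsupp.single_le_iff.1 hle
          rw [one_mul, coeff_pderiv, tsub_add_cancel_of_le hle, Finsupp.tsub_apply,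
            Finsupp.single_eq_same, Nat.cast_sub h1, hψ, coeff_mk]
          push_cast; ring
        · have h1 : e i = 0 := by
            rw [Finsupp.single_le_iff] at hle; omega
          simp [h1]
      rw [this]
      intro w hw
      rw [map_mul, hD i ψ ih w hw, mul_zero]
  have hπ : ∀ (s : Finset σ) φ, Van W φ →
      Van W (mk fun e => if ∀ i ∈ s, p ∣ e i then coeff e φ else 0) := by
    intro s φ hφ
    induction s using Finset.induction_on with
    | empty =>
      have : (mk fun e => if ∀ i ∈ (∅ : Finset σ), p ∣ e i then coeff e φ else 0) = φ := by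
        ext1 e; simp
      rwa [this]
    | insert a s _ ih =>
      set ψ : MvPowerSeries σ k := mk fun e => if ∀ i ∈ s, p ∣ e i then coeff e φ else 0 with hψ
      have : (mk fun e => if ∀ i ∈ insert a s, p ∣ e i then coeff e φ else 0) =
          ψ - mk fun e => (e a : k) ^ (p - 1) * coeff e ψ := by
        ext1 e
        rw [map_sub, coeff_mk, coeff_mk, hψ, coeff_mk]
        simp only [forall_mem_insert]
        by_cases ha : p ∣ e a
        · rw [(CharP.cast_eq_zero_iff k p _).2 ha, zero_pow (by have := hp.two_le; omega)]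
          simp [ha]
        · have h1 : (e a : k) ^ (p - 1) = 1 := by
            have h2 : ((e a : ℕ) : ZMod p) ^ (p - 1) = 1 :=
              ZMod.pow_card_sub_one_eq_one (by rwa [Ne, ZMod.natCast_eq_zero_iff])
            have := congrArg (ZMod.castHom (dvd_refl p) k) h2
            simpa using this
          simp [ha, h1]
      rw [this]
      intro w hw
      rw [map_sub, ih w hw, hθ a _ ψ ih w hw, sub_zero]
  induction hd : d.degree using Nat.strong_induction_on generalizing d with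
  | _ N ih =>
    intro φ hφ
    by_cases h0 : d = 0
    · subst h0
      have := hφ 0 W.zero_mem
      simp only [Pi.zero_apply, Pt.zero_val, ev_zero] at this
      exact κ.injective (by simpa using this)
    by_cases hdv : ∀ i, p ∣ d i
    · choose b hb using hdv
      let b' : σ →₀ ℕ := Finsupp.equivFunOnFinite.symm b
      have hdb : d = p • b' := by ext i; simp [b', hb]
      let ψ : MvPowerSeries σ k := mk fun e => (frobeniusEquiv k p).symm (coeff (p • e) φ)
      have hψ : ψ ^ p = mk fun e => if ∀ i ∈ univ, p ∣ e i then coeff e φ else 0 := by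
        rw [← map_frobenius_expand p hp.ne_zero]
        ext1 e
        rw [coeff_map, coeff_mk]
        split_ifs with he
        · choose c hc using he
          let c' : σ →₀ ℕ := Finsupp.equivFunOnFinite.symm fun i => c i (mem_univ i)
          have : e = p • c' := by ext i; simp [c', ← hc]
          rw [this, coeff_expand_smul]
          exact frobenius_apply_frobeniusEquiv_symm k p _
        · push Not at he
          obtain ⟨i, -, hi⟩ := he
          rw [coeff_expand_of_not_dvd p hp.ne_zero _ hi, map_zero]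
      have hv : Van W ψ := fun w hw => by
        have := hπ univ φ hφ w hw
        rw [← hψ, map_pow] at this
        exact pow_eq_zero_iff hp.ne_zero |>.1 this
      have hlt : b'.degree < N := by
        have h1 : b'.degree ≠ 0 := fun h1 => h0 (by
          rw [hdb, (Finsupp.degree_eq_zero_iff _).1 h1, smul_zero])
        rw [← hd, hdb, map_nsmul, smul_eq_mul]
        have := hp.two_le
        nlinarith [Nat.pos_of_ne_zero h1]
      have := ih _ hlt b' rfl ψ hv
      rw [hdb]
      exact (frobeniusEquiv k p).symm.injective (by rw [map_zero]; exact this)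
    · push Not at hdv
      obtain ⟨i, hi⟩ := hdv
      have h1 : 1 ≤ d i := Nat.one_le_iff_ne_zero.2 fun h1 => hi (by simp [h1])
      have hle : Finsupp.single i 1 ≤ d := Finsupp.single_le_iff.2 h1
      have h2 := ih _ (by
        rw [← hd]
        conv_rhs => rw [← tsub_add_cancel_of_le hle, degree_add_single]
        exact Nat.lt_succ_self _) (d - Finsupp.single i 1) rfl _ (hD i φ hφ)
      rw [coeff_pderiv, tsub_add_cancel_of_le hle, Finsupp.tsub_apply, Finsupp.single_eq_same,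
        Nat.cast_sub h1, Nat.cast_one, sub_add_cancel, mul_eq_zero, CharP.cast_eq_zero_iff k p] at h2
      exact h2.resolve_right hi

theorem two_step (hh : 0 < h) (hk : ∀ x, x ∈ k ↔ x ^ p ^ h = x)
    (hκ : ∀ a, (κ a : K) = a) (hG : mulSeries G p = PowerSeries.X ^ p ^ h)
    {τ : Type} [Finite τ] (W : AddSubmonoid (τ → Pt G κ)) (H : ∀ φ, Van W φ → φ = 0)
    (D : MvPowerSeries τ (MvPowerSeries τ k))
    (hD : ∀ x ∈ W, ∀ y ∈ W, ev (ev κ fun i => (x i).val) (fun i => (y i).val) D = 0) : D = 0 := by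
  ext1 d
  refine H _ fun x hx => ?_
  have := coeff_zero_of_moore hh hk hκ hG W (MvPowerSeries.map (ev κ fun i => (x i).val) D)
    (fun y hy => by
      rw [ev_map _ _ fun i => (y i).mem]
      exact hD x hx y hy) d fun φ hφ => by rw [H φ hφ, map_zero]
  rwa [coeff_map] at this

end val

section app
variable {R S : Type} [CommRing R] [CommRing S] [Adic S] {G : FormalGroup R} {τ : Type} [Finite τ]

/-- The value of a series at a tuple of points. -/
noncomputable def app (μ : MvPowerSeries τ R) (h0 : constantCoeff μ = 0) {χ : R →+* S}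
    (x : τ → Pt G χ) : Pt G χ :=
  ⟨ev χ (fun j => (x j).val) μ, ev_mem_rad χ (fun j => (x j).mem) h0⟩

theorem map_app (μ : MvPowerSeries τ R) (h0 : constantCoeff μ = 0) {χ : R →+* S}
    (x : τ → Pt G χ) {T : Type} [CommRing T] [Adic T] (ψ : S →+* T)
    (hψ : ∀ x ∈ rad S, ψ x ∈ rad T) {χ' : R →+* T} (h : ψ.comp χ = χ') :
    Pt.map G ψ hψ h (app μ h0 x) = app μ h0 fun j => Pt.map G ψ hψ h (x j) := by
  subst h
  exact Pt.ext (hom_ev ψ χ (fun j => (x j).mem) (fun j => hψ _ (x j).mem) μ)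

theorem rad_disc (χ : R →+* S) : ∀ r ∈ @rad R _ (Adic.discrete R), χ r ∈ rad S := by
  rintro r ⟨N, hN⟩
  have : r ^ N = 0 := hN
  exact ⟨N, by rw [← map_pow, this, map_zero]; exact zero_mem _⟩

theorem exists_defect (G : FormalGroup R) (μ : MvPowerSeries τ R) (h0 : constantCoeff μ = 0) :
    ∃ D : MvPowerSeries τ (MvPowerSeries τ R), ∀ (S : Type) [CommRing S] [Adic S] (χ : R →+* S)
      (x y : τ → Pt G χ), ev (ev χ fun i => (x i).val) (fun i => (y i).val) D =
        (app μ h0 (x + y)).val - (app μ h0 x + app μ h0 y).val := by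
  let _ := Adic.discrete R
  let u : τ → Pt G ((C : _ →+* MvPowerSeries τ (MvPowerSeries τ R)).comp C) :=
    fun j => ⟨C (X j), C_mem_rad (X_mem_rad j)⟩
  let v : τ → Pt G ((C : _ →+* MvPowerSeries τ (MvPowerSeries τ R)).comp C) :=
    fun j => ⟨X j, X_mem_rad j⟩
  refine ⟨(app μ h0 (u + v)).val - (app μ h0 u + app μ h0 v).val, fun S _ _ χ x y => ?_⟩
  have hx : ∀ i, (x i).val ∈ rad S := fun i => (x i).mem
  have hy : ∀ i, (y i).val ∈ rad S := fun i => (y i).mem
  have hr := ev_rad_of _ (ev_rad_of χ (rad_disc χ) hx) hy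
  have hc : (ev (ev χ fun i => (x i).val) fun i => (y i).val).comp (C.comp C) = χ := by
    ext1 a; simp
  have eu : ∀ j, Pt.map G _ hr hc (u j) = x j := fun j => Pt.ext (by
    change ev _ _ (C (X j)) = _
    rw [ev_C, ev_X _ hx])
  have ev' : ∀ j, Pt.map G _ hr hc (v j) = y j := fun j => Pt.ext (ev_X _ hy j)
  rw [map_sub, ← Pt.map_val G _ hr hc, ← Pt.map_val G _ hr hc, map_add, map_app, map_app, map_app]
  simp only [Pi.add_apply, map_add, eu, ev']
  rfl

theorem exists_homs [DecidableEq τ] [Fintype τ] [G.IsComm] (μ : MvPowerSeries τ R)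
    (h0 : constantCoeff μ = 0)
    (hadd : ∀ (S : Type) [CommRing S] [Adic S] (χ : R →+* S) (x y : τ → Pt G χ),
      app μ h0 (x + y) = app μ h0 x + app μ h0 y) :
    ∃ (ν : τ → PowerSeries R) (hν : ∀ j, IsHom G G (ν j)), ∀ (χ : R →+* S) (x : τ → Pt G χ),
      app μ h0 x = ∑ j, Pt.homR χ (ν j) (hν j) (x j) := by
  let _ := Adic.discrete R
  let U : Pt G (PowerSeries.C : R →+* PowerSeries R) := ⟨PowerSeries.X, pX_mem_rad⟩
  let ν : τ → PowerSeries R := fun j => (app μ h0 (Pi.single j U)).val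
  have key : ∀ (S : Type) [CommRing S] [Adic S] (χ : R →+* S) (j : τ) (x : Pt G χ),
      (app μ h0 (Pi.single j x)).val = ev1 χ x.val (ν j) := by
    intro S _ _ χ j x
    have hr : ∀ f ∈ rad (PowerSeries R), ev1 χ x.val f ∈ rad S :=
      ev_rad_of χ (rad_disc χ) fun _ => x.mem
    rw [← Pt.map_val G _ hr (ev1_comp_C χ x.val), map_app]
    refine congrArg (fun z => (app μ h0 z).val) (funext fun i => ?_)
    by_cases hi : i = j
    · subst hi
      simp only [Pi.single_eq_same]
      exact Pt.ext (ev1_X χ x.mem).symm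
    · simp [hi]
  have hν : ∀ j, IsHom G G (ν j) := fun j => by
    have h1 := key R (RingHom.id R) j 0
    rw [Pi.single_zero, Pt.zero_val, ev1_zero] at h1
    have h2 : (app μ h0 (0 : τ → Pt G (RingHom.id R))).val = 0 := by
      simp [app, ev_zero, h0]
    exact isHom_of_pt (h1.symm.trans h2) ((AddMonoidHom.mk' (app μ h0) (hadd _ _)).comp
      (AddMonoidHom.single (fun _ => Pt G _) j)) fun x => key _ _ j x
  refine ⟨ν, hν, fun χ x => ?_⟩
  conv_lhs => rw [← univ_sum_single x]
  refine (map_sum (AddMonoidHom.mk' (app μ h0) (hadd S χ)) _ _).trans ?_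
  exact sum_congr rfl fun j _ => Pt.ext (key S χ j (x j))

theorem exists_split {σ : Type} [Finite σ] (i₀ : σ) :
    ∃ E : MvPowerSeries σ R →+* PowerSeries (MvPowerSeries {i // i ≠ i₀} R),
      (∀ (S : Type) [CommRing S] [Adic S] (χ : R →+* S) (x : σ → S), (∀ i, x i ∈ rad S) →
        ∀ f, ev1 (ev χ fun j : {i // i ≠ i₀} => x j) (x i₀) (E f) = ev χ x f) ∧
      ∀ f, constantCoeff (PowerSeries.coeff 1 (E f)) = coeff (Finsupp.single i₀ 1) f := by
  classical
  let _ := Adic.discrete R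
  let c : σ → PowerSeries (MvPowerSeries {i // i ≠ i₀} R) :=
    fun i => if h : i = i₀ then PowerSeries.X else PowerSeries.C (X ⟨i, h⟩)
  have hc : ∀ i, c i ∈ rad _ := fun i => by
    by_cases h : i = i₀
    · simp only [c, dif_pos h]; exact pX_mem_rad
    · simp only [c, dif_neg h]; exact pC_mem_rad (X_mem_rad _)
  set E := ev (PowerSeries.C.comp C) c with hE
  have key : ∀ (S : Type) [CommRing S] [Adic S] (χ : R →+* S) (x : σ → S), (∀ i, x i ∈ rad S) →
      ∀ f, ev1 (ev χ fun j : {i // i ≠ i₀} => x j) (x i₀) (E f) = ev χ x f := by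
    intro S _ _ χ x hx f
    have := eq_ev (φ := χ) hx ((ev1 (ev χ fun j : {i // i ≠ i₀} => x j) (x i₀)).comp E)
      (fun r => by simp [hE]) fun i => by
        rw [RingHom.comp_apply, hE, ev_X _ hc]
        by_cases h : i = i₀
        · simp only [c, dif_pos h]; rw [ev1_X _ (hx _), h]
        · simp only [c, dif_neg h]; rw [ev1_C, ev_X _ fun j => hx _]
    exact DFunLike.congr_fun this f
  refine ⟨E, key, fun f => ?_⟩
  have h0 : ∀ g, constantCoeff (PowerSeries.constantCoeff (E g)) = constantCoeff g := fun g => by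
    have := key R (RingHom.id R) (fun _ => 0) (fun _ => zero_mem _) g
    rwa [ev1_zero, ev_zero, ev_zero] at this
  let Δ : MvPowerSeries σ R →+ R := AddMonoidHom.mk' (fun f =>
    constantCoeff (PowerSeries.coeff 1 (E f)) - constantCoeff (pderiv R i₀ f)) fun f g => by
      simp only [map_add]; ring
  have hΔ : ∀ f, Δ f =
    constantCoeff (PowerSeries.coeff 1 (E f)) - constantCoeff (pderiv R i₀ f) := fun _ => rfl
  rw [← cc_pderiv, ← sub_eq_zero, ← hΔ]
  refine deriv_ext (a := fun _ => 0) (fun _ => zero_mem _) Δ (fun r => by simp [hΔ, hE])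
    (fun j g => ?_) f
  rw [hΔ, zero_mul, map_mul, Derivation.leibniz, hE, ev_X _ hc, ← hE]
  by_cases h : j = i₀
  · simp only [c, dif_pos h]
    rw [PowerSeries.coeff_succ_X_mul, h, pderiv_X_self]
    simp [h0]
  · simp only [c, dif_neg h]
    rw [PowerSeries.coeff_C_mul, pderiv_X_of_ne h]
    simp

theorem extend [G.IsComm] {σ : Type} [Fintype σ] [DecidableEq σ] (i₀ : σ) (χ : R →+* S)
    (W : AddSubmonoid (σ → Pt G χ)) (l₀ : PowerSeries R) (h₀ : IsHom G G l₀)
    (l : {i // i ≠ i₀} → PowerSeries R) (hl : ∀ j, IsHom G G (l j)) (hne : l₀ ≠ 0 ∨ ∃ j, l j ≠ 0)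
    (hW : ∀ w ∈ W, Pt.homR χ l₀ h₀ (w i₀) + ∑ j, Pt.homR χ (l j) (hl j) (w j) = 0) :
    ∃ (lam : σ → PowerSeries R) (hl : ∀ i, IsHom G G (lam i)), (∃ i, lam i ≠ 0) ∧
      ∀ w ∈ W, ∑ i, Pt.homR χ (lam i) (hl i) (w i) = 0 := by
  refine ⟨fun i => if h : i = i₀ then l₀ else l ⟨i, h⟩, fun i => ?_, ?_, fun w hw => ?_⟩
  · dsimp only
    split_ifs
    exacts [h₀, hl _]
  · rcases hne with h | ⟨j, h⟩
    · exact ⟨i₀, by simpa using h⟩
    · exact ⟨j, by simpa [j.2] using h⟩
  · rw [Fintype.sum_eq_add_sum_subtype_ne _ i₀, ← hW w hw]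
    refine congrArg₂ (· + ·) (Pt.ext (by simp)) (sum_congr rfl fun j _ => Pt.ext ?_)
    simp [j.2]

end app

theorem main {K : Type} [NormedField K] [IsUltrametricDist K] [HasPi K]
    [CompleteSpace K] {p : ℕ} [Fact p.Prime] [CharP K p] {h : ℕ} (hh : 0 < h) (k : Subfield K)
    (hk : ∀ x, x ∈ k ↔ x ^ p ^ h = x) (κ : k →+* O K) (hκ : ∀ a, (κ a : K) = a)
    (G : FormalGroup k) [G.IsComm] (hG : mulSeries G p = PowerSeries.X ^ p ^ h) (n : ℕ) :
    ∀ (σ : Type) [Fintype σ], Fintype.card σ = n → ∀ (W : AddSubmonoid (σ → Pt G κ))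
      (φ : MvPowerSeries σ k), φ ≠ 0 → Van W φ →
    ∃ (lam : σ → PowerSeries k) (hl : ∀ i, IsHom G G (lam i)), (∃ i, lam i ≠ 0) ∧
      ∀ w ∈ W, ∑ i, Pt.homR κ (lam i) (hl i) (w i) = 0 := by
  classical
  induction n using Nat.strong_induction_on with
  | _ n ih =>
  intro σ _ hn W φ₀ hφ₀ hW₀
  by_cases HA : ∀ i φ, Van W φ → coeff (Finsupp.single i 1) φ = 0
  · exact absurd (MvPowerSeries.ext fun d => caseA hh hk hκ hG W HA d φ₀ hW₀) hφ₀
  push Not at HA
  obtain ⟨i₀, φ, hφ, h1⟩ := HA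
  let res : (σ → Pt G κ) →+ ({i // i ≠ i₀} → Pt G κ) :=
    AddMonoidHom.mk' (fun w j => w j) fun _ _ => rfl
  by_cases HB : ∃ ψ, ψ ≠ 0 ∧ Van (W.map res) ψ
  · obtain ⟨ψ, hψ0, hψ⟩ := HB
    obtain ⟨l, hl, hne, hrel⟩ := ih _ (hn ▸ Fintype.card_subtype_lt (x := i₀) (by simp)) _ rfl _ ψ
      hψ0 hψ
    refine extend i₀ κ W 0 (isHom_zero G G) l hl (Or.inr hne) fun w hw => ?_
    have h2 : Pt.homR κ 0 (isHom_zero G G) (w i₀) = 0 := Pt.ext (by simp)
    rw [h2, zero_add]
    exact hrel _ ⟨w, hw, rfl⟩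
  have HB' : ∀ ψ, Van (W.map res) ψ → ψ = 0 := fun ψ hψ => by
    by_contra h0
    exact HB ⟨ψ, h0, hψ⟩
  let _ := Adic.discrete k
  obtain ⟨E, hE, hE1⟩ := exists_split (R := k) i₀
  have hu : IsUnit (PowerSeries.coeff 1 (E φ)) := by
    rw [isUnit_iff_constantCoeff, hE1]
    exact h1.isUnit
  have h0 : constantCoeff (PowerSeries.constantCoeff (E φ)) = 0 := by
    have h2 := hφ 0 W.zero_mem
    rw [← hE _ _ _ fun i => Pt.mem _] at h2
    simp only [Pi.zero_apply, Pt.zero_val, ev_zero, ev1_zero] at h2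
    exact κ.injective (by simpa using h2)
  obtain ⟨μ, -, hμ, hμ'⟩ := exists_root (RingHom.id _) (f := E φ) hu (b := 0)
    (mem_rad_of_constantCoeff_zero (by simpa using h0))
  have μ0 : constantCoeff μ = 0 := by
    obtain ⟨a, rfl⟩ := Ideal.mem_span_singleton'.1 hμ'
    simp [h0]
  have hsol : ∀ w ∈ W, app μ μ0 (res w) = w i₀ := fun w hw => Pt.ext (by
    refine ev1_injective (ev κ fun j : {i // i ≠ i₀} => (w j).val) (Pt.mem _) (Pt.mem _)
      (hu.map _) ?_
    rw [hE _ _ (fun i => (w i).val) fun i => (w i).mem, hφ w hw]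
    have := hom_ev1 (ev κ fun j : {i // i ≠ i₀} => (w j).val) (RingHom.id _)
      (mem_rad_of_constantCoeff_zero μ0) (app μ μ0 (res w)).mem (E φ)
    rw [hμ, map_zero] at this
    exact this.symm)
  obtain ⟨D, hD⟩ := exists_defect G μ μ0
  have D0 : D = 0 := two_step hh hk hκ hG _ HB' D (by
    rintro _ ⟨x, hx, rfl⟩ _ ⟨y, hy, rfl⟩
    rw [hD, ← map_add, hsol _ hx, hsol _ hy, hsol _ (W.add_mem hx hy), Pi.add_apply, sub_self])
  obtain ⟨ν, hν, hν'⟩ := exists_homs (S := O K) μ μ0 fun S _ _ χ x y => Pt.ext (by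
    rw [← sub_eq_zero, ← hD, D0, map_zero])
  obtain ⟨ι, hι, hι'⟩ := exists_negSeries G
  refine extend i₀ κ W ι hι ν hν (Or.inl fun hι0 => ?_) fun w hw => ?_
  · have := hι' _ PowerSeries.C ⟨PowerSeries.X, pX_mem_rad⟩
    rw [hι0, map_zero, Pt.val_eq_zero, neg_eq_zero, ← Pt.val_eq_zero] at this
    exact PowerSeries.X_ne_zero this
  · have h2 : Pt.homR κ ι hι (w i₀) = -w i₀ := Pt.ext (hι' _ _ _).symm
    rw [h2, ← hsol w hw, hν']
    exact neg_add_cancel _

end Subg

theorem subgroup_relation {C : Type} [NormedField C] [IsUltrametricDist C] [HasPi C]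
    [CompleteSpace C] {p : ℕ} [Fact p.Prime] [CharP C p] {h : ℕ} (hh : 0 < h) (k : Subfield C)
    (hk : ∀ x, x ∈ k ↔ x ^ p ^ h = x) (κ : k →+* O C) (hκ : ∀ a, (κ a : C) = a)
    (G : FormalGroup k) [G.IsComm] (hG : mulSeries G p = PowerSeries.X ^ p ^ h)
    {σ : Type} [Fintype σ] (W : AddSubmonoid (σ → Pt G κ)) (φ : MvPowerSeries σ k) (hφ : φ ≠ 0)
    (hW : ∀ w ∈ W, ev κ (fun i => (w i).val) φ = 0) :
    ∃ (lam : σ → PowerSeries k) (hl : ∀ i, IsHom G G (lam i)), (∃ i, lam i ≠ 0) ∧
      ∀ w ∈ W, ∑ i, Pt.homR κ (lam i) (hl i) (w i) = 0 :=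
  Subg.main hh k hk κ hκ G hG _ σ rfl W φ hφ hW

end Vale.Agent.P217
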