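import Mathlib

/-! Convexity of dominant terms and a Moore determinant argument. -/

namespace Vale.Agent.P217

open Finset

set_option linter.unusedSectionVars false

namespace Rank

theorem norm_add_lt {E : Type*} [SeminormedAddCommGroup E] [IsUltrametricDist E] {x y : E} {r : ℝ}
    (hx : ‖x‖ < r) (hy : ‖y‖ < r) : ‖x + y‖ < r :=
  (IsUltrametricDist.norm_add_le_max x y).trans_lt (max_lt hx hy)

theorem norm_sub_lt {E : Type*} [SeminormedAddCommGroup E] [IsUltrametricDist E] {x y : E} {r : ℝ}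
    (hx : ‖x‖ < r) (hy : ‖y‖ < r) : ‖x - y‖ < r := by
  rw [sub_eq_add_neg]; exact norm_add_lt hx (by rwa [norm_neg])

theorem norm_add_le' {E : Type*} [SeminormedAddCommGroup E] [IsUltrametricDist E] {x y : E} {r : ℝ}
    (hx : ‖x‖ ≤ r) (hy : ‖y‖ ≤ r) : ‖x + y‖ ≤ r :=
  (IsUltrametricDist.norm_add_le_max x y).trans (max_le hx hy)

theorem norm_sum_lt {E ι : Type*} [SeminormedAddCommGroup E] [IsUltrametricDist E] {r : ℝ}
    (hr : 0 < r) (s : Finset ι) (f : ι → E) (h : ∀ i ∈ s, ‖f i‖ < r) : ‖∑ i ∈ s, f i‖ < r := by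
  classical
  induction s using Finset.induction_on with
  | empty => simpa using hr
  | insert a s ha ih =>
    rw [sum_insert ha]
    exact norm_add_lt (h a (mem_insert_self _ _)) (ih fun i hi => h i (mem_insert_of_mem hi))

theorem norm_sum_le' {E ι : Type*} [SeminormedAddCommGroup E] [IsUltrametricDist E] {r : ℝ}
    (hr : 0 ≤ r) (s : Finset ι) (f : ι → E) (h : ∀ i ∈ s, ‖f i‖ ≤ r) : ‖∑ i ∈ s, f i‖ ≤ r := by
  classical
  induction s using Finset.induction_on with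
  | empty => simpa using hr
  | insert a s ha ih =>
    rw [sum_insert ha]
    exact norm_add_le' (h a (mem_insert_self _ _)) (ih fun i hi => h i (mem_insert_of_mem hi))

section moore

variable {C : Type} [NormedField C] [IsUltrametricDist C] {p : ℕ} [hp : Fact p.Prime] [CharP C p]

theorem prod_sub (s : C) : ∏ a : ZMod p, (s - (a.val : C)) = s ^ p - s := by
  have h1 : (Polynomial.X ^ p - Polynomial.X : Polynomial (ZMod p)).Monic := by
    refine Polynomial.Monic.sub_of_left (Polynomial.monic_X_pow p) ?_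
    rw [Polynomial.degree_X, Polynomial.degree_X_pow]
    exact_mod_cast hp.out.one_lt
  have h2 := FiniteField.roots_X_pow_card_sub_X (ZMod p)
  rw [ZMod.card] at h2
  have h3 := Polynomial.prod_multiset_X_sub_C_of_monic_of_roots_card_eq h1 (by
    rw [h2, FiniteField.X_pow_card_sub_X_natDegree_eq _ hp.out.one_lt]
    simp)
  rw [h2] at h3
  have h4 := congrArg (Polynomial.eval₂RingHom (ZMod.castHom (dvd_refl p) C) s) h3
  rw [← Finset.prod_eq_multiset_prod, map_prod] at h4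
  simpa [ZMod.natCast_val] using h4

theorem natCast_pow (c : ℕ) : (c : C) ^ p = c := by
  have := map_natCast (frobenius C p) c
  rwa [frobenius_def] at this

theorem natCast_pow_pow (c l : ℕ) : (c : C) ^ p ^ l = c := by
  induction l with
  | zero => simp
  | succ l ih => rw [pow_succ, pow_mul, ih, natCast_pow]

theorem norm_natCast_le (c : ℕ) : ‖(c : C)‖ ≤ 1 := IsUltrametricDist.norm_natCast_le_one C c

theorem exists_close {s : C} (h : ‖s ^ p - s‖ < 1) : ∃ a : ℕ, ‖s - a‖ < 1 := by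
  by_contra hc
  push Not at hc
  rw [← prod_sub, norm_prod] at h
  have := Finset.prod_le_prod (s := univ) (f := fun _ : ZMod p => (1 : ℝ))
    (g := fun a : ZMod p => ‖s - (a.val : C)‖) (fun _ _ => zero_le_one) (fun a _ => hc _)
  rw [prod_const_one] at this
  exact absurd this (not_le.2 h)

theorem moore {ι : Type} (T : Finset ι) : ∀ (x e : ι → C), (∀ i ∈ T, ‖x i‖ ≤ 1) →
    (∀ c : ι → ℕ, ‖∑ i ∈ T, (c i : C) * x i‖ < 1 → ∀ i ∈ T, (c i : C) = 0) →
    (∀ j < T.card, ‖∑ i ∈ T, e i * x i ^ p ^ j‖ < 1) → ∀ i ∈ T, ‖e i‖ < 1 := by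
  classical
  induction T using Finset.induction_on with
  | empty => simp
  | insert a T ha ih =>
    intro x e hx hind heq
    have hxa : ‖x a‖ = 1 := by
      refine le_antisymm (hx a (mem_insert_self _ _)) (not_lt.1 fun hlt => ?_)
      have := hind (fun i => if i = a then 1 else 0) (by
        rw [sum_insert ha, sum_eq_zero (fun i hi => by
          have : i ≠ a := fun h => ha (h ▸ hi)
          simp [this])]
        simpa using hlt) a (mem_insert_self _ _)
      simp at this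
    have hx0 : x a ≠ 0 := by intro h; rw [h, norm_zero] at hxa; exact zero_ne_one hxa
    have hy : ∀ i ∈ T, ‖x i / x a‖ ≤ 1 := fun i hi => by
      rw [norm_div, hxa, div_one]; exact hx i (mem_insert_of_mem hi)
    have heq' : ∀ j < T.card + 1, ‖e a + ∑ i ∈ T, e i * (x i / x a) ^ p ^ j‖ < 1 := by
      intro j hj
      have h1 := heq j (by rwa [card_insert_of_notMem ha])
      have e1 : e a + ∑ i ∈ T, e i * (x i / x a) ^ p ^ j
          = (∑ i ∈ insert a T, e i * x i ^ p ^ j) / x a ^ p ^ j := by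
        rw [sum_insert ha, add_div, mul_div_assoc, div_self (pow_ne_zero _ hx0), mul_one, sum_div]
        congr 1
        exact sum_congr rfl fun i _ => by rw [div_pow, mul_div_assoc]
      rw [e1, norm_div, norm_pow, hxa, one_pow, div_one]
      exact h1
    have hT := ih (fun i => (x i / x a) ^ p - x i / x a) e
      (fun i hi => by
        rw [sub_eq_add_neg]
        exact norm_add_le' (by rw [norm_pow]; exact pow_le_one₀ (norm_nonneg _) (hy i hi))
          (by rw [norm_neg]; exact hy i hi))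
      (fun c hc => by
        have e1 : ∑ i ∈ T, (c i : C) * ((x i / x a) ^ p - x i / x a)
            = (∑ i ∈ T, (c i : C) * (x i / x a)) ^ p - ∑ i ∈ T, (c i : C) * (x i / x a) := by
          rw [sum_pow_char, ← sum_sub_distrib]
          exact sum_congr rfl fun i _ => by rw [mul_pow, natCast_pow, mul_sub]
        rw [e1] at hc
        obtain ⟨b, hb⟩ := exists_close hc
        have h2 := hind (fun i => if i = a then (p - 1) * b else c i) (by
          have e2 : ∑ i ∈ insert a T, ((if i = a then (p - 1) * b else c i : ℕ) : C) * x i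
              = (∑ i ∈ T, (c i : C) * (x i / x a) - b) * x a := by
            rw [sum_insert ha, if_pos rfl, sub_mul, sum_mul, Nat.cast_mul,
              Nat.cast_sub hp.out.one_le, CharP.cast_eq_zero C p]
            rw [sum_congr rfl (fun i hi => by
              rw [if_neg (fun h : i = a => ha (h ▸ hi))])]
            rw [sum_congr rfl (fun i (_ : i ∈ T) => by
              rw [mul_assoc, div_mul_cancel₀ _ hx0] :
                ∀ i ∈ T, (c i : C) * (x i / x a) * x a = c i * x i)]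
            push_cast; ring
          rw [e2, norm_mul, hxa, mul_one]
          exact hb)
        intro i hi
        have := h2 i (mem_insert_of_mem hi)
        rwa [if_neg (fun h : i = a => ha (h ▸ hi))] at this)
      (fun j hj => by
        have h1 := norm_sub_lt (heq' (j + 1) (by omega)) (heq' j (by omega))
        have e1 : ∑ i ∈ T, e i * ((x i / x a) ^ p - x i / x a) ^ p ^ j
            = (e a + ∑ i ∈ T, e i * (x i / x a) ^ p ^ (j + 1))
              - (e a + ∑ i ∈ T, e i * (x i / x a) ^ p ^ j) := by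
          rw [add_sub_add_left_eq_sub, ← sum_sub_distrib]
          exact sum_congr rfl fun i _ => by
            rw [sub_pow_char_pow, ← pow_mul, ← pow_succ', mul_sub]
        rw [e1]; exact h1)
    intro i hi
    rcases mem_insert.1 hi with rfl | hi
    · have h1 := heq' 0 (by omega)
      have h2 : ‖∑ j ∈ T, e j * (x j / x i) ^ p ^ 0‖ < 1 :=
        norm_sum_lt one_pos _ _ fun j hj => by
          rw [pow_zero, pow_one, norm_mul]
          exact mul_lt_one_of_nonneg_of_lt_one_left (norm_nonneg _) (hT j hj) (hy j hj)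
      have := norm_sub_lt h1 h2
      rwa [add_sub_cancel_right] at this
    · exact hT i hi

variable [PerfectRing C p]

theorem fr_nat (j : ℕ) (Y : C) : ((frobeniusEquiv C p : RingAut C) ^ (j : ℤ)) Y = Y ^ p ^ j := by
  rw [zpow_natCast]
  induction j with
  | zero => simp
  | succ j ih =>
    rw [pow_succ', RingAut.mul_apply, ih, frobeniusEquiv_apply, frobenius_def, ← pow_mul,
      ← pow_succ]

theorem fr_log (m : ℤ) (Y : C) :
    Real.log ‖((frobeniusEquiv C p : RingAut C) ^ m) Y‖ = (p : ℝ) ^ m * Real.log ‖Y‖ := by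
  have hp0 : (p : ℝ) ≠ 0 := by exact_mod_cast hp.out.ne_zero
  obtain ⟨j, rfl | rfl⟩ := Int.eq_nat_or_neg m
  · rw [fr_nat, norm_pow, Real.log_pow, zpow_natCast]; push_cast; rfl
  · have h1 := fr_nat (p := p) j (((frobeniusEquiv C p : RingAut C) ^ (-(j : ℤ))) Y)
    rw [← RingAut.mul_apply, ← zpow_add, add_neg_cancel, zpow_zero, RingAut.one_apply] at h1
    have h2 := congrArg (fun z => Real.log ‖z‖) h1
    simp only [norm_pow, Real.log_pow] at h2
    rw [h2, zpow_neg (p : ℝ), zpow_natCast (p : ℝ)]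
    push_cast
    field_simp

end moore

section convex

theorem tendsto_line {b ρ w q : ℝ} (hρ : 0 < ρ) (hw : 0 < w) (hq : 2 ≤ q) (M : ℝ) :
    {k : ℤ | b - k * ρ + q ^ k * w ≤ M}.Finite := by
  have hq0 : 0 < q := by linarith
  obtain ⟨N, hN⟩ := exists_nat_ge (max ((b - M) / ρ * (-1)) (max (2 * ρ / w + 2) ((M - b) / ρ + 1)))
  refine (Set.finite_Icc (-(N : ℤ)) (N : ℤ)).subset fun k hk => ?_
  simp only [Set.mem_ofPred_eq] at hk
  have h1 : (b - M) / ρ * (-1) ≤ N := le_trans (le_max_left _ _) hN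
  have h2 : 2 * ρ / w + 2 ≤ N := le_trans (le_max_left _ _) (le_trans (le_max_right _ _) hN)
  have h3 : (M - b) / ρ + 1 ≤ N := le_trans (le_max_right _ _) (le_trans (le_max_right _ _) hN)
  have hpos : 0 < q ^ k * w := mul_pos (zpow_pos hq0 k) hw
  constructor
  · have h4 : (b - M) / ρ ≤ k := by rw [div_le_iff₀ hρ]; linarith
    have : -(N : ℝ) ≤ k := by linarith
    exact_mod_cast this
  · by_contra hc
    push Not at hc
    obtain ⟨j, rfl⟩ := Int.eq_ofNat_of_zero_le (le_trans (Int.natCast_nonneg N) hc.le)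
    have hj : (N : ℝ) < j := by exact_mod_cast hc
    rw [zpow_natCast] at hk
    have h5 : (j : ℝ) * (j - 1) ≤ q ^ j := by
      have a1 : j * (j - 1) ≤ 2 ^ j := by
        have b1 := Nat.choose_le_two_pow j 2
        have b2 : ∀ j : ℕ, j * j ≤ 2 ^ j + j := by
          intro j
          induction j with
          | zero => simp
          | succ j ih =>
            have := Nat.lt_two_pow_self (n := j)
            rcases Nat.lt_or_ge j 3 with h | h
            · interval_cases j <;> simp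
            · have h6 : 2 * j ≤ 2 ^ j := by
                obtain ⟨i, rfl⟩ : ∃ i, j = i + 1 := ⟨j - 1, by omega⟩
                have := Nat.lt_two_pow_self (n := i)
                rw [pow_succ]; omega
              rw [pow_succ]; nlinarith
        have := b2 j
        cases j with
        | zero => simp
        | succ j => simp only [Nat.add_sub_cancel]; nlinarith
      have a2 : ((2 : ℝ)) ^ j ≤ q ^ j := pow_le_pow_left₀ (by norm_num) hq j
      have hj1 : 1 ≤ j := by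
        have : (0 : ℝ) < j := lt_of_le_of_lt (Nat.cast_nonneg N) hj
        exact_mod_cast this
      have a3 : ((j * (j - 1) : ℕ) : ℝ) ≤ ((2 ^ j : ℕ) : ℝ) := by exact_mod_cast a1
      push_cast [Nat.cast_sub hj1] at a3
      linarith
    have h6 : 2 * ρ ≤ (j - 1) * w := by
      have : 2 * ρ / w ≤ j - 1 := by linarith
      rwa [div_le_iff₀ hw] at this
    have h7 : M - b < j * ρ := by
      have : (M - b) / ρ < j := by linarith
      rwa [div_lt_iff₀ hρ] at this
    have h8 := mul_le_mul_of_nonneg_right h5 hw.le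
    have h9 := mul_le_mul_of_nonneg_left h6 (Nat.cast_nonneg (α := ℝ) j)
    push_cast at hk
    nlinarith

theorem convex_lemma {ι : Type} (I : Finset ι) (hI : I.Nonempty) (b w : ι → ℝ) {ρ : ℝ}
    (hρ : 0 < ρ) (hw : ∀ i, 0 < w i) {p n : ℕ} (hp : 2 ≤ p) (hn : I.card < n) :
    ∃ (T : Finset ι) (κ : ι → ℤ) (l₀ : ℕ) (B σ : ℝ), T ⊆ I ∧ T.Nonempty ∧
      (∀ i ∈ T, b i - κ i * ρ = B ∧ ((p : ℝ) ^ n) ^ κ i * w i = σ) ∧
      ∀ j < T.card, ∀ i ∈ I, ∀ k : ℤ, (i ∈ T ∧ k = κ i) ∨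
        B + σ * p ^ (l₀ + j) < b i - k * ρ + ((p : ℝ) ^ n) ^ k * w i * p ^ (l₀ + j) := by
  classical
  have hp' : (2 : ℝ) ≤ p := by exact_mod_cast hp
  have hp1 : (1 : ℝ) < p := by linarith
  have hn0 : n ≠ 0 := by omega
  obtain ⟨q, hq⟩ : ∃ q : ℝ, q = (p : ℝ) ^ n := ⟨_, rfl⟩
  rw [← hq]
  have hq2 : 2 ≤ q := by rw [hq]; exact le_trans hp' (le_self_pow₀ hp1.le hn0)
  have hq1 : 1 < q := by linarith
  have hq0 : 0 < q := by linarith
  set V : ℕ → ι × ℤ → ℝ := fun l a => b a.1 - a.2 * ρ + q ^ a.2 * w a.1 * p ^ l with hV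
  set S : ι × ℤ → ℝ := fun a => q ^ a.2 * w a.1 with hS
  have hfin : ∀ (l : ℕ) (M : ℝ), {a : ι × ℤ | a.1 ∈ I ∧ V l a ≤ M}.Finite := by
    intro l M
    refine (Set.Finite.biUnion I.finite_toSet (fun i _ =>
      (tendsto_line (b := b i) hρ (mul_pos (hw i) (pow_pos (by linarith : (0 : ℝ) < p) l)) hq2
        M).image (fun k => (i, k)))).subset fun a ha => ?_
    simp only [Set.mem_iUnion, Set.mem_image, Set.mem_ofPred_eq]
    exact ⟨a.1, ha.1, a.2, by have := ha.2; simp only [hV] at this; linarith, rfl⟩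
  have hτ : ∀ l : ℕ, ∃ a : ι × ℤ, a.1 ∈ I ∧ (∀ a' : ι × ℤ, a'.1 ∈ I → V l a ≤ V l a') ∧
      ∀ a' : ι × ℤ, a'.1 ∈ I → V l a' ≤ V l a → S a ≤ S a' := by
    intro l
    obtain ⟨i, hi⟩ := hI
    obtain ⟨a, ha, hmin⟩ := Set.exists_min_image _ (V l) (hfin l (V l (i, 0))) ⟨(i, 0), hi, le_rfl⟩
    obtain ⟨a', ha', hmin'⟩ := Set.exists_min_image _ S (hfin l (V l a)) ⟨a, ha.1, le_rfl⟩
    refine ⟨a', ha'.1, fun c hc => ?_, fun c hc hle => hmin' c ⟨hc, hle.trans ha'.2⟩⟩
    refine ha'.2.trans ?_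
    by_cases h : V l c ≤ V l (i, 0)
    · exact hmin c ⟨hc, h⟩
    · exact ha.2.trans (not_le.1 h).le
  choose τ τI τmin τS using hτ
  have hanti : ∀ (l l' : ℕ) (a : ι × ℤ), l < l' → a.1 ∈ I → V l' a ≤ V l' (τ l') →
      S a ≤ S (τ l) := by
    intro l l' a hl ha hle
    have h1 := τmin l a ha
    have h2 := hle.trans (τmin l' (τ l) (τI l))
    have h3 : (p : ℝ) ^ l < p ^ l' := pow_lt_pow_right₀ hp1 hl
    simp only [hV, hS] at h1 h2 ⊢
    by_contra hc
    push Not at hc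
    nlinarith [mul_pos (sub_pos.2 hc) (sub_pos.2 h3)]
  have hmono : ∀ l l', l ≤ l' → S (τ l') ≤ S (τ l) := by
    intro l l' h
    rcases h.eq_or_lt with rfl | h
    · exact le_rfl
    · exact hanti l l' _ h (τI l') le_rfl
  have hshift : ∀ (l : ℕ) (a : ι × ℤ), V (l + n) a = V l (a.1, a.2 + 1) + ρ := by
    intro l a
    simp only [hV]
    rw [zpow_add_one₀ hq0.ne', pow_add, ← hq]
    push_cast; ring
  have hper : ∀ l, q * S (τ (l + n)) = S (τ l) := by
    intro l
    have e1 : ∀ a : ι × ℤ, S (a.1, a.2 + 1) = q * S a := fun a => by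
      simp only [hS]; rw [zpow_add_one₀ hq0.ne']; ring
    apply le_antisymm
    · have h1 := τS (l + n) ((τ l).1, (τ l).2 - 1) (τI l) (by
        rw [hshift, hshift]
        simp only [sub_add_cancel]
        have := τmin l ((τ (l + n)).1, (τ (l + n)).2 + 1) (τI (l + n))
        linarith)
      have h2 := e1 ((τ l).1, (τ l).2 - 1)
      simp only [sub_add_cancel] at h2
      rw [h2]
      exact mul_le_mul_of_nonneg_left h1 hq0.le
    · rw [← e1]
      refine τS l _ (τI (l + n)) ?_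
      have h1 := τmin (l + n) ((τ l).1, (τ l).2 - 1) (τI l)
      rw [hshift, hshift] at h1
      simp only [sub_add_cancel] at h1
      linarith
  have hSpos : ∀ a, 0 < S a := fun a => mul_pos (zpow_pos hq0 _) (hw _)
  obtain ⟨l0, hl0⟩ : ∃ l0, S (τ (l0 + 1)) < S (τ l0) := by
    by_contra hc
    push Not at hc
    have h1 : ∀ l, S (τ 0) ≤ S (τ l) := fun l => by
      induction l with
      | zero => exact le_rfl
      | succ l ih => exact ih.trans (hc l)
    have h2 := hper 0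
    have h3 := h1 (0 + n)
    nlinarith [hSpos (τ (0 + n))]
  set G : ℝ → Finset ι := fun σ => I.filter (fun i => ∃ k : ℤ, S (i, k) = σ) with hG
  set A : Finset ℕ := Finset.Icc (l0 + 1) (l0 + n) with hA
  have hwin : ∀ σ ∈ A.image (fun l => S (τ l)), S (τ l0) ≤ q * σ ∧ σ < S (τ l0) := by
    intro σ hσ
    obtain ⟨l, hl, rfl⟩ := mem_image.1 hσ
    rw [hA, mem_Icc] at hl
    exact ⟨by rw [← hper l0]; exact mul_le_mul_of_nonneg_left (hmono _ _ hl.2) hq0.le,
      lt_of_le_of_lt (hmono _ _ hl.1) hl0⟩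
  have hinj : ∀ i (k k' : ℤ), S (i, k) < q * S (i, k') → k ≤ k' := by
    intro i k k' h
    simp only [hS] at h
    rw [← mul_assoc, ← zpow_one_add₀ hq0.ne'] at h
    have := (zpow_lt_zpow_iff_right₀ hq1).1 (lt_of_mul_lt_mul_right h (hw i).le)
    omega
  have hsum : ∑ σ ∈ A.image (fun l => S (τ l)), (G σ).card
      < ∑ σ ∈ A.image (fun l => S (τ l)), (A.filter (fun l => S (τ l) = σ)).card := by
    rw [← card_eq_sum_card_image, ← card_biUnion]
    · refine lt_of_le_of_lt (card_le_card (biUnion_subset.2 fun σ _ => filter_subset _ _)) ?_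
      rw [hA, Nat.card_Icc]; omega
    · intro σ hσ σ' hσ' hne
      refine Finset.disjoint_left.2 fun i hi hi' => hne ?_
      obtain ⟨k, rfl⟩ := (mem_filter.1 hi).2
      obtain ⟨k', rfl⟩ := (mem_filter.1 hi').2
      have a1 := hwin _ hσ
      have a2 := hwin _ hσ'
      rw [le_antisymm (hinj i k k' (a1.2.trans_le a2.1)) (hinj i k' k (a2.2.trans_le a1.1))]
  obtain ⟨σ, -, hσ⟩ := exists_lt_of_sum_lt hsum
  set D := A.filter (fun l => S (τ l) = σ) with hD
  have hDne : D.Nonempty := card_pos.1 (by omega)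
  set a := D.min' hDne with ha
  have haσ : S (τ a) = σ := (mem_filter.1 (D.min'_mem hDne)).2
  have hmax : a + (G σ).card ≤ D.max' hDne := by
    have h1 : D ⊆ Finset.Icc a (D.max' hDne) := fun l hl =>
      mem_Icc.2 ⟨D.min'_le l hl, D.le_max' l hl⟩
    have h2 := card_le_card h1
    rw [Nat.card_Icc] at h2
    omega
  have hconst : ∀ l, a ≤ l → l ≤ a + (G σ).card → S (τ l) = σ := by
    intro l h1 h2
    have h3 : S (τ (D.max' hDne)) = σ := (mem_filter.1 (D.max'_mem hDne)).2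
    exact le_antisymm (haσ ▸ hmono _ _ h1) (h3 ▸ hmono _ _ (h2.trans hmax))
  set B : ℝ := b (τ a).1 - (τ a).2 * ρ with hB
  have hVS : ∀ l (c : ι × ℤ), V l c = b c.1 - c.2 * ρ + S c * p ^ l := fun l c => rfl
  have hBl : ∀ l (c : ι × ℤ), c.1 ∈ I → S (τ l) = σ → S c = σ → V l c ≤ V l (τ l) →
      b c.1 - c.2 * ρ = B := by
    intro l c hc _ h2 h3
    have a1 := τmin a c hc
    have a2 := h3.trans (τmin l (τ a) (τI a))
    rw [hVS, hVS, h2, haσ] at a1 a2
    linarith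
  have hκ : ∀ i, ∃ k : ℤ, (∃ k : ℤ, b i - k * ρ = B ∧ S (i, k) = σ) →
      b i - k * ρ = B ∧ S (i, k) = σ := by
    intro i
    by_cases h : ∃ k : ℤ, b i - k * ρ = B ∧ S (i, k) = σ
    · exact ⟨h.choose, fun _ => h.choose_spec⟩
    · exact ⟨0, fun h' => absurd h' h⟩
  choose κ hκ using hκ
  refine ⟨I.filter (fun i => ∃ k : ℤ, b i - k * ρ = B ∧ S (i, k) = σ), κ, a + 1, B, σ,
    filter_subset _ _, ⟨(τ a).1, mem_filter.2 ⟨τI a, (τ a).2, rfl, haσ⟩⟩,
    fun i hi => hκ i (mem_filter.1 hi).2, fun j hj i hi k => ?_⟩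
  have hTG : (I.filter (fun i => ∃ k : ℤ, b i - k * ρ = B ∧ S (i, k) = σ)).card ≤ (G σ).card :=
    card_le_card fun i hi => by
      obtain ⟨h1, k, -, h2⟩ := mem_filter.1 hi
      exact mem_filter.2 ⟨h1, k, h2⟩
  have h1 := hconst (a + 1 + j) (by omega) (by omega)
  have h2 := hconst (a + j) (by omega) (by omega)
  by_cases ht : V (a + 1 + j) (i, k) ≤ V (a + 1 + j) (τ (a + 1 + j))
  · left
    have h3 : S (i, k) = σ :=
      le_antisymm (h2 ▸ hanti (a + j) _ _ (by omega) hi ht) (h1 ▸ τS _ _ hi ht)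
    have h4 := hBl _ (i, k) hi h1 h3 ht
    refine ⟨mem_filter.2 ⟨hi, k, h4, h3⟩, ?_⟩
    have h5 := (hκ i ⟨k, h4, h3⟩).1
    have h6 : (k : ℝ) * ρ = κ i * ρ := by simp only at h4; linarith
    exact_mod_cast mul_right_cancel₀ hρ.ne' h6
  · right
    have h4 := hBl _ (τ (a + 1 + j)) (τI _) h1 h1 le_rfl
    have h5 := not_le.1 ht
    rw [hVS, hVS, h4, h1] at h5
    exact h5

end convex

theorem sh_sum {C K ι : Type} [NormedField C] [IsUltrametricDist C] [NormedField K]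
    [IsUltrametricDist K] (sh : C →* K) (hnorm : ∀ x, ‖sh x‖ = ‖x‖)
    (hadd : ∀ x y, ‖x‖ ≤ 1 → ‖y‖ ≤ 1 → ‖sh (x + y) - sh x - sh y‖ < 1) (T : Finset ι)
    (f : ι → C) (hf : ∀ i ∈ T, ‖f i‖ ≤ 1) : ‖sh (∑ i ∈ T, f i) - ∑ i ∈ T, sh (f i)‖ < 1 := by
  classical
  induction T using Finset.induction_on with
  | empty => simp [hnorm]
  | insert a T ha ih =>
    rw [sum_insert ha, sum_insert ha]
    have h1 := hadd _ _ (hf a (mem_insert_self _ _))
      (norm_sum_le' zero_le_one T f fun i hi => hf i (mem_insert_of_mem hi))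
    have h2 := norm_add_lt h1 (ih fun i hi => hf i (mem_insert_of_mem hi))
    have e : sh (f a + ∑ i ∈ T, f i) - (sh (f a) + ∑ i ∈ T, sh (f i))
        = sh (f a + ∑ i ∈ T, f i) - sh (f a) - sh (∑ i ∈ T, f i)
          + (sh (∑ i ∈ T, f i) - ∑ i ∈ T, sh (f i)) := by ring
    rw [e]; exact h2

end Rank

open Rank in
theorem rank_lemma {C K : Type} [NormedField C] [IsUltrametricDist C] [NormedField K]
    [IsUltrametricDist K] {p : ℕ} [Fact p.Prime] [CharP C p] [PerfectRing C p] {n : ℕ}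
    (hp0 : 0 < ‖(p : K)‖) (hp1 : ‖(p : K)‖ < 1)
    (sh : C →* K) (hnorm : ∀ x, ‖sh x‖ = ‖x‖)
    (hadd : ∀ x y, ‖x‖ ≤ 1 → ‖y‖ ≤ 1 → ‖sh (x + y) - sh x - sh y‖ < 1)
    (hsurj : ∀ u : K, ‖u‖ ≤ 1 → ∃ c, ‖c‖ ≤ 1 ∧ ‖u - sh c‖ < 1)
    (hval : ∀ u : K, ∃ c : C, ‖c‖ = ‖u‖)
    (L : C → K)
    (hL : ∀ Y : C, ‖Y‖ < 1 → ∀ (R : ℝ) (k₀ : ℤ),
      (∀ k : ℤ, k ≠ k₀ →
        ‖sh (((frobeniusEquiv C p : RingAut C) ^ ((n : ℤ) * k)) Y) / (p : K) ^ k‖ < R) →
      ‖sh (((frobeniusEquiv C p : RingAut C) ^ ((n : ℤ) * k₀)) Y) / (p : K) ^ k₀‖ ≤ R →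
      ‖L Y - sh (((frobeniusEquiv C p : RingAut C) ^ ((n : ℤ) * k₀)) Y) / (p : K) ^ k₀‖ < R)
    {ι : Type} [Fintype ι] (hι : Fintype.card ι < n) (X : ι → C) (hX0 : ∀ i, X i ≠ 0)
    (hX1 : ∀ i, ‖X i‖ < 1)
    (hadapt : ∀ (k c : ι → ℕ) (R : ℝ), (∀ i, (c i : C) ≠ 0 → ‖X i ^ (p ^ n) ^ k i‖ = R) →
      ‖∑ i, (c i : C) * X i ^ (p ^ n) ^ k i‖ < R → ∀ i, (c i : C) = 0)
    (γ : ι → K) (hrel : ∀ l : ℕ, ∑ i, γ i * L (X i ^ p ^ l) = 0) : ∀ i, γ i = 0 := by
  classical
  have hp : p.Prime := Fact.out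
  by_contra hne
  push Not at hne
  set Φ : RingAut C := (frobeniusEquiv C p : RingAut C) with hΦ
  have hpK : (p : K) ≠ 0 := norm_pos_iff.1 hp0
  obtain ⟨T, κ, l₀, B, σ, hTI, ⟨i₀, hi₀⟩, hT, hsep⟩ := convex_lemma
    (univ.filter (fun i => γ i ≠ 0)) (by obtain ⟨i, hi⟩ := hne; exact ⟨i, by simpa using hi⟩)
    (fun i => -Real.log ‖γ i‖) (fun i => -Real.log ‖X i‖) (ρ := -Real.log ‖(p : K)‖)
    (neg_pos.2 (Real.log_neg hp0 hp1))
    (fun i => neg_pos.2 (Real.log_neg (norm_pos_iff.2 (hX0 i)) (hX1 i))) hp.two_le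
    (lt_of_le_of_lt (card_le_univ _) hι)
  have hγ : ∀ i ∈ T, γ i ≠ 0 := fun i hi => (mem_filter.1 (hTI hi)).2
  have hZ0 : ∀ (m : ℤ) (Y : C), Y ≠ 0 → (Φ ^ m) Y ≠ 0 := fun m Y hY => by simpa using hY
  have hZn : ∀ (i : ι) (k : ℤ), ‖(Φ ^ ((n : ℤ) * k)) (X i)‖
      = Real.exp (-(((p : ℝ) ^ n) ^ k * -Real.log ‖X i‖)) := by
    intro i k
    rw [← Real.exp_log (norm_pos_iff.2 (hZ0 _ _ (hX0 i))), hΦ, fr_log, zpow_mul, zpow_natCast]
    congr 1; ring
  have hgn : ∀ (i : ι) (k : ℤ), γ i ≠ 0 → ‖γ i / (p : K) ^ k‖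
      = Real.exp (-(-Real.log ‖γ i‖ - k * -Real.log ‖(p : K)‖)) := by
    intro i k hi
    rw [← Real.exp_log (norm_pos_iff.2 (div_ne_zero hi (zpow_ne_zero k hpK))), norm_div,
      norm_zpow, Real.log_div (norm_ne_zero_iff.2 hi) (zpow_ne_zero k hp0.ne'), Real.log_zpow]
    congr 1; ring
  have hterm : ∀ (i : ι) (k : ℤ) (l : ℕ), γ i ≠ 0 →
      ‖γ i‖ * ‖sh ((Φ ^ ((n : ℤ) * k)) (X i ^ p ^ l)) / (p : K) ^ k‖
        = Real.exp (-(-Real.log ‖γ i‖ - k * -Real.log ‖(p : K)‖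
          + ((p : ℝ) ^ n) ^ k * -Real.log ‖X i‖ * p ^ l)) := by
    intro i k l hi
    rw [← norm_mul, ← mul_div_assoc, mul_div_right_comm, norm_mul, hgn i k hi, hnorm, map_pow,
      norm_pow, hZn, ← Real.exp_nat_mul, ← Real.exp_add]
    congr 1; push_cast; ring
  -- the dominant terms nearly cancel
  have hdom : ∀ j < T.card,
      ‖∑ i ∈ T, γ i * (sh ((Φ ^ ((n : ℤ) * κ i)) (X i ^ p ^ (l₀ + j))) / (p : K) ^ κ i)‖
        < Real.exp (-(B + σ * p ^ (l₀ + j))) := by
    intro j hj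
    have hY : ∀ i, ‖X i ^ p ^ (l₀ + j)‖ < 1 := fun i => by
      rw [norm_pow]; exact pow_lt_one₀ (norm_nonneg _) (hX1 i) (pow_ne_zero _ hp.ne_zero)
    have hlt : ∀ i, γ i ≠ 0 → ∀ k : ℤ, ¬ (i ∈ T ∧ k = κ i) →
        ‖sh ((Φ ^ ((n : ℤ) * k)) (X i ^ p ^ (l₀ + j))) / (p : K) ^ k‖
          < Real.exp (-(B + σ * p ^ (l₀ + j))) / ‖γ i‖ := by
      intro i hi k hk
      rw [lt_div_iff₀ (norm_pos_iff.2 hi), mul_comm, hterm i k _ hi]
      rcases hsep j hj i (by simpa using hi) k with h | h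
      · exact absurd h hk
      · exact Real.exp_lt_exp.2 (by linarith)
    have e : ∑ i ∈ T, γ i * (sh ((Φ ^ ((n : ℤ) * κ i)) (X i ^ p ^ (l₀ + j))) / (p : K) ^ κ i)
        = ∑ i, ((if i ∈ T then
            γ i * (sh ((Φ ^ ((n : ℤ) * κ i)) (X i ^ p ^ (l₀ + j))) / (p : K) ^ κ i) else 0)
          - γ i * L (X i ^ p ^ (l₀ + j))) := by
      rw [sum_sub_distrib, hrel, sub_zero, ← sum_filter, filter_mem_eq_inter, univ_inter]
    rw [e]
    refine norm_sum_lt (Real.exp_pos _) _ _ fun i _ => ?_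
    by_cases hi : γ i = 0
    · simp [hi, Real.exp_pos]
    have hgi := norm_pos_iff.2 hi
    split_ifs with hiT
    · rw [← mul_sub, norm_mul, norm_sub_rev, mul_comm, ← lt_div_iff₀ hgi]
      refine hL _ (hY i) _ _ (fun k hk => hlt i hi k (fun h => hk h.2)) (le_of_eq ?_)
      rw [eq_div_iff hgi.ne', mul_comm, hterm i _ _ hi, (hT i hiT).1, (hT i hiT).2]
    · rw [zero_sub, norm_neg, norm_mul, mul_comm, ← lt_div_iff₀ hgi]
      have h0 := hlt i hi 0 (fun h => hiT h.1)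
      have h1 := norm_add_lt (hL _ (hY i) _ 0 (fun k _ => hlt i hi k (fun h => hiT h.1)) h0.le) h0
      rwa [sub_add_cancel] at h1
  obtain ⟨c, hc⟩ := hval (γ i₀ / (p : K) ^ κ i₀)
  rw [hgn _ _ (hγ i₀ hi₀), (hT i₀ hi₀).1] at hc
  have hc0 : sh c ≠ 0 := norm_pos_iff.1 (by rw [hnorm, hc]; exact Real.exp_pos _)
  have hu : ∀ i ∈ T, ‖γ i / (p : K) ^ κ i / sh c‖ = 1 := fun i hi => by
    rw [norm_div, hgn _ _ (hγ i hi), (hT i hi).1, hnorm, hc, div_self (Real.exp_pos _).ne']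
  have he : ∀ i, ∃ e : C, i ∈ T → ‖e‖ ≤ 1 ∧ ‖γ i / (p : K) ^ κ i / sh c - sh e‖ < 1 := by
    intro i
    by_cases hi : i ∈ T
    · obtain ⟨e, he⟩ := hsurj _ (hu i hi).le
      exact ⟨e, fun _ => he⟩
    · exact ⟨0, fun h => absurd h hi⟩
  choose e he using he
  set Z : ι → C := fun i => (Φ ^ ((n : ℤ) * κ i)) (X i) with hZ
  have hZT : ∀ i ∈ T, ‖Z i‖ = Real.exp (-σ) := fun i hi => by
    simp only [hZ]; rw [hZn, (hT i hi).2]
  have hτ0 : Z i₀ ≠ 0 := hZ0 _ _ (hX0 _)
  have hx : ∀ i ∈ T, ‖Z i / Z i₀‖ = 1 := fun i hi => by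
    rw [norm_div, hZT i hi, hZT i₀ hi₀, div_self (Real.exp_pos _).ne']
  have hmoore := moore (p := p) T (fun i => (Z i / Z i₀) ^ p ^ l₀) e
    (fun i hi => by rw [norm_pow, hx i hi, one_pow])
    (fun c' hc' => by
      have h1 : ‖∑ i ∈ T, (c' i : C) * Z i‖ < Real.exp (-σ) := by
        have e1 : ∑ i ∈ T, (c' i : C) * (Z i / Z i₀) ^ p ^ l₀
            = ((∑ i ∈ T, (c' i : C) * Z i) / Z i₀) ^ p ^ l₀ := by
          rw [sum_div, sum_pow_char_pow]
          exact sum_congr rfl fun i _ => by rw [mul_div_assoc, mul_pow, natCast_pow_pow]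
        rw [e1, norm_pow, pow_lt_one_iff_of_nonneg (norm_nonneg _) (pow_ne_zero _ hp.ne_zero),
          norm_div, hZT i₀ hi₀, div_lt_one (Real.exp_pos _)] at hc'
        exact hc'
      obtain ⟨N, hN⟩ : ∃ N : ℕ, ∀ i, 0 ≤ (N : ℤ) + κ i :=
        ⟨∑ i, (κ i).natAbs, fun i => by
          have := single_le_sum (f := fun i => (κ i).natAbs) (fun _ _ => Nat.zero_le _)
            (mem_univ i)
          omega⟩
      have h2 : ∀ i, X i ^ (p ^ n) ^ ((N : ℤ) + κ i).toNat = Z i ^ p ^ (n * N) := by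
        intro i
        rw [← pow_mul, ← fr_nat, ← fr_nat, hZ, ← hΦ, ← RingAut.mul_apply, ← zpow_add]
        push_cast
        rw [Int.toNat_of_nonneg (hN i), mul_add]
      have h3 := hadapt (fun i => ((N : ℤ) + κ i).toNat) (fun i => if i ∈ T then c' i else 0)
        (Real.exp (-σ) ^ p ^ (n * N))
        (fun i hi => by
          have hiT : i ∈ T := by by_contra h; simp [h] at hi
          rw [h2, norm_pow, hZT i hiT])
        (by
          have e1 : ∑ i, ((if i ∈ T then c' i else 0 : ℕ) : C) *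
              X i ^ (p ^ n) ^ ((N : ℤ) + κ i).toNat
              = (∑ i ∈ T, (c' i : C) * Z i) ^ p ^ (n * N) := by
            rw [sum_pow_char_pow, ← sum_ite_mem_eq T]
            refine sum_congr rfl fun i _ => ?_
            split_ifs
            · rw [h2, mul_pow, natCast_pow_pow]
            · simp
          rw [e1, norm_pow]
          exact pow_lt_pow_left₀ h1 (norm_nonneg _) (pow_ne_zero _ hp.ne_zero))
      intro i hi
      have := h3 i
      rwa [if_pos hi] at this)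
    (fun j hj => by
      have hxj : ∀ i ∈ T, ‖((Z i / Z i₀) ^ p ^ l₀) ^ p ^ j‖ = 1 := fun i hi => by
        rw [norm_pow, norm_pow, hx i hi, one_pow, one_pow]
      have h1 := hdom j hj
      have e1 : ∑ i ∈ T, γ i * (sh ((Φ ^ ((n : ℤ) * κ i)) (X i ^ p ^ (l₀ + j))) / (p : K) ^ κ i)
          = sh c * sh (Z i₀ ^ p ^ (l₀ + j)) * ∑ i ∈ T,
            γ i / (p : K) ^ κ i / sh c * sh (((Z i / Z i₀) ^ p ^ l₀) ^ p ^ j) := by
        rw [mul_sum]
        refine sum_congr rfl fun i _ => ?_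
        have e2 : (Φ ^ ((n : ℤ) * κ i)) (X i ^ p ^ (l₀ + j))
            = Z i₀ ^ p ^ (l₀ + j) * ((Z i / Z i₀) ^ p ^ l₀) ^ p ^ j := by
          rw [map_pow, ← pow_mul, ← pow_add, ← mul_pow, mul_div_cancel₀ _ hτ0]
        rw [e2, map_mul]
        field_simp
      rw [e1, norm_mul, norm_mul, hnorm, hnorm, hc, norm_pow, hZT i₀ hi₀, ← Real.exp_nat_mul,
        ← Real.exp_add] at h1
      have e3 : -B + ((p ^ (l₀ + j) : ℕ) : ℝ) * -σ = -(B + σ * p ^ (l₀ + j)) := by
        push_cast; ring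
      rw [e3, mul_lt_iff_lt_one_right (Real.exp_pos _)] at h1
      have h2 : ‖∑ i ∈ T, (γ i / (p : K) ^ κ i / sh c - sh (e i)) *
          sh (((Z i / Z i₀) ^ p ^ l₀) ^ p ^ j)‖ < 1 :=
        norm_sum_lt one_pos _ _ fun i hi => by
          rw [norm_mul, hnorm, hxj i hi, mul_one]; exact (he i hi).2
      have h3 := sh_sum sh hnorm hadd T (fun i => e i * ((Z i / Z i₀) ^ p ^ l₀) ^ p ^ j)
        (fun i hi => by rw [norm_mul, hxj i hi, mul_one]; exact (he i hi).1)
      have h4 := norm_sub_lt h1 h2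
      have e4 : ∑ i ∈ T, γ i / (p : K) ^ κ i / sh c * sh (((Z i / Z i₀) ^ p ^ l₀) ^ p ^ j)
          - ∑ i ∈ T, (γ i / (p : K) ^ κ i / sh c - sh (e i)) *
            sh (((Z i / Z i₀) ^ p ^ l₀) ^ p ^ j)
          = ∑ i ∈ T, sh (e i * ((Z i / Z i₀) ^ p ^ l₀) ^ p ^ j) := by
        rw [← sum_sub_distrib]
        exact sum_congr rfl fun i _ => by rw [← sub_mul, sub_sub_cancel, ← map_mul]
      rw [e4] at h4
      have h5 := norm_add_lt h3 h4
      rwa [sub_add_cancel, hnorm] at h5)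
  have h5 := norm_add_lt (he i₀ hi₀).2 (by rw [hnorm]; exact hmoore i₀ hi₀ : ‖sh (e i₀)‖ < 1)
  rw [sub_add_cancel, hu i₀ hi₀] at h5
  exact lt_irrefl _ h5

end Vale.Agent.P217
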