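import Vale.Agent.P217.TateAux

namespace Vale.Agent.P217

open Finset PowerSeries

theorem eq_zero_of_sum_pow {K : Type} [Field K] {p n : ℕ} [Fact p.Prime] (ω : K)
    (hω : IsPrimitiveRoot ω (p ^ n - 1)) (b : ℕ → K)
    (h : ∀ t : ℕ, ∑ j ∈ range n, (ω ^ t) ^ p ^ j * b j = 0) : ∀ j < n, b j = 0 := by
  have hp := (Fact.out : p.Prime).one_lt
  have key : ∀ i j : ℕ, i < j → j < n → ω ^ p ^ i ≠ ω ^ p ^ j := by
    intro i j hij hj he
    have h1 : p ^ i < p ^ j := Nat.pow_lt_pow_right hp hij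
    have h2 : p ^ (j + 1) ≤ p ^ n := Nat.pow_le_pow_right hp.le hj
    have h3 : 0 < p ^ i := by positivity
    have h4 : p ^ j * 2 ≤ p ^ (j + 1) := by rw [pow_succ]; exact Nat.mul_le_mul_left _ hp
    exact h1.ne (hω.pow_inj (by omega) (by omega) he)
  have hinj : Function.Injective fun j : Fin n => ω ^ p ^ (j : ℕ) := by
    intro i j hij
    rcases lt_trichotomy (i : ℕ) j with h1 | h1 | h1
    · exact absurd hij (key _ _ h1 j.2)
    · exact Fin.ext h1
    · exact absurd hij.symm (key _ _ h1 i.2)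
  have := Matrix.eq_zero_of_forall_pow_sum_mul_pow_eq_zero (v := fun j : Fin n => b j) hinj
    fun t => by
      rw [← h t, sum_range]
      refine sum_congr rfl fun j _ => ?_
      rw [mul_comm, ← pow_mul, ← pow_mul, mul_comm (p ^ (j : ℕ))]
  intro j hj
  exact congrFun this ⟨j, hj⟩

variable {C : Type} [NormedField C] [IsUltrametricDist C] {p n : ℕ} [Fact p.Prime]

omit [IsUltrametricDist C] in
theorem TateAux.adapted_pow [CharP C p] {ι : Type} [Fintype ι] {X : ι → C} (h : Adapted p n X)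
    (j : ℕ) : Adapted p n fun i => X i ^ p ^ j := by
  intro k c R h1 h2 i₀
  by_contra h0
  have hj : p ^ j ≠ 0 := pow_ne_zero _ (Fact.out : p.Prime).ne_zero
  have e : ∀ i, (X i ^ p ^ j) ^ (p ^ n) ^ k i = (X i ^ (p ^ n) ^ k i) ^ p ^ j := fun i =>
    pow_right_comm _ _ _
  simp only [e] at h1 h2
  rw [← TateAux.sum_cast_pow, ← h1 i₀ h0, norm_pow, norm_pow] at h2
  refine h0 (h k c ‖X i₀ ^ (p ^ n) ^ k i₀‖ (fun i hi => ?_)
    (lt_of_pow_lt_pow_left₀ _ (norm_nonneg _) h2) i₀)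
  have := (h1 i hi).trans (h1 i₀ h0).symm
  rw [norm_pow, norm_pow (X i₀ ^ _)] at this
  exact (pow_left_inj₀ (norm_nonneg _) (norm_nonneg _) hj).1 this

theorem Adapted.pow [CharP C p] {ι : Type} [Fintype ι] {X : ι → C} (h : Adapted p n X) (j : ℕ) :
    Adapted p n fun i => X i ^ p ^ j := TateAux.adapted_pow h j

theorem Adapted.congr [CharP C p] {ι : Type} [Fintype ι] {X Y : ι → C} (h : Adapted p n X)
    (hY : ∀ i, ‖Y i - X i‖ < ‖X i‖) : Adapted p n Y := by
  intro k c R h1 h2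
  have hq : ∀ i, (p ^ n) ^ k i ≠ 0 := fun i =>
    pow_ne_zero _ (pow_ne_zero _ (Fact.out : p.Prime).ne_zero)
  have h3 : ∀ i, (c i : C) ≠ 0 → ‖X i ^ (p ^ n) ^ k i‖ = R := fun i hi => by
    rw [← h1 i hi, norm_pow, norm_pow, TateAux.norm_eq_of_sub_lt (hY i)]
  refine h k c R h3 ?_
  have hR : 0 < R := (norm_nonneg _).trans_lt h2
  have e : ∑ i, (c i : C) * X i ^ (p ^ n) ^ k i = ∑ i, (c i : C) * Y i ^ (p ^ n) ^ k i +
      ∑ i, -((c i : C) * (Y i - X i) ^ (p ^ n) ^ k i) := by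
    rw [← sum_add_distrib]
    refine sum_congr rfl fun i _ => ?_
    rw [← pow_mul p, sub_pow_char_pow]
    ring
  rw [e]
  refine TateAux.norm_add_lt h2 (TateAux.norm_sum_lt _ _ hR fun i _ => ?_)
  by_cases hi : (c i : C) = 0
  · simpa [hi] using hR
  · rw [norm_neg, norm_mul, ← h3 i hi, norm_pow, norm_pow]
    exact (mul_le_of_le_one_left (by positivity) (IsUltrametricDist.norm_natCast_le_one C _)).trans_lt
      (pow_lt_pow_left₀ (hY i) (norm_nonneg _) (hq i))

variable [HasPi C] [CompleteSpace C] [IsAlgClosed C] {R : Type} [CommRing R] {F : FormalGroup R}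

namespace TateAux

omit [Fact p.Prime] [IsAlgClosed C] in
theorem q_pos {z : R →+* O C} {q : ℕ}
    (hF : ∀ i, z (coeff i (mulSeries F p - X ^ q)) ∈ rad (O C)) : 0 < q := by
  refine Nat.pos_of_ne_zero ?_
  rintro rfl
  have := hF 0
  rw [coeff_zero_eq_constantCoeff_apply, map_sub, Ideals.cc_mul, mem_rad_O] at this
  simp at this

omit [Fact p.Prime] [IsAlgClosed C] in
theorem unit_coeff {z : R →+* O C} {q : ℕ}
    (hF : ∀ i, z (coeff i (mulSeries F p - X ^ q)) ∈ rad (O C)) :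
    IsUnit (coeff q (PowerSeries.map z (mulSeries F p))) := by
  refine isUnit_of_sub_mem isUnit_one ?_
  simpa [coeff_X_pow] using hF q

omit [Fact p.Prime] [IsAlgClosed C] in
theorem unit_coeff_sub {z : R →+* O C} {q : ℕ}
    (hF : ∀ i, z (coeff i (mulSeries F p - X ^ q)) ∈ rad (O C)) (a : O C) :
    IsUnit (coeff q (PowerSeries.map z (mulSeries F p) - PowerSeries.C a)) := by
  rw [map_sub, coeff_C, if_neg (q_pos hF).ne', sub_zero]
  exact unit_coeff hF

omit [Fact p.Prime] [IsAlgClosed C] in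
theorem ev1_eq {z : R →+* O C} (x : Pt F z) (a : O C) :
    ev1 (RingHom.id _) x.val (PowerSeries.map z (mulSeries F p) - PowerSeries.C a) =
      (p • x).val - a := by
  rw [map_sub, ev1_C, ev1_map _ _ x.mem, Pt.nsmul_val]
  rfl

omit [Fact p.Prime] in
theorem exists_div {z : R →+* O C} {q : ℕ}
    (hF : ∀ i, z (coeff i (mulSeries F p - X ^ q)) ∈ rad (O C)) (x : Pt F z) :
    ∃ y : Pt F z, p • y = x := by
  obtain ⟨y, hy, h⟩ := exists_zero _ q (unit_coeff_sub hF x.val) (by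
    rw [map_sub, cc_pmap, Ideals.cc_mul]
    simpa using x.mem)
  refine ⟨⟨y, hy⟩, Pt.ext ?_⟩
  have := ev1_eq (p := p) (⟨y, hy⟩ : Pt F z) x.val
  rw [h] at this
  exact sub_eq_zero.1 this.symm

omit [Fact p.Prime] [IsAlgClosed C] in
theorem finite_fibre {z : R →+* O C} {q : ℕ}
    (hF : ∀ i, z (coeff i (mulSeries F p - X ^ q)) ∈ rad (O C)) (y : Pt F z) :
    {x : Pt F z | p • x = y}.Finite := by
  classical
  by_contra hinf
  obtain ⟨t, ht, hc⟩ := Set.Infinite.exists_subset_card_eq hinf (q + 1)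
  have := card_roots_le _ q (unit_coeff_sub hF y.val) (t.image Pt.val) fun a ha => by
    obtain ⟨x, hx, rfl⟩ := mem_image.1 ha
    refine ⟨x.mem, ?_⟩
    rw [ev1_eq, show p • x = y from ht hx, sub_self]
  rw [card_image_of_injective _ fun _ _ => Pt.ext] at this
  omega

end TateAux

omit [Fact p.Prime] in
theorem TateAux.exists_div_sys' {z : R →+* O C} {q : ℕ}
    (hF : ∀ i, z (coeff i (mulSeries F p - X ^ q)) ∈ rad (O C)) (x : Pt F z) :
    ∃ y : ℕ → Pt F z, y 0 = x ∧ ∀ k, p • y (k + 1) = y k := by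
  choose d hd using TateAux.exists_div hF
  exact ⟨fun k => d^[k] x, rfl, fun k => by
    simp only [Function.iterate_succ_apply', hd]⟩

theorem exists_div_sys {z : R →+* O C} {q : ℕ}
    (hF : ∀ i, z (coeff i (mulSeries F p - X ^ q)) ∈ rad (O C)) (x : Pt F z) :
    ∃ y : ℕ → Pt F z, y 0 = x ∧ ∀ k, p • y (k + 1) = y k := TateAux.exists_div_sys' hF x

variable [CharP C p] [F.IsComm] {z₀ z : R →+* O C}

theorem Near.th_surjective (H : Near p n F z₀ z (RingHom.id _)) : Function.Surjective H.th := by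
  intro x
  obtain ⟨y, y0, hy⟩ := exists_div_sys (fun i => I_le_rad (H.coeff_mem i)) x
  have hr : IsRootSys (p ^ n) fun k => (y k).val := ⟨fun k => (y k).mem, fun k => by
    have := neg_mem (nsmul_val_sub_pow_mem H.coeff_mem (y (k + 1)))
    rwa [hy, neg_sub] at this⟩
  obtain ⟨a, ha, h⟩ := hr.exists_tilt H.pos
  refine ⟨⟨a, ha⟩, ?_⟩
  have hs : IsSys p y := fun k => by rw [hy, sub_self]; exact zero_mem _
  rw [H.th_def, theta_congr H.p_mem hs fun k => h k, theta_of_exact hy, y0]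

namespace TateAux

omit [CharP C p] in
/-- There are many `p`-torsion points. -/
theorem exists_many {q : ℕ} (hF : ∀ i, z (coeff i (mulSeries F p - X ^ q)) ∈ rad (O C))
    {h : ℕ} (V : PowerSeries (O C)) (h1 : coeff 1 V ≠ 0)
    (hV : mulSeries (F.map z) p = V.subst (X ^ p ^ h : PowerSeries (O C))) :
    ∃ s : Finset (Pt F z), (∀ x ∈ s, p • x = 0) ∧ q ≤ p ^ h * s.card := by
  classical
  have hM : 0 < p ^ h := pow_pos (Fact.out : p.Prime).pos h
  obtain ⟨s, hs, hc⟩ := exists_many_roots (PowerSeries.map z (mulSeries F p)) q (p ^ h)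
    (unit_coeff hF) (fun i hi => by simpa [coeff_X_pow, hi.ne] using hF i) fun x hx h0 => by
      let x₀ : Pt F z := ⟨x, hx⟩
      have hx0 : p • x₀ = 0 := Pt.ext (by
        have := ev1_eq (p := p) x₀ 0
        rw [map_zero, sub_zero, sub_zero] at this
        exact this.symm.trans h0)
      let ψ : Pt F z →+ Pt F ((PowerSeries.C : O C →+* PowerSeries (O C)).comp z) :=
        Pt.map F PowerSeries.C (fun _ => pC_mem_rad) rfl
      let s : Pt F ((PowerSeries.C : O C →+* PowerSeries (O C)).comp z) := ⟨X, pX_mem_rad⟩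
      obtain ⟨r, hr⟩ := Pt.exists_add_val (ψ x₀) s
      refine ⟨(ψ x₀ + s).val - PowerSeries.C x, ?_, ?_⟩
      · rw [hr]
        change constantCoeff (PowerSeries.C x + X + PowerSeries.C x * X * r - PowerSeries.C x) = 0
        simp
      · have hX : constantCoeff (X ^ p ^ h : PowerSeries (O C)) = 0 := by
          rw [map_pow, constantCoeff_X, zero_pow hM.ne']
        rw [add_sub_cancel, ev1_map _ _ (ψ x₀ + s).mem, ← Pt.nsmul_val, nsmul_add, ← map_nsmul,
          hx0, map_zero, zero_add, Pt.nsmul_val, ev1_map_X, ← Ideals.map_mul_series, hV,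
          psubst_eq_ev1' hX]
        obtain ⟨r', hr'⟩ := ev1_eq_lin PowerSeries.C
          (Ideal.pow_mem_of_mem _ (pX_mem_rad (S := O C)) _ hM) V
        rw [hr', ← pow_mul, map_add, map_add, coeff_C, if_neg hM.ne', coeff_C_mul, coeff_X_pow_self,
          coeff_X_pow_mul', if_neg (by omega)]
        simpa using h1
  refine ⟨s.attach.image fun x => ⟨x.1, (hs x.1 x.2).1⟩, fun x hx => ?_, ?_⟩
  · obtain ⟨a, -, rfl⟩ := mem_image.1 hx
    refine Pt.ext ?_
    have := ev1_eq (p := p) (⟨a.1, (hs a.1 a.2).1⟩ : Pt F z) 0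
    rw [map_zero, sub_zero, sub_zero] at this
    exact this.symm.trans (hs a.1 a.2).2
  · rw [card_image_of_injective _ fun a b hab => Subtype.ext (congrArg Pt.val hab), card_attach]
    exact hc

/-- Lifts of nonzero `p`-torsion points have only finitely many possible absolute values. -/
theorem exists_norms (H : Near p n F z₀ z (RingHom.id _)) :
    ∃ A : Finset ℝ, ∀ Y : Pt F z₀, p • H.th Y = 0 → H.th Y ≠ 0 → ‖(Y.val : C)‖ ∈ A := by
  have hF := fun i => I_le_rad (H.coeff_mem i)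
  have hk : ∀ t : Pt F z, ∃ k : ℕ, t ≠ 0 → ‖(HasPi.ϖ : C)‖ ^ k < ‖(t.val : C)‖ := fun t => by
    by_cases ht : t = 0
    · exact ⟨0, fun h => absurd ht h⟩
    · obtain ⟨k, hk⟩ := exists_pi_pow_lt (K := C) (r := ‖(t.val : C)‖)
        (norm_pos_iff.2 fun h0 => ht (Pt.ext (Subtype.ext h0)))
      exact ⟨k, fun _ => hk⟩
  choose κ hκ using hk
  obtain ⟨k, hk⟩ := ((finite_fibre hF 0).image κ).bddAbove
  refine ⟨((finite_pow_torsion (finite_fibre hF) (k + 1)).image
    fun x => ‖(x.val : C)‖ ^ (p ^ n) ^ k).toFinset, fun Y h1 h2 => ?_⟩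
  rw [Set.Finite.mem_toFinset]
  have e : p ^ k • H.th (Y.rt p n k) = H.th Y := by rw [← map_nsmul, H.nsmul_rt]
  refine ⟨H.th (Y.rt p n k), ?_, ?_⟩
  · change p ^ (k + 1) • _ = 0
    rw [pow_succ', mul_nsmul', e, h1]
  · have h3 : ‖(HasPi.ϖ : C)‖ < ‖((H.th (Y.rt p n k)).val : C)‖ := by
      by_contra hc
      have h4 := Pt.nsmul_mem_pow H.p_mem (j := 0) (x := H.th (Y.rt p n k))
        (by rw [zero_add, pow_one, mem_I_O]; exact not_lt.1 hc) k
      rw [e, mem_I_pow_O] at h4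
      have h5 : κ (H.th Y) ≤ k := hk ⟨_, h1, rfl⟩
      have h6 := pow_le_pow_of_le_one (norm_nonneg (HasPi.ϖ : C)) HasPi.lt.le
        (show κ (H.th Y) ≤ 0 + k + 1 by omega)
      exact absurd (hκ _ h2) (not_lt.2 (h4.trans h6))
    have h7 := mem_I_O.1 (neg_mem (H.th_sub_mem (Y.rt p n k)))
    rw [neg_sub, RingHom.id_apply, AddSubgroupClass.coe_sub] at h7
    change _ ^ _ = _
    rw [← norm_eq_of_sub_lt (h7.trans_lt h3), ← norm_pow, ← SubmonoidClass.coe_pow, Pt.rt_val,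
      rt_pow]

omit [IsAlgClosed C] in
/-- The improvement step. -/
theorem exists_smaller (H : Near p n F z₀ z (RingHom.id _)) {ι : Type} [Fintype ι]
    (Y : ι → Pt F z₀) (hY : ¬ Adapted p n fun i => ((Y i).val : C)) :
    ∃ (a : ι → ℕ) (i₀ : ι), ¬ p ∣ a i₀ ∧ ‖((∑ j, a j • Y j).val : C)‖ < ‖((Y i₀).val : C)‖ := by
  classical
  rw [Adapted] at hY
  push Not at hY
  obtain ⟨k, c, ρ, h1, h2, i₁, hi₁⟩ := hY
  obtain ⟨i₀, hi₀, hmin⟩ := exists_min_image (univ.filter fun i => (c i : C) ≠ 0) k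
    ⟨i₁, by simpa using hi₁⟩
  replace hi₀ : (c i₀ : C) ≠ 0 := (mem_filter.1 hi₀).2
  replace hmin : ∀ i, (c i : C) ≠ 0 → k i₀ ≤ k i := fun i hi => hmin i (by simpa using hi)
  have hq : (p ^ n) ^ k i₀ ≠ 0 := pow_ne_zero _ (pow_ne_zero _ (Fact.out : p.Prime).ne_zero)
  set r := ‖((Y i₀).val : C)‖ with hr
  have r0 : 0 ≤ r := norm_nonneg _
  have r1 : r < 1 := mem_rad_O.1 (Y i₀).mem
  have hρ : ρ = r ^ (p ^ n) ^ k i₀ := by rw [← h1 i₀ hi₀, norm_pow]
  let W : ι → Pt F z₀ := fun i => p ^ (k i - k i₀) • Y i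
  have hW : ∀ i, (c i : C) ≠ 0 →
      ((W i).val : C) ^ (p ^ n) ^ k i₀ = ((Y i).val : C) ^ (p ^ n) ^ k i := fun i hi => by
    rw [H.pow_nsmul_val, SubmonoidClass.coe_pow, ← pow_mul, ← pow_add,
      Nat.sub_add_cancel (hmin i hi)]
  have hWr : ∀ i, (c i : C) ≠ 0 → (W i).val ∈ ball C r := fun i hi => by
    rw [mem_ball r0]
    have := h1 i hi
    rw [← hW i hi, hρ, norm_pow] at this
    exact ((pow_left_inj₀ (norm_nonneg _) r0 hq).1 this).le
  have h3 : ‖∑ i, (c i : C) * (W i).val‖ < r := by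
    refine lt_of_pow_lt_pow_left₀ ((p ^ n) ^ k i₀) r0 ?_
    rw [← hρ, ← norm_pow, ← pow_mul p, sum_cast_pow, pow_mul p]
    refine lt_of_eq_of_lt (congrArg _ (sum_congr rfl fun i _ => ?_)) h2
    by_cases hi : (c i : C) = 0
    · rw [hi, zero_mul, zero_mul]
    · rw [hW i hi]
  have rp : 0 < r := (norm_nonneg _).trans_lt h3
  have rr : r ^ 2 < r := by nlinarith
  let a : ι → ℕ := fun i => if (c i : C) = 0 then 0 else c i * p ^ (k i - k i₀)
  have ha : ∀ i, (a i • Y i).val ∈ ball C r ∧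
      (a i • Y i).val - (c i : O C) * (W i).val ∈ ball C r ^ 2 := fun i => by
    by_cases hi : (c i : C) = 0
    · have : (c i : O C) = 0 := Subtype.ext (by simpa using hi)
      simp [a, hi, this]
    · have e : a i • Y i = c i • W i := by simp only [a, if_neg hi, W]; rw [mul_nsmul']
      obtain ⟨s, hs⟩ := Pt.exists_nsmul_val (c i) (W i)
      rw [e]
      refine ⟨Pt.nsmul_val_mem (hWr i hi) _, ?_⟩
      rw [hs, add_sub_cancel_left]
      exact Ideal.mul_mem_right _ _ (Ideal.pow_mem_pow (hWr i hi) 2)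
  refine ⟨a, i₀, ?_, ?_⟩
  · simp only [a, if_neg hi₀, Nat.sub_self, pow_zero, mul_one]
    rwa [← CharP.cast_eq_zero_iff C p]
  · have h4 := add_mem (Pt.sum_val_sub_mem univ (fun j => a j • Y j) fun i _ => (ha i).1)
      (Ideal.sum_mem _ fun i (_ : i ∈ univ) => (ha i).2)
    rw [sum_sub_distrib, sub_add_sub_cancel] at h4
    have h5 := (mem_ball (by positivity)).1 (ball_pow r0 2 h4)
    have h6 := norm_add_lt (h5.trans_lt rr) h3
    simpa using h6

end TateAux

theorem Near.exists_tate (H : Near p n F z₀ z (RingHom.id _)) {h : ℕ} (V : PowerSeries (O C))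
    (h0 : constantCoeff V = 0) (h1 : coeff 1 V ≠ 0)
    (hV : mulSeries (F.map z) p = V.subst (X ^ p ^ h : PowerSeries (O C)))
    {ι : Type} [Fintype ι] (hι : Fintype.card ι + h ≤ n) :
    ∃ Y : ι → Pt F z₀, (∀ i, p • H.th (Y i) = 0) ∧
      (∀ c : ι → ℕ, ∑ i, c i • H.th (Y i) = 0 → ∀ i, p ∣ c i) ∧
      Adapted p n fun i => ((Y i).val : C) := by
  classical
  have _ := h0
  have hp : p.Prime := Fact.out
  have hF := fun i => I_le_rad (H.coeff_mem i)
  obtain ⟨s, hs, hc⟩ := TateAux.exists_many hF V h1 hV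
  have hc' : p ^ Fintype.card ι ≤ s.card := by
    refine Nat.le_of_mul_le_mul_left (le_trans ?_ hc) (pow_pos hp.pos h)
    rw [← pow_add]
    exact Nat.pow_le_pow_right hp.pos (by omega)
  obtain ⟨y, hy1, hy2⟩ := TateAux.exists_indep (TateAux.finite_fibre hF 0) s hs hc'
  choose Y₀ hY₀ using fun i => H.th_surjective (y i)
  obtain ⟨A, hA⟩ := TateAux.exists_norms H
  let G : Set (ι → Pt F z₀) := {Y | (∀ i, p • H.th (Y i) = 0) ∧
    ∀ c : ι → ℕ, ∑ i, c i • H.th (Y i) = 0 → ∀ i, p ∣ c i}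
  let ν : Pt F z₀ → ℕ := fun x => (A.filter fun t => t < ‖(x.val : C)‖).card
  obtain ⟨Y, ⟨hY1, hY2⟩, hmin⟩ := (measure fun Y : ι → Pt F z₀ => ∑ i, ν (Y i)).wf.has_min G
    ⟨Y₀, by simp only [G, Set.mem_ofPred_eq, hY₀]; exact ⟨hy1, hy2⟩⟩
  refine ⟨Y, hY1, hY2, ?_⟩
  by_contra hc
  obtain ⟨a, i₀, ha, hlt⟩ := TateAux.exists_smaller H Y hc
  have e : ∀ i, H.th (Function.update Y i₀ (∑ j, a j • Y j) i) =
      Function.update (fun i => H.th (Y i)) i₀ (∑ j, a j • H.th (Y j)) i := fun i => by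
    rw [Function.apply_update (fun _ => H.th), map_sum]
    simp only [map_nsmul]
  have hG : Function.update Y i₀ (∑ j, a j • Y j) ∈ G := by
    refine ⟨fun i => ?_, fun c hc =>
      TateAux.indep_update hp hY2 a i₀ ha c (by simpa only [e] using hc)⟩
    by_cases hi : i = i₀
    · subst hi
      rw [Function.update_self, map_sum, smul_sum]
      refine sum_eq_zero fun j _ => ?_
      rw [map_nsmul, smul_comm, hY1, smul_zero]
    · rw [Function.update_of_ne hi, hY1]
  refine hmin _ hG ?_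
  change ∑ i, ν (Function.update Y i₀ (∑ j, a j • Y j) i) < ∑ i, ν (Y i)
  refine sum_lt_sum (fun i _ => ?_) ⟨i₀, mem_univ _, ?_⟩
  · by_cases hi : i = i₀
    · subst hi
      rw [Function.update_self]
      exact card_le_card (monotone_filter_right _ fun t _ ht => ht.trans hlt)
    · rw [Function.update_of_ne hi]
  · have h2 := hA _ (hG.1 i₀) (TateAux.ne_zero_of_indep hp hG.2 i₀)
    rw [Function.update_self] at h2 ⊢
    refine card_lt_card ⟨monotone_filter_right _ fun t _ ht => ht.trans hlt, fun hsub => ?_⟩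
    exact lt_irrefl _ (mem_filter.1 (hsub (mem_filter.2 ⟨h2, hlt⟩))).2

end Vale.Agent.P217
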