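import Mathlib

namespace Vale.Agent.P217

open Finset

namespace Untilt

open Filter Topology
open scoped NNReal

variable {C : Type} [NormedField C] [IsUltrametricDist C]

/-- the ring of integers -/
noncomputable abbrev OC (C : Type) [NormedField C] [IsUltrametricDist C] : ValuationSubring C :=
  (NormedField.valuation (K := C)).valuationSubring

theorem mem_OC {x : C} : x ∈ OC C ↔ ‖x‖ ≤ 1 := by
  rw [Valuation.mem_valuationSubring_iff, NormedField.valuation_apply]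
  exact NNReal.coe_le_coe.symm

theorem norm_le (c : OC C) : ‖(c : C)‖ ≤ 1 := mem_OC.1 c.2

theorem dvd_of_le {c d : OC C} (h : ‖(c : C)‖ ≤ ‖(d : C)‖) : d ∣ c := by
  by_cases hd : (d : C) = 0
  · rw [hd, norm_zero, norm_le_zero_iff] at h
    have hc : c = 0 := Subtype.ext h
    rw [hc]
    exact dvd_zero _
  · refine ⟨⟨(c : C) / d, mem_OC.2 ?_⟩, Subtype.ext ?_⟩
    · rw [norm_div]
      exact div_le_one_of_le₀ h (norm_nonneg _)
    · change (c : C) = d * ((c : C) / d)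
      field_simp

theorem dvd_of_lt {c d : OC C} (h : ‖(c : C)‖ < ‖(d : C)‖) :
    ∃ e : OC C, ‖(e : C)‖ < 1 ∧ c = d * e := by
  obtain ⟨e, he⟩ := dvd_of_le h.le
  refine ⟨e, ?_, he⟩
  have h1 : ‖(c : C)‖ = ‖(d : C)‖ * ‖(e : C)‖ := by rw [he, ← norm_mul]; rfl
  have h2 : 0 < ‖(d : C)‖ := (norm_nonneg _).trans_lt h
  rw [h1] at h
  exact (mul_lt_iff_lt_one_right h2).1 h

theorem isUnit_one_add {e : OC C} (h : ‖(e : C)‖ < 1) : IsUnit (1 + e) := by
  refine isUnit_of_dvd_one (dvd_of_le ?_)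
  have h1 : ‖(1 : C) + e‖ = max ‖(1 : C)‖ ‖(e : C)‖ :=
    IsUltrametricDist.norm_add_eq_max_of_norm_ne_norm (by rw [norm_one]; exact h.ne')
  change ‖(1 : C)‖ ≤ ‖(1 : C) + e‖
  rw [h1]
  exact le_max_left _ _

/-- the properties of the quotient of the Witt vectors that are used -/
structure Data (A : Type) [CommRing A] (p : ℕ) (ϖ : OC C) where
  t : OC C →* A
  h0 : (ϖ : C) ≠ 0
  h1 : ‖(ϖ : C)‖ < 1
  t0 : t 0 = 0
  hp : (p : A) = t ϖ
  reg : ∀ a : A, p * a = 0 → a = 0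
  nu : ∀ d : OC C, ‖(d : C)‖ < 1 → ¬ IsUnit (t d)
  rep : ∀ a, ∃ c, Associated (t c) a
  ser : ∀ b : ℕ → A, ∃ L, ∀ n, (p : A) ^ n ∣ L - ∑ i ∈ range n, (p : A) ^ i * b i
  add : ∀ x y, (p : A) ∣ t (x + y) - t x - t y
  sur : ∀ a, ∃ c, (p : A) ∣ a - t c

namespace Data

variable {A : Type} [CommRing A] {p : ℕ} {ϖ : OC C} (D : Data A p ϖ)

theorem reg' {c : OC C} (hc : (c : C) ≠ 0) (a : A) (h : D.t c * a = 0) : a = 0 := by
  obtain ⟨N, hN⟩ := exists_pow_lt_of_lt_one (norm_pos_iff.2 hc) D.h1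
  obtain ⟨e, he⟩ : c ∣ ϖ ^ N := dvd_of_le (by
    change ‖(ϖ : C) ^ N‖ ≤ _
    rw [norm_pow]; exact hN.le)
  have h2 : (p : A) ^ N * a = 0 := by
    rw [D.hp, ← map_pow, he, map_mul, mul_right_comm, h, zero_mul]
  clear hN he h
  induction N with
  | zero => simpa using h2
  | succ N ih => exact ih (D.reg _ (by rw [← h2]; ring))

theorem le_of_dvd {c c' : OC C} (h : D.t c' ∣ D.t c) : ‖(c : C)‖ ≤ ‖(c' : C)‖ := by
  by_contra hc
  rw [not_le] at hc
  obtain ⟨e, he1, he⟩ := dvd_of_lt hc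
  obtain ⟨f, hf⟩ := h
  have h0 : (c : C) ≠ 0 := norm_pos_iff.1 ((norm_nonneg _).trans_lt hc)
  have h2 := D.reg' h0 (1 - D.t e * f) (by
    rw [he, map_mul] at hf
    linear_combination hf)
  exact D.nu e he1 (IsUnit.of_mul_eq_one f (sub_eq_zero.1 h2).symm)

/-- the norm on the quotient -/
noncomputable def N (a : A) : ℝ≥0 := ‖((D.rep a).choose : C)‖₊

theorem N_eq {a : A} {c : OC C} (h : Associated (D.t c) a) : D.N a = ‖(c : C)‖₊ := by
  have h1 := (D.rep a).choose_spec.trans h.symm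
  exact NNReal.eq (le_antisymm (D.le_of_dvd h1.symm.dvd) (D.le_of_dvd h1.dvd))

theorem N_t (c : OC C) : D.N (D.t c) = ‖(c : C)‖₊ := D.N_eq (Associated.refl _)

theorem dvd_iff {a b : A} : a ∣ b ↔ D.N b ≤ D.N a := by
  obtain ⟨c, hc⟩ := D.rep a
  obtain ⟨d, hd⟩ := D.rep b
  rw [D.N_eq hc, D.N_eq hd, ← hc.dvd_iff_dvd_left, ← hd.dvd_iff_dvd_right]
  exact ⟨fun h => D.le_of_dvd h, fun h => map_dvd _ (dvd_of_le h)⟩

theorem N_eq_zero {a : A} (h : D.N a = 0) : a = 0 := by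
  have h1 : D.N 0 = 0 := by rw [← D.t0, D.N_t]; simp
  exact zero_dvd_iff.1 (D.dvd_iff.2 (by rw [h, h1]))

/-- the norm as a valuation -/
noncomputable def v : Valuation A ℝ≥0 where
  toFun := D.N
  map_zero' := by rw [← D.t0, D.N_t]; simp
  map_one' := by rw [← map_one D.t, D.N_t]; simp
  map_mul' a b := by
    obtain ⟨c, hc⟩ := D.rep a
    obtain ⟨d, hd⟩ := D.rep b
    have h : Associated (D.t (c * d)) (a * b) := by
      rw [map_mul]; exact hc.mul_mul hd
    rw [D.N_eq hc, D.N_eq hd, D.N_eq h, ← nnnorm_mul]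
    rfl
  map_add_le_max' a b := by
    change D.N (a + b) ≤ max (D.N a) (D.N b)
    rcases le_total (D.N a) (D.N b) with h | h
    · exact le_max_of_le_right (D.dvd_iff.1 (dvd_add (D.dvd_iff.2 h) dvd_rfl))
    · exact le_max_of_le_left (D.dvd_iff.1 (dvd_add dvd_rfl (D.dvd_iff.2 h)))

include D in
theorem isDomain : IsDomain A := by
  have h1 : Nontrivial A := ⟨0, 1, fun h => by
    have h2 := D.v.map_one
    rw [← h, D.v.map_zero] at h2
    exact zero_ne_one h2⟩
  have h2 : NoZeroDivisors A := ⟨fun {a b} h => by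
    have h3 := D.v.map_mul a b
    rw [h, D.v.map_zero] at h3
    exact (mul_eq_zero.1 h3.symm).imp D.N_eq_zero D.N_eq_zero⟩
  exact NoZeroDivisors.to_isDomain A

section Frac

variable [IsDomain A] {K : Type} [NormedField K] [IsUltrametricDist K] [Algebra A K]
  [IsFractionRing A K] (hn : ∀ a, ‖algebraMap A K a‖ = D.N a)

include hn

omit [IsUltrametricDist K] in
theorem exists_int {u : K} (hu : ‖u‖ ≤ 1) : ∃ a, algebraMap A K a = u := by
  obtain ⟨a, b, hb, rfl⟩ := IsFractionRing.div_surjective (A := A) u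
  have hb0 : algebraMap A K b ≠ 0 := IsFractionRing.to_map_ne_zero_of_mem_nonZeroDivisors hb
  rw [norm_div, div_le_one (norm_pos_iff.2 hb0), hn, hn] at hu
  obtain ⟨c, rfl⟩ := D.dvd_iff.2 hu
  exact ⟨c, by rw [map_mul]; field_simp⟩

omit [IsDomain A] [IsUltrametricDist K] [IsFractionRing A K] in
theorem norm_p : ‖(p : K)‖ = ‖(ϖ : C)‖ := by
  rw [← map_natCast (algebraMap A K), hn, D.hp, D.N_t]
  rfl

omit [IsDomain A] [IsUltrametricDist K] [IsFractionRing A K] in
theorem norm_le_of_dvd {a b : A} (h : a ∣ b) : ‖algebraMap A K b‖ ≤ ‖algebraMap A K a‖ := by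
  rw [hn, hn]
  exact D.dvd_iff.1 h

omit [IsUltrametricDist K] in
theorem complete : CompleteSpace K := by
  have hp0 : 0 < ‖(p : K)‖ := by rw [D.norm_p hn]; exact norm_pos_iff.2 D.h0
  have hp1 : ‖(p : K)‖ < 1 := by rw [D.norm_p hn]; exact D.h1
  refine Metric.complete_of_convergent_controlled_sequences (fun n => ‖(p : K)‖ ^ n)
    (fun n => by positivity) fun u hu => ?_
  have h1 : ∀ n, ∃ b, algebraMap A K b = (u (n + 1) - u n) / (p : K) ^ n := fun n =>
    D.exists_int hn (by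
      rw [norm_div, norm_pow, div_le_one (by positivity), ← dist_eq_norm]
      exact (hu n (n + 1) n n.le_succ le_rfl).le)
  choose b hb using h1
  obtain ⟨L, hL⟩ := D.ser b
  have h2 : ∀ n, algebraMap A K (∑ i ∈ range n, (p : A) ^ i * b i) = u n - u 0 := by
    intro n
    induction n with
    | zero => simp
    | succ n ih =>
      have h3 : (p : K) ^ n ≠ 0 := pow_ne_zero _ (norm_pos_iff.1 hp0)
      rw [sum_range_succ, map_add, ih, map_mul, hb, map_pow, map_natCast]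
      field_simp
      ring
  refine ⟨algebraMap A K L + u 0, tendsto_iff_norm_sub_tendsto_zero.2 ?_⟩
  refine squeeze_zero (fun _ => norm_nonneg _) (fun n => ?_)
    (tendsto_pow_atTop_nhds_zero_of_lt_one hp0.le hp1)
  have h4 := D.norm_le_of_dvd hn (hL n)
  rw [map_sub, h2, map_pow, map_natCast, norm_pow] at h4
  rw [norm_sub_rev]
  exact le_of_eq_of_le (by congr 1; ring) h4

omit [IsDomain A] [IsFractionRing A K] in
theorem charZero [Fact p.Prime] : CharZero K := by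
  have hp0 : 0 < ‖(p : K)‖ := by rw [D.norm_p hn]; exact norm_pos_iff.2 D.h0
  have hp1 : ‖(p : K)‖ < 1 := by rw [D.norm_p hn]; exact D.h1
  obtain ⟨q, hq⟩ := CharP.exists K
  rcases CharP.char_is_prime_or_zero K q with h | h
  · exfalso
    have h0 : (q : K) = 0 := CharP.cast_eq_zero K q
    by_cases hqp : q = p
    · rw [← hqp, h0, norm_zero] at hp0
      exact lt_irrefl _ hp0
    · obtain ⟨a, b, hab⟩ : IsCoprime (q : ℤ) (p : ℤ) :=
        Nat.isCoprime_iff_coprime.2 ((Nat.coprime_primes h Fact.out).2 hqp)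
      have h2 : (b : K) * p = 1 := by
        have h3 := congrArg (Int.cast : ℤ → K) hab
        push_cast at h3
        rwa [h0, mul_zero, zero_add] at h3
      have h4 := congrArg norm h2
      rw [norm_mul, norm_one] at h4
      have h5 := IsUltrametricDist.norm_intCast_le_one K b
      nlinarith [norm_nonneg (b : K)]
  · subst h
    exact CharP.charP_to_charZero K

omit [IsUltrametricDist K] in
theorem exists_sh : ∃ sh : C →* K, (∀ x, ‖sh x‖ = ‖x‖) ∧
    (∀ x y, ‖x‖ ≤ 1 → ‖y‖ ≤ 1 → ‖sh (x + y) - sh x - sh y‖ ≤ ‖(p : K)‖) ∧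
    (∀ u : K, ‖u‖ ≤ 1 → ∃ c, ‖c‖ ≤ 1 ∧ ‖u - sh c‖ ≤ ‖(p : K)‖) ∧
    ∀ u : K, ∃ c : C, ‖c‖ = ‖u‖ := by
  let g : OC C →* K := (algebraMap A K : A →* K).comp D.t
  have hg : ∀ c : OC C, ‖g c‖ = ‖(c : C)‖ := fun c => by
    change ‖algebraMap A K (D.t c)‖ = _
    rw [hn, D.N_t]
    rfl
  have hu : ∀ y : nonZeroDivisors (OC C), IsUnit (g y) := fun y => by
    refine isUnit_iff_ne_zero.2 (norm_ne_zero_iff.1 ?_)
    rw [hg, norm_ne_zero_iff]
    exact fun h => nonZeroDivisors.ne_zero y.2 (Subtype.ext h)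
  let sh : C →* K := (IsLocalization.toLocalizationMap (nonZeroDivisors (OC C)) C).lift hu
  have hsh : ∀ c : OC C, sh c = algebraMap A K (D.t c) := fun c =>
    (IsLocalization.toLocalizationMap (nonZeroDivisors (OC C)) C).lift_eq hu c
  have hns : ∀ c : OC C, ‖sh c‖ = ‖(c : C)‖ := fun c => by rw [hsh]; exact hg c
  refine ⟨sh, fun x => ?_, fun x y hx hy => ?_, fun u hu1 => ?_, fun u => ?_⟩
  · by_cases hx : ‖x‖ ≤ 1
    · exact hns ⟨x, mem_OC.2 hx⟩
    · rw [not_le] at hx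
      have hx0 : x ≠ 0 := norm_pos_iff.1 (one_pos.trans hx)
      have h1 : ‖sh x⁻¹‖ = ‖x⁻¹‖ :=
        hns ⟨x⁻¹, mem_OC.2 (by rw [norm_inv]; exact inv_le_one_of_one_le₀ hx.le)⟩
      have h2 : ‖sh x‖ * ‖sh x⁻¹‖ = 1 := by
        rw [← norm_mul, ← map_mul, mul_inv_cancel₀ hx0, map_one, norm_one]
      rw [h1, norm_inv] at h2
      exact (mul_inv_eq_one₀ (norm_ne_zero_iff.2 hx0)).1 h2
  · have h1 := D.norm_le_of_dvd hn (D.add ⟨x, mem_OC.2 hx⟩ ⟨y, mem_OC.2 hy⟩)
    rw [map_sub, map_sub, ← hsh, ← hsh, ← hsh, map_natCast] at h1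
    exact h1
  · obtain ⟨a, rfl⟩ := D.exists_int hn hu1
    obtain ⟨c, hc⟩ := D.sur a
    have h1 := D.norm_le_of_dvd hn hc
    rw [map_sub, ← hsh, map_natCast] at h1
    exact ⟨c, norm_le c, h1⟩
  · obtain ⟨a, b, -, rfl⟩ := IsFractionRing.div_surjective (A := A) u
    obtain ⟨c, hc⟩ := D.rep a
    obtain ⟨d, hd⟩ := D.rep b
    refine ⟨(c : C) / d, ?_⟩
    rw [norm_div, norm_div, hn, hn, D.N_eq hc, D.N_eq hd]
    rfl

end Frac

include D in
theorem main [Fact p.Prime] :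
    ∃ (K : Type) (_ : NormedField K), IsUltrametricDist K ∧ CompleteSpace K ∧ CharZero K ∧
      ‖(p : K)‖ = ‖(ϖ : C)‖ ∧ ∃ sh : C →* K, (∀ x, ‖sh x‖ = ‖x‖) ∧
        (∀ x y, ‖x‖ ≤ 1 → ‖y‖ ≤ 1 → ‖sh (x + y) - sh x - sh y‖ ≤ ‖(p : K)‖) ∧
        (∀ u : K, ‖u‖ ≤ 1 → ∃ c, ‖c‖ ≤ 1 ∧ ‖u - sh c‖ ≤ ‖(p : K)‖) ∧
        ∀ u : K, ∃ c : C, ‖c‖ = ‖u‖ := by
  have := D.isDomain
  have hS : nonZeroDivisors A ≤ D.v.supp.primeCompl := fun a ha h =>
    nonZeroDivisors.ne_zero ha (D.N_eq_zero h)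
  let w : Valuation (FractionRing A) ℝ≥0 := D.v.extendToLocalization hS (FractionRing A)
  let ab : AbsoluteValue (FractionRing A) ℝ :=
    { toFun := fun x => w x
      map_mul' := fun x y => by rw [map_mul, NNReal.coe_mul]
      nonneg' := fun x => NNReal.coe_nonneg _
      eq_zero' := fun x => by
        change ((w x : ℝ≥0) : ℝ) = 0 ↔ x = 0
        rw [NNReal.coe_eq_zero, Valuation.zero_iff]
      add_le' := fun x y => by
        change ((w (x + y) : ℝ≥0) : ℝ) ≤ w x + w y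
        rw [← NNReal.coe_add, NNReal.coe_le_coe]
        exact (w.map_add x y).trans (max_le le_self_add le_add_self) }
  letI : NormedField (FractionRing A) := ab.toNormedField
  have hU : IsUltrametricDist (FractionRing A) :=
    IsUltrametricDist.isUltrametricDist_of_forall_norm_add_le_max_norm fun x y => by
      change ((w (x + y) : ℝ≥0) : ℝ) ≤ max (w x : ℝ) (w y : ℝ)
      rw [← NNReal.coe_max, NNReal.coe_le_coe]
      exact w.map_add x y
  have hn : ∀ a, ‖algebraMap A (FractionRing A) a‖ = D.N a := fun a =>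
    congrArg NNReal.toReal (D.v.extendToLocalization_apply_map_apply hS (FractionRing A) a)
  exact ⟨FractionRing A, inferInstance, hU, D.complete hn, D.charZero hn, D.norm_p hn,
    D.exists_sh hn⟩

end Data

section Witt

variable {W : Type} [CommRing W] {p : ℕ} {ϖ : OC C}

theorem ser_of_complete [IsAdicComplete (Ideal.span {(p : W)}) W] (b : ℕ → W) :
    ∃ L, ∀ n, (p : W) ^ n ∣ L - ∑ i ∈ range n, (p : W) ^ i * b i := by
  have h := IsPrecomplete.prec (I := Ideal.span {(p : W)}) (M := W) inferInstance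
    (f := fun n => ∑ i ∈ range n, (p : W) ^ i * b i) (by
      intro m n hmn
      rw [SModEq.sub_mem, smul_eq_mul, Ideal.mul_top, Ideal.span_singleton_pow,
        Ideal.mem_span_singleton, ← dvd_neg, neg_sub, ← sum_Ico_eq_sub _ hmn]
      exact dvd_sum fun i hi => (pow_dvd_pow _ (mem_Ico.1 hi).1).mul_right _)
  obtain ⟨L, hL⟩ := h
  refine ⟨L, fun n => ?_⟩
  have h1 := hL n
  rwa [SModEq.sub_mem, smul_eq_mul, Ideal.mul_top, Ideal.span_singleton_pow,
    Ideal.mem_span_singleton, ← dvd_neg, neg_sub] at h1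

theorem exists_data [IsAdicComplete (Ideal.span {(p : W)}) W] (τ : OC C →* W) (red : W →+* OC C)
    (hτ : ∀ c, red (τ c) = c) (hτ0 : τ 0 = 0) (hker : ∀ w, red w = 0 ↔ (p : W) ∣ w)
    (hreg : ∀ w : W, p * w = 0 → w = 0) (h0 : (ϖ : C) ≠ 0) (h1 : ‖(ϖ : C)‖ < 1) :
    Nonempty (Data (W ⧸ Ideal.span {(p : W) - τ ϖ}) p ϖ) := by
  set ξ : W := p - τ ϖ with hξ
  let π : W →+* W ⧸ Ideal.span {ξ} := Ideal.Quotient.mk _
  have hπ : ∀ w, π w = 0 ↔ ξ ∣ w := fun w => by
    rw [Ideal.Quotient.eq_zero_iff_mem, Ideal.mem_span_singleton]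
  have hsur : Function.Surjective π := Ideal.Quotient.mk_surjective
  have hrp : red p = 0 := (hker _).2 dvd_rfl
  have hrξ : red ξ = -ϖ := by rw [hξ, map_sub, hrp, hτ, zero_sub]
  have hϖ : ϖ ≠ 0 := fun h => h0 (by rw [h]; rfl)
  have hp : (p : W ⧸ Ideal.span {ξ}) = π (τ ϖ) := by
    rw [← map_natCast π, ← sub_eq_zero, ← map_sub, hπ]
  have hpreg : ∀ a : W ⧸ Ideal.span {ξ}, p * a = 0 → a = 0 := by
    intro a ha
    obtain ⟨w, rfl⟩ := hsur a
    rw [← map_natCast π, ← map_mul, hπ] at ha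
    obtain ⟨w', hw'⟩ := ha
    have h2 : red w' = 0 := by
      have h3 := congrArg red hw'
      rw [map_mul, map_mul, hrp, hrξ, zero_mul] at h3
      exact (mul_eq_zero.1 h3.symm).resolve_left (neg_ne_zero.2 hϖ)
    obtain ⟨w'', rfl⟩ := (hker _).1 h2
    exact (hπ _).2 ⟨w'', sub_eq_zero.1 (hreg _ (by linear_combination hw'))⟩
  have hunit : ∀ w : W, IsUnit (red w) → IsUnit w := by
    intro w hw
    obtain ⟨c, hc⟩ := hw.exists_right_inv
    have h2 : w * τ c - 1 ∈ Ideal.span {(p : W)} := by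
      rw [Ideal.mem_span_singleton, ← hker, map_sub, map_mul, hτ, hc, map_one, sub_self]
    have h3 := Ideal.mem_jacobson_bot.1 (IsAdicComplete.le_jacobson_bot _ h2) 1
    rw [mul_one, sub_add_cancel] at h3
    exact isUnit_of_mul_isUnit_left h3
  have hdec : ∀ w : W, (p : W) ∣ w - τ (red w) := fun w => by
    rw [← hker, map_sub, hτ, sub_self]
  have hser : ∀ b : ℕ → W ⧸ Ideal.span {ξ}, ∃ L, ∀ n, (p : W ⧸ Ideal.span {ξ}) ^ n ∣
      L - ∑ i ∈ range n, (p : W ⧸ Ideal.span {ξ}) ^ i * b i := by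
    intro b
    choose c hc using fun n => hsur (b n)
    obtain ⟨L, hL⟩ := ser_of_complete (p := p) c
    refine ⟨π L, fun n => ?_⟩
    have h2 := map_dvd π (hL n)
    simpa only [map_pow, map_natCast, map_sub, map_sum, map_mul, hc] using h2
  have hsep : ∀ a : W ⧸ Ideal.span {ξ}, (∀ k, (p : W ⧸ Ideal.span {ξ}) ^ k ∣ a) → a = 0 := by
    have step : ∀ w : {w : W // ∀ k, (p : W ⧸ Ideal.span {ξ}) ^ k ∣ π w},
        ∃ (w' : {w : W // ∀ k, (p : W ⧸ Ideal.span {ξ}) ^ k ∣ π w}) (b : W),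
          w.1 = ξ * b + p * w'.1 := by
      rintro ⟨w, hw⟩
      obtain ⟨a, ha⟩ := hw 1
      obtain ⟨w', rfl⟩ := hsur a
      rw [pow_one] at ha
      obtain ⟨b, hb⟩ : ξ ∣ w - p * w' := by
        rw [← hπ, map_sub, map_mul, map_natCast, ha, sub_self]
      refine ⟨⟨w', fun k => ?_⟩, b, by linear_combination hb⟩
      obtain ⟨c, hc⟩ := hw (k + 1)
      exact ⟨c, sub_eq_zero.1 (hpreg _ (by rw [ha] at hc; linear_combination hc))⟩
    choose f g hfg using step
    intro a ha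
    obtain ⟨w, rfl⟩ := hsur a
    obtain ⟨L, hL⟩ := ser_of_complete (p := p) fun n => g (f^[n] ⟨w, ha⟩)
    have h2 : ∀ n, w = ξ * (∑ i ∈ range n, (p : W) ^ i * g (f^[i] ⟨w, ha⟩)) +
        p ^ n * (f^[n] ⟨w, ha⟩).1 := by
      intro n
      induction n with
      | zero => simp
      | succ n ih =>
        rw [sum_range_succ, Function.iterate_succ_apply']
        linear_combination ih + p ^ n * hfg (f^[n] ⟨w, ha⟩)
    refine (hπ _).2 ⟨L, sub_eq_zero.1 ?_⟩
    refine IsHausdorff.haus (I := Ideal.span {(p : W)}) (M := W) inferInstance _ fun n => ?_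
    rw [SModEq.zero, smul_eq_mul, Ideal.mul_top, Ideal.span_singleton_pow,
      Ideal.mem_span_singleton]
    obtain ⟨e, he⟩ := hL n
    exact ⟨(f^[n] ⟨w, ha⟩).1 - ξ * e, by linear_combination h2 n - ξ * he⟩
  have hrep : ∀ (k : ℕ) (a : W ⧸ Ideal.span {ξ}), ¬ (p : W ⧸ Ideal.span {ξ}) ^ k ∣ a →
      ∃ c, Associated (π (τ c)) a := by
    intro k
    induction k with
    | zero => intro a ha; simp at ha
    | succ k ih =>
      intro a ha
      obtain ⟨w, rfl⟩ := hsur a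
      obtain ⟨b, hb⟩ := hdec w
      have hw : π w = π (τ (red w)) + π (τ ϖ) * π b := by
        rw [← hp, ← map_natCast π, ← map_mul, ← hb, map_sub]; ring
      rcases lt_or_ge ‖(ϖ : C)‖ ‖(red w : C)‖ with h | h
      · obtain ⟨e, he1, he⟩ := dvd_of_lt h
        have hu : IsUnit (1 + τ e * b) := hunit _ (by
          rw [map_add, map_one, map_mul, hτ]
          refine isUnit_one_add ?_
          change ‖(e : C) * (red b : C)‖ < 1
          rw [norm_mul]
          exact mul_lt_one_of_nonneg_of_lt_one_left (norm_nonneg _) he1 (norm_le _))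
        refine ⟨red w, (hu.map π).unit, ?_⟩
        rw [IsUnit.unit_spec, map_add, map_one, map_mul]
        rw [he, map_mul, map_mul] at hw
        linear_combination -hw
      · obtain ⟨e, he⟩ := dvd_of_le h
        have hw' : π w = π (τ ϖ) * π (τ e + b) := by
          rw [hw, he, map_mul, map_mul, map_add]; ring
        obtain ⟨c, hc⟩ := ih (π (τ e + b)) fun h2 => ha (by
          rw [hw', ← hp, pow_succ']
          exact mul_dvd_mul_left _ h2)
        refine ⟨ϖ * c, ?_⟩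
        rw [hw', map_mul, map_mul]
        exact hc.mul_left _
  refine ⟨⟨(π : W →* W ⧸ Ideal.span {ξ}).comp τ, h0, h1, ?_, hp, hpreg, ?_, ?_, hser, ?_, ?_⟩⟩
  · change π (τ 0) = 0
    rw [hτ0, map_zero]
  · intro d hd hu
    obtain ⟨a, ha⟩ := hu.exists_right_inv
    obtain ⟨w, rfl⟩ := hsur a
    change π (τ d) * π w = 1 at ha
    obtain ⟨b, hb⟩ : ξ ∣ τ d * w - 1 := by
      rw [← hπ, map_sub, map_mul, ha, map_one, sub_self]
    have h2 := congrArg red hb
    rw [map_sub, map_mul, map_mul, hτ, hrξ, map_one] at h2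
    have h3 : (1 : C) = (d : C) * (red w : C) + (ϖ : C) * (red b : C) := by
      have h4 : (1 : OC C) = d * red w + ϖ * red b := by linear_combination -h2
      exact congrArg Subtype.val h4
    have h5 := IsUltrametricDist.norm_add_le_max ((d : C) * (red w : C)) ((ϖ : C) * (red b : C))
    rw [← h3, norm_one, norm_mul, norm_mul] at h5
    exact absurd h5 (not_le.2 (max_lt
      (mul_lt_one_of_nonneg_of_lt_one_left (norm_nonneg _) hd (norm_le _))
      (mul_lt_one_of_nonneg_of_lt_one_left (norm_nonneg _) h1 (norm_le _))))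
  · intro a
    by_cases ha : a = 0
    · refine ⟨0, ?_⟩
      change Associated (π (τ 0)) a
      rw [hτ0, map_zero, ha]
    · obtain ⟨k, hk⟩ := not_forall.1 fun h => ha (hsep a h)
      exact hrep k a hk
  · intro x y
    have h2 : (p : W) ∣ τ (x + y) - τ x - τ y := by
      rw [← hker, map_sub, map_sub, hτ, hτ, hτ]; ring
    have h3 := map_dvd π h2
    rwa [map_natCast, map_sub, map_sub] at h3
  · intro a
    obtain ⟨w, rfl⟩ := hsur a
    have h3 := map_dvd π (hdec w)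
    rw [map_natCast, map_sub] at h3
    exact ⟨red w, h3⟩

end Witt

end Untilt

open Untilt in
theorem exists_untilt (C : Type) [NormedField C] [IsUltrametricDist C] [CompleteSpace C]
    (p : ℕ) [Fact p.Prime] [CharP C p] [PerfectRing C p] (ϖ : C) (h0 : ϖ ≠ 0) (h1 : ‖ϖ‖ < 1) :
    ∃ (K : Type) (_ : NormedField K), IsUltrametricDist K ∧ CompleteSpace K ∧ CharZero K ∧
      ‖(p : K)‖ = ‖ϖ‖ ∧ ∃ sh : C →* K, (∀ x, ‖sh x‖ = ‖x‖) ∧
        (∀ x y, ‖x‖ ≤ 1 → ‖y‖ ≤ 1 → ‖sh (x + y) - sh x - sh y‖ ≤ ‖(p : K)‖) ∧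
        (∀ u : K, ‖u‖ ≤ 1 → ∃ c, ‖c‖ ≤ 1 ∧ ‖u - sh c‖ ≤ ‖(p : K)‖) ∧
        ∀ u : K, ∃ c : C, ‖c‖ = ‖u‖ := by
  have hc : CharP (OC C) p := (algebraMap (OC C) C).charP Subtype.val_injective p
  have hperf : PerfectRing (OC C) p := PerfectRing.ofSurjective _ p fun x => by
    obtain ⟨y, hy⟩ := (PerfectRing.bijective_frobenius (R := C) (p := p)).2 x
    have hy' : y ^ p = x := hy
    refine ⟨⟨y, mem_OC.2 ?_⟩, Subtype.ext hy'⟩
    have h2 := norm_le x
    rw [← hy', norm_pow] at h2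
    exact (pow_le_one_iff_of_nonneg (norm_nonneg _) (Fact.out : p.Prime).ne_zero).1 h2
  obtain ⟨D⟩ := exists_data (W := WittVector p (OC C)) (p := p) (ϖ := ⟨ϖ, mem_OC.2 h1.le⟩)
    (WittVector.teichmuller p) WittVector.constantCoeff (fun _ => rfl)
    (WittVector.teichmuller_zero p)
    (fun w => by
      rw [← Ideal.mem_span_singleton, WittVector.mem_span_p_iff_coeff_zero_eq_zero]; rfl)
    (fun w hw => WittVector.eq_zero_of_p_mul_eq_zero w (by rw [mul_comm]; exact hw)) h0 h1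
  exact D.main

end Vale.Agent.P217
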