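import Vale.Agent.P217.QL
import Vale.Agent.P217.Tate
import Vale.Agent.P217.Approx
import Vale.Agent.P217.Rank
import Vale.Agent.P217.Untilt

namespace Vale.Agent.P217

open Finset

namespace Two

variable {C K : Type} [NormedField C] [IsUltrametricDist C] [HasPi C] [CompleteSpace C]
  [NormedField K] [IsUltrametricDist K] [HasPi K] [CompleteSpace K]

/-- The data of an untilt. -/
structure Unt (p : ℕ) (sh : C →* K) : Prop where
  piK : (HasPi.ϖ : K) = p
  piC : ‖(p : K)‖ = ‖(HasPi.ϖ : C)‖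
  norm : ∀ x, ‖sh x‖ = ‖x‖
  add : ∀ x y, ‖x‖ ≤ 1 → ‖y‖ ≤ 1 → ‖sh (x + y) - sh x - sh y‖ ≤ ‖(p : K)‖

namespace Unt

variable {p : ℕ} {sh : C →* K} (U : Unt p sh)

/-- The multiplicative map on integers. -/
def shO : O C →* O K where
  toFun x := ⟨sh x, by rw [mem_O, U.norm]; exact x.2⟩
  map_one' := Subtype.ext (map_one sh)
  map_mul' x y := Subtype.ext (map_mul sh (x : C) y)

omit [CompleteSpace C] [CompleteSpace K] in
@[simp] theorem coe_shO (x : O C) : (U.shO x : K) = sh x := rfl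

omit [CompleteSpace C] [CompleteSpace K] in
theorem shO_zero : U.shO 0 = 0 :=
  Subtype.ext (norm_eq_zero.1 (by rw [coe_shO, U.norm]; simp))

include U in
omit [CompleteSpace C] [CompleteSpace K] [IsUltrametricDist C] [IsUltrametricDist K] in
theorem hp0 : (p : K) ≠ 0 := U.piK ▸ HasPi.ne

include U in
omit [CompleteSpace C] [CompleteSpace K] [IsUltrametricDist C] [IsUltrametricDist K] in
theorem hp1 : ‖(p : K)‖ < 1 := U.piK ▸ HasPi.lt

include U in
omit [CompleteSpace C] [CompleteSpace K] [IsUltrametricDist C] [IsUltrametricDist K] in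
theorem hple : ‖(p : K)‖ ≤ ‖(HasPi.ϖ : K)‖ := by rw [U.piK]

include U in
omit [CompleteSpace C] [IsUltrametricDist C] in
theorem p_mem : (p : O K) ∈ (Adic.I : Ideal (O K)) := mem_I_O.2 (by simpa using U.hple)

theorem shO_rad {x : O C} (hx : x ∈ rad (O C)) : U.shO x ∈ rad (O K) := by
  rw [mem_rad_O] at hx ⊢
  rwa [coe_shO, U.norm]

/-- The ring map modulo `p`. -/
noncomputable def rho : O C →+* O K ⧸ (Adic.I : Ideal (O K)) where
  toFun x := Ideal.Quotient.mk _ (U.shO x)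
  map_one' := by rw [map_one, map_one]
  map_mul' x y := by rw [map_mul, map_mul]
  map_zero' := by rw [U.shO_zero, map_zero]
  map_add' x y := by
    rw [← map_add, Ideal.Quotient.eq, mem_I_O, U.piK, ← sub_sub]
    exact U.add x y x.2 y.2

omit [CompleteSpace C] in
theorem rho_apply (x : O C) : U.rho x = Ideal.Quotient.mk _ (U.shO x) := rfl

theorem rho_eq_zero {x : O C} (hx : x ∈ (Adic.I : Ideal (O C))) : U.rho x = 0 := by
  rw [rho_apply, Ideal.Quotient.eq_zero_iff_mem, mem_I_O, coe_shO, U.norm, U.piK, U.piC]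
  exact mem_I_O.1 hx

theorem shO_congr {x y : O C} (h : x - y ∈ (Adic.I : Ideal (O C))) :
    U.shO x - U.shO y ∈ (Adic.I : Ideal (O K)) := by
  have := U.rho_eq_zero h
  rwa [map_sub, sub_eq_zero, rho_apply, rho_apply, Ideal.Quotient.eq] at this

theorem ev_congr {σ : Type} [Finite σ] {a : σ → O C} (ha : ∀ i, a i ∈ rad (O C))
    {f : MvPowerSeries σ (O C)} {f' : MvPowerSeries σ (O K)}
    (hf : MvPowerSeries.map U.rho f = MvPowerSeries.map (Ideal.Quotient.mk _) f') :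
    U.shO (ev (RingHom.id _) a f) - ev (RingHom.id _) (fun i => U.shO (a i)) f' ∈
      (Adic.I : Ideal (O K)) := by
  let _ := Adic.discrete (O K ⧸ (Adic.I : Ideal (O K)))
  have hr : ∀ i, U.rho (a i) ∈ rad (O K ⧸ (Adic.I : Ideal (O K))) := fun i => by
    obtain ⟨N, hN⟩ := U.shO_rad (ha i)
    refine ⟨N, ?_⟩
    rw [rho_apply, ← map_pow, Ideal.Quotient.eq_zero_iff_mem.2 hN]
    exact zero_mem _
  rw [← Ideal.Quotient.eq, ← rho_apply, hom_ev U.rho _ ha hr,
    hom_ev (Ideal.Quotient.mk _) _ (fun i => U.shO_rad (ha i)) hr, RingHom.comp_id,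
    RingHom.comp_id]
  have := ev_map U.rho (RingHom.id _) hr f
  rw [hf, ev_map _ _ hr] at this
  exact this.symm

/-- The coefficientwise lift of a series. -/
noncomputable def lift (β : PowerSeries (O C)) : PowerSeries (O K) :=
  PowerSeries.mk fun j => U.shO (PowerSeries.coeff j β)

omit [CompleteSpace C] in
theorem map_lift (β : PowerSeries (O C)) :
    PowerSeries.map U.rho β = PowerSeries.map (Ideal.Quotient.mk _) (U.lift β) := by
  ext j; simp [lift, rho_apply]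

theorem lift_isHomMod {G H : FormalGroup (Zp p)} (φ : Zp p →+* O C) (φK : Zp p →+* O K)
    {β : PowerSeries (O C)} (hβ : IsHomMod Adic.I (G.map φ) (H.map φ) β) :
    IsHomMod Adic.I (G.map φK) (H.map φK) (U.lift β) := by
  constructor
  · rw [← PowerSeries.coeff_zero_eq_constantCoeff_apply, lift, PowerSeries.coeff_mk,
      PowerSeries.coeff_zero_eq_constantCoeff_apply, hβ.zero, U.shO_zero]
  · let ρ := Ideal.Quotient.lift (Adic.I : Ideal (O C)) U.rho fun _ => U.rho_eq_zero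
    have h := hβ.hom.map ρ
    have e : PowerSeries.map ρ (PowerSeries.map (Ideal.Quotient.mk _) β) =
        PowerSeries.map U.rho β := by
      ext j; simp [ρ]
    rw [e, map_lift] at h
    simp only [fg_map_map] at h ⊢
    rwa [zp_hom_eq (ρ.comp _) ((Ideal.Quotient.mk _).comp φK)] at h

variable [Fact p.Prime] [CharP C p] [PerfectRing C p]

theorem rootSys (r : ℕ) {Y : O C} (hY : Y ∈ rad (O C)) :
    IsRootSys (p ^ r) fun k => U.shO (rt p r k Y) :=
  ⟨fun k => U.shO_rad ((rt_mem_rad r k).2 hY), fun k => by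
    rw [← map_pow, rt_succ_pow, sub_self]; exact zero_mem _⟩

/-- The point in characteristic zero attached to an element of the tilt. -/
noncomputable def TH (r : ℕ) (G : FormalGroup (Zp p)) (φK : Zp p →+* O K) (Y : O C)
    (hY : Y ∈ rad (O C)) : Pt G φK := theta p ((U.rootSys r hY).pt G φK)

open Classical in
/-- Its logarithm. -/
noncomputable def LL (r : ℕ) (G : FormalGroup (Zp p)) (φK : Zp p →+* O K) (Y : C) : K :=
  if h : ‖Y‖ < 1 then lg p (U.TH r G φK ⟨Y, h.le⟩ (mem_rad_O.2 h)) else 0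

variable {r : ℕ} {G : FormalGroup (Zp p)} (φK : Zp p →+* O K)

theorem LL_coe {Y : O C} (hY : Y ∈ rad (O C)) :
    U.LL r G φK Y = lg p (U.TH r G φK Y hY) := dif_pos (mem_rad_O.1 hY)

theorem isSys (hG : IsLT p r G) {Y : O C} (hY : Y ∈ rad (O C)) :
    IsSys p ((U.rootSys r hY).pt G φK) :=
  (U.rootSys r hY).isSys (@IsLT.coeff_mem p r _ G hG.comm _ _ _ hG φK U.p_mem)

variable [G.IsComm]

theorem TH_pow (hG : IsLT p r G) {Y Z : O C} (hY : Y ∈ rad (O C)) (hZ : Z ∈ rad (O C))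
    (h : Z = Y ^ p ^ r) : U.TH r G φK Z hZ = p • U.TH r G φK Y hY := by
  have := theta_shift U.p_mem (U.isSys φK hG hZ) 1
  rw [pow_one] at this
  rw [TH, ← this]
  refine congrArg (fun y => p • theta p y) (funext fun k => Pt.ext ?_)
  simp only [IsRootSys.pt_val]
  rw [h, map_pow (rt p r (k + 1)), rt_succ_pow]

theorem LL_approx (hr : 0 < r) (hG : IsLT p r G) (Y : C) (hY : ‖Y‖ < 1) (R : ℝ) (k₀ : ℤ)
    (h1 : ∀ k : ℤ, k ≠ k₀ →
      ‖sh (((frobeniusEquiv C p : RingAut C) ^ ((r : ℤ) * k)) Y) / (p : K) ^ k‖ < R)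
    (h2 : ‖sh (((frobeniusEquiv C p : RingAut C) ^ ((r : ℤ) * k₀)) Y) / (p : K) ^ k₀‖ ≤ R) :
    ‖U.LL r G φK Y -
      sh (((frobeniusEquiv C p : RingAut C) ^ ((r : ℤ) * k₀)) Y) / (p : K) ^ k₀‖ < R := by
  set Z : ℤ → C := fun k => ((frobeniusEquiv C p : RingAut C) ^ ((r : ℤ) * k)) Y with hZ
  have f1 : ∀ (m : ℕ) (W : C), ((frobeniusEquiv C p : RingAut C) ^ m) W = W ^ p ^ m := by
    intro m W
    induction m with
    | zero => simp
    | succ m ih => rw [pow_succ', RingAut.mul_apply, ih, pow_succ, pow_mul]; rfl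
  have st : ∀ k, Z (k + 1) = Z k ^ p ^ r := fun k => by
    simp only [hZ]
    rw [mul_add, mul_one, add_comm, zpow_add, RingAut.mul_apply, zpow_natCast, f1]
  have Z0 : Z 0 = Y := by simp [hZ]
  have hq : p ^ r ≠ 0 := pow_ne_zero _ (Fact.out : p.Prime).ne_zero
  have hlt : ∀ k, ‖Z k‖ < 1 := by
    have : ∀ k, ‖Z (k + 1)‖ < 1 ↔ ‖Z k‖ < 1 := fun k => by
      rw [st, norm_pow, pow_lt_one_iff_of_nonneg (norm_nonneg _) hq]
    intro k
    induction k using Int.induction_on with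
    | zero => rwa [Z0]
    | succ k ih => exact (this k).2 ih
    | pred k ih => exact (this _).1 (by rwa [sub_add_cancel])
  let z : ℤ → O C := fun k => ⟨Z k, (hlt k).le⟩
  have hz : ∀ k, z k ∈ rad (O C) := fun k => mem_rad_O.2 (hlt k)
  let x : ℤ → Pt G φK := fun k => U.TH r G φK (z k) (hz k)
  have hx : ∀ k, x (k + 1) = p • x k := fun k =>
    U.TH_pow φK hG (hz k) (hz (k + 1)) (Subtype.ext (st k))
  have hx' : ∀ k : ℕ, x k = p ^ k • x 0 := by
    intro k
    induction k with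
    | zero => simp
    | succ k ih => rw [Nat.cast_succ, hx, ih, pow_succ' p, mul_nsmul']
  refine approx_formula hr (norm_pos_iff.2 U.hp0) U.hp1 (fun k => ((x k).val : K))
    (fun k => sh (Z k)) (fun k => mem_rad_O.1 (x k).mem) (fun k => by rw [U.norm]; exact hlt k)
    (fun k => ?_) (fun k => by rw [st, map_pow]) (fun k => ?_) _ ?_ R k₀ h1 h2
  · rw [hx, hG.nsmul_val]; simp
  · have := theta_sub_mem U.p_mem (U.isSys φK hG (hz k))
    rw [mem_I_O, U.piK, IsRootSys.pt_val, rt_zero] at this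
    exact this
  · have e : U.LL r G φK Y = lg p (x 0) := by
      rw [← Z0]; exact U.LL_coe φK (hz 0)
    simp only [hx', e]
    exact tendsto_lg U.hp0 U.hp1 (x 0)

omit [G.IsComm] [PerfectRing C p] [Fact p.Prime] in
theorem near (hr : 0 < r) (hG : IsLT p r G) (φ : Zp p →+* O C) :
    Near p r G φ φ (RingHom.id _) :=
  ⟨hr, by
    rw [hG.mul_p, map_add, map_mul, PowerSeries.map_C, map_natCast, O_cast_p]; simp,
    fun _ hx => hx, fun _ => by simp⟩

theorem TH_add (hr : 0 < r) (hG : IsLT p r G) (φ : Zp p →+* O C) (X Y : Pt G φ) :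
    U.TH r G φK (X + Y).val (X + Y).mem = U.TH r G φK X.val X.mem + U.TH r G φK Y.val Y.mem := by
  rw [TH, TH, TH, ← theta_add U.p_mem (U.isSys φK hG X.mem) (U.isSys φK hG Y.mem)]
  refine theta_congr U.p_mem ((U.isSys φK hG X.mem).add (U.isSys φK hG Y.mem)) fun k => ?_
  rw [IsRootSys.pt_val, ← Pt.rt_val, (near hr hG φ).rt_add, Pt.add_val_map, Pt.add_val_map]
  have := U.ev_congr (rad2 (X.rt p r k).mem (Y.rt p r k).mem) (f := (G.map φ).toPowerSeries)
    (f' := (G.map φK).toPowerSeries) (by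
      rw [← FormalGroup.map_toPowerSeries, ← FormalGroup.map_toPowerSeries, fg_map_map,
        fg_map_map, zp_hom_eq (U.rho.comp φ)])
  rwa [comp2] at this

theorem LL_sum (hr : 0 < r) (hG : IsLT p r G) (φ : Zp p →+* O C) {ι : Type} (s : Finset ι)
    (X : ι → Pt G φ) :
    U.LL r G φK (∑ i ∈ s, X i).val = ∑ i ∈ s, U.LL r G φK (X i).val :=
  map_sum (AddMonoidHom.mk' (fun X : Pt G φ => U.LL r G φK X.val) fun X Y => by
    rw [U.LL_coe φK (X + Y).mem, U.LL_coe φK X.mem, U.LL_coe φK Y.mem, U.TH_add φK hr hG,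
      lg_add U.hp0 U.hp1]) X s

theorem LL_const_mul (hG : IsLT p r G) {a Y : O C} (ha : a ^ p ^ r = a) (hY : Y ∈ rad (O C)) :
    U.LL r G φK (a * Y : O C) = sh a * U.LL r G φK Y := by
  have ha' : U.shO a ^ p ^ r = U.shO a := by rw [← map_pow, ha]
  rw [U.LL_coe φK hY, U.LL_coe φK (Ideal.mul_mem_left _ a hY), TH, TH, ← U.coe_shO,
    ← hG.lg_theta_const_mul U.hp0 U.hple φK (U.rootSys r hY) ha']
  refine congrArg (fun y => lg p (theta p y)) (funext fun k => Pt.ext ?_)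
  simp only [IsRootSys.pt_val]
  rw [map_mul (rt p r k), rt_of_fixed r k ha, map_mul]

theorem LL_hom {n : ℕ} {Gn : FormalGroup (Zp p)} [Gn.IsComm] (hn : 0 < n) (hGn : IsLT p n Gn)
    (hr : 0 < r) (hG : IsLT p r G) (φ : Zp p →+* O C) {β : PowerSeries (O C)}
    (hβ : IsHomMod Adic.I (Gn.map φ) (G.map φ) β) (μ : Pt Gn φ →+ Pt G φ)
    (hμ : ∀ Y, (μ Y).val - ev1 (RingHom.id _) Y.val β ∈ (Adic.I : Ideal (O C))) :
    ∃ c : ℕ → K, ∀ Y, U.LL r G φK (μ Y).val =
      ∑ l ∈ range n, c l * U.LL n Gn φK (Y.val ^ p ^ l : O C) := by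
  obtain ⟨c, hc⟩ := quasi_log U.hp0 U.hple hn hGn φK G φK _ (U.lift_isHomMod φ φK hβ)
  refine ⟨c, fun Y => ?_⟩
  rw [U.LL_coe φK (μ Y).mem, TH, ← theta_congr U.p_mem (U.isSys φK hG (μ Y).mem)
    (y' := fun k => Pt.app G φK (RingHom.id _) _ (U.lift_isHomMod φ φK hβ).zero
      ((U.rootSys n Y.mem).pt Gn φK k)) fun k => ?_, hc]
  · refine sum_congr rfl fun l _ => ?_
    rw [U.LL_coe φK (Ideal.pow_mem_of_mem _ Y.mem _ (pow_pos (Fact.out : p.Prime).pos l)), TH]
    refine congrArg (fun y => c l * lg p (theta p y)) (funext fun k => Pt.ext ?_)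
    simp only [IsRootSys.pt_val, map_pow]
  · have e : (μ Y).rt p r k = μ (Y.rt p n k) := (near hr hG φ).pow_nsmul_injective k (by
      rw [(near hr hG φ).nsmul_rt, ← map_nsmul, (near hn hGn φ).nsmul_rt])
    have h1 := U.ev_congr (a := fun _ : Unit => (Y.rt p n k).val) (fun _ => Pt.mem _)
      (U.map_lift β)
    have h2 := neg_mem (add_mem (U.shO_congr (hμ (Y.rt p n k))) h1)
    rw [← e, ev1_def, sub_add_sub_cancel, neg_sub] at h2
    exact h2

include U in
omit [CharP C p] [PerfectRing C p] [CompleteSpace C] in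
theorem exists_root {n : ℕ} (hn : 0 < n) (κ : GaloisField p n →+* O C) :
    ∃ g : GaloisField p n, IsPrimitiveRoot (sh (κ g)) (p ^ n - 1) := by
  obtain ⟨g, hg⟩ := IsCyclic.exists_ofOrder_eq_natCard (α := (GaloisField p n)ˣ)
  rw [Nat.card_units, GaloisField.card p n hn.ne'] at hg
  have h1 : IsPrimitiveRoot (g : GaloisField p n) (p ^ n - 1) :=
    IsPrimitiveRoot.coe_units_iff.2 (hg ▸ IsPrimitiveRoot.orderOf g)
  have : Nontrivial (O K ⧸ (Adic.I : Ideal (O K))) := Ideal.Quotient.nontrivial_iff.2 fun h => by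
    have h2 : (1 : O K) ∈ (Adic.I : Ideal (O K)) := h ▸ Submodule.mem_top
    rw [mem_I_O] at h2
    exact absurd HasPi.lt (not_lt.2 (by simpa using h2))
  have h2 := h1.map_of_injective (U.rho.comp κ).injective
  refine ⟨g, ?_, fun l hl => h2.dvd_of_pow_eq_one l ?_⟩
  · rw [← map_pow, ← SubmonoidClass.coe_pow, ← map_pow, h1.pow_eq_one]; simp
  · rw [RingHom.comp_apply, rho_apply, ← map_pow, ← map_one (Ideal.Quotient.mk _)]
    exact congrArg _ (Subtype.ext hl)

end Unt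

theorem exists_pair {ν : PowerSeries (O C)} (hν0 : PowerSeries.constantCoeff ν = 0) (hν : ν ≠ 0) :
    ∃ x ∈ rad (O C), ∃ x' ∈ rad (O C),
      ‖(ev1 (RingHom.id _) x' ν : C)‖ < ‖(ev1 (RingHom.id _) x ν : C)‖ ∧
      ‖(ev1 (RingHom.id _) x ν : C)‖ ^ 2 < ‖(ev1 (RingHom.id _) x' ν : C)‖ := by
  have hf := PowerSeries.X_pow_order_mul_divXPowOrder (f := ν)
  have ha : PowerSeries.constantCoeff ν.divXPowOrder ≠ 0 := by
    rw [PowerSeries.constantCoeff_divXPowOrder]
    exact PowerSeries.coeff_order hν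
  generalize ν.divXPowOrder = g at hf ha
  generalize ν.order.toNat = e at hf
  have he : e ≠ 0 := by
    rintro rfl
    rw [pow_zero, one_mul] at hf
    exact ha (hf ▸ hν0)
  set a := PowerSeries.constantCoeff g
  have ha0 : 0 < ‖(a : C)‖ := norm_pos_iff.2 fun h => ha (Subtype.ext h)
  have key : ∀ x : O C, ‖(x : C)‖ < ‖(a : C)‖ →
      ‖(ev1 (RingHom.id _) x ν : C)‖ = ‖(x : C)‖ ^ e * ‖(a : C)‖ := by
    intro x hx
    have hr : x ∈ rad (O C) := mem_rad_O.2 (hx.trans_le a.2)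
    have h1 := mem_span_O.1 (ev1_sub_constantCoeff_mem (RingHom.id _) hr
      (Ideal.mem_span_singleton_self x) g)
    have h2 : ‖(ev1 (RingHom.id _) x g : C)‖ = ‖(a : C)‖ := by
      have := IsUltrametricDist.norm_add_eq_max_of_norm_ne_norm (h1.trans_lt hx).ne
      rw [max_eq_right (h1.trans_lt hx).le] at this
      rw [← this]; simp [a]
    rw [← hf, map_mul, map_pow, ev1_X _ hr, Subring.coe_mul, norm_mul, h2, SubmonoidClass.coe_pow,
      norm_pow]
  obtain ⟨N, hN⟩ := exists_pi_pow_lt (K := C) ha0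
  have h0 := norm_pi_pos (K := C)
  have h1 : ‖(HasPi.ϖ : C)‖ < 1 := HasPi.lt
  have hn : ∀ t, ‖((piO C ^ t : O C) : C)‖ = ‖(HasPi.ϖ : C)‖ ^ t := fun t => by simp
  have hl : ∀ t, ‖((piO C ^ (N + t) : O C) : C)‖ < ‖(a : C)‖ := fun t => by
    rw [hn]; exact (pow_le_pow_of_le_one h0.le h1.le (by omega)).trans_lt hN
  refine ⟨_, mem_rad_O.2 ((hl 2).trans_le a.2), _, mem_rad_O.2 ((hl 3).trans_le a.2), ?_, ?_⟩
  · rw [key _ (hl 2), key _ (hl 3), hn, hn]
    exact mul_lt_mul_of_pos_right (pow_lt_pow_left₀ (pow_lt_pow_right_of_lt_one₀ h0 h1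
      (by omega)) (by positivity) he) ha0
  · rw [key _ (hl 2), key _ (hl 3), hn, hn, mul_pow, ← pow_mul, ← pow_mul, ← pow_mul]
    refine mul_lt_mul (pow_lt_pow_right_of_lt_one₀ h0 h1 ?_)
      (pow_le_of_le_one ha0.le a.2 two_ne_zero) (by positivity) (by positivity)
    nlinarith [Nat.pos_of_ne_zero he]

end Two

theorem no_relation {C : Type} [NormedField C] [IsUltrametricDist C] [HasPi C] [CompleteSpace C]
    {p n h : ℕ} [Fact p.Prime] [CharP C p] [PerfectRing C p] (hn : 0 < n) (hh : 0 < h)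
    {Gn Gh : FormalGroup (Zp p)} [Gn.IsComm] [Gh.IsComm] (hGn : IsLT p n Gn) (hGh : IsLT p h Gh)
    (φ : Zp p →+* O C) (κ : GaloisField p n →+* O C) {ι : Type} [Fintype ι]
    (hι : Fintype.card ι < n) (X : ι → O C) (hX0 : ∀ i, X i ≠ 0) (hX1 : ∀ i, X i ∈ rad (O C))
    (hX : Adapted p n fun i => (X i : C)) (β : ι → PowerSeries (O C))
    (hβ : ∀ i, IsHomMod Adic.I (Gn.map φ) (Gh.map φ) (β i)) (μ : ι → Pt Gn φ →+ Pt Gh φ)
    (hμ : ∀ i Y, (μ i Y).val - ev1 (RingHom.id _) Y.val (β i) ∈ (Adic.I : Ideal (O C)))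
    (hrel : ∀ (a : GaloisField p n) (l : ℕ) (Y : ι → Pt Gn φ),
      (∀ i, (Y i).val = κ a * X i ^ p ^ l) → ∑ i, μ i (Y i) = 0)
    (i : ι) (ν : PowerSeries (O C)) (hν0 : PowerSeries.constantCoeff ν = 0)
    (hν : ∀ x ∈ rad (O C), ∃ Y, (μ i Y).val = ev1 (RingHom.id _) x ν) : ν = 0 := by
  have hp : p.Prime := Fact.out
  obtain ⟨K, _, _, _, _, hpK, sh, hnorm, hadd, hsurj, hval⟩ :=
    exists_untilt C p HasPi.ϖ HasPi.ne HasPi.lt
  have hp0 : 0 < ‖(p : K)‖ := hpK ▸ norm_pi_pos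
  have hp1 : ‖(p : K)‖ < 1 := hpK ▸ HasPi.lt
  let _ : HasPi K := ⟨p, norm_pos_iff.1 hp0, hp1⟩
  have U : Two.Unt p sh := ⟨rfl, hpK, hnorm, hadd⟩
  obtain ⟨φK⟩ := exists_zp_hom (I_le_rad U.p_mem)
  choose c hc using fun i => U.LL_hom φK hn hGn hh hGh φ (hβ i) (μ i) (hμ i)
  obtain ⟨g, hg⟩ := U.exists_root hn κ
  have hXp : ∀ i l, X i ^ p ^ l ∈ rad (O C) := fun i l =>
    Ideal.pow_mem_of_mem _ (hX1 i) _ (pow_pos hp.pos l)
  have h1 : ∀ l, ∀ j < n, ∑ i, c i j * U.LL n Gn φK (((X i : C) ^ p ^ j) ^ p ^ l) = 0 := by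
    intro l
    refine eq_zero_of_sum_pow _ hg _ fun t => ?_
    let Y : ι → Pt Gn φ := fun i => ⟨κ (g ^ t) * X i ^ p ^ l, Ideal.mul_mem_left _ _ (hXp i l)⟩
    have h2 := U.LL_sum φK hh hGh φ univ fun i => μ i (Y i)
    have h3 := U.LL_sum φK hh hGh φ (∅ : Finset ι) fun i => μ i (Y i)
    rw [sum_empty, sum_empty] at h3
    rw [hrel _ l Y fun _ => rfl, h3] at h2
    simp only [hc] at h2
    rw [sum_comm] at h2
    rw [h2]
    refine sum_congr rfl fun j _ => ?_
    rw [mul_sum]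
    refine sum_congr rfl fun i _ => ?_
    have hf : (κ (g ^ t) ^ p ^ j) ^ p ^ n = κ (g ^ t) ^ p ^ j := by
      have : (g ^ t) ^ p ^ n = g ^ t := by
        rw [← GaloisField.card p n hn.ne']
        cases nonempty_fintype (GaloisField p n)
        rw [Nat.card_eq_fintype_card, FiniteField.pow_card]
      rw [← pow_mul, mul_comm, pow_mul, ← map_pow, this]
    change _ = c i j * U.LL n Gn φK ((κ (g ^ t) * X i ^ p ^ l) ^ p ^ j : O C)
    rw [mul_pow, U.LL_const_mul φK hGn hf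
      (Ideal.pow_mem_of_mem _ (hXp i l) _ (pow_pos hp.pos j)), pow_right_comm (X i : C)]
    simp only [map_pow, SubmonoidClass.coe_pow]
    ring
  have h2 : ∀ j < n, c i j = 0 := fun j hj =>
    rank_lemma hp0 hp1 sh hnorm (fun x y hx hy => (hadd x y hx hy).trans_lt hp1)
      (fun u hu => (hsurj u hu).imp fun c hc => ⟨hc.1, hc.2.trans_lt hp1⟩) hval _
      (U.LL_approx φK hn hGn) hι (fun i => (X i : C) ^ p ^ j)
      (fun i => pow_ne_zero _ fun h0 => hX0 i (Subtype.ext h0))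
      (fun i => mem_rad_O.1 (hXp i j)) (hX.pow j) (fun i => c i j) (fun l => h1 l j hj) i
  have h3 : ∀ x ∈ rad (O C), U.LL h Gh φK (ev1 (RingHom.id _) x ν : O C) = 0 := fun x hx => by
    obtain ⟨Y, hY⟩ := hν x hx
    rw [← hY, hc]
    exact sum_eq_zero fun j hj => by rw [h2 j (mem_range.1 hj), zero_mul]
  by_contra hne
  obtain ⟨x, hx, x', hx', h4, h5⟩ := Two.exists_pair hν0 hne
  exact (ne_zero_of_dominant hh hp0 hp1 sh hnorm _ (U.LL_approx φK hh hGh) _ _
    (mem_rad_O.1 (ev1_mem_rad _ hx hν0)) h4 h5).elim (fun h => h (h3 x hx)) fun h => h (h3 x' hx')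

end Vale.Agent.P217
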