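import Vale.Agent.P217.CharPB
import Vale.Agent.P217.Jacobian
import Vale.Agent.P217.Subgroup
import Vale.Agent.P217.Two
import Vale.Agent.P217.LTGroup

/-! The case of positive characteristic. -/

namespace Vale.Agent.P217

open Finset

variable {C : Type} [NormedField C] [IsUltrametricDist C] [HasPi C] [CompleteSpace C]
  {p n h : ℕ} [Fact p.Prime] [CharP C p] [IsAlgClosed C] {F : FormalGroup (LTRing p n)}

omit [HasPi C] [CompleteSpace C] [IsAlgClosed C] in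
theorem exists_fixed_field (hh : 0 < h) : ∃ (k : Subfield C) (κ : k →+* O C),
    (∀ x, x ∈ k ↔ x ^ p ^ h = x) ∧ ∀ a, (κ a : C) = a := by
  let k := (iterateFrobenius C p h).eqLocusField (RingHom.id C)
  have hk : ∀ x, x ∈ k ↔ x ^ p ^ h = x := fun x => Iff.rfl
  refine ⟨k, k.subtype.codRestrict (O C) fun a => ?_, hk, fun _ => rfl⟩
  rw [mem_O]
  by_contra hc
  have h1 := congrArg norm ((hk _).1 a.2)
  rw [norm_pow] at h1
  have := pow_lt_pow_right₀ (not_le.1 hc) (Nat.one_lt_pow hh.ne' (Fact.out : p.Prime).one_lt)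
  rw [pow_one] at this
  exact this.ne' h1

theorem char_p_case (hF : IsLubinTate p n F) (j₀ : Fin (n - 1)) (hj : j₀.val + 1 = h)
    {z : LTRing p n →+* O C} (hz : ∀ x ∈ heightIdeal p n n, z x ∈ (Adic.I : Ideal (O C)))
    (hzh : ∀ x ∈ heightIdeal p n h, z x = 0) (hu : z (MvPowerSeries.X j₀) ≠ 0)
    (f : LTRing p n) (m₀ : ℕ)
    (Hf : ∀ m, m₀ ≤ m → ∀ ξ φ, IsEndLift p n F ξ → IsAct p n F m ξ φ → z (φ f) = 0) :
    f ∈ heightIdeal p n h := by
  classical
  have := hF.1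
  have hh : 0 < h := by omega
  have hhn : h < n := by have := j₀.2; omega
  have hn : 0 < n := by omega
  have hzr : ∀ j, z (MvPowerSeries.X j) ∈ rad (O C) := fun j => I_le_rad (hz _ (X_mem_top j))
  by_contra hf
  have hf' : fam z h 1 f ≠ 0 := fun h0 => hf (mem_heightIdeal_of_fam hzr h 1 one_ne_zero hh hzh h0)
  obtain ⟨κ, H⟩ := exists_near hn hF z hz
  have H₁ := H.fam hzr h 1
  obtain ⟨V, V0, V1, hV⟩ := hF.exists_V j₀ z (by rw [hj]; exact hzh)
  rw [hj] at hV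
  obtain ⟨Y, hY, hind, hadapt⟩ := H.exists_tate V V0 (V1 ▸ hu) hV (ι := Ix n h)
    (by rw [card_Ix hh hhn.le]; omega)
  have hJ := jacobian_ne_zero hF hh hhn hz hzh H H₁ Y hY hind
  obtain ⟨Gh, hGh⟩ := exists_isLT p h hh
  obtain ⟨Gn, hGn⟩ := exists_isLT p n hn
  have := hGh.comm
  have := hGn.comm
  obtain ⟨φ⟩ := exists_zp_hom_of_zero (p := p) (S := O C) O_cast_p
  obtain ⟨α, hα, α1⟩ := exists_boettcher hh (F.map z) V V0 (V1 ▸ hu) hV (Gh.map φ)
    (hGh.mul_p_map O_cast_p φ)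
  let a : Pt F z →+ Pt Gh φ := Pt.hom α hα
  have hαp : ∀ x : Pt F z,
      ev1 (RingHom.id _) (p • x).val α = ev1 (RingHom.id _) x.val α ^ p ^ h := fun x => by
    have := congrArg Pt.val (a.map_nsmul p x)
    rw [hGh.nsmul_val, O_cast_p, zero_mul, zero_add] at this
    exact this
  set X : Ix n h → Pt F (κ.comp (res p n)) := fun i => p • Y i with hXdef
  have hX : ∀ i, H.th (X i) = 0 := fun i => by rw [hXdef, map_nsmul, hY]
  obtain ⟨ρ, hρ, hρπ, hXρ⟩ : ∃ ρ : ℝ, ρ < 1 ∧ ‖(HasPi.ϖ : C)‖ ≤ ρ ∧ ∀ i, ‖((X i).val : C)‖ ≤ ρ := by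
    let g : Option (Ix n h) → ℝ := fun o => o.elim ‖(HasPi.ϖ : C)‖ fun i => ‖((X i).val : C)‖
    obtain ⟨o, ho⟩ := Finite.exists_max g
    refine ⟨g o, ?_, ho none, fun i => ho (some i)⟩
    cases o with
    | none => exact HasPi.lt
    | some i => exact mem_rad_O.1 (X i).mem
  have hρ0 : 0 < ρ := norm_pi_pos.trans_le hρπ
  obtain ⟨k, κ', hk, hκ'⟩ := exists_fixed_field (C := C) (p := p) hh
  obtain ⟨φ'⟩ := exists_zp_hom_of_zero (p := p) (S := k) (CharP.cast_eq_zero _ p)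
  have htr : Gh.map φ = (Gh.map φ').map κ' := by rw [fg_map_map, zp_hom_eq φ]
  let w : ∀ ξ, IsEndLift p n F ξ → Ix n h → Pt (Gh.map φ') κ' := fun ξ hξ i =>
    Pt.tr htr (a (H.th (Pt.hom _ (hξ.isHom_comp κ) (X i))))
  let W : AddSubmonoid (Ix n h → Pt (Gh.map φ') κ') :=
    { carrier := {v | ∃ ξ hξ, v = w ξ hξ}
      add_mem' := by
        rintro _ _ ⟨ξ, hξ, rfl⟩ ⟨ξ', hξ', rfl⟩
        refine ⟨_, hξ.add hξ', funext fun i => ?_⟩
        simp only [w, Pi.add_apply, ← map_add]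
        refine congrArg (fun x => Pt.tr htr (a (H.th x))) (Pt.ext ?_)
        rw [Pt.add_val, Pt.hom_val, Pt.hom_val, Pt.hom_val, ev1_map _ _ (X i).mem,
          ev1_map _ _ (X i).mem, ev1_map _ _ (X i).mem, ev1_subst2 _ (X i).mem hξ.zero hξ'.zero]
        rfl
      zero_mem' := ⟨0, isEndLift_zero, funext fun i => by
        have : Pt.hom _ ((isEndLift_zero (F := F)).isHom_comp κ) (X i) = 0 := Pt.ext (by simp)
        change 0 = Pt.tr htr (a (H.th _))
        rw [this, map_zero, map_zero, map_zero]⟩ }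
  obtain ⟨ψ, hψ0, hψ⟩ := moore_limit hh k hk κ' hκ' {v | ∃ ξ hξ, v = fun i => (w ξ hξ i).val}
    hρ0 hρ (by
      rintro _ ⟨ξ, hξ, rfl⟩ i
      set Z := Pt.hom _ (hξ.isHom_comp κ) (X i)
      have h1 : Z.val ∈ ball C ρ :=
        ev1_mem _ (X i).mem ((mem_ball hρ0.le).2 (hXρ i)) (hξ.isHom_comp κ).1
      have h2 : (H.th Z).val - Z.val ∈ ball C ρ :=
        (mem_ball hρ0.le).2 ((mem_I_O.1 (H.th_sub_mem Z)).trans hρπ)
      have h3 := add_mem h2 h1
      rw [sub_add_cancel] at h3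
      exact (mem_ball hρ0.le).1 (ev1_mem _ (H.th Z).mem h3 hα.1)) _ hf' (fun r hr => by
      obtain ⟨c, s, h1, h2, h3, h4⟩ := exists_coords hF j₀ hj hz hzh hu H H₁ X hX hJ α hα.1 α1 hαp
        f m₀ Hf hρ hρπ hXρ r hr
      refine ⟨c, s, h1, h2, h3, ?_⟩
      rintro _ ⟨ξ, hξ, rfl⟩
      exact h4 ξ hξ)
  obtain ⟨lam, hl, ⟨i₀, hi₀⟩, hrel⟩ := subgroup_relation hh k hk κ' hκ' (Gh.map φ')
    (hGh.mul_p_map (CharP.cast_eq_zero _ p) φ') W ψ hψ0 (by
      rintro _ ⟨ξ, hξ, rfl⟩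
      exact hψ _ ⟨ξ, hξ, rfl⟩)
  -- the relation contradicts `no_relation`
  obtain ⟨φk⟩ := exists_zp_hom_of_zero (p := p) (S := GaloisField p n) (CharP.cast_eq_zero _ p)
  obtain ⟨γ, δ, hfr⟩ := exists_isFrame hn hF hGn φk
  have hδ : IsHom (Gn.map φ) (F.map (κ.comp (res p n))) (PowerSeries.map (κ.comp (res p n)) δ) := by
    have := hfr.homδ.map κ
    rwa [fg_map_map, fg_map_map, zp_hom_eq (κ.comp φk) φ, ← RingHom.comp_apply,
      ← PowerSeries.map_comp] at this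
  have hl' : ∀ i, IsHom (Gh.map φ) (Gh.map φ) (PowerSeries.map κ' (lam i)) := fun i => by
    rw [htr]; exact (hl i).map κ'
  let μ : Ix n h → Pt Gn φ →+ Pt Gh φ := fun i =>
    (Pt.hom _ (hl' i)).comp (a.comp (H.th.comp (Pt.hom _ hδ)))
  have hX0 : ∀ i, ((X i).val : C) ≠ 0 := fun i h0 => by
    have h1 : (Y i).val ^ p ^ n = 0 := by
      rw [← H.nsmul_val]; exact Subtype.ext h0
    have h2 : Y i = 0 := Pt.val_eq_zero.1 (pow_eq_zero_iff (q_ne_zero p n) |>.1 h1)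
    have := hind (Pi.single i 1) (sum_eq_zero fun j _ => by
      by_cases hij : j = i
      · rw [hij, h2, map_zero, nsmul_zero]
      · simp [hij]) i
    simp only [Pi.single_eq_same, Nat.dvd_one] at this
    exact (Fact.out : p.Prime).ne_one this
  have hγ : ∀ i, ‖((ev1 (κ.comp (res p n)) (X i).val γ : O C) : C) - (X i).val‖ <
      ‖((X i).val : C)‖ := fun i => by
    obtain ⟨r, hr⟩ := ev1_eq_lin (κ.comp (res p n)) (X i).mem γ
    have g1 : κ.comp (res p n) (PowerSeries.coeff 1 γ) = 1 := by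
      rw [RingHom.comp_apply, ← PowerSeries.coeff_map, hfr.γ1, map_one]
    rw [hr, hfr.γ0, g1, map_zero, zero_add, one_mul, Subring.coe_add, add_sub_cancel_left,
      Subring.coe_mul, SubmonoidClass.coe_pow, norm_mul, norm_pow]
    have h1 := norm_pos_iff.2 (hX0 i)
    have h2 := mem_rad_O.1 (X i).mem
    have h3 := norm_O_le r
    nlinarith [norm_nonneg (r : C)]
  have hν := no_relation hn hh hGn hGh φ κ (ι := Ix n h) (by rw [card_Ix hh hhn.le]; omega)
    (fun i => ev1 (κ.comp (res p n)) (X i).val γ)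
    (fun i h0 => by
      have := hγ i
      rw [h0] at this
      simp at this)
    (fun i => ev1_mem_rad _ (X i).mem hfr.γ0)
    (Adapted.congr (hadapt.pow n) fun i => by
      have := hγ i
      rwa [hXdef, H.nsmul_val, SubmonoidClass.coe_pow, ← H.nsmul_val] at this)
    (fun i => (PowerSeries.map κ' (lam i)).subst (α.subst (PowerSeries.map z δ) : PowerSeries (O C)))
    (fun i => ((hl' i).isHomMod _).comp ((hα.isHomMod _).comp (hfr.isHomMod hn z hz φ))) μ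
    (fun i y => by
      have d0 := (hfr.isHomMod hn z hz φ).zero
      have h1 : (H.th (Pt.hom _ hδ y)).val - ev1 (RingHom.id _) y.val (PowerSeries.map z δ) ∈
          (Adic.I : Ideal (O C)) := by
        have b1 := H.th_sub_mem (Pt.hom _ hδ y)
        have b2 := ev1_hom_congr (φ := z) (φ' := κ.comp (res p n)) y.mem y.mem (𝔠 := Adic.I)
          ⟨1, by simp⟩ H.cong (by simp) δ
        rw [RingHom.id_apply, Pt.hom_val, ev1_map _ _ y.mem] at b1
        rw [ev1_map _ _ y.mem]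
        have := sub_mem b1 b2
        rwa [RingHom.id_comp, sub_sub, add_sub_cancel] at this
      have r1 := ev1_mem_rad (RingHom.id _) y.mem d0
      rw [ev1_psubst _ y.mem (cc_psubst1 d0 hα.1), ev1_psubst _ y.mem d0]
      exact ev1_congr _ (ev1_mem_rad _ r1 hα.1) (a _).mem (ev1_congr _ r1 (H.th _).mem h1 α) _)
    (fun b l y hy => by
      have hξ := hfr.isEndLift hn hGn b l
      have h1 := congrArg (Pt.tr htr.symm) (hrel _ ⟨_, hξ, rfl⟩)
      rw [map_sum, map_zero] at h1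
      refine Eq.trans (sum_congr rfl fun i _ => ?_) h1
      have e : Pt.hom _ hδ (y i) = Pt.hom _ (hξ.isHom_comp κ) (X i) := Pt.ext (by
        rw [Pt.hom_val, Pt.hom_val, ev1_map _ _ (X i).mem, ev1_map _ _ (y i).mem,
          hfr.ev1_endLift _ _ _ (X i).mem, hy]
        simp)
      refine Pt.ext ?_
      simp only [μ, w, AddMonoidHom.comp_apply, e, Pt.tr_val, Pt.homR_val]
      rw [Pt.hom_val, ev1_map _ _ (a _).mem]
      rfl)
    i₀ ((PowerSeries.map κ' (lam i₀)).subst α) (cc_psubst1 hα.1 (hl' i₀).1) (fun x hx => by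
      obtain ⟨Z, hZ⟩ := H.th_surjective ⟨x, hx⟩
      have e : Pt.hom _ hδ ⟨_, ev1_mem_rad (κ.comp (res p n)) Z.mem hfr.γ0⟩ = Z := Pt.ext (by
        rw [Pt.hom_val, ev1_map _ _ (ev1_mem_rad _ Z.mem hfr.γ0), RingHom.id_comp,
          ← ev1_psubst _ Z.mem hfr.γ0, ← ev1_map _ _ Z.mem, hfr.δγ, ev1_map _ _ Z.mem,
          ev1_X _ Z.mem])
      refine ⟨⟨_, ev1_mem_rad (κ.comp (res p n)) Z.mem hfr.γ0⟩, ?_⟩
      simp only [μ, AddMonoidHom.comp_apply, e, hZ]
      rw [ev1_psubst _ hx hα.1]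
      rfl)
  refine psubst_ne_zero (fun h0 => hi₀ ?_) (fun h0 => α1 (by rw [h0, map_zero])) hα.1 hν
  exact mv_map_injective κ'.injective (h0.trans (map_zero _).symm)

end Vale.Agent.P217
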