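import Vale.Agent.P217.Frame
import Vale.Agent.P217.Height

/-! Auxiliary results for the case of positive characteristic. -/

namespace Vale.Agent.P217

open Finset

theorem card_Ix {n h : ℕ} (hh : 0 < h) (hhn : h ≤ n) : Fintype.card (Ix n h) = n - h := by
  rw [Fintype.card_subtype]
  have : (univ.filter fun j : Fin (n - 1) => h ≤ j.val + 1).map Fin.valEmbedding =
      Ico (h - 1) (n - 1) := by
    ext j
    simp only [mem_map, mem_filter, mem_univ, true_and, Fin.valEmbedding_apply, mem_Ico]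
    constructor
    · rintro ⟨a, ha, rfl⟩; exact ⟨by omega, a.2⟩
    · rintro ⟨h1, h2⟩; exact ⟨⟨j, h2⟩, by simp only; omega, rfl⟩
  rw [← card_map Fin.valEmbedding, this, Nat.card_Ico]
  omega

section general
variable {R S : Type} [CommRing R] [CommRing S]

theorem coeff_single_one_mul {σ : Type} (a b : MvPowerSeries σ S) (j : σ) :
    MvPowerSeries.coeff (Finsupp.single j 1) (a * b) =
      MvPowerSeries.constantCoeff a * MvPowerSeries.coeff (Finsupp.single j 1) b +
        MvPowerSeries.coeff (Finsupp.single j 1) a * MvPowerSeries.constantCoeff b := by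
  classical
  rw [MvPowerSeries.coeff_mul, Finsupp.antidiagonal_single]
  simp [Finset.Nat.antidiagonal_succ]

theorem psubst_ne_zero [IsDomain S] {f a : PowerSeries S} (hf : f ≠ 0) (ha : a ≠ 0)
    (h0 : PowerSeries.constantCoeff a = 0) : (f.subst a : PowerSeries S) ≠ 0 := by
  have hs := PowerSeries.HasSubst.of_constantCoeff_zero' h0
  rw [← PowerSeries.X_pow_order_mul_divXPowOrder (f := f), PowerSeries.subst_mul hs,
    PowerSeries.subst_pow hs, PowerSeries.subst_X hs]
  refine mul_ne_zero (pow_ne_zero _ ha) fun h => ?_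
  have := Ideals.cc_subst h0 f.divXPowOrder
  rw [h, map_zero] at this
  exact hf (PowerSeries.constantCoeff_divXPowOrder_eq_zero_iff.1 this.symm)

theorem IsHom.isHomMod {F G : FormalGroup S} {β : PowerSeries S} (h : IsHom F G β) (𝔠 : Ideal S) :
    IsHomMod 𝔠 F G β := ⟨h.1, h.map _⟩

theorem IsHomMod.comp {F G H : FormalGroup S} {f g : PowerSeries S} {𝔠 : Ideal S}
    (hg : IsHomMod 𝔠 G H g) (hf : IsHomMod 𝔠 F G f) : IsHomMod 𝔠 F H (g.subst f) :=
  ⟨cc_psubst1 hf.zero hg.zero, by rw [pmap_subst _ hf.zero]; exact hg.hom.comp hf.hom⟩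

variable [Adic S]

theorem coeff_single_ev1 {σ : Type} [Finite σ] (χ : R →+* MvPowerSeries σ S)
    {a : MvPowerSeries σ S} (ha : MvPowerSeries.constantCoeff a = 0) {g : PowerSeries R}
    (hg : PowerSeries.constantCoeff g = 0) (j : σ) :
    MvPowerSeries.coeff (Finsupp.single j 1) (ev1 χ a g) =
      MvPowerSeries.constantCoeff (χ (PowerSeries.coeff 1 g)) *
        MvPowerSeries.coeff (Finsupp.single j 1) a := by
  obtain ⟨r, hr⟩ := ev1_eq_lin χ (mem_rad_of_constantCoeff_zero ha) g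
  rw [hr, hg, pow_two, mul_assoc]
  simp [coeff_single_one_mul, ha]

theorem cc_ev1 {σ : Type} [Finite σ] (χ : R →+* MvPowerSeries σ S)
    {a : MvPowerSeries σ S} (ha : MvPowerSeries.constantCoeff a = 0) {g : PowerSeries R}
    (hg : PowerSeries.constantCoeff g = 0) : MvPowerSeries.constantCoeff (ev1 χ a g) = 0 := by
  obtain ⟨r, hr⟩ := ev1_eq_lin χ (mem_rad_of_constantCoeff_zero ha) g
  rw [hr, hg]
  simp [ha]

theorem ev1_hom_congr {φ φ' : R →+* S} {a b : S} (ha : a ∈ rad S) (hb : b ∈ rad S) {𝔠 : Ideal S}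
    (hopen : ∃ N, (Adic.I : Ideal S) ^ N ≤ 𝔠) (h : ∀ r, φ r - φ' r ∈ 𝔠) (hab : a - b ∈ 𝔠)
    (f : PowerSeries R) : ev1 φ a f - ev1 φ' b f ∈ 𝔠 := by
  have := add_mem (ev_hom_congr (a := fun _ : Unit => a) (fun _ => ha) hopen h f)
    (ev1_congr φ' hb ha hab f)
  rwa [← ev1_def, ← ev1_def, sub_add_sub_cancel] at this

theorem theta_hom_congr {F : FormalGroup R} [F.IsComm] {p q : ℕ}
    (hp : (p : S) ∈ (Adic.I : Ideal S)) {φ φ' : R →+* S} {y : ℕ → S} (hy : IsRootSys q y)
    (h1 : IsSys p (hy.pt F φ)) (h2 : IsSys p (hy.pt F φ')) {𝔠 : Ideal S}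
    (hopen : ∃ N, (Adic.I : Ideal S) ^ N ≤ 𝔠) (h : ∀ r, φ r - φ' r ∈ 𝔠) :
    (theta p (hy.pt F φ)).val - (theta p (hy.pt F φ')).val ∈ 𝔠 := by
  obtain ⟨N, hN⟩ := hopen
  have a1 := hN (Ideal.pow_le_pow_right (Nat.le_succ N)
    ((Pt.sub_val_mem_iff _ _ _).1 (h1.isTheta hp N)))
  have a2 := hN (Ideal.pow_le_pow_right (Nat.le_succ N)
    ((Pt.sub_val_mem_iff _ _ _).1 (h2.isTheta hp N)))
  have a3 := ev1_hom_congr (hy.mem N) (hy.mem N) ⟨N, hN⟩ h (by simp) (mulSeries F (p ^ N))
  rw [Pt.nsmul_val] at a1 a2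
  have := sub_mem (add_mem a1 a3) a2
  simp only [IsRootSys.pt_val] at this
  rwa [sub_add_sub_cancel, sub_sub_sub_cancel_right] at this

/-- Rescaling a series whose linear coefficient is `c` times a unit. -/
theorem exists_rescale {W : PowerSeries R} (h0 : PowerSeries.constantCoeff W = 0) {c u : R}
    (h1 : PowerSeries.coeff 1 W = c * u) : ∃ W' : PowerSeries R,
      PowerSeries.constantCoeff W' = 0 ∧ PowerSeries.coeff 1 W' = u ∧
      ∀ (T : Type) [CommRing T] [Adic T] (χ : R →+* T) (t : T), t ∈ rad T →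
        ev1 χ (χ c * t) W = χ c ^ 2 * ev1 χ t W' := by
  have hd : PowerSeries.X ^ 2 ∣ W - PowerSeries.C (c * u) * PowerSeries.X := by
    refine PowerSeries.X_pow_dvd_iff.2 fun m hm => ?_
    interval_cases m
    · simp [h0]
    · simp [h1]
  obtain ⟨W₂, hW⟩ := hd
  have hc : PowerSeries.constantCoeff (PowerSeries.C c * PowerSeries.X : PowerSeries R) = 0 := by
    simp
  refine ⟨PowerSeries.C u * PowerSeries.X +
    PowerSeries.X ^ 2 * W₂.subst (PowerSeries.C c * PowerSeries.X : PowerSeries R), by simp, ?_, ?_⟩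
  · rw [map_add, pow_two, mul_assoc, PowerSeries.coeff_succ_X_mul]
    simp
  · intro T _ _ χ t ht
    have ht' := Ideal.mul_mem_left _ (χ c) ht
    rw [sub_eq_iff_eq_add.1 hW]
    simp only [map_add, map_mul, map_pow, ev1_C, ev1_X χ ht, ev1_X χ ht', ev1_psubst χ ht hc]
    ring

theorem ev1_iterateFrobenius (p : ℕ) [ExpChar S p] (e : ℕ) {b : S} (hb : b ∈ rad S)
    (α : PowerSeries S) :
    ev1 (RingHom.id S) (b ^ p ^ e) (PowerSeries.map (iterateFrobenius S p e) α) =
      ev1 (RingHom.id S) b α ^ p ^ e := by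
  have hb' : b ^ p ^ e ∈ rad S :=
    Ideal.pow_mem_of_mem _ hb _ (Nat.pos_of_ne_zero (pow_ne_zero _ (expChar_ne_zero S p)))
  rw [ev1_map _ _ hb']
  exact (hom_ev1 (iterateFrobenius S p e) (RingHom.id S) hb hb' α).symm

end general

section
variable {C : Type} [NormedField C] [IsUltrametricDist C] [HasPi C] [CompleteSpace C]
  {p n : ℕ} [Fact p.Prime] [CharP C p]

theorem norm_pow_nsmul_le {R : Type} [CommRing R] {F : FormalGroup R} {z : R →+* O C} (x : Pt F z)
    {ρ : ℝ} (hρ : ρ ≤ 1) (hx : ‖(x.val : C)‖ ≤ ρ) (j : ℕ) : ‖((p ^ j • x).val : C)‖ ≤ ρ ^ (j + 1) := by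
  have h0 : 0 ≤ ρ := (norm_nonneg _).trans hx
  induction j with
  | zero => simpa using hx
  | succ j ih =>
    obtain ⟨r, hr⟩ := Pt.exists_nsmul_val p (p ^ j • x)
    rw [pow_succ' p, mul_nsmul', hr, O_cast_p, zero_mul, zero_add, Subring.coe_mul, norm_mul,
      SubmonoidClass.coe_pow, norm_pow]
    refine (mul_le_of_le_one_right (by positivity) (norm_O_le r)).trans ?_
    rw [pow_two, pow_succ ρ (j + 1)]
    exact mul_le_mul ih (ih.trans (pow_le_of_le_one h0 hρ (by omega))) (norm_nonneg _)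
      (by positivity)

variable {F : FormalGroup (LTRing p n)}

theorem exists_near (hn : 0 < n) (hF : IsLubinTate p n F) (z : LTRing p n →+* O C)
    (hz : ∀ x ∈ heightIdeal p n n, z x ∈ (Adic.I : Ideal (O C))) :
    ∃ κ : GaloisField p n →+* O C, Near p n F (κ.comp (res p n)) z (RingHom.id _) := by
  let κ : GaloisField p n →+* O C := (WittVector.constantCoeff (p := p)).liftOfSurjective
    (fun a => ⟨WittVector.teichmuller p a, by simp⟩)
    ⟨z.comp MvPowerSeries.C, fun x hx => by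
      rw [WittVector.ker_constantCoeff, Ideal.mem_span_singleton'] at hx
      obtain ⟨a, rfl⟩ := hx
      simp [O_cast_p]⟩
  have hκ : ∀ w, κ (WittVector.constantCoeff w) = z (MvPowerSeries.C w) := fun w =>
    RingHom.liftOfRightInverse_comp_apply _ _ _ _ w
  refine ⟨κ, hn, ?_, fun _ h => h, fun r => ?_⟩
  · rw [PowerSeries.map_comp, RingHom.comp_apply, ← Ideals.map_mul_series, hF.mul_p_res hn]
    simp
  · have e : r - MvPowerSeries.C (MvPowerSeries.constantCoeff r) ∈ heightIdeal p n n := by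
      rw [mem_top_iff p n hn]; simp [res]
    have := hz _ e
    rwa [map_sub, ← hκ] at this

theorem IsEndLift.isHom_comp {ξ : PowerSeries (LTRing p n)} (hξ : IsEndLift p n F ξ) {S : Type}
    [CommRing S] (κ : GaloisField p n →+* S) : IsHom (F.map (κ.comp (res p n)))
      (F.map (κ.comp (res p n))) (PowerSeries.map (κ.comp (res p n)) ξ) := by
  have := hξ.hom.map κ
  rwa [fg_map_map, ← RingHom.comp_apply, ← PowerSeries.map_comp] at this

variable [PerfectRing C p] [F.IsComm]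

/-- The basic relation in characteristic `p`. -/
theorem IsAct.th_eq (hn : 0 < n) (hF : IsLubinTate p n F) {m : ℕ} {ξ : PowerSeries (LTRing p n)}
    (hξ : IsEndLift p n F ξ) {φ : LTRing p n →+* LTRing p n} (hφ : IsAct p n F m ξ φ)
    {z : LTRing p n →+* O C} (hz : ∀ x ∈ heightIdeal p n n, z x ∈ (Adic.I : Ideal (O C)))
    {κ : GaloisField p n →+* O C} (H : Near p n F (κ.comp (res p n)) z (RingHom.id _))
    (H' : Near p n F (κ.comp (res p n)) (z.comp φ) (RingHom.id _))
    (X : Pt F (κ.comp (res p n))) (hX : H.th X = 0) :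
    H'.th X = p ^ m • H'.th (Pt.hom _ (hξ.isHom_comp κ) X) := by
  obtain ⟨f, g, -, -, h⟩ := hφ.theta_eq hn hF hξ z hz
  have h1 := h _ (H.rootSys X)
  rw [← H.th_def, hX, map_zero, zero_add] at h1
  refine h1.trans (congrArg (p ^ m • ·) ?_)
  refine theta_congr H'.p_mem (H'.isSys _) fun k => ?_
  have e : (Pt.hom _ (hξ.isHom_comp κ) X).rt p n k = Pt.hom _ (hξ.isHom_comp κ) (X.rt p n k) :=
    H.pow_nsmul_injective k (by rw [← map_nsmul, H.nsmul_rt, H.nsmul_rt])
  have e' := congrArg Pt.val e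
  rw [Pt.rt_val, Pt.hom_val, Pt.hom_val, ev1_map _ _ (X.rt p n k).mem] at e'
  change ev1 z _ ξ - rt p n k _ ∈ _
  rw [Pt.hom_val, e']
  exact ev1_hom_congr (X.rt p n k).mem (X.rt p n k).mem ⟨1, by simp⟩ H.cong (by simp) ξ

end

end Vale.Agent.P217
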