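import Vale.Agent.P217.CharPA

/-! Formal coordinates in which the orbit is approximately a Frobenius power of a group. -/

namespace Vale.Agent.P217

open Finset

variable {C : Type} [NormedField C] [IsUltrametricDist C] [HasPi C] [CompleteSpace C]
  {p n h : ℕ} [Fact p.Prime] [CharP C p] [PerfectRing C p] {F : FormalGroup (LTRing p n)}
  [F.IsComm]

omit [CharP C p] [PerfectRing C p] [F.IsComm] in
theorem IsLubinTate.exists_V (hF : IsLubinTate p n F) (j : Fin (n - 1)) {S : Type} [CommRing S]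
    (u : LTRing p n →+* S) (hu : ∀ x ∈ heightIdeal p n (j.val + 1), u x = 0) :
    ∃ V : PowerSeries S, PowerSeries.constantCoeff V = 0 ∧
      PowerSeries.coeff 1 V = u (MvPowerSeries.X j) ∧
      mulSeries (F.map u) p = V.subst (PowerSeries.X ^ p ^ (j.val + 1) : PowerSeries S) := by
  have := hF.1
  have hp : (p : S) = 0 := by simpa using hu _ (p_mem_heightIdeal j.val.succ_pos)
  obtain ⟨V, h0, hV⟩ := (isHom_mulSeries (F.map u) p).exists_expand hp (j.val + 1) fun i hi => by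
    rw [Ideals.map_mul_series, PowerSeries.coeff_map]
    exact hu _ (hF.coeff_lt j.val.succ_pos (by have := j.2; omega) hi)
  refine ⟨V, h0, ?_, hV⟩
  have h1 := congrArg (PowerSeries.coeff (p ^ (j.val + 1))) hV
  rw [PowerSeries.coeff_subst_X_pow (q_ne_zero p _), if_pos dvd_rfl,
    Nat.div_self (Nat.pos_of_ne_zero (q_ne_zero p _)), Ideals.map_mul_series,
    PowerSeries.coeff_map] at h1
  have h2 := hu _ (hF.coeff_eq j)
  rw [map_sub, h1, sub_eq_zero] at h2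
  simpa using h2

theorem exists_coords (hF : IsLubinTate p n F) (j₀ : Fin (n - 1)) (hj : j₀.val + 1 = h)
    {z : LTRing p n →+* O C} (hz : ∀ x ∈ heightIdeal p n n, z x ∈ (Adic.I : Ideal (O C)))
    (hzh : ∀ x ∈ heightIdeal p n h, z x = 0) (hu : z (MvPowerSeries.X j₀) ≠ 0)
    {κ : GaloisField p n →+* O C} (H : Near p n F (κ.comp (res p n)) z (RingHom.id _))
    (H₁ : Near p n F (κ.comp (res p n)) (fam z h 1) MvPowerSeries.C)
    (X : Ix n h → Pt F (κ.comp (res p n))) (hX : ∀ i, H.th (X i) = 0)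
    (hJ : (Matrix.of fun i j => MvPowerSeries.coeff (Finsupp.single j 1) (H₁.th (X i)).val).det ≠ 0)
    (α : PowerSeries (O C)) (α0 : PowerSeries.constantCoeff α = 0)
    (α1 : PowerSeries.coeff 1 α ≠ 0)
    (hα : ∀ x : Pt F z, ev1 (RingHom.id _) (p • x).val α = ev1 (RingHom.id _) x.val α ^ p ^ h)
    (f : LTRing p n) (m₀ : ℕ)
    (Hf : ∀ m, m₀ ≤ m → ∀ ξ φ, IsEndLift p n F ξ → IsAct p n F m ξ φ → z (φ f) = 0)
    {ρ : ℝ} (hρ : ρ < 1) (hρπ : ‖(HasPi.ϖ : C)‖ ≤ ρ) (hXρ : ∀ i, ‖((X i).val : C)‖ ≤ ρ)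
    (r : ℝ) (hr : 0 < r) :
    ∃ (c : O C) (s : Ix n h → MvPowerSeries (Ix n h) (O C)), c ≠ 0 ∧
      (∀ i, MvPowerSeries.constantCoeff (s i) = 0) ∧
      (Matrix.of fun i j => MvPowerSeries.coeff (Finsupp.single j 1) (s i)).det ≠ 0 ∧
      ∀ (ξ : PowerSeries (LTRing p n)) (hξ : IsEndLift p n F ξ), ∃ (A : ℝ) (m₁ : ℕ), ∀ m, m₁ ≤ m →
        ∃ e : Ix n h → O C, (∀ i, e i ∈ rad (O C)) ∧ (∀ i, ‖(e i : C)‖ ≤ A * ρ ^ m) ∧
          ev (RingHom.id _) (fun i => c * e i) (fam z h 1 f) = 0 ∧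
          ∀ i, ‖(ev (RingHom.id _) e (s i) : C) -
            (ev1 (RingHom.id _) (H.th (Pt.hom _ (hξ.isHom_comp κ) (X i))).val α : O C) ^
              (p ^ h) ^ m‖ ≤ A * r ^ (p ^ h) ^ m := by
  classical
  have hn := H.pos
  have hh : 0 < h := by omega
  have hhn : h < n := by have := j₀.2; omega
  have hQ : ∀ m, m < (p ^ h) ^ m := fun m =>
    Nat.lt_pow_self (Nat.one_lt_pow hh.ne' (Fact.out : p.Prime).one_lt)
  have hπ := norm_pi_pos (K := C)
  have hπ1 := (HasPi.lt (K := C)).le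
  have hρ0 : 0 < ρ := hπ.trans_le hρπ
  have hzr : ∀ j, z (MvPowerSeries.X j) ∈ rad (O C) := fun j => I_le_rad (hz _ (X_mem_top j))
  -- choice of the level `k + 1`
  obtain ⟨k, hk⟩ := exists_pi_pow_lt (K := C) hr
  have hk' : ‖(HasPi.ϖ : C)‖ ^ (p ^ h) ^ (k + 1) ≤ r :=
    (pow_le_pow_of_le_one hπ.le hπ1 (by have := hQ (k + 1); omega)).trans hk.le
  set E := ∑ i ∈ range (k + 1), (p ^ h) ^ i with hE
  obtain ⟨E', hE'⟩ : ∃ E', E = E' + 1 := ⟨_, by rw [hE, sum_range_succ', pow_zero]⟩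
  set c : O C := z (MvPowerSeries.X j₀) ^ E with hc
  have c0 : c ≠ 0 := pow_ne_zero _ hu
  have c0' : 0 < ‖(c : C)‖ := norm_pos_iff.2 fun h0 => c0 (Subtype.ext h0)
  have Hu := H.fam hzr h (c ^ 2)
  obtain ⟨V, V0, V1, hV⟩ := hF.exists_V j₀ (fam z h (c ^ 2)) 
    (by rw [hj]; exact fam_eq_zero hzr h _ hzh)
  rw [hj] at hV
  obtain ⟨W, W0, hW, W1⟩ := exists_V_pow (by
    rw [← map_natCast (MvPowerSeries.C : O C →+* _), O_cast_p, map_zero]) _ h V V0 hV (k + 1)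
  obtain ⟨υ, hυ, W1'⟩ : ∃ υ : MvPowerSeries (Ix n h) (O C),
      MvPowerSeries.constantCoeff υ = 1 ∧ PowerSeries.coeff 1 W = MvPowerSeries.C c * υ := by
    refine ⟨(1 + MvPowerSeries.C (z (MvPowerSeries.X j₀) ^ E' * c) *
      MvPowerSeries.X ⟨j₀, hj.ge⟩) ^ E, by simp, ?_⟩
    rw [W1, V1, fam_X hzr, dif_pos hj.ge, ← hE]
    conv_rhs => rw [hc, map_pow, ← mul_pow]
    refine congrArg (· ^ E) ?_
    rw [mul_add, mul_one, ← mul_assoc, ← map_mul, ← mul_assoc, ← pow_succ', ← hE', ← hc, pow_two]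
  have hυu : IsUnit υ := isUnit_of_sub_mem isUnit_one
    (mem_rad_of_constantCoeff_zero (by simp [hυ]))
  obtain ⟨W', W'0, W'1, hW'⟩ := exists_rescale W0 W1'
  -- the series `A' i`
  have hA0 : ∀ i, MvPowerSeries.constantCoeff (H₁.th (X i)).val = 0 := fun i => by
    have := H₁.th_comp MvPowerSeries.constantCoeff (fun x hx => mem_I_ps.1 hx)
      (RingHom.ext (constantCoeff_fam hzr h 1)) (by ext x; simp) H (X i)
    rw [← this, hX, Pt.zero_val]
  have hsc : ∀ i : Ix n h, (MvPowerSeries.C (c ^ 2) * MvPowerSeries.X i :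
      MvPowerSeries (Ix n h) (O C)) ∈ (Adic.I : Ideal _) := fun i => mem_I_ps.2 (by simp)
  have hAu : ∀ i, (Hu.th (X i)).val = ev MvPowerSeries.C (fun i => MvPowerSeries.C (c ^ 2) *
      MvPowerSeries.X i) (H₁.th (X i)).val := fun i =>
    H₁.th_comp _ (fun x hx => ev_mem_of_constantCoeff _ (fun i => I_le_rad (hsc i)) hsc
      (C_mem_I _ (mem_I_ps.1 hx))) (RingHom.ext fun r => (fam_scale hzr h _ r).symm)
      (ev_comp_C _ _) Hu (X i)
  have hA' : ∀ i, ∃ A' : MvPowerSeries (Ix n h) (O C),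
      A' * MvPowerSeries.C (c ^ 2) = (Hu.th (X i)).val := fun i => by
    rw [← Ideal.mem_span_singleton', hAu]
    exact ev_mem_of_constantCoeff _ (fun i => I_le_rad (hsc i))
      (fun i => Ideal.mul_mem_right _ _ (Ideal.mem_span_singleton_self _)) (by simp [hA0])
  choose A' hA' using hA'
  have hAc : ∀ i d, MvPowerSeries.coeff d (A' i) * c ^ 2 =
      (c ^ 2) ^ d.degree * MvPowerSeries.coeff d (H₁.th (X i)).val := fun i d => by
    rw [← coeff_ev_scale, ← hAu, ← hA', MvPowerSeries.coeff_mul_C]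
  have A'0 : ∀ i, MvPowerSeries.constantCoeff (A' i) = 0 := fun i => by
    simpa [hA0, c0] using hAc i 0
  have A'1 : ∀ i j, MvPowerSeries.coeff (Finsupp.single j 1) (A' i) =
      MvPowerSeries.coeff (Finsupp.single j 1) (H₁.th (X i)).val := fun i j => by
    have := hAc i (Finsupp.single j 1)
    rw [Finsupp.degree_single, pow_one, mul_comm] at this
    exact mul_left_cancel₀ (pow_ne_zero 2 c0) this
  have hσ : ∀ i, ∃ σ : MvPowerSeries (Ix n h) (O C), MvPowerSeries.constantCoeff σ = 0 ∧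
      ev1 (RingHom.id _) σ W' = A' i := fun i => by
    obtain ⟨σ, -, h2, h3⟩ := exists_root (RingHom.id _) (f := W') (b := A' i) (by simpa [W'1])
      (by simpa [W'0] using mem_rad_of_constantCoeff_zero (A'0 i))
    refine ⟨σ, ?_, h2⟩
    obtain ⟨a, rfl⟩ := Ideal.mem_span_singleton'.1 h3
    simp [W'0, A'0]
  choose σ σ0 hσ using hσ
  have σ1 : ∀ i j, MvPowerSeries.coeff (Finsupp.single j 1) (σ i) =
      MvPowerSeries.coeff (Finsupp.single j 1) (H₁.th (X i)).val := fun i j => by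
    rw [← A'1, ← hσ, coeff_single_ev1 _ (σ0 i) W'0, W'1, RingHom.id_apply, hυ, one_mul]
  set β := PowerSeries.map (iterateFrobenius (O C) p (h * (k + 1))) α with hβ
  have β0 : PowerSeries.constantCoeff β = 0 := by rw [hβ, cc_pmap, α0, map_zero]
  have cσ0 : ∀ i, MvPowerSeries.constantCoeff (MvPowerSeries.C c * σ i) = 0 := fun i => by
    simp [σ0]
  refine ⟨c ^ 2, fun i => ev1 MvPowerSeries.C (MvPowerSeries.C c * σ i) β, pow_ne_zero 2 c0,
    fun i => cc_ev1 _ (cσ0 i) β0, ?_, fun ξ hξ => ?_⟩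
  · have : (Matrix.of fun i j => MvPowerSeries.coeff (Finsupp.single j 1)
        (ev1 MvPowerSeries.C (MvPowerSeries.C c * σ i) β)) = (PowerSeries.coeff 1 β * c) •
          Matrix.of fun i j => MvPowerSeries.coeff (Finsupp.single j 1) (H₁.th (X i)).val := by
      ext1 i j
      rw [Matrix.of_apply, coeff_single_ev1 _ (cσ0 i) β0, MvPowerSeries.coeff_C_mul, σ1]
      simp [mul_assoc]
    rw [this, Matrix.det_smul]
    refine mul_ne_zero (pow_ne_zero _ (mul_ne_zero ?_ c0)) hJ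
    rw [hβ, PowerSeries.coeff_map, iterateFrobenius_def]
    exact pow_ne_zero _ α1
  obtain ⟨M₁, hM₁⟩ := exists_pi_pow_lt (K := C) (pow_pos c0' 2)
  obtain ⟨M₂, hM₂⟩ := exists_pow_lt_of_lt_one c0' hρ
  have hc1 : 1 ≤ (‖(c : C)‖ ^ 2)⁻¹ :=
    (one_le_inv₀ (by positivity)).2 (pow_le_one₀ c0'.le (norm_O_le c))
  refine ⟨(‖(c : C)‖ ^ 2)⁻¹, m₀ + M₁ + (k + 1) + M₂, fun m hm => ?_⟩
  obtain ⟨m', rfl⟩ : ∃ m', m = (k + 1) + m' := ⟨m - (k + 1), by omega⟩
  have hm0 : 0 < k + 1 + m' := by omega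
  obtain ⟨φ, hφ⟩ := exists_isAct hn hF hm0 hξ
  have hδ := hφ.sub_mem_charP hn hF hm0 hξ z hz hh hhn hzh
  have hδ' : ∀ r, ‖(z (φ r) : C) - z r‖ ≤ ‖(c : C)‖ ^ 2 * ‖(HasPi.ϖ : C)‖ := fun r => by
    refine (mem_I_pow_O.1 (hδ r)).trans ?_
    refine (pow_le_pow_of_le_one hπ.le hπ1 (m := M₁ + 1)
      (by have := hQ (k + 1 + m'); omega)).trans ?_
    rw [pow_succ]
    exact mul_le_mul_of_nonneg_right hM₁.le hπ.le
  have he : ∀ i : Ix n h, ∃ e : O C, e * c ^ 2 =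
      z (φ (MvPowerSeries.X i.1)) - z (MvPowerSeries.X i.1) := fun i => by
    rw [← Ideal.mem_span_singleton', mem_span_O, SubmonoidClass.coe_pow, norm_pow]
    exact (hδ' _).trans (mul_le_of_le_one_right (by positivity) hπ1)
  choose e he using he
  have hen : ∀ i, ‖(e i : C)‖ * ‖(c : C)‖ ^ 2 =
      ‖(z (φ (MvPowerSeries.X i.1)) : C) - z (MvPowerSeries.X i.1)‖ := fun i => by
    rw [← norm_pow, ← norm_mul]
    exact congrArg (fun x : O C => ‖(x : C)‖) (he i)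
  have heI : ∀ i, e i ∈ (Adic.I : Ideal (O C)) := fun i => by
    rw [mem_I_O]
    refine le_of_mul_le_mul_right ?_ (pow_pos c0' 2)
    rw [hen, mul_comm]; exact hδ' _
  have her : ∀ i, e i ∈ rad (O C) := fun i => I_le_rad (heI i)
  have hXφ : ∀ j, z (φ (MvPowerSeries.X j)) = z (MvPowerSeries.X j) +
      if hj : h ≤ j.val + 1 then c ^ 2 * e ⟨j, hj⟩ else 0 := fun j => by
    split_ifs with hj
    · rw [mul_comm, he]; ring
    · have hm := X_mem_heightIdeal (p := p) (not_le.1 hj)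
      rw [hzh _ hm, hzh _ (hφ.map_height hn hF hm0 hξ hhn.le _ hm), add_zero]
  have hcomp : (ev (RingHom.id _) e).comp (fam z h (c ^ 2)) = z.comp φ :=
    ev_comp_fam hzr h _ _ (fun _ h => h) her _ (fun w => congrArg z (hφ.const w)) hXφ
  have hcomp1 : (ev (RingHom.id _) fun i => c ^ 2 * e i).comp (fam z h 1) = z.comp φ :=
    ev_comp_fam hzr h _ _ (fun _ h => h) (fun i => Ideal.mul_mem_left _ _ (her i)) _
      (fun w => congrArg z (hφ.const w)) fun j => by simpa using hXφ j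
  have H' : Near p n F (κ.comp (res p n)) (z.comp φ) (RingHom.id _) :=
    Hu.comp _ (ev_mem_I heI) hcomp (ev_comp_C _ _)
  refine ⟨e, her, fun i => ?_, ?_, fun i => ?_⟩
  · rw [inv_mul_eq_div, le_div_iff₀ (pow_pos c0' 2), hen]
    refine (mem_I_pow_O.1 (hδ _)).trans ?_
    exact (pow_le_pow_of_le_one hπ.le hπ1 (hQ _).le).trans (pow_le_pow_left₀ hπ.le hρπ _)
  · exact (DFunLike.congr_fun hcomp1 f).trans (Hf _ (by omega) ξ φ hξ hφ)
  set Z := Pt.hom _ (hξ.isHom_comp κ) (X i) with hZ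
  set b := p ^ m' • H'.th Z with hb
  have hZρ : ‖((H'.th Z).val : C)‖ ≤ ρ := by
    have h1 : Z.val ∈ ball C ρ :=
      ev1_mem _ (X i).mem ((mem_ball hρ0.le).2 (hXρ i)) (hξ.isHom_comp κ).1
    have h2 : (H'.th Z).val - Z.val ∈ ball C ρ :=
      (mem_ball hρ0.le).2 ((mem_I_O.1 (H'.th_sub_mem Z)).trans hρπ)
    have := add_mem h2 h1
    rwa [sub_add_cancel, mem_ball hρ0.le] at this
  have hbq : ‖((b.val ^ (p ^ h) ^ (k + 1) : O C) : C)‖ < ‖(c : C)‖ := by
    rw [SubmonoidClass.coe_pow, norm_pow]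
    refine (pow_le_of_le_one (norm_nonneg _) (norm_O_le _)
      (pow_ne_zero _ (q_ne_zero p h))).trans_lt ?_
    exact (norm_pow_nsmul_le _ hρ.le hZρ m').trans_lt
      ((pow_le_pow_of_le_one hρ0.le hρ.le (by omega)).trans_lt hM₂)
  obtain ⟨t, ht⟩ := Ideal.mem_span_singleton'.1 (mem_span_O.2 hbq.le)
  have htr : t ∈ rad (O C) := by
    rw [mem_rad_O]
    rw [← ht, Subring.coe_mul, norm_mul] at hbq
    exact lt_of_mul_lt_mul_right (by rwa [one_mul]) c0'.le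
  have hσr : ev (RingHom.id _) e (σ i) ∈ rad (O C) := ev_mem_rad _ her (σ0 i)
  have key : ev (RingHom.id _) e (σ i) = t := by
    refine ev1_injective (ev (RingHom.id _) e) hσr htr (f := W') (W'1 ▸ hυu.map _) ?_
    refine mul_left_cancel₀ (pow_ne_zero 2 c0) ?_
    have e1 := hW' _ (ev (RingHom.id _) e) t htr
    rw [ev_C, RingHom.id_apply, mul_comm c t, ht] at e1
    have e2 := hom_ev1 (ev (RingHom.id _) e) (RingHom.id _)
      (mem_rad_of_constantCoeff_zero (σ0 i)) hσr W'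
    rw [hσ, RingHom.comp_id] at e2
    have e3 := congrArg (ev (RingHom.id _) e) (hA' i)
    rw [map_mul, ev_C, RingHom.id_apply, ← Hu.th_comp _ (ev_mem_I heI) hcomp (ev_comp_C _ _) H',
      hφ.th_eq hn hF hξ hz H H' _ (hX i), pow_add, mul_nsmul', ← hZ, ← hb, Pt.nsmul_val] at e3
    rw [← e1, ← e2, mul_comm, e3]
    have e4 := ev1_map (fam z h (c ^ 2)) (ev (RingHom.id _) e) b.mem (mulSeries F (p ^ (k + 1)))
    rw [hcomp, ← Ideals.map_mul_series, hW,
      ev1_psubst _ b.mem (cc_X_pow (pow_ne_zero _ (q_ne_zero p h))), map_pow, ev1_X _ b.mem] at e4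
    exact e4.symm
  have hs : ev (RingHom.id _) e (ev1 MvPowerSeries.C (MvPowerSeries.C c * σ i) β) =
      ev1 (RingHom.id _) b.val α ^ (p ^ h) ^ (k + 1) := by
    rw [hom_ev1 _ _ (mem_rad_of_constantCoeff_zero (cσ0 i)) (ev_mem_rad _ her (cσ0 i)), ev_comp_C,
      map_mul, ev_C, RingHom.id_apply, key, mul_comm, ht, ← pow_mul p, hβ,
      ev1_iterateFrobenius p _ b.mem]
  have hαp : ∀ (j : ℕ) (x : Pt F z), ev1 (RingHom.id _) (p ^ j • x).val α =
      ev1 (RingHom.id _) x.val α ^ (p ^ h) ^ j := by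
    intro j x
    induction j with
    | zero => simp
    | succ j ih => rw [pow_succ' p, mul_nsmul', hα, ih, ← pow_mul, ← pow_succ]
  have hθ : (H'.th Z).val - (H.th Z).val ∈ (Adic.I : Ideal (O C)) ^ (p ^ h) ^ (k + 1 + m') :=
    theta_hom_congr H.p_mem (H.rootSys Z) (H'.isSys Z) (H.isSys Z) ⟨_, le_rfl⟩ hδ
  have hbb : b.val - (p ^ m' • H.th Z).val ∈ (Adic.I : Ideal (O C)) ^ (p ^ h) ^ (k + 1 + m') := by
    rw [hb, Pt.nsmul_val, Pt.nsmul_val]
    exact ev1_hom_congr (H'.th Z).mem (H.th Z).mem ⟨_, le_rfl⟩ hδ hθ _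
  have hfin := mem_I_pow_O.1 (ev1_congr (RingHom.id _) (p ^ m' • H.th Z).mem b.mem hbb α)
  rw [hαp] at hfin
  have e5 : (ev1 (RingHom.id _) b.val α ^ (p ^ h) ^ (k + 1) : O C) -
      ev1 (RingHom.id _) (H.th Z).val α ^ (p ^ h) ^ (k + 1 + m') =
      (ev1 (RingHom.id _) b.val α - ev1 (RingHom.id _) (H.th Z).val α ^ (p ^ h) ^ m') ^
        (p ^ h) ^ (k + 1) := by
    rw [← pow_mul p h (k + 1), sub_pow_char_pow, pow_mul p h (k + 1), ← pow_mul _ ((p ^ h) ^ m'),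
      ← pow_add, add_comm m']
  have e6 := congrArg (fun x : O C => ‖(x : C)‖) e5
  simp only [SubmonoidClass.coe_pow, norm_pow, AddSubgroupClass.coe_sub] at e6 hfin
  rw [hs, SubmonoidClass.coe_pow, e6]
  refine (pow_le_pow_left₀ (norm_nonneg _) hfin _).trans ?_
  rw [← pow_mul, mul_comm, pow_mul]
  exact (pow_le_pow_left₀ (by positivity) hk' _).trans (le_mul_of_one_le_left (by positivity) hc1)

end Vale.Agent.P217
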