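import Vale.Agent.P217.Valued

/-! A first order density lemma in characteristic zero. -/

namespace Vale.Agent.P217

open Finset

namespace FirstOrder

section lin
variable {C : Type} [Field C] {Y : Type}

/-- Finite linear combinations of point evaluations. -/
def Fs (C : Type) [Field C] (Y : Type) : Submodule C ((Y → C) →ₗ[C] C) :=
  Submodule.span C (Set.range fun y : Y => (LinearMap.proj y : (Y → C) →ₗ[C] C))

theorem exists_dual {ι : Type} [Fintype ι] [DecidableEq ι] (v : ι → Y → C)
    (hv : LinearIndependent C v) :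
    ∃ l : ι → (Y → C) →ₗ[C] C, (∀ i, l i ∈ Fs C Y) ∧ ∀ i k, l i (v k) = if k = i then 1 else 0 := by
  let S : Fs C Y →ₗ[C] (ι → C) :=
    { toFun := fun l k => l.1 (v k)
      map_add' := fun a b => by funext k; simp
      map_smul' := fun c a => by funext k; simp }
  have hS : LinearMap.range S = ⊤ := by
    by_contra hc
    obtain ⟨φ, h0, hφ⟩ := Submodule.exists_le_ker_of_lt_top _ (lt_top_iff_ne_top.2 hc)
    apply h0
    have h1 : ∀ k, φ (fun j => if k = j then 1 else 0) = 0 := by
      refine Fintype.linearIndependent_iff.1 hv _ ?_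
      funext y
      have h2 := hφ ⟨⟨LinearMap.proj y, Submodule.subset_span ⟨y, rfl⟩⟩, rfl⟩
      rw [LinearMap.mem_ker, LinearMap.pi_apply_eq_sum_univ] at h2
      simpa [S, mul_comm] using h2
    refine LinearMap.ext fun x => ?_
    rw [LinearMap.pi_apply_eq_sum_univ]
    simp [h1]
  have h3 : ∀ i, ∃ l : Fs C Y, S l = fun k => if k = i then 1 else 0 := fun i =>
    LinearMap.range_eq_top.1 hS _
  choose l hl using h3
  exact ⟨fun i => (l i).1, fun i => (l i).2, fun i k => congrFun (hl i) k⟩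

theorem poly_zero [CharZero C] {σ : Type} (M : AddSubmonoid (σ → C))
    (hM : Submodule.span C (M : Set (σ → C)) = ⊤) (F : MvPolynomial σ C)
    (h : ∀ x ∈ M, MvPolynomial.eval x F = 0) : F = 0 := by
  have key : ∀ y ∈ Submodule.span C (M : Set (σ → C)), ∀ (c : C) (x : σ → C),
      (∀ m ∈ M, MvPolynomial.eval (x + m) F = 0) →
        ∀ m ∈ M, MvPolynomial.eval (x + c • y + m) F = 0 := by
    intro y hy
    induction hy using Submodule.span_induction with
    | mem p hp =>
      intro c x hx m hm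
      let q : Polynomial C := MvPolynomial.aeval
        (fun j => Polynomial.C (x j + m j) + Polynomial.C (p j) * Polynomial.X) F
      have hq : ∀ c : C, q.eval c = MvPolynomial.eval (x + c • p + m) F := by
        intro c
        have e : (fun j => (Polynomial.C (x j + m j) + Polynomial.C (p j) * Polynomial.X).eval c)
            = x + c • p + m := by
          funext j; simp; ring
        rw [← e, ← Polynomial.coe_aeval_eq_eval, MvPolynomial.comp_aeval_apply,
          MvPolynomial.aeval_eq_eval]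
      have hz : q = 0 := by
        refine Polynomial.eq_zero_of_infinite_isRoot q
          ((Set.infinite_range_of_injective (Nat.cast_injective (R := C))).mono ?_)
        rintro _ ⟨n, rfl⟩
        change q.eval (n : C) = 0
        rw [hq, add_assoc, Nat.cast_smul_eq_nsmul]
        exact hx _ (add_mem (nsmul_mem hp n) hm)
      rw [← hq, hz, Polynomial.eval_zero]
    | zero => intro c x hx; simpa using hx
    | add a b _ _ ha hb =>
      intro c x hx
      have := hb c _ (ha c x hx)
      rwa [smul_add, ← add_assoc]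
    | smul a y _ hy =>
      intro c x hx
      rw [smul_smul]
      exact hy _ x hx
  refine MvPolynomial.funext fun x => ?_
  have := key x (hM ▸ Submodule.mem_top) 1 0 (by simpa using h) 0 (zero_mem _)
  simpa using this

theorem eval_smul {σ : Type} [Fintype σ] (F : MvPolynomial σ C) (d : ℕ)
    (hF : ∀ e : σ →₀ ℕ, F.coeff e ≠ 0 → e.degree = d) (c : C) (z : σ → C) :
    MvPolynomial.eval (fun j => c * z j) F = c ^ d * MvPolynomial.eval z F := by
  rw [MvPolynomial.eval_eq', MvPolynomial.eval_eq', mul_sum]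
  refine sum_congr rfl fun e he => ?_
  have h1 := hF e (MvPolynomial.mem_support_iff.1 he)
  simp only [mul_pow]
  rw [prod_mul_distrib, prod_pow_eq_pow_sum, ← Finsupp.degree_eq_sum, h1]
  ring

end lin

section norm
variable {C : Type} [NormedField C] {Y : Type}

theorem Fs_bound {l : (Y → C) →ₗ[C] C} (hl : l ∈ Fs C Y) (g : ℕ → Y → C) (r : ℕ → ℝ) (m₀ : ℕ)
    (h : ∀ y, ∃ A : ℝ, ∀ m, m₀ ≤ m → ‖g m y‖ ≤ A * r m) :
    ∃ A : ℝ, ∀ m, m₀ ≤ m → ‖l (g m)‖ ≤ A * r m := by
  induction hl using Submodule.span_induction with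
  | mem p hp => obtain ⟨y, rfl⟩ := hp; exact h y
  | zero => exact ⟨0, fun m _ => by simp⟩
  | add a b _ _ ha hb =>
    obtain ⟨A, hA⟩ := ha
    obtain ⟨B, hB⟩ := hb
    refine ⟨A + B, fun m hm => ?_⟩
    rw [LinearMap.add_apply, add_mul]
    exact (norm_add_le _ _).trans (add_le_add (hA m hm) (hB m hm))
  | smul c a _ ha =>
    obtain ⟨A, hA⟩ := ha
    refine ⟨‖c‖ * A, fun m hm => ?_⟩
    rw [LinearMap.smul_apply, norm_smul, mul_assoc]
    exact mul_le_mul_of_nonneg_left (hA m hm) (norm_nonneg _)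

theorem tendsto_of_bound {π : C} (h0 : π ≠ 0) (h1 : ‖π‖ < 1) (x : C) (e : ℕ → C) (A : ℝ) (m₀ : ℕ)
    (h : ∀ m, m₀ ≤ m → ‖π ^ m * x - e m‖ ≤ A * ‖π‖ ^ (2 * m)) :
    Filter.Tendsto (fun m => e m / π ^ m) Filter.atTop (nhds x) := by
  rw [tendsto_iff_norm_sub_tendsto_zero]
  have ht : Filter.Tendsto (fun m : ℕ => A * ‖π‖ ^ m) Filter.atTop (nhds 0) := by
    simpa using (tendsto_pow_atTop_nhds_zero_of_lt_one (norm_nonneg π) h1).const_mul A
  refine squeeze_zero' (Filter.Eventually.of_forall fun _ => norm_nonneg _) ?_ ht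
  filter_upwards [Filter.eventually_ge_atTop m₀] with m hm
  have hp : π ^ m ≠ 0 := pow_ne_zero _ h0
  have hp' : 0 < ‖π‖ ^ m := pow_pos (norm_pos_iff.2 h0) _
  have e1 : e m / π ^ m - x = -(π ^ m * x - e m) / π ^ m := by field_simp; ring
  rw [e1, norm_div, norm_neg, norm_pow, div_le_iff₀ hp', mul_assoc, ← pow_add, ← two_mul]
  exact h m hm

end norm

end FirstOrder

open Vale.Agent.P217.FirstOrder

section
variable {C : Type} [NormedField C] [IsUltrametricDist C] [HasPi C] [CompleteSpace C]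

theorem FirstOrder.eval_lim {π : C} (h0 : π ≠ 0) (h1 : ‖π‖ < 1) {σ : Type} [Fintype σ]
    (f : MvPowerSeries σ (O C)) (d : ℕ)
    (hd : ∀ e : σ →₀ ℕ, e.degree < d → MvPowerSeries.coeff e f = 0)
    (e : ℕ → σ → O C) (A : ℝ) (m₀ : ℕ) (η : σ → C)
    (he : ∀ m, m₀ ≤ m → (∀ i, e m i ∈ rad (O C)) ∧ (∀ i, ‖(e m i : C)‖ ≤ A * ‖π‖ ^ m) ∧
        ev (RingHom.id _) (e m) f = 0)
    (hη : ∀ j, Filter.Tendsto (fun m => (e m j : C) / π ^ m) Filter.atTop (nhds (η j))) :
    MvPolynomial.eval η
      (MvPolynomial.map (O C).subtype (MvPowerSeries.truncTotal (d + 1) f)) = 0 := by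
  set P : MvPolynomial σ (O C) := MvPowerSeries.truncTotal (d + 1) f with hP
  set F : MvPolynomial σ C := MvPolynomial.map (O C).subtype P with hF
  have hom : ∀ e : σ →₀ ℕ, F.coeff e ≠ 0 → e.degree = d := by
    intro e h
    rw [hF, MvPolynomial.coeff_map, hP, MvPowerSeries.coeff_truncTotal_eq_ite] at h
    by_contra hc
    apply h
    split_ifs with h2
    · rw [hd e (by omega), map_zero]
    · exact map_zero _
  have hp0 : 0 < ‖π‖ := norm_pos_iff.2 h0
  have hlim : Filter.Tendsto (fun m => MvPolynomial.eval (fun j => (e m j : C) / π ^ m) F)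
      Filter.atTop (nhds (MvPolynomial.eval η F)) :=
    ((MvPolynomial.continuous_eval F).tendsto η).comp (tendsto_pi_nhds.2 hη)
  have ht : ∀ B : ℝ, Filter.Tendsto (fun m : ℕ => B * ‖π‖ ^ m) Filter.atTop (nhds 0) := fun B => by
    simpa using (tendsto_pow_atTop_nhds_zero_of_lt_one (norm_nonneg π) h1).const_mul B
  refine tendsto_nhds_unique hlim (squeeze_zero_norm' ?_ (ht (|A| ^ (d + 1))))
  filter_upwards [Filter.eventually_ge_atTop m₀, (ht |A|).eventually (gt_mem_nhds one_pos)]
    with m hm hlt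
  obtain ⟨hr, hb, hz⟩ := he m hm
  have hn := norm_ev_le_pow (RingHom.id (O C)) (a := e m) (r := |A| * ‖π‖ ^ m) (by positivity) hlt
    (fun i => (hb i).trans (mul_le_mul_of_nonneg_right (le_abs_self A) (by positivity))) (d + 1)
    (f := f - (P : MvPowerSeries σ (O C))) fun k hk => by
      rw [map_sub, MvPolynomial.coeff_coe, hP, MvPowerSeries.coeff_truncTotal _ hk, sub_self]
  rw [map_sub, hz, zero_sub, ev_coe _ hr] at hn
  have e1 : ((MvPolynomial.eval₂ (RingHom.id (O C)) (e m) P : O C) : C) =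
      MvPolynomial.eval (fun j => (e m j : C)) F := by
    rw [hF, MvPolynomial.eval_map]
    exact (MvPolynomial.eval₂_comp_left (O C).subtype (RingHom.id _) (e m) P).trans rfl
  have hp : π ^ m ≠ 0 := pow_ne_zero _ h0
  have e2 : (fun j => (e m j : C)) = fun j => π ^ m * ((e m j : C) / π ^ m) := by
    funext j; field_simp
  rw [Subring.coe_neg, norm_neg, e1, e2, eval_smul F d hom, norm_mul, norm_pow, norm_pow] at hn
  have hq : 0 < (‖π‖ ^ m) ^ d := by positivity
  refine le_of_mul_le_mul_left (hn.trans (le_of_eq ?_)) hq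
  ring

theorem first_order [CharZero C] {π : C} (h0 : π ≠ 0) (h1 : ‖π‖ < 1) {σ Y : Type} [Fintype σ]
    (M : AddSubmonoid (Y → C)) (P₀ : Y → C) (D : σ → Y → C)
    (v : Option σ → Y → C) (hv : LinearIndependent C v)
    (hvM : ∀ i, v i ∈ Submodule.span C (M : Set (Y → C))) (f : MvPowerSeries σ (O C))
    (H : ∀ P ∈ M, ∃ (e : ℕ → σ → O C) (t : ℕ → C) (A : ℝ) (m₀ : ℕ),
      (∀ m, m₀ ≤ m → (∀ i, e m i ∈ rad (O C)) ∧ (∀ i, ‖(e m i : C)‖ ≤ A * ‖π‖ ^ m) ∧
        ev (RingHom.id _) (e m) f = 0) ∧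
      ∀ y, ∃ A' : ℝ, ∀ m, m₀ ≤ m →
        ‖π ^ m * P y - ∑ j, (e m j : C) * D j y - t m * P₀ y‖ ≤ A' * ‖π‖ ^ (2 * m)) :
    f = 0 := by
  classical
  -- the basic estimate for finitely supported functionals
  have est : ∀ l ∈ Fs C Y, ∀ (P : Y → C) (e : ℕ → σ → O C) (t : ℕ → C) (m₀ : ℕ),
      (∀ y, ∃ A' : ℝ, ∀ m, m₀ ≤ m →
        ‖π ^ m * P y - ∑ j, (e m j : C) * D j y - t m * P₀ y‖ ≤ A' * ‖π‖ ^ (2 * m)) →
      Filter.Tendsto (fun m => (∑ j, (e m j : C) * l (D j) + t m * l P₀) / π ^ m) Filter.atTop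
        (nhds (l P)) := by
    intro l hl P e t m₀ h
    obtain ⟨B, hB⟩ := Fs_bound hl (fun m => π ^ m • P - ∑ j, (e m j : C) • D j - t m • P₀)
      (fun m => ‖π‖ ^ (2 * m)) m₀ fun y => by
        obtain ⟨A', hA'⟩ := h y
        exact ⟨A', fun m hm => by simpa using hA' m hm⟩
    refine tendsto_of_bound h0 h1 _ _ B m₀ fun m hm => ?_
    have := hB m hm
    simp only [map_sub, map_sum, map_smul, smul_eq_mul] at this
    rwa [← sub_sub]
  have killM : ∀ l : (Y → C) →ₗ[C] C, (∀ P ∈ M, l P = 0) → ∀ i, l (v i) = 0 := by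
    intro l h i
    have : Submodule.span C (M : Set (Y → C)) ≤ LinearMap.ker l := Submodule.span_le.2 h
    exact this (hvM i)
  obtain ⟨l', hl'F, hl'⟩ := exists_dual v hv
  let u : Option σ → Y → C := fun o => o.elim P₀ D
  let N : Matrix (Option σ) (Option σ) C := Matrix.of fun o i => l' i (u o)
  have hN : N.det ≠ 0 := by
    intro hc
    obtain ⟨a, ha0, ha⟩ := Matrix.exists_mulVec_eq_zero_iff.2 hc
    apply ha0
    have hk : ∀ o, (∑ i, a i • l' i) (u o) = 0 := by
      intro o
      have := congrFun ha o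
      simpa [N, Matrix.mulVec, dotProduct, mul_comm] using this
    have h2 := killM (∑ i, a i • l' i) fun P hP => by
      obtain ⟨e, t, A, m₀, -, h⟩ := H P hP
      have h3 := est (∑ i, a i • l' i)
        (Submodule.sum_mem _ fun i _ => Submodule.smul_mem _ (a i) (hl'F i)) P e t m₀ h
      have h4 : ∀ j, (∑ i, a i • l' i) (D j) = 0 := fun j => hk (some j)
      have h5 : (∑ i, a i • l' i) P₀ = 0 := hk none
      simp only [h4, h5, mul_zero, sum_const_zero, add_zero, zero_div] at h3
      exact tendsto_nhds_unique h3 tendsto_const_nhds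
    funext k
    simpa [hl', -Fintype.sum_option] using h2 k
  have hNB : N * N⁻¹ = 1 := Matrix.mul_nonsing_inv N (isUnit_iff_ne_zero.2 hN)
  let l : σ → (Y → C) →ₗ[C] C := fun j => ∑ i, N⁻¹ i (some j) • l' i
  have hlF : ∀ j, l j ∈ Fs C Y := fun j =>
    Submodule.sum_mem _ fun i _ => Submodule.smul_mem _ _ (hl'F i)
  have hlu : ∀ j o, l j (u o) = if o = some j then 1 else 0 := by
    intro j o
    have := congrFun (congrFun hNB o) (some j)
    rw [Matrix.mul_apply, Matrix.one_apply] at this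
    rw [← this]
    simp only [l, LinearMap.sum_apply, LinearMap.smul_apply, smul_eq_mul]
    exact sum_congr rfl fun i _ => mul_comm _ _
  let η : (Y → C) →ₗ[C] (σ → C) := LinearMap.pi l
  have hsp : Submodule.span C ((M.map η : AddSubmonoid (σ → C)) : Set (σ → C)) = ⊤ := by
    by_contra hc
    obtain ⟨φ, hφ0, hφ⟩ := Submodule.exists_le_ker_of_lt_top _ (lt_top_iff_ne_top.2 hc)
    apply hφ0
    have h2 := killM (φ.comp η) fun P hP => hφ (Submodule.subset_span ⟨P, hP, rfl⟩)
    let a : Option σ → C := fun o => o.elim 0 fun j => φ fun i => if j = i then 1 else 0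
    have h3 : N⁻¹.mulVec a = 0 := by
      funext k
      have h4 := h2 k
      rw [LinearMap.comp_apply, LinearMap.pi_apply_eq_sum_univ] at h4
      have h7 : ∀ j, η (v k) j = N⁻¹ k (some j) := fun j => by
        simp [η, l, hl', -Fintype.sum_option]
      simpa [Matrix.mulVec, dotProduct, a, h7] using h4
    have h5 : a = 0 := by
      have := congrArg N.mulVec h3
      rwa [Matrix.mulVec_mulVec, hNB, Matrix.one_mulVec, Matrix.mulVec_zero] at this
    refine LinearMap.ext fun x => ?_
    rw [LinearMap.pi_apply_eq_sum_univ]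
    have h6 : ∀ j, (φ fun i => if j = i then 1 else 0) = 0 := fun j => congrFun h5 (some j)
    simp [h6]
  by_contra hf
  have hex : ∃ d : ℕ, ∃ e : σ →₀ ℕ, e.degree = d ∧ MvPowerSeries.coeff e f ≠ 0 := by
    by_contra hc
    push Not at hc
    exact hf (MvPowerSeries.ext fun e => by simpa using hc _ e rfl)
  obtain ⟨e₀, he₀, hne⟩ := Nat.find_spec hex
  have hd : ∀ e : σ →₀ ℕ, e.degree < Nat.find hex → MvPowerSeries.coeff e f = 0 := by
    intro e he
    by_contra hc
    exact Nat.find_min hex he ⟨e, rfl, hc⟩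
  have hz := poly_zero _ hsp
    (MvPolynomial.map (O C).subtype (MvPowerSeries.truncTotal (Nat.find hex + 1) f)) (by
      rintro _ ⟨P, hP, rfl⟩
      obtain ⟨e, t, A, m₀, h, h'⟩ := H P hP
      refine FirstOrder.eval_lim h0 h1 f _ hd e A m₀ _ h fun j => ?_
      have h3 := est _ (hlF j) P e t m₀ h'
      have h4 : ∀ k, l j (D k) = if k = j then 1 else 0 := fun k => by
        simpa [u] using hlu j (some k)
      have h5 : l j P₀ = 0 := by simpa [u] using hlu j none
      simpa [h4, h5, η] using h3)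
  apply hne
  have h7 := congrArg (MvPolynomial.coeff e₀) hz
  rw [MvPolynomial.coeff_map, MvPowerSeries.coeff_truncTotal _ (by omega),
    MvPolynomial.coeff_zero] at h7
  exact Subtype.ext h7

end

end Vale.Agent.P217
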