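import Vale.Agent.P217.Decomp

namespace Vale.Agent.P217

open Finset

variable {K : Type} [NormedField K] [IsUltrametricDist K] [HasPi K] [CompleteSpace K]
  {p n : ℕ} [Fact p.Prime] {G : FormalGroup (Zp p)} [G.IsComm]

theorem IsLT.coeff_mem {S : Type} [CommRing S] [Adic S] (hG : IsLT p n G) (φ : Zp p →+* S)
    (hp : (p : S) ∈ (Adic.I : Ideal S)) (i : ℕ) :
    φ (PowerSeries.coeff i (mulSeries G p - PowerSeries.X ^ p ^ n)) ∈ (Adic.I : Ideal S) := by
  rw [hG.mul_p, add_sub_cancel_right, PowerSeries.coeff_C_mul, map_mul, map_natCast]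
  exact Ideal.mul_mem_right _ _ hp

theorem IsLT.nsmul_val {S : Type} [CommRing S] [Adic S] (hG : IsLT p n G) (φ : Zp p →+* S)
    (x : Pt G φ) : (p • x).val = p * x.val + x.val ^ p ^ n := by
  rw [Pt.nsmul_val, hG.mul_p, map_add, map_mul, map_pow, ev1_C, ev1_X φ x.mem, map_natCast]

namespace QL

open MvPowerSeries

section alg
variable {B S : Type} [CommRing B] [CommRing S] [Adic S] {F H : FormalGroup B} {β : PowerSeries B}

variable (F H β) in
/-- The defect of additivity of a series. -/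
noncomputable def df : MvPowerSeries (Fin 2) B :=
  β.subst F.toPowerSeries - H.toPowerSeries.subst
    ![β.subst (X 0 : MvPowerSeries (Fin 2) B), β.subst (X 1 : MvPowerSeries (Fin 2) B)]

theorem homMod_iff {𝔠 : Ideal B} (h0 : PowerSeries.constantCoeff β = 0) :
    IsHomMod 𝔠 F H β ↔ ∀ d, coeff d (df F H β) ∈ 𝔠 := by
  have h1 : (∀ d, coeff d (df F H β) ∈ 𝔠) ↔ map (Ideal.Quotient.mk 𝔠) (df F H β) = 0 := by
    rw [MvPowerSeries.ext_iff]
    exact forall_congr' fun d => by rw [coeff_map, map_zero, Ideal.Quotient.eq_zero_iff_mem]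
  rw [h1, df, map_sub, sub_eq_zero,
    PowerSeries.map_subst (PowerSeries.HasSubst.of_constantCoeff_zero F.zero_constantCoeff),
    MvPowerSeries.map_subst (Ideals.has_two (cc_psubst (by simp) h0) (cc_psubst (by simp) h0)),
    comp2, PowerSeries.map_subst (PowerSeries.HasSubst.X _),
    PowerSeries.map_subst (PowerSeries.HasSubst.X _), map_X, map_X]
  exact ⟨fun h => h.hom.2, fun h => ⟨h0, by rw [cc_pmap, h0, map_zero], h⟩⟩

theorem ev_df (h0 : PowerSeries.constantCoeff β = 0) (φ : B →+* S) (x y : Pt F φ) :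
    ev φ ![x.val, y.val] (df F H β) = (Pt.app H φ φ β h0 (x + y)).val -
      (Pt.app H φ φ β h0 x + Pt.app H φ φ β h0 y).val := by
  have h2 := rad2 x.mem y.mem
  rw [df, map_sub, ev_psubst _ h2 F.zero_constantCoeff,
    ev_subst2 _ h2 (cc_psubst (by simp) h0) (cc_psubst (by simp) h0),
    ev_psubst _ h2 (by simp), ev_psubst _ h2 (by simp), ev_X _ h2, ev_X _ h2]
  rfl

theorem mem_span_C {c : B} {f : MvPowerSeries (Fin 2) B} :
    f ∈ Ideal.span {(C c : MvPowerSeries (Fin 2) B)} ↔ ∀ d, coeff d f ∈ Ideal.span {c} := by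
  simp only [Ideal.mem_span_singleton']
  constructor
  · rintro ⟨g, rfl⟩ d
    exact ⟨coeff d g, (coeff_mul_C d g c).symm⟩
  · intro h
    choose g hg using h
    exact ⟨g, MvPowerSeries.ext fun d => (coeff_mul_C d g c).trans (hg d)⟩

theorem homMod_iff_pt [Adic B] {c : B} (h0 : PowerSeries.constantCoeff β = 0) :
    IsHomMod (Ideal.span {c}) F H β ↔
      (Pt.app H C C β h0 (Pt.univ F (0 : Fin 2) + Pt.univ F 1) -
        (Pt.app H C C β h0 (Pt.univ F (0 : Fin 2)) + Pt.app H C C β h0 (Pt.univ F 1))).val ∈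
          Ideal.span {(C c : MvPowerSeries (Fin 2) B)} := by
  have e : ![(X 0 : MvPowerSeries (Fin 2) B), X 1] = X := by funext i; fin_cases i <;> rfl
  rw [homMod_iff h0, Pt.sub_val_mem_iff, ← ev_df, Pt.univ_val, Pt.univ_val, e, ev_C_X, mem_span_C]

theorem nsmul_mem_pow {φ : B →+* S} {𝔠 : Ideal S} {m : ℕ} (hm : (m : S) ∈ 𝔠) {x : Pt F φ}
    (hx : x.val ∈ 𝔠) (k : ℕ) : (m ^ k • x).val ∈ 𝔠 ^ (k + 1) := by
  induction k with
  | zero => simpa using hx
  | succ k ih =>
    obtain ⟨r, hr⟩ := Pt.exists_nsmul_val m (m ^ k • x)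
    rw [pow_succ' m, mul_nsmul', hr]
    refine add_mem ?_ (Ideal.mul_mem_right _ _ ?_)
    · rw [pow_succ']; exact Ideal.mul_mem_mul hm ih
    · rw [pow_two, pow_succ]
      exact Ideal.mul_mem_mul ih (Ideal.pow_le_self (Nat.succ_ne_zero _) ih)

theorem app_mul {R : Type} [CommRing R] {F' : FormalGroup R} {φ' : R →+* S}
    (h0 : PowerSeries.constantCoeff β = 0) (φ : B →+* S) (m : ℕ) (x : Pt F' φ') :
    Pt.app H φ φ ((mulSeries H m).subst β) (cc_psubst1 h0 (Ideals.cc_mul H m)) x =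
      m • Pt.app H φ φ β h0 x :=
  Pt.ext (by rw [Pt.app_val, Pt.nsmul_val, ev1_psubst φ x.mem h0, Pt.app_val])

theorem homMod_pow [Adic B] [H.IsComm] {c c' : B} {m k : ℕ} (hm : (m : B) ∈ Ideal.span {c})
    (hc : c ^ (k + 1) ∈ Ideal.span {c'}) (h : IsHomMod (Ideal.span {c}) F H β) :
    IsHomMod (Ideal.span {c'}) F H ((mulSeries H (m ^ k)).subst β) := by
  have h1 := nsmul_mem_pow (m := m) (by
    obtain ⟨a, ha⟩ := Ideal.mem_span_singleton'.1 hm
    rw [← map_natCast (C : B →+* MvPowerSeries (Fin 2) B), ← ha, map_mul]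
    exact Ideal.mul_mem_left _ _ (Ideal.mem_span_singleton_self _))
    ((homMod_iff_pt h.zero).1 h) k
  rw [homMod_iff_pt (cc_psubst1 h.zero (Ideals.cc_mul H _)), app_mul h.zero, app_mul h.zero,
    app_mul h.zero, ← nsmul_add, ← nsmul_sub]
  obtain ⟨a, ha⟩ := Ideal.mem_span_singleton'.1 hc
  rw [Ideal.span_singleton_pow, ← map_pow, ← ha, map_mul] at h1
  exact Ideal.span_singleton_le_span_singleton.2 (dvd_mul_left _ _) h1

theorem app_nsmul [H.IsComm] {c : B} (h : IsHomMod (Ideal.span {c}) F H β) (φ : B →+* S)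
    (m : ℕ) (x : Pt F φ) :
    (m • Pt.app H φ φ β h.zero x - Pt.app H φ φ β h.zero (m • x)).val ∈ Ideal.span {φ c} := by
  induction m with
  | zero =>
    have h1 : Pt.app H φ φ β h.zero (0 : Pt F φ) = 0 := Pt.ext (by simp [ev1_zero, h.zero])
    simp [h1]
  | succ m ih =>
    have h1 := ev_mem_span_of_coeff φ (rad2 (m • x).mem x.mem) (c := φ c) (f := df F H β)
      fun d => by
        obtain ⟨a, ha⟩ := Ideal.mem_span_singleton'.1 ((homMod_iff h.zero).1 h d)
        rw [← ha, map_mul]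
        exact Ideal.mul_mem_left _ _ (Ideal.mem_span_singleton_self _)
    rw [ev_df h.zero, ← Pt.sub_val_mem_iff] at h1
    have h2 := Pt.sub_val_mem ih h1
    have e : (m + 1) • Pt.app H φ φ β h.zero x - Pt.app H φ φ β h.zero ((m + 1) • x) =
        m • Pt.app H φ φ β h.zero x - Pt.app H φ φ β h.zero (m • x) -
          (Pt.app H φ φ β h.zero (m • x + x) -
            (Pt.app H φ φ β h.zero (m • x) + Pt.app H φ φ β h.zero x)) := by
      rw [succ_nsmul, succ_nsmul]; abel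
    rw [e]; exact h2

end alg

variable {R R' : Type} [CommRing R] [CommRing R'] {F : FormalGroup R} {φ : R →+* O K}
  {H : FormalGroup R'} {φ' : R' →+* O K}

omit [Fact p.Prime] in
theorem lg_tr (h : F.map φ = H.map φ') (x : Pt F φ) : lg p (Pt.tr h x) = lg p x := by
  simp only [lg, ← map_nsmul, Pt.tr_val]

variable (p) in
/-- Functions with a first order expansion. -/
def FO (f : Pt F φ → K) : Prop :=
  ∃ (e : K) (A : ℝ), ∀ x : Pt F φ, ‖(x.val : K)‖ ≤ ‖(p : K)‖ →
    ‖f x - e * x.val‖ ≤ A * ‖(x.val : K)‖ ^ 2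

omit [Fact p.Prime] in
theorem FO.add {f g : Pt F φ → K} (hf : FO p f) (hg : FO p g) : FO p fun x => f x + g x := by
  obtain ⟨e, A, h⟩ := hf
  obtain ⟨e', A', h'⟩ := hg
  refine ⟨e + e', A + A', fun x hx => ?_⟩
  rw [add_mul, add_sub_add_comm, add_mul]
  exact (norm_add_le _ _).trans (add_le_add (h x hx) (h' x hx))

omit [Fact p.Prime] in
theorem FO.mul {f : Pt F φ → K} (hf : FO p f) (c : K) : FO p fun x => c * f x := by
  obtain ⟨e, A, h⟩ := hf
  refine ⟨c * e, ‖c‖ * A, fun x hx => ?_⟩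
  rw [mul_assoc, ← mul_sub, norm_mul, mul_assoc]
  exact mul_le_mul_of_nonneg_left (h x hx) (norm_nonneg _)

omit [Fact p.Prime] in
theorem FO.sum {f : ℕ → Pt F φ → K} (hf : ∀ i, FO p (f i)) (s : Finset ℕ) :
    FO p fun x => ∑ i ∈ s, f i x := by
  induction s using Finset.induction_on with
  | empty => exact ⟨0, 0, fun x _ => by simp⟩
  | insert a s ha ih => simpa only [sum_insert ha] using (hf a).add ih

omit [Fact p.Prime] in
theorem FO_ev {g : PowerSeries (O K)} (h0 : PowerSeries.constantCoeff g = 0) :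
    FO p fun x : Pt F φ => (ev1 (RingHom.id _) x.val g : O K) := by
  refine ⟨(PowerSeries.coeff 1 g : O K), 1, fun x _ => ?_⟩
  obtain ⟨r, hr⟩ := ev1_eq_lin (RingHom.id _) x.mem g
  simp only [hr, h0, RingHom.id_apply, zero_add, Subring.coe_add, Subring.coe_mul,
    add_sub_cancel_left, SubmonoidClass.coe_pow, norm_mul, norm_pow, one_mul]
  exact mul_le_of_le_one_right (by positivity) (norm_O_le r)

omit [Fact p.Prime] in
theorem FO_lg (hp0 : (p : K) ≠ 0) (hp1 : ‖(p : K)‖ < 1) {g : PowerSeries (O K)}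
    (h0 : PowerSeries.constantCoeff g = 0) :
    FO p fun x : Pt F φ => lg p (Pt.app H φ' (RingHom.id _) g h0 x) := by
  have h1 : FO p fun x : Pt F φ =>
      lg p (Pt.app H φ' (RingHom.id _) g h0 x) - (ev1 (RingHom.id _) x.val g : O K) := by
    refine ⟨0, ‖(p : K)‖⁻¹, fun x hx => ?_⟩
    have h2 : ‖((ev1 (RingHom.id _) x.val g : O K) : K)‖ ≤ ‖(x.val : K)‖ :=
      mem_span_O.1 (ev1_mem _ x.mem (Ideal.mem_span_singleton_self _) h0)
    rw [zero_mul, sub_zero, mul_comm, ← div_eq_mul_inv]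
    refine (norm_lg_sub_le hp0 hp1 (Pt.app H φ' (RingHom.id _) g h0 x) (h2.trans hx)).trans ?_
    rw [Pt.app_val]
    gcongr
  simpa using h1.add (FO_ev h0)

omit [Fact p.Prime] in
theorem lg_theta_approx (hp0 : (p : K) ≠ 0) (hp : ‖(p : K)‖ ≤ ‖(HasPi.ϖ : K)‖) (F : FormalGroup R)
    [F.IsComm] (φ : R →+* O K) : ∃ A : ℝ, ∀ Y : ℕ → Pt F φ, IsSys p Y → ∀ k,
      ‖lg p (theta p Y) - (p : K) ^ k * lg p (Y k)‖ ≤ ‖(p : K)‖ ^ k * A := by
  have hp1 := hp.trans_lt HasPi.lt
  have hI : (p : O K) ∈ (Adic.I : Ideal (O K)) := mem_I_O.2 (by simpa using hp)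
  obtain ⟨A, hA⟩ := exists_lg_bound hp0 hp1 (F := F) (φ := φ) (HasPi.lt (K := K))
  refine ⟨A, fun Y hY k => ?_⟩
  have h1 := theta_sub_mem hI (hY.shift k)
  rw [zero_add, ← Pt.sub_val_mem_iff, mem_I_O] at h1
  rw [← theta_shift hI hY k, lg_nsmul hp0 hp1, Nat.cast_pow, ← mul_sub, ← lg_sub hp0 hp1,
    norm_mul, norm_pow]
  exact mul_le_mul_of_nonneg_left (hA _ h1) (by positivity)

end QL

open QL

variable (hp0 : (p : K) ≠ 0) (hp : ‖(p : K)‖ ≤ ‖(HasPi.ϖ : K)‖)
include hp0 hp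

theorem IsLT.lg_theta_const_mul (hG : IsLT p n G) (φ : Zp p →+* O K) {y : ℕ → O K}
    (hy : IsRootSys (p ^ n) y) {a : O K} (ha : a ^ p ^ n = a) :
    lg p (theta p ((hy.const_mul ha).pt G φ)) = a * lg p (theta p (hy.pt G φ)) := by
  have hI : (p : O K) ∈ (Adic.I : Ideal (O K)) := mem_I_O.2 (by simpa using hp)
  let f : Pt G φ →+ Pt G φ := Pt.hom _ (hG.root _ φ a ha)
  have hf : ∀ x, (f x).val = a * x.val := fun x => by
    rw [Pt.hom_val, map_mul, ev1_C, ev1_X _ x.mem, RingHom.id_apply]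
  have h1 : (hy.const_mul ha).pt G φ = fun k => f (hy.pt G φ k) :=
    funext fun k => Pt.ext (hf (hy.pt G φ k)).symm
  rw [h1, theta_map hI (hy.isSys (hG.coeff_mem φ hI)) f fun k x hx => by
      rw [hf]; exact Ideal.mul_mem_left _ _ hx,
    lg_hom hp0 (hp.trans_lt HasPi.lt) f _ (hG.root _ φ a ha).1 fun _ => rfl]
  simp

theorem IsLT.lg_theta_pow_q (hG : IsLT p n G) (φ : Zp p →+* O K) {y : ℕ → O K}
    (hy : IsRootSys (p ^ n) y) (hy' : IsRootSys (p ^ n) fun k => y k ^ p ^ n) :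
    lg p (theta p (hy'.pt G φ)) = p * lg p (theta p (hy.pt G φ)) := by
  have hI : (p : O K) ∈ (Adic.I : Ideal (O K)) := mem_I_O.2 (by simpa using hp)
  have h1 := hy.isSys (hG.coeff_mem φ hI)
  rw [theta_congr hI (h1.nsmul p) fun k => by
      rw [hG.nsmul_val, IsRootSys.pt_val, IsRootSys.pt_val, sub_add_cancel_right]
      exact neg_mem (Ideal.mul_mem_right _ _ hI),
    theta_nsmul hI h1, lg_nsmul hp0 (hp.trans_lt HasPi.lt)]

/-- Quasi-logarithms, pointwise form. -/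
theorem quasi_log_bound (hn : 0 < n) (hG : IsLT p n G) (φ : Zp p →+* O K)
    (F : FormalGroup (O K)) [F.IsComm] (β : PowerSeries (O K))
    (hβ : IsHomMod (Ideal.span {(p : O K)}) (G.map φ) F β) :
    ∃ c : ℕ → K, ∀ (x : Pt G φ) (x' : ℕ → Pt G φ), (∀ l, (x' l).val = x.val ^ p ^ l) →
      ‖lg p (Pt.app F (RingHom.id _) (RingHom.id _) β hβ.zero x) -
        ∑ l ∈ range n, c l * lg p (x' l)‖ ≤ 1 := by
  have hp1 := hp.trans_lt HasPi.lt
  have hr : (p : O K) ∈ rad (O K) := mem_rad_O.2 (by simpa using hp1)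
  have htf : ∀ a : O K, (p : O K) * a = 0 → a = 0 := fun a ha =>
    (mul_eq_zero.1 ha).resolve_left fun h => hp0 (by simpa using congrArg Subtype.val h)
  obtain ⟨E, hE, hE'⟩ := exists_ell_cocycle hr htf (G.map φ) F β hβ
  choose γ hγ hγ' using fun j =>
    exists_ell_cocycle hr htf (G.map φ) (G.map φ) _ (IsLT.isHomMod_pow (G := G) φ j)
  obtain ⟨c, b, hb, hc⟩ := cocycle_decomp hn hr htf (G.map φ) (fun i => by
      rw [Ideals.map_mul_series, hG.mul_p]
      simp only [map_add, map_mul, map_pow, PowerSeries.map_C, PowerSeries.map_X,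
        add_sub_cancel_right, PowerSeries.coeff_C_mul, map_natCast φ]
      exact Ideal.mul_mem_right _ _ (Ideal.mem_span_singleton_self _))
    γ (fun j _ _ => hγ j) (fun j h1 h2 i hi => hG.coeff_pSum hr htf φ h1 h2 (γ j)
      (hγ' j _ PowerSeries.C fun _ => pC_mem_rad) i hi) E hE
  let A : ℕ → Pt (G.map φ) (RingHom.id _) → Pt (G.map φ) (RingHom.id _) := fun j =>
    Pt.app (G.map φ) (RingHom.id _) (RingHom.id _) _ (IsLT.isHomMod_pow (G := G) φ j).zero
  let Φ : Pt (G.map φ) (RingHom.id _) →+ K := AddMonoidHom.mk' (fun x =>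
    lg p (Pt.app F (RingHom.id _) (RingHom.id _) β hβ.zero x) +
      (∑ j ∈ Ico 1 n, -(c j : K) * lg p (A j x) +
        -(p : K) * (ev1 (RingHom.id _) x.val b : O K))) fun x y => by
    have h1 := (hE' _ (RingHom.id _) (fun _ h => h) x y).lg_eq hp0 hp1
    have h2 : ∀ j, lg p (A j (x + y)) = lg p (A j x) + lg p (A j y) +
        p * (ev (RingHom.id _) ![x.val, y.val] (γ j) : O K) := fun j => by
      have h3 := (hγ' j _ (RingHom.id _) (fun _ h => h) x y).lg_eq hp0 hp1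
      rw [lg_sub hp0 hp1, lg_sub hp0 hp1] at h3
      linear_combination h3
    rw [lg_sub hp0 hp1, lg_sub hp0 hp1, hc, map_add, map_sum, ev_cobound] at h1
    simp only [map_mul, ev_C, RingHom.id_apply, Subring.coe_add, AddSubgroupClass.coe_sub,
      AddSubmonoidClass.coe_finsetSum, Subring.coe_mul, mul_add, mul_sum] at h1
    simp only [h2, neg_mul, sum_neg_distrib, mul_add, sum_add_distrib, mul_left_comm _ (p : K)]
    rw [sum_congr rfl fun j _ => mul_neg (p : K) _, sum_neg_distrib]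
    linear_combination h1
  obtain ⟨e, M, he⟩ : FO p Φ := (FO_lg hp0 hp1 hβ.zero).add
    ((FO.sum (fun j => (FO_lg hp0 hp1 _).mul _) _).add ((FO_ev hb).mul _))
  have h1 := eq_mul_lg hp0 hp1 Φ e M _ (norm_pos_iff.2 hp0) he
  refine ⟨fun l => if l = 0 then e else c l, fun x x' hx => ?_⟩
  have ht : G.map φ = (G.map φ).map (RingHom.id _) := (fg_map_id _).symm
  have h2 : ∀ l, lg p (x' l) = lg p (A l (Pt.tr ht x)) := fun l => by
    rw [← lg_tr ht]
    exact congrArg _ (Pt.ext (by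
      rw [Pt.tr_val, hx, Pt.app_val, map_pow, ev1_X _ (Pt.tr ht x).mem, Pt.tr_val]))
  have h3 : lg p (x' 0) = lg p (Pt.tr ht x) := by
    rw [lg_tr, show x' 0 = x from Pt.ext (by simpa using hx 0)]
  have h4 := h1 (Pt.tr ht x)
  have h5 : ∑ j ∈ Ico 1 n, (if j = 0 then e else (c j : K)) * lg p (x' j) =
      ∑ j ∈ Ico 1 n, (c j : K) * lg p (A j (Pt.tr ht x)) := sum_congr rfl fun j hj => by
    rw [if_neg (by have := (mem_Ico.1 hj).1; omega), h2]
  simp only [Φ, AddMonoidHom.mk'_apply, neg_mul, sum_neg_distrib, Pt.tr_val] at h4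
  rw [show Pt.app F _ _ β hβ.zero (Pt.tr ht x) = Pt.app F _ _ β hβ.zero x from rfl] at h4
  have h6 : lg p (Pt.app F (RingHom.id _) (RingHom.id _) β hβ.zero x) -
      ∑ l ∈ range n, (if l = 0 then e else (c l : K)) * lg p (x' l) =
        ((p * ev1 (RingHom.id _) x.val b : O K) : K) := by
    rw [range_eq_Ico, sum_eq_sum_Ico_succ_bot hn, if_pos rfl, h5, h3, Subring.coe_mul,
      Subring.coe_natCast]
    linear_combination h4
  rw [h6]
  exact norm_O_le _

/-- Quasi-logarithms on the universal cover. -/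
theorem quasi_log (hn : 0 < n) (hG : IsLT p n G) (φ : Zp p →+* O K) {R : Type} [CommRing R]
    (F : FormalGroup R) [F.IsComm] (z : R →+* O K) (β : PowerSeries (O K))
    (hβ : IsHomMod Adic.I (G.map φ) (F.map z) β) :
    ∃ c : ℕ → K, ∀ (y : ℕ → O K) (hy : IsRootSys (p ^ n) y),
      lg p (theta p fun k => Pt.app F z (RingHom.id _) β hβ.zero (hy.pt G φ k)) =
        ∑ l ∈ range n, c l *
          lg p (theta p ((hy.pow' (pow_pos (Fact.out : p.Prime).pos l)).pt G φ)) := by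
  have hp1 := hp.trans_lt HasPi.lt
  have hI : (p : O K) ∈ (Adic.I : Ideal (O K)) := mem_I_O.2 (by simpa using hp)
  obtain ⟨j, hj⟩ := exists_pi_pow_lt (K := K) (norm_pos_iff.2 hp0)
  have hβ' := homMod_pow (c := piO K) (c' := p) (m := p) (k := j) hI (mem_span_O.2 (by
    rw [SubmonoidClass.coe_pow, norm_pow, coe_piO, Subring.coe_natCast]
    exact (pow_le_pow_of_le_one (norm_nonneg _) HasPi.lt.le j.le_succ).trans hj.le)) hβ
  obtain ⟨c, hc⟩ := quasi_log_bound hp0 hp hn hG φ (F.map z) _ hβ'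
  obtain ⟨A, hA⟩ := lg_theta_approx hp0 hp F z
  obtain ⟨A', hA'⟩ := lg_theta_approx hp0 hp G φ
  refine ⟨fun l => c l / (p : K) ^ j, fun y hy => ?_⟩
  have ht : G.map φ = (G.map φ).map (RingHom.id _) := (fg_map_id _).symm
  have hz : F.map z = (F.map z).map (RingHom.id _) := (fg_map_id _).symm
  have h1 : IsSys p fun k => Pt.app F z (RingHom.id _) β hβ.zero (hy.pt G φ k) := fun k => by
    have h2 := app_nsmul (c := piO K) hβ (RingHom.id _) p (Pt.tr ht (hy.pt G φ (k + 1)))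
    have h3 := hy.isSys (hG.coeff_mem φ hI) k
    rw [Pt.sub_val_mem_iff] at h2 h3 ⊢
    have h4 := add_mem h2 (ev1_congr (RingHom.id _) (hy.pt G φ k).mem (Pt.mem _) h3 β)
    rw [← map_nsmul, Pt.app_val, Pt.tr_val, sub_add_sub_cancel] at h4
    rw [← Pt.tr_val hz, map_nsmul]
    exact h4
  set a := lg p (theta p fun k => Pt.app F z (RingHom.id _) β hβ.zero (hy.pt G φ k))
  set b := fun l => lg p (theta p ((hy.pow' (pow_pos (Fact.out : p.Prime).pos l)).pt G φ))
  have h2 : ∀ k, ‖(p : K) ^ j * a - ∑ l ∈ range n, c l * b l‖ ≤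
      ‖(p : K)‖ ^ k * (‖(p : K) ^ j‖ * A + 1 + ∑ l ∈ range n, ‖c l‖ * A') := fun k => by
    have h3 := hc (hy.pt G φ k)
      (fun l => (hy.pow' (pow_pos (Fact.out : p.Prime).pos l)).pt G φ k) fun l => rfl
    have h4 := hA _ h1 k
    rw [app_mul hβ.zero, lg_nsmul hp0 hp1, Nat.cast_pow] at h3
    rw [← lg_tr hz (Pt.app _ _ _ _ _ _)] at h4
    set u := lg p (Pt.app (F.map z) (RingHom.id _) (RingHom.id _) β hβ.zero (hy.pt G φ k))
    set v := fun l => lg p ((hy.pow' (pow_pos (Fact.out : p.Prime).pos l)).pt G φ k)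
    have e : (p : K) ^ j * a - ∑ l ∈ range n, c l * b l = (p : K) ^ j * (a - (p : K) ^ k * u) +
        (p : K) ^ k * ((p : K) ^ j * u - ∑ l ∈ range n, c l * v l) -
          ∑ l ∈ range n, c l * (b l - (p : K) ^ k * v l) := by
      simp only [mul_sub, sum_sub_distrib, mul_sum, mul_left_comm _ ((p : K) ^ k)]
      ring
    rw [e, mul_add, mul_add, mul_sum]
    refine (norm_sub_le _ _).trans (add_le_add ((norm_add_le _ _).trans (add_le_add ?_ ?_))
      (norm_sum_le_of_le _ fun l _ => ?_))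
    · rw [norm_mul, mul_left_comm]
      exact mul_le_mul_of_nonneg_left h4 (norm_nonneg _)
    · rw [norm_mul, norm_pow]
      exact mul_le_mul_of_nonneg_left h3 (by positivity)
    · rw [norm_mul, mul_left_comm]
      exact mul_le_mul_of_nonneg_left (hA' _ ((hy.pow' (pow_pos (Fact.out : p.Prime).pos l)).isSys
        (hG.coeff_mem φ hI)) k) (norm_nonneg _)
  have h3 := ge_of_tendsto' ((tendsto_pow_atTop_nhds_zero_of_lt_one (norm_nonneg _) hp1).mul_const
    (‖(p : K) ^ j‖ * A + 1 + ∑ l ∈ range n, ‖c l‖ * A')) h2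
  rw [zero_mul, norm_le_zero_iff, sub_eq_zero] at h3
  refine mul_left_cancel₀ (pow_ne_zero j hp0) (h3.trans ?_)
  rw [mul_sum]
  exact sum_congr rfl fun l _ => by rw [← mul_assoc, mul_div_cancel₀ _ (pow_ne_zero j hp0)]

end Vale.Agent.P217
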