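import Vale.Agent.P217.Frame
import Vale.Agent.P217.QL
import Vale.Agent.P217.Tate
import Vale.Agent.P217.FirstOrder
import Vale.Agent.P217.LTGroup

namespace Vale.Agent.P217

open Finset MvPowerSeries

variable {K : Type} [NormedField K] [IsUltrametricDist K] [HasPi K] [CompleteSpace K]
  {p n : ℕ} [Fact p.Prime] {F : FormalGroup (LTRing p n)} [F.IsComm]

namespace CZ

theorem theta_hom {R S T : Type} [CommRing R] [CommRing S] [Adic S] [CommRing T] [Adic T]
    {G : FormalGroup R} [G.IsComm] {p q : ℕ} (hp : (p : S) ∈ (Adic.I : Ideal S)) (χ : S →+* T)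
    (hχ : ∀ x ∈ (Adic.I : Ideal S), χ x ∈ (Adic.I : Ideal T)) {φ : R →+* S} {φ' : R →+* T}
    (h : χ.comp φ = φ') {y : ℕ → S} (hy : IsRootSys q y) (hs : IsSys p (hy.pt G φ))
    {y' : ℕ → T} (hy' : IsRootSys q y') (e : ∀ k, y' k = χ (y k)) :
    theta p (hy'.pt G φ') = Pt.map G χ (map_mem_rad χ hχ) h (theta p (hy.pt G φ)) := by
  rw [← theta_map hp hs _ fun k x hx => map_mem_I_pow χ hχ k _ hx]
  exact congrArg _ (funext fun k => Pt.ext (e k))

omit [F.IsComm] in
theorem norm_p_le (hn : 0 < n) (z : LTRing p n →+* O K)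
    (hz : ∀ x ∈ heightIdeal p n n, z x ∈ (Adic.I : Ideal (O K))) :
    ‖(p : K)‖ ≤ ‖(HasPi.ϖ : K)‖ := by simpa [mem_I_O] using p_mem_I_of hn z hz

theorem rootSys_ev (hn : 0 < n) {S : Type} [CommRing S] [Adic S] (z : LTRing p n →+* S)
    (hz : ∀ x ∈ heightIdeal p n n, z x ∈ (Adic.I : Ideal S)) {ξ : PowerSeries (LTRing p n)}
    (h0 : PowerSeries.constantCoeff ξ = 0) {Γ Γ' : FormalGroup (GaloisField p n)}
    (h : IsHom Γ Γ' (PowerSeries.map (res p n) ξ)) (h1 : mulSeries Γ p = PowerSeries.X ^ p ^ n)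
    (h2 : mulSeries Γ' p = PowerSeries.X ^ p ^ n) {y : ℕ → S} (hy : IsRootSys (p ^ n) y) :
    IsRootSys (p ^ n) fun k => ev1 z (y k) ξ := by
  refine ⟨fun k => ev1_mem_rad z (hy.mem k) h0, fun k => ?_⟩
  have h3 := Ideals.hom_mul h p
  have hs := PowerSeries.HasSubst.of_constantCoeff_zero' h.1
  rw [h1, h2, PowerSeries.subst_pow hs, PowerSeries.subst_X hs] at h3
  have h4 := ev1_congr_res hn z hz (hy.mem (k + 1)) (f := ξ ^ p ^ n)
    (g := ξ.subst (PowerSeries.X ^ p ^ n : PowerSeries (LTRing p n)))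
    (by rw [map_pow, pmap_subst _ (cc_X_pow (q_ne_zero p n)), map_pow, PowerSeries.map_X, h3])
  rw [map_pow, ev1_psubst _ (hy.mem _) (cc_X_pow (q_ne_zero p n)), map_pow,
    ev1_X _ (hy.mem _)] at h4
  have h5 := ev1_congr z (hy.mem k) (Ideal.pow_mem_of_mem _ (hy.mem (k + 1)) _
    (Nat.pos_of_ne_zero (q_ne_zero p n))) (hy.pow k) ξ
  have := add_mem h4 h5
  rwa [sub_add_sub_cancel] at this

section L
variable {R : Type} [CommRing R] (G : FormalGroup R) (φ : R →+* O K)

open Classical in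
variable (p n) in
/-- The period of a sequence of approximate roots. -/
noncomputable def per (y : ℕ → O K) : K :=
  if h : IsRootSys (p ^ n) y then lg p (theta p (h.pt G φ)) else 0

omit [Fact p.Prime] in
theorem per_eq {y : ℕ → O K} (h : IsRootSys (p ^ n) y) :
    per p n G φ y = lg p (theta p (h.pt G φ)) := dif_pos h

variable {G φ} [G.IsComm] (hp : ‖(p : K)‖ ≤ ‖(HasPi.ϖ : K)‖)
  (hG : ∀ i, φ (PowerSeries.coeff i (mulSeries G p - PowerSeries.X ^ p ^ n)) ∈
    (Adic.I : Ideal (O K)))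
include hp hG

omit [Fact p.Prime] in
theorem per_congr {y y' : ℕ → O K} (h : IsRootSys (p ^ n) y) (h' : IsRootSys (p ^ n) y')
    (e : ∀ k, y' k - y k ∈ (Adic.I : Ideal (O K))) : per p n G φ y' = per p n G φ y := by
  rw [per_eq G φ h, per_eq G φ h', theta_congr (mem_I_O.2 (by simpa using hp)) (h.isSys hG) e]

omit [G.IsComm] in
theorem exists_per_ne [IsAlgClosed K] (hp0 : (p : K) ≠ 0) :
    ∃ y, IsRootSys (p ^ n) y ∧ per p n G φ y ≠ 0 := by
  have hp1 : ‖(p : K)‖ < 1 := hp.trans_lt HasPi.lt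
  have h0 : 0 < ‖(p : K)‖ := norm_pos_iff.2 hp0
  have hx : ‖(((p : O K) ^ 2 : O K) : K)‖ = ‖(p : K)‖ ^ 2 := by simp
  obtain ⟨y, y0, hy⟩ := exists_div_sys (F := G) (z := φ) (fun i => I_le_rad (hG i))
    ⟨(p : O K) ^ 2, mem_rad_O.2 (by rw [hx]; nlinarith)⟩
  have hr : IsRootSys (p ^ n) fun k => (y k).val := ⟨fun k => (y k).mem, fun k => by
    have := neg_mem (nsmul_val_sub_pow_mem hG (y (k + 1)))
    rwa [hy, neg_sub] at this⟩
  refine ⟨_, hr, fun h => ?_⟩
  rw [per_eq G φ hr, show hr.pt G φ = y from rfl, theta_of_exact hy] at h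
  have h1 := norm_lg_sub_le hp0 hp1 (y 0) (by rw [y0, hx]; nlinarith)
  rw [h, zero_sub, norm_neg, y0, hx, le_div_iff₀ h0] at h1
  nlinarith [pow_pos h0 3]

end L

omit [F.IsComm] in
theorem exists_primitive (hn : 0 < n) (z : LTRing p n →+* O K)
    (hz : ∀ x ∈ heightIdeal p n n, z x ∈ (Adic.I : Ideal (O K))) :
    ∃ g : GaloisField p n, IsPrimitiveRoot (z (teich p n g) : K) (p ^ n - 1) := by
  obtain ⟨g, hg⟩ := IsCyclic.exists_ofOrder_eq_natCard (α := (GaloisField p n)ˣ)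
  rw [Nat.card_units, GaloisField.card p n hn.ne'] at hg
  have h1 : IsPrimitiveRoot (g : GaloisField p n) (p ^ n - 1) :=
    IsPrimitiveRoot.coe_units_iff.2 (hg ▸ IsPrimitiveRoot.orderOf g)
  let τ : GaloisField p n →* K := (((O K).subtype.comp (z.comp C)).toMonoidHom).comp
    (WittVector.teichmuller p)
  refine ⟨g, h1.map_of_injective (f := τ) fun a b hab => ?_⟩
  by_contra hne
  have h2 : z (teich p n a) = z (teich p n b) := Subtype.ext hab
  have h3 := hz _ ((mem_top_iff p n hn).2 (show res p n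
    (teich p n (a - b) - (teich p n a - teich p n b)) = 0 by simp))
  rw [map_sub, map_sub, h2, sub_self, sub_zero] at h3
  have h4 : IsUnit (z (teich p n (a - b))) :=
    (((Ne.isUnit (sub_ne_zero.2 hne)).map (WittVector.teichmuller p)).map C).map z
  exact absurd (mem_rad_O.1 (I_le_rad h3)) (by rw [isUnit_O.1 h4]; exact lt_irrefl _)

omit [IsUltrametricDist K] [HasPi K] [CompleteSpace K] [Fact p.Prime] in
theorem charZero_of (hp0 : (p : K) ≠ 0) (hp1 : ‖(p : K)‖ < 1) : CharZero K := by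
  obtain ⟨l, hl⟩ := CharP.exists K
  rcases CharP.char_is_prime_or_zero K l with h | rfl
  · have := Fact.mk h
    have h1 : (p : K) ^ l = p := map_natCast (frobenius K l) p
    have h2 := pow_lt_self_of_lt_one₀ (norm_pos_iff.2 hp0) hp1 h.one_lt
    rw [← norm_pow, h1] at h2
    exact absurd h2 (lt_irrefl _)
  · exact CharP.charP_to_charZero K

theorem norm_ev_lin {σ : Type} [Fintype σ] {e : σ → O K} {r : ℝ} (hr0 : 0 ≤ r) (hr : r < 1)
    (he : ∀ i, ‖(e i : K)‖ ≤ r) (P : MvPowerSeries σ (O K)) :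
    ‖(ev (RingHom.id _) e P : K) - (constantCoeff P : O K)‖ ≤ r ∧
    ‖(ev (RingHom.id _) e P : K) - (constantCoeff P : O K) -
      ∑ j, (e j : K) * (coeff (Finsupp.single j 1) P : O K)‖ ≤ r ^ 2 := by
  classical
  have ha : ∀ i, e i ∈ rad (O K) := fun i => mem_rad_O.2 ((he i).trans_lt hr)
  refine ⟨(mem_ball hr0).1 (ev_sub_constantCoeff_mem (RingHom.id _) ha
    (fun i => (mem_ball hr0).2 (he i)) P), ?_⟩
  have h := norm_ev_le_pow (RingHom.id (O K)) hr0 hr he 2
    (f := P - C (constantCoeff P) - ∑ j, X j * C (coeff (Finsupp.single j 1) P)) fun d hd => by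
      by_cases h : d = 0
      · subst h
        simp
      · obtain ⟨j, rfl⟩ : ∃ j, d = Finsupp.single j 1 := by
          have : d.degree = 1 := by
            have := (Finsupp.degree_eq_zero_iff d).not.2 h
            omega
          obtain ⟨j, hj⟩ := (Set.ext_iff.1 Finsupp.range_single_one d).2 this
          exact ⟨j, hj.symm⟩
        simp [coeff_index_single_X, coeff_C, h]
  simpa [ev_X _ ha] using h

end CZ

open CZ

/-- The periods are analytic near `z`. -/
theorem exists_period_series (hn : 0 < n) (hF : IsLubinTate p n F) (hp0 : (p : K) ≠ 0)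
    (z : LTRing p n →+* O K) (hz : ∀ x ∈ heightIdeal p n n, z x ∈ (Adic.I : Ideal (O K)))
    {y : ℕ → O K} (hy : IsRootSys (p ^ n) y) :
    ∃ (k : ℕ) (P : MvPowerSeries (Ix n 0) (O K)), ∀ (e : Ix n 0 → O K),
      (∀ i, e i ∈ (Adic.I : Ideal (O K))) → ∀ z' : LTRing p n →+* O K,
        (ev (RingHom.id _) e).comp (fam z 0 (p : O K)) = z' →
        (p : K) ^ k * lg p (theta p (hy.pt F z')) = ev (RingHom.id _) e P := by
  have hp1 : ‖(p : K)‖ < 1 := (norm_p_le hn z hz).trans_lt HasPi.lt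
  have hr : ∀ j, z (X j) ∈ rad (O K) := fun j => I_le_rad (hz _ (X_mem_top j))
  have hf : ∀ c, ∀ x ∈ heightIdeal p n n, fam z 0 c x ∈ (Adic.I : Ideal _) :=
    fun c x hx => fam_mem_I hr 0 c (hz x hx)
  have hC := hy.map C (C_mem_I (τ := Ix n 0))
  have hp := p_mem_I_of hn _ (hf 1)
  have hX : ∀ i, C (p : O K) * X i ∈ Ideal.span {(p : MvPowerSeries (Ix n 0) (O K))} :=
    fun i => Ideal.mul_mem_right _ _ (by rw [map_natCast]; exact Ideal.mem_span_singleton_self _)
  have hX' : ∀ i, (C (p : O K) * X i : MvPowerSeries (Ix n 0) (O K)) ∈ (Adic.I : Ideal _) :=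
    fun i => (Ideal.span_singleton_le_iff_mem _).2 hp (hX i)
  have e1 := theta_hom hp constantCoeff (fun x hx => mem_I_ps.1 hx)
    (RingHom.ext (constantCoeff_fam hr 0 1)) hC (hF.isSys _ (hf 1) hC) hy fun k => by simp
  have e2 := theta_hom hp (ev C fun i => C (p : O K) * X i)
    (fun x hx => ev_mem_of_constantCoeff _ (fun i => I_le_rad (hX' i)) hX'
      (C_mem_I _ (mem_I_ps.1 hx)))
    (RingHom.ext fun r => (fam_scale hr 0 (p : O K) r).symm) hC (hF.isSys _ (hf 1) hC) hC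
    fun k => by simp
  obtain ⟨j, hj⟩ := exists_nsmul_small (F := F) (φ := z) hp0 hp1
    (mem_rad_O.1 (theta p (hy.pt F z)).mem)
  have h1 : (p ^ j • theta p (hy.pt F z)).val ∈ Ideal.span {(p : O K)} :=
    mem_span_O.2 (by simpa using hj _ le_rfl)
  rw [e1, ← map_nsmul, Pt.map_val] at h1
  have h2 : (p ^ j • theta p (hC.pt F (fam z 0 (p : O K)))).val ∈
      Ideal.span {(p : MvPowerSeries (Ix n 0) (O K))} := by
    rw [e2, ← map_nsmul, Pt.map_val]
    refine ev_mem_of_constantCoeff _ (fun i => I_le_rad (hX' i)) hX ?_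
    obtain ⟨a, ha⟩ := Ideal.mem_span_singleton'.1 h1
    rw [← ha, map_mul, map_natCast]
    exact Ideal.mul_mem_left _ _ (Ideal.mem_span_singleton_self _)
  obtain ⟨l, hl⟩ := exists_isEll (I_le_rad hp) _ h2
  refine ⟨j, p * l, fun e he z' hz' => ?_⟩
  have e3 := theta_hom hp _ (ev_mem_I he) hz' hC (hF.isSys _ (hf _) hC) hy fun k => by simp
  have h3 := (hl.map (Pt.map F _ (map_mem_rad _ (ev_mem_I he)) hz') _ fun _ => rfl).lg_eq hp0 hp1
  rw [map_nsmul, ← e3, lg_nsmul hp0 hp1] at h3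
  simpa using h3

/-- The twisted periods span a space of dimension `n`. -/
theorem exists_period_span [IsAlgClosed K] (hn : 0 < n) (hF : IsLubinTate p n F)
    (hp0 : (p : K) ≠ 0) (z : LTRing p n →+* O K)
    (hz : ∀ x ∈ heightIdeal p n n, z x ∈ (Adic.I : Ideal (O K))) :
    ∃ v : Fin n → {y : ℕ → O K // IsRootSys (p ^ n) y} → K, LinearIndependent K v ∧
      ∀ i, v i ∈ Submodule.span K {P : {y : ℕ → O K // IsRootSys (p ^ n) y} → K |
        ∃ (ξ : PowerSeries (LTRing p n)) (hξ : IsEndLift p n F ξ), ∀ y,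
          P y = lg p (theta p ((y.2.endLift hn hF hξ z hz).pt F z))} := by
  have hp := norm_p_le hn z hz
  have hpI := p_mem_I_of hn z hz
  have hq : ∀ l, 0 < p ^ l := fun l => pow_pos (Fact.out : p.Prime).pos l
  obtain ⟨G, hG⟩ := exists_isLT p n hn
  have := hG.comm
  obtain ⟨φ₀⟩ := exists_zp_hom_of_zero (p := p) (CharP.cast_eq_zero (GaloisField p n) p)
  obtain ⟨φ⟩ := exists_zp_hom (I_le_rad hpI)
  obtain ⟨γ, δ, H⟩ := exists_isFrame hn hF hG φ₀
  obtain ⟨c, hc⟩ := quasi_log hp0 hp hn hG φ F z _ (H.isHomMod hn z hz φ)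
  obtain ⟨g, hg⟩ := exists_primitive hn z hz
  have hGc := hG.coeff_mem φ hpI
  have hFc : ∀ i, z _ ∈ _ := fun i => hz _ (hF.2.1 i)
  have m1 := hF.mul_p_res hn
  have m2 := hG.mul_p_map (CharP.cast_eq_zero _ p) φ₀
  have rγ := fun {y} hy => rootSys_ev hn z hz H.γ0 H.homγ m1 m2 (y := y) hy
  have rδ := fun {y} hy => rootSys_ev hn z hz H.δ0 H.homδ m2 m1 (y := y) hy
  have hω : ∀ t l, (z (teich p n g) ^ t) ^ p ^ l = z (teich p n ((g ^ t) ^ p ^ l)) := by
    intro t l
    rw [teich_pow, teich_pow, map_pow, map_pow]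
  have L1 : ∀ t l {y}, IsRootSys (p ^ n) y →
      per p n G φ (fun k => (z (teich p n g) ^ t * y k) ^ p ^ l) =
        ((z (teich p n g) : K) ^ t) ^ p ^ l * per p n G φ fun k => y k ^ p ^ l := by
    intro t l y hy
    have ha : ((z (teich p n g) ^ t) ^ p ^ l) ^ p ^ n = (z (teich p n g) ^ t) ^ p ^ l := by
      rw [hω, ← map_pow, teich_pow_q hn]
    have h1 := hG.lg_theta_const_mul hp0 hp φ (hy.pow' (hq l)) ha
    rw [← per_eq, ← per_eq] at h1
    simpa only [mul_pow, SubmonoidClass.coe_pow] using h1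
  have L2 : ∀ {y}, IsRootSys (p ^ n) y →
      per p n G φ (fun k => y k ^ p ^ n) = p * per p n G φ y := by
    intro y hy
    rw [per_eq G φ hy, per_eq G φ (hy.pow' (hq n)), hG.lg_theta_pow_q hp0 hp φ hy]
  have Q : ∀ {y}, IsRootSys (p ^ n) y → per p n F z (fun k => ev1 z (y k) δ) =
      ∑ l ∈ range n, c l * per p n G φ fun k => y k ^ p ^ l := by
    intro y hy
    rw [per_eq F z (rδ hy), sum_congr rfl fun l _ => by rw [per_eq G φ (hy.pow' (hq l))],
      ← hc y hy]
    exact congrArg (fun a => lg p (theta p a)) (funext fun k => Pt.ext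
      (ev1_map z (RingHom.id _) (hy.mem k) δ).symm)
  obtain ⟨j, hj, hcj⟩ : ∃ j < n, c j ≠ 0 := by
    by_contra hcon
    push Not at hcon
    obtain ⟨y, hy, h⟩ := exists_per_ne hp hFc hp0
    rw [← per_congr hp hFc hy (rδ (rγ hy)) fun k => ?_, Q (rγ hy)] at h
    · exact h (sum_eq_zero fun l hl => by rw [hcon l (mem_range.1 hl), zero_mul])
    · have := ev1_congr_res hn z hz (hy.mem k) H.δγ
      rwa [ev1_psubst _ (hy.mem k) H.γ0, ev1_X _ (hy.mem k)] at this
  let V : ℕ → {y : ℕ → O K // IsRootSys (p ^ n) y} → K := fun r y =>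
    per p n G φ fun k => ev1 z (y.1 k) γ ^ p ^ r
  refine ⟨fun r => V r, Fintype.linearIndependent_iff.2 fun b hb r => ?_, fun r => ?_⟩
  · have h1 : ∀ {y}, IsRootSys (p ^ n) y →
        ∑ s : Fin n, b s * per p n G φ (fun k => y k ^ p ^ s.val) = 0 := by
      intro y hy
      have h0 := congrFun hb ⟨_, rδ hy⟩
      rw [Finset.sum_apply] at h0
      refine Eq.trans (sum_congr rfl fun s _ => ?_) h0
      refine congrArg _ (per_congr hp hGc ((rγ (rδ hy)).pow' (hq s)) (hy.pow' (hq s)) fun k => ?_)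
      have := neg_mem (ev1_congr_res hn z hz (hy.mem k) H.γδ)
      rw [ev1_psubst _ (hy.mem k) H.δ0, ev1_X _ (hy.mem k), neg_sub] at this
      exact Ideal.mem_of_dvd _ (sub_dvd_pow_sub_pow _ _ _) this
    obtain ⟨y, hy, h⟩ := exists_per_ne hp hGc hp0
    have hy' := hy.pow' (hq (n - r))
    have h2 := eq_zero_of_sum_pow _ hg (fun s => if hs : s < n then b ⟨s, hs⟩ *
      per p n G φ (fun k => (y k ^ p ^ (n - r)) ^ p ^ s) else 0) (fun t => by
        rw [← h1 (hy'.const_mul (a := z (teich p n g) ^ t)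
          (by rw [hω, galois_pow_q hn, teich_pow, map_pow])), sum_range]
        refine sum_congr rfl fun s _ => ?_
        rw [dif_pos s.2, L1 t s hy', mul_left_comm]) r r.2
    simp only [dif_pos r.2, ← pow_mul, ← pow_add, Nat.sub_add_cancel r.2.le, L2 hy] at h2
    exact (mul_eq_zero.1 h2).resolve_right (mul_ne_zero hp0 h)
  · generalize hW : Submodule.span (M := {y : ℕ → O K // IsRootSys (p ^ n) y} → K) K _ = W
    have h1 : ∀ t l, ∑ s ∈ range n, ((z (teich p n g) : K) ^ t) ^ p ^ s • c s • V (l + s) ∈ W := by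
      intro t l
      rw [← hW]
      refine Submodule.subset_span ⟨_, H.isEndLift hn hG (g ^ t) l, fun y => ?_⟩
      have hy := ((rγ y.2).pow' (hq l)).const_mul (a := z (teich p n g) ^ t)
        (by rw [hω, galois_pow_q hn, teich_pow, map_pow])
      rw [← per_eq, funext fun k => H.ev1_endLift _ l z (y.2.mem k), teich_pow, map_pow, Q hy,
        Finset.sum_apply]
      refine sum_congr rfl fun s _ => ?_
      rw [L1 t s ((rγ y.2).pow' (hq l))]
      simp only [V, Pi.smul_apply, smul_eq_mul, ← pow_mul, ← pow_add, mul_left_comm]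
    have h2 : ∀ l, V (l + j) ∈ W := by
      intro l
      rw [← Subspace.forall_mem_dualAnnihilator_apply_eq_zero_iff]
      intro f hf
      have h3 := eq_zero_of_sum_pow _ hg (fun s => c s * f (V (l + s))) (fun t => by
        simpa using (Submodule.mem_dualAnnihilator f).1 hf _ (h1 t l)) j hj
      exact (mul_eq_zero.1 h3).resolve_left hcj
    have h3 := h2 (r + n - j)
    have h4 : V (r + n) = (p : K) • V r := funext fun y => by
      simpa only [V, Pi.smul_apply, smul_eq_mul, ← pow_mul, ← pow_add] using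
        L2 ((rγ y.2).pow' (hq r))
    rwa [Nat.sub_add_cancel (by omega), h4, W.smul_mem_iff hp0] at h3

theorem char_zero_case [IsAlgClosed K] (hn : 0 < n) (hF : IsLubinTate p n F) (hp0 : (p : K) ≠ 0)
    (z : LTRing p n →+* O K) (hz : ∀ x ∈ heightIdeal p n n, z x ∈ (Adic.I : Ideal (O K)))
    (f : LTRing p n) (m₀ : ℕ)
    (H : ∀ m, m₀ ≤ m → ∀ ξ φ, IsEndLift p n F ξ → IsAct p n F m ξ φ → z (φ f) = 0) :
    f = 0 := by
  have hp := norm_p_le hn z hz
  have hp1 : ‖(p : K)‖ < 1 := hp.trans_lt HasPi.lt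
  have hpp : 0 < ‖(p : K)‖ := norm_pos_iff.2 hp0
  have hpI := p_mem_I_of hn z hz
  have hpO : (p : O K) ≠ 0 := fun h => hp0 (by simpa using congrArg Subtype.val h)
  have := charZero_of hp0 hp1
  have hr : ∀ j, z (X j) ∈ rad (O K) := fun j => I_le_rad (hz _ (X_mem_top j))
  obtain ⟨v, hv, hvM⟩ := exists_period_span hn hF hp0 z hz
  choose k S hS using fun y : {y : ℕ → O K // IsRootSys (p ^ n) y} =>
    exists_period_series hn hF hp0 z hz y.2
  have hS0 : ∀ y, (p : K) ^ k y * lg p (theta p (y.2.pt F z)) = (constantCoeff (S y) : O K) := by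
    intro y
    rw [hS y (fun _ => 0) (fun _ => zero_mem _) z (ev_comp_fam hr 0 _ (RingHom.id _)
      (fun _ h => h) (fun _ => zero_mem _) z (fun _ => rfl) fun j => by simp), ev_zero]
    rfl
  let M : AddSubmonoid ({y : ℕ → O K // IsRootSys (p ^ n) y} → K) :=
    { carrier := {P | ∃ (ξ : PowerSeries (LTRing p n)) (hξ : IsEndLift p n F ξ), ∀ y,
        P y = lg p (theta p ((y.2.endLift hn hF hξ z hz).pt F z))}
      add_mem' := by
        rintro P P' ⟨ξ, hξ, h⟩ ⟨ξ', hξ', h'⟩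
        refine ⟨_, hξ.add hξ', fun y => ?_⟩
        rw [Pi.add_apply, h, h', ← lg_add hp0 hp1,
          ← theta_add hpI (hF.isSys z hz _) (hF.isSys z hz _)]
        exact congrArg (fun a => lg p (theta p a)) (funext fun k => Pt.ext
          (ev1_subst2 z (y.2.mem k) hξ.zero hξ'.zero _).symm)
      zero_mem' := ⟨0, isEndLift_zero, fun y => by
        have : (y.2.endLift hn hF isEndLift_zero z hz).pt F z = fun _ => 0 :=
          funext fun k => Pt.ext (map_zero (ev1 z (y.1 k)))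
        rw [this, theta_of_exact fun _ => nsmul_zero p, lg_zero hp0 hp1]
        rfl⟩ }
  have e : Option (Ix n 0) ≃ Fin n := Fintype.equivFinOfCardEq (by
    rw [Fintype.card_option, Fintype.card_congr (Equiv.subtypeUnivEquiv fun _ => Nat.zero_le _),
      Fintype.card_fin]
    omega)
  refine eq_zero_of_fam hr _ hpO hpO (first_order hp0 hp1 M
    (fun y => lg p (theta p (y.2.pt F z)))
    (fun j y => (coeff (Finsupp.single j 1) (S y) : O K) / (p : K) ^ k y) (v ∘ e)
    (hv.comp _ e.injective) (fun i => hvM _) _ ?_)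
  rintro P ⟨ξ, hξ, hP⟩
  obtain ⟨A, hA⟩ := exists_lipschitz hn hF hp0 z hz
  obtain ⟨B, hB0, hB⟩ : ∃ B, 0 < B ∧ A ≤ ‖(p : K)‖ * B :=
    ⟨(|A| + 1) / ‖(p : K)‖, by positivity, by
      rw [mul_div_cancel₀ _ hpp.ne']; linarith [le_abs_self A]⟩
  obtain ⟨m₁, hm₁⟩ := exists_pow_lt_of_lt_one (div_pos (norm_pi_pos (K := K)) hB0) hp1
  have key : ∀ m, ∃ (e : Ix n 0 → O K) (t : K), m₀ + m₁ + 1 ≤ m →
      ((∀ i, e i ∈ rad (O K)) ∧ (∀ i, ‖(e i : K)‖ ≤ B * ‖(p : K)‖ ^ m) ∧
        ev (RingHom.id _) e (fam z 0 (p : O K) f) = 0) ∧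
      ∀ y, ‖(p : K) ^ m * P y - ∑ j, (e j : K) *
        ((coeff (Finsupp.single j 1) (S y) : O K) / (p : K) ^ k y) -
          t * lg p (theta p (y.2.pt F z))‖ ≤ (B ^ 2 / ‖(p : K)‖ ^ k y +
            B / ‖(p : K)‖ ^ k ⟨_, y.2.endLift hn hF hξ z hz⟩) * ‖(p : K)‖ ^ (2 * m) := by
    intro m
    by_cases hm : m₀ + m₁ + 1 ≤ m
    swap
    · exact ⟨0, 0, fun h => absurd h hm⟩
    obtain ⟨φ, hφ⟩ := exists_isAct hn hF (show 0 < m by omega) hξ
    have hr1 : B * ‖(p : K)‖ ^ m ≤ ‖(HasPi.ϖ : K)‖ := (le_div_iff₀' hB0).1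
      ((pow_le_pow_of_le_one hpp.le hp1.le (by omega)).trans hm₁.le)
    have hr2 := hr1.trans_lt HasPi.lt
    have hd : ∀ j : Ix n 0, ‖((z (φ (X j.1)) : K) - z (X j.1)) / p‖ ≤ B * ‖(p : K)‖ ^ m := by
      intro j
      rw [norm_div, div_le_iff₀' hpp, ← mul_assoc]
      exact (hA m (by omega) ξ φ hξ hφ _).trans (mul_le_mul_of_nonneg_right hB (by positivity))
    let e : Ix n 0 → O K := fun j => ⟨_, (hd j).trans hr2.le⟩
    have he : ∀ j, e j ∈ (Adic.I : Ideal (O K)) := fun j => mem_I_O.2 ((hd j).trans hr1)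
    have hz' := ev_comp_fam hr 0 (p : O K) (RingHom.id _) (fun _ h => h)
      (fun j => I_le_rad (he j)) (z.comp φ) (fun w => congrArg z (hφ.const w)) fun j => by
        rw [dif_pos (Nat.zero_le _)]
        refine Subtype.ext ?_
        simp [e, mul_div_cancel₀ _ hp0]
    obtain ⟨a, g, g0, ha, hg⟩ := hφ.theta_eq hn hF hξ z hz
    refine ⟨e, 1 - (PowerSeries.coeff 1 g : O K), fun _ => ⟨⟨fun j => I_le_rad (he j), hd,
      (DFunLike.congr_fun hz' f).trans (H m (by omega) ξ φ hξ hφ)⟩, fun y => ?_⟩⟩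
    have h1 := congrArg (lg p) (hg y.1 y.2)
    rw [lg_add hp0 hp1, lg_nsmul hp0 hp1, lg_hom hp0 hp1 a g g0 ha, Nat.cast_pow] at h1
    have h2 := (norm_ev_lin (by positivity) hr2 (e := e) hd (S y)).2
    have h3 := (norm_ev_lin (by positivity) hr2 (e := e) hd
      (S ⟨_, y.2.endLift hn hF hξ z hz⟩)).1
    rw [← hS _ e he _ hz', ← hS0] at h2 h3
    rw [← hP y] at h3
    generalize k ⟨_, y.2.endLift hn hF hξ z hz⟩ = k' at h3 ⊢
    have h4 : ∀ (s a b c d g : K), a = g * b + (p : K) ^ m * c →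
        (p : K) ^ m * d - s / (p : K) ^ k y - (1 - g) * b =
          ((p : K) ^ k y * a - (p : K) ^ k y * b - s) / (p : K) ^ k y -
            (p : K) ^ m * (((p : K) ^ k' * c - (p : K) ^ k' * d) / (p : K) ^ k') := by
      rintro s a b c d g rfl
      field_simp
      ring
    simp only [← mul_div_assoc, ← sum_div]
    rw [h4 _ _ _ _ _ _ h1]
    refine (norm_sub_le _ _).trans ?_
    rw [norm_mul, norm_div, norm_div, norm_pow, norm_pow, norm_pow]
    refine (add_le_add (div_le_div_of_nonneg_right h2 (by positivity))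
      (mul_le_mul_of_nonneg_left (div_le_div_of_nonneg_right h3 (by positivity))
        (by positivity))).trans (le_of_eq ?_)
    ring
  choose e t h using key
  exact ⟨e, t, B, _, fun m hm => (h m hm).1, fun y => ⟨_, fun m hm => (h m hm).2 y⟩⟩

end Vale.Agent.P217
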