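import Mathlib

namespace Vale.Agent.P217
open Finset

namespace Lazard

variable {p : ℕ} [hp : Fact p.Prime]

lemma choose_pow (a : ℕ) : ∀ n : ℕ, n.choose (p ^ a) ≡ n / p ^ a [MOD p] := by
  induction a with
  | zero => intro n; simp [Nat.ModEq.refl]
  | succ a ih =>
    intro n
    have h := Choose.choose_modEq_choose_mod_mul_choose_div_nat (p := p) (n := n) (k := p ^ (a + 1))
    rw [pow_succ, Nat.mul_mod_left, Nat.choose_zero_right, one_mul,
      Nat.mul_div_cancel _ hp.out.pos] at h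
    rw [pow_succ]
    refine h.trans ((ih _).trans ?_)
    rw [Nat.div_div_eq_div_mul, mul_comm p]

lemma choose_low (a : ℕ) : ∀ u r : ℕ, r < p ^ a → (p ^ a * u + r).choose (p ^ a * u) ≡ 1 [MOD p] := by
  induction a with
  | zero =>
    intro u r hr
    have : r = 0 := by simpa using hr
    subst this
    simp [Nat.ModEq.refl]
  | succ a ih =>
    intro u r hr
    have h := Choose.choose_modEq_choose_mod_mul_choose_div_nat (p := p)
      (n := p ^ (a + 1) * u + r) (k := p ^ (a + 1) * u)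
    have e : p ^ (a + 1) * u = p * (p ^ a * u) := by ring
    rw [e] at h ⊢
    rw [Nat.mul_mod_right, Nat.choose_zero_right, one_mul, Nat.mul_div_cancel_left _ hp.out.pos,
      Nat.mul_add_div hp.out.pos] at h
    refine h.trans (ih _ _ ?_)
    rw [Nat.div_lt_iff_lt_mul hp.out.pos, ← pow_succ]
    exact hr

variable {M : Type} [AddCommGroup M]

omit hp in
lemma smul_congr (hM : ∀ x : M, p • x = 0) {a b : ℕ} (h : a ≡ b [MOD p]) (x : M) :
    a • x = b • x := by
  have key : ∀ n : ℕ, n • x = (n % p) • x := by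
    intro n
    conv_lhs => rw [← Nat.mod_add_div n p, add_smul, mul_smul, hM, add_zero]
  rw [key a, key b, h]

lemma exists_inv (hM : ∀ x : M, p • x = 0) {u : ℕ} (hu : ¬ p ∣ u) :
    ∃ N : ℕ, ∀ x : M, u • N • x = x := by
  obtain ⟨N, -, hN⟩ := Nat.exists_mul_mod_eq_one_of_coprime
    ((Nat.coprime_comm.1 ((Nat.Prime.coprime_iff_not_dvd hp.out).2 hu))) hp.out.one_lt
  refine ⟨N, fun x => ?_⟩
  rw [← mul_smul, smul_congr hM (b := 1) (by
    unfold Nat.ModEq
    rw [hN, Nat.mod_eq_of_lt hp.out.one_lt]), one_smul]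

lemma not_dvd_choose {n a : ℕ} (h1 : p ^ a ≤ n) (h2 : n < p ^ (a + 1)) :
    ¬ p ∣ n.choose (p ^ a) := by
  rw [(choose_pow a n).dvd_iff dvd_rfl]
  have hpos : 0 < p ^ a := pow_pos hp.out.pos a
  apply Nat.not_dvd_of_pos_of_lt
  · exact Nat.div_pos h1 hpos
  · rw [Nat.div_lt_iff_lt_mul hpos, ← pow_succ']
    exact h2

lemma step (hM : ∀ x : M, p • x = 0) {D : ℕ} {c : ℕ → M}
    (hc : ∀ i j, 0 < i → 0 < j → i + j < D →
      (i + j).choose i • c (i + j) = (D - i).choose j • c i) {i a : ℕ} (hi : i < D)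
    (h1 : p ^ a ≤ i) (h2 : i < p ^ (a + 1)) (h0 : c (p ^ a) = 0) : c i = 0 := by
  rcases h1.eq_or_lt with h | h
  · rwa [← h]
  · have := hc (p ^ a) (i - p ^ a) (pow_pos hp.out.pos a) (by omega) (by omega)
    rw [h0, smul_zero, Nat.add_sub_cancel' h1] at this
    obtain ⟨N, hN⟩ := exists_inv hM (not_dvd_choose h1 h2)
    rw [← hN (c i), smul_comm, this, smul_zero]

lemma all_zero (hM : ∀ x : M, p • x = 0) {D : ℕ} {c : ℕ → M}
    (hc : ∀ i j, 0 < i → 0 < j → i + j < D →
      (i + j).choose i • c (i + j) = (D - i).choose j • c i)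
    (h0 : ∀ a, p ^ a < D → c (p ^ a) = 0) : ∀ i, 0 < i → i < D → c i = 0 := by
  intro i h1 h2
  have a1 := Nat.pow_log_le_self p h1.ne'
  exact step hM hc h2 a1 (Nat.lt_pow_succ_log_self hp.out.one_lt i) (h0 _ (by omega))

lemma zero_pow_case (hM : ∀ x : M, p • x = 0) {e : ℕ} {c : ℕ → M}
    (hsymm : ∀ i, 0 < i → i < p ^ (e + 1) → c i = c (p ^ (e + 1) - i))
    (hc : ∀ i j, 0 < i → 0 < j → i + j < p ^ (e + 1) →
      (i + j).choose i • c (i + j) = (p ^ (e + 1) - i).choose j • c i)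
    (h0 : c (p ^ e) = 0) : ∀ i, 0 < i → i < p ^ (e + 1) → c i = 0 := by
  apply all_zero hM hc
  intro a ha
  have hpos : 0 < p ^ a := pow_pos hp.out.pos a
  have h1 : a ≤ e := by
    have := (Nat.pow_lt_pow_iff_right hp.out.one_lt).1 ha
    omega
  have h2 : p ^ a ≤ p ^ e := Nat.pow_le_pow_right hp.out.pos h1
  have h3 : 2 * p ^ e ≤ p ^ (e + 1) := by
    rw [pow_succ']
    exact Nat.mul_le_mul_right _ hp.out.two_le
  rw [hsymm _ hpos ha]
  exact step hM hc (a := e) (by omega) (by omega) (by omega) h0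

lemma zero_other_case (hM : ∀ x : M, p • x = 0) {D t : ℕ} {c : ℕ → M}
    (hsymm : ∀ i, 0 < i → i < D → c i = c (D - i))
    (hc : ∀ i j, 0 < i → 0 < j → i + j < D →
      (i + j).choose i • c (i + j) = (D - i).choose j • c i)
    (t1 : p ^ t < D) (t2 : D < p ^ (t + 1))
    (h0 : c (p ^ t) = 0) : ∀ i, 0 < i → i < D → c i = 0 := by
  apply all_zero hM hc
  intro a ha
  have hpos : 0 < p ^ a := pow_pos hp.out.pos a
  have h1 : a ≤ t := by
    have := (Nat.pow_lt_pow_iff_right hp.out.one_lt).1 (ha.trans t2)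
    omega
  rcases h1.eq_or_lt with h | h
  · rwa [h]
  by_cases h2 : p ^ t ≤ D - p ^ a
  · rw [hsymm _ hpos ha]
    exact step hM hc (a := t) (by omega) h2 (by omega) h0
  · have h3 : p ^ a < p ^ t := Nat.pow_lt_pow_right hp.out.one_lt h
    have := hc (p ^ a) (p ^ t - p ^ a) hpos (by omega) (by omega)
    rw [Nat.add_sub_cancel' h3.le, h0, smul_zero] at this
    obtain ⟨s, rfl⟩ : ∃ s, t = a + s := ⟨t - a, by omega⟩
    have e1 : p ^ (a + s) - p ^ a = p ^ a * (p ^ s - 1) := by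
      rw [Nat.mul_sub, mul_one, pow_add]
    have e2 : D - p ^ a = p ^ a * (p ^ s - 1) + (D - p ^ (a + s)) := by omega
    rw [e2, e1, smul_congr hM (choose_low a _ _ (by omega)), one_smul] at this
    exact this.symm

omit hp in
lemma choose_id {D i j : ℕ} :
    (i + j).choose i * D.choose (i + j) = (D - i).choose j * D.choose i := by
  have := Nat.choose_mul (n := D) (k := i + j) (s := i) (by omega)
  rw [Nat.add_sub_cancel_left] at this
  rw [mul_comm, this, mul_comm]

lemma sum_val (e : ℕ) : (∑ i ∈ range p, ∑ t ∈ Ioo 0 (p ^ (e + 1)),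
    i ^ t * ((p ^ (e + 1)).choose t / p)) + 1 = p ^ (p ^ (e + 1) - 1) := by
  set D := p ^ (e + 1) with hD
  have hD0 : 0 < D := pow_pos hp.out.pos _
  have h1 : ∀ i : ℕ, (i + 1) ^ D = 1 + p * (∑ t ∈ Ioo 0 D, i ^ t * (D.choose t / p)) + i ^ D := by
    intro i
    rw [add_pow, Finset.sum_range_succ, Finset.range_eq_Ico, ← Finset.Ioo_insert_left hD0,
      Finset.sum_insert (by simp), Finset.mul_sum]
    simp only [pow_zero, one_pow, mul_one, Nat.choose_zero_right, Nat.cast_id, Nat.choose_self]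
    congr 2
    refine Finset.sum_congr rfl (fun t ht => ?_)
    rw [Finset.mem_Ioo] at ht
    have : p ∣ D.choose t := hp.out.dvd_choose_pow ht.1.ne' ht.2.ne
    rw [mul_left_comm, Nat.mul_div_cancel' this]
  have h2 : ∑ i ∈ range p, (i + 1) ^ D = ∑ i ∈ range p, i ^ D + p ^ D := by
    rw [← Finset.sum_range_succ (fun i => i ^ D), Finset.sum_range_succ', zero_pow hD0.ne',
      add_zero]
  simp only [h1, Finset.sum_add_distrib, Finset.sum_const, Finset.card_range, smul_eq_mul,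
    mul_one, ← Finset.mul_sum] at h2
  apply Nat.eq_of_mul_eq_mul_left hp.out.pos
  rw [← pow_succ', Nat.sub_add_cancel hD0]
  linarith

end Lazard

theorem lazard_hom {p : ℕ} [Fact p.Prime] {M : Type} [AddCommGroup M] (hM : ∀ x : M, p • x = 0)
    (D : ℕ) (c : ℕ → M) (hsymm : ∀ i, 0 < i → i < D → c i = c (D - i))
    (hc : ∀ i j, 0 < i → 0 < j → i + j < D →
      (i + j).choose i • c (i + j) = (D - i).choose j • c i) :
    ((¬ ∃ e, D = p ^ e) → 2 ≤ D →
      ∃ N i₀ : ℕ, 0 < i₀ ∧ i₀ < D ∧ ∀ i, 0 < i → i < D → c i = D.choose i • N • c i₀) ∧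
    ((∃ e, D = p ^ e) → ∑ i ∈ range p, ∑ t ∈ Ioo 0 D, i ^ t • c t = 0 →
      ∀ t, 0 < t → t < D → c t = 0) := by
  have hp : p.Prime := Fact.out
  constructor
  · intro hD h2
    have a1 := Nat.pow_log_le_self p (show D ≠ 0 by omega)
    have a2 := Nat.lt_pow_succ_log_self hp.one_lt D
    have a3 : p ^ Nat.log p D < D := lt_of_le_of_ne a1 (fun h => hD ⟨_, h.symm⟩)
    obtain ⟨N, hN⟩ := Lazard.exists_inv hM (Lazard.not_dvd_choose a1 a2)
    refine ⟨N, p ^ Nat.log p D, pow_pos hp.pos _, a3, fun i h1 h2 => ?_⟩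
    rw [← sub_eq_zero]
    refine Lazard.zero_other_case hM (c := fun i => c i - D.choose i • N • c (p ^ Nat.log p D))
      ?_ ?_ a3 a2 ?_ i h1 h2
    · intro i h1 h2
      simp only [Nat.choose_symm h2.le, ← hsymm i h1 h2]
    · intro i j h1 h2 h3
      simp only [smul_sub, hc i j h1 h2 h3]
      rw [← mul_smul, Lazard.choose_id, mul_smul]
    · simp only [hN, sub_self]
  · rintro ⟨e, rfl⟩ hs
    rcases e with _ | e
    · intro t h1 h2
      simp at h2
      omega
    have hlt : p ^ e < p ^ (e + 1) := Nat.pow_lt_pow_right hp.one_lt (by omega)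
    have hpos : 0 < p ^ e := pow_pos hp.pos _
    have hu : ¬ p ∣ (p ^ (e + 1)).choose (p ^ e) / p := by
      intro h
      have h1 : p ∣ (p ^ (e + 1)).choose (p ^ e) := hp.dvd_choose_pow hpos.ne' hlt.ne
      have h2 : p ^ 2 ∣ (p ^ (e + 1)).choose (p ^ e) := by
        rw [← Nat.mul_div_cancel' h1, pow_two]
        exact Nat.mul_dvd_mul_left p h
      have h3 := Nat.factorization_choose_prime_pow hp hlt.le hpos.ne'
      rw [hp.pow_dvd_iff_le_factorization (Nat.choose_pos hlt.le).ne', h3,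
        hp.factorization_pow] at h2
      simp at h2
    obtain ⟨N, hN⟩ := Lazard.exists_inv hM hu
    have key : ∀ i, 0 < i → i < p ^ (e + 1) →
        c i = ((p ^ (e + 1)).choose i / p) • N • c (p ^ e) := by
      intro i h1 h2
      rw [← sub_eq_zero]
      refine Lazard.zero_pow_case hM
        (c := fun i => c i - ((p ^ (e + 1)).choose i / p) • N • c (p ^ e)) ?_ ?_ ?_ i h1 h2
      · intro i h1 h2
        simp only [Nat.choose_symm h2.le, ← hsymm i h1 h2]
      · intro i j h1 h2 h3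
        simp only [smul_sub, hc i j h1 h2 h3]
        rw [← mul_smul, ← mul_smul ((p ^ (e + 1) - i).choose j)]
        congr 2
        have d1 : p ∣ (p ^ (e + 1)).choose (i + j) := hp.dvd_choose_pow (by omega) h3.ne
        have d2 : p ∣ (p ^ (e + 1)).choose i := hp.dvd_choose_pow (by omega) (by omega)
        rw [← Nat.mul_div_assoc _ d1, ← Nat.mul_div_assoc _ d2, Lazard.choose_id]
      · simp only [hN, sub_self]
    have hz : N • c (p ^ e) = 0 := by
      have h1 : ∑ i ∈ range p, ∑ t ∈ Ioo 0 (p ^ (e + 1)), i ^ t • c t =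
          (∑ i ∈ range p, ∑ t ∈ Ioo 0 (p ^ (e + 1)), i ^ t * ((p ^ (e + 1)).choose t / p)) •
            N • c (p ^ e) := by
        rw [Finset.sum_smul]
        refine Finset.sum_congr rfl (fun i _ => ?_)
        rw [Finset.sum_smul]
        refine Finset.sum_congr rfl (fun t ht => ?_)
        rw [Finset.mem_Ioo] at ht
        rw [key t ht.1 ht.2, mul_smul]
      have h2 := congrArg (fun n : ℕ => n • N • c (p ^ e)) (Lazard.sum_val (p := p) e)
      simp only [add_smul, one_smul] at h2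
      rw [← h1, hs, zero_add] at h2
      obtain ⟨s, hs'⟩ : ∃ s, p ^ (e + 1) - 1 = s + 1 := ⟨p ^ (e + 1) - 2, by omega⟩
      rw [h2, hs', pow_succ', mul_smul, hM]
    intro t h1 h2
    rw [key t h1 h2, hz, smul_zero]

end Vale.Agent.P217
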