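import Vale.Agent.P217.Setup
import Vale.Agent.P217.Lazard
import Vale.Agent.P217.LTGroup

namespace Vale.Agent.P217

open Finset MvPowerSeries

variable {B : Type} [CommRing B]

namespace Cocycle

open LTGroup

variable {τ : Type} [Finite τ]

omit [Finite τ] in
theorem mul_cong {a b : ℕ} {x x' y y' : MvPowerSeries τ B} (hx : x ∈ J τ B ^ a)
    (hy : y' ∈ J τ B ^ b) (h1 : x - x' ∈ J τ B ^ (a + 1)) (h2 : y - y' ∈ J τ B ^ (b + 1)) :
    x * y - x' * y' ∈ J τ B ^ (a + b + 1) := by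
  have e : x * y - x' * y' = x * (y - y') + (x - x') * y' := by ring
  rw [e]
  refine add_mem ?_ ?_
  · rw [add_assoc, pow_add]; exact Ideal.mul_mem_mul hx h2
  · rw [add_right_comm, pow_add]; exact Ideal.mul_mem_mul h1 hy

omit [Finite τ] in
theorem mem_of_cong {x x' : MvPowerSeries τ B} (hx : x ∈ J τ B) (h : x - x' ∈ J τ B ^ 2) :
    x' ∈ J τ B := by
  simpa using sub_mem hx (Ideal.pow_le_self two_ne_zero h)

omit [Finite τ] in
theorem pow_cong {x x' : MvPowerSeries τ B} (hx : x ∈ J τ B) (h : x - x' ∈ J τ B ^ 2) (k : ℕ) :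
    x ^ k - x' ^ k ∈ J τ B ^ (k + 1) := by
  induction k with
  | zero => simp
  | succ k ih =>
    rw [pow_succ x, pow_succ x']
    exact mul_cong (Ideal.pow_mem_pow hx k) (by rw [pow_one]; exact mem_of_cong hx h) ih h

/-- The exponent of `x ^ i y ^ j`. -/
noncomputable abbrev m2 (i j : ℕ) : Fin 2 →₀ ℕ := Finsupp.single 0 i + Finsupp.single 1 j

/-- The exponent of `x ^ i y ^ j z ^ k`. -/
noncomputable abbrev m3 (i j k : ℕ) : Fin 3 →₀ ℕ :=
  Finsupp.single 0 i + Finsupp.single 1 j + Finsupp.single 2 k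

theorem m2_inj {i j a b : ℕ} : m2 i j = m2 a b ↔ i = a ∧ j = b :=
  ⟨fun h => ⟨by simpa using DFunLike.congr_fun h 0, by simpa using DFunLike.congr_fun h 1⟩,
    fun h => by rw [h.1, h.2]⟩

theorem m3_inj {i j k a b c : ℕ} : m3 i j k = m3 a b c ↔ i = a ∧ j = b ∧ k = c :=
  ⟨fun h => ⟨by simpa using DFunLike.congr_fun h 0, by simpa using DFunLike.congr_fun h 1,
    by simpa using DFunLike.congr_fun h 2⟩, fun h => by rw [h.1, h.2.1, h.2.2]⟩

theorem eq_m2 (d : Fin 2 →₀ ℕ) : d = m2 (d 0) (d 1) := by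
  ext i; fin_cases i <;> simp

theorem deg2 (d : Fin 2 →₀ ℕ) : d.degree = d 0 + d 1 := by
  rw [Finsupp.degree_eq_sum, Fin.sum_univ_two]

theorem deg3 (i j k : ℕ) : (m3 i j k).degree = i + j + k := by
  simp

theorem coeff_m2 (r : B) (i j a b : ℕ) :
    coeff (m2 i j) (C r * X 0 ^ a * X 1 ^ b : MvPowerSeries (Fin 2) B) =
      if i = a ∧ j = b then r else 0 := by
  rw [mul_assoc, coeff_C_mul, X_pow_eq, X_pow_eq, monomial_mul_monomial, coeff_monomial]
  simp only [m2_inj, mul_one, mul_ite, mul_zero]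

theorem coeff_m3 (r : B) (i j k a b c : ℕ) :
    coeff (m3 i j k) (C r * (X 0 ^ a * X 1 ^ b * X 2 ^ c) : MvPowerSeries (Fin 3) B) =
      if i = a ∧ j = b ∧ k = c then r else 0 := by
  rw [coeff_C_mul, X_pow_eq, X_pow_eq, X_pow_eq, monomial_mul_monomial, monomial_mul_monomial,
    coeff_monomial]
  simp only [m3_inj, mul_one, mul_ite, mul_zero]

/-- The form of degree `D` of `E`, at `a` and `b`. -/
noncomputable def T (E : MvPowerSeries (Fin 2) B) (D : ℕ) (a b : MvPowerSeries τ B) :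
    MvPowerSeries τ B := ∑ i ∈ range (D + 1), C (cf E D i) * a ^ i * b ^ (D - i)

theorem sub_T {E : MvPowerSeries (Fin 2) B} {D : ℕ} (hE : E ∈ J (Fin 2) B ^ D) :
    E - T E D (X 0) (X 1) ∈ J (Fin 2) B ^ (D + 1) := by
  refine mem_pow.2 fun d hd => ?_
  rw [deg2] at hd
  rw [map_sub, T, map_sum, eq_m2 d]
  simp only [coeff_m2]
  rcases (Nat.lt_succ_iff.1 hd).lt_or_eq with h | h
  · rw [mem_pow.1 hE _ (by rwa [← eq_m2, deg2]), sum_eq_zero, sub_zero]
    intro i hi
    rw [if_neg]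
    have := mem_range.1 hi
    omega
  · rw [sum_eq_single (d 0), if_pos ⟨rfl, by omega⟩, cf, show D - d 0 = d 1 by omega, sub_self]
    · intro i _ hi
      rw [if_neg fun h => hi h.1.symm]
    · intro hi
      exact absurd (mem_range.2 (by omega)) hi

theorem top {E : MvPowerSeries (Fin 2) B} {D : ℕ} (hE : E ∈ J (Fin 2) B ^ D)
    {a b a' b' : MvPowerSeries τ B} (ha : a ∈ J τ B) (hb : b ∈ J τ B) (ha' : a - a' ∈ J τ B ^ 2)
    (hb' : b - b' ∈ J τ B ^ 2) : subst ![a, b] E - T E D a' b' ∈ J τ B ^ (D + 1) := by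
  have h1 := map_pow_mem (sb _ (two_mem ha hb)) (fun i => by rw [sb_X]; exact two_mem ha hb i)
    (sub_T hE)
  have h2 : sb _ (two_mem ha hb) (T E D (X 0) (X 1)) = T E D a b := by
    simp only [T, map_sum, map_mul, map_pow, sb_C, sb_X]
    rfl
  rw [map_sub, h2, sb_apply] at h1
  have h3 : T E D a b - T E D a' b' ∈ J τ B ^ (D + 1) := by
    rw [T, T, ← sum_sub_distrib]
    refine Ideal.sum_mem _ fun i hi => ?_
    have h4 := mul_cong (Ideal.pow_mem_pow ha i) (Ideal.pow_mem_pow (mem_of_cong hb hb') (D - i))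
      (pow_cong ha ha' i) (pow_cong hb hb' (D - i))
    rw [show i + (D - i) = D by have := mem_range.1 hi; omega] at h4
    rw [mul_assoc, mul_assoc, ← mul_sub]
    exact Ideal.mul_mem_left _ _ h4
  simpa using add_mem h1 h3

theorem top_coeff {E : MvPowerSeries (Fin 2) B} {D : ℕ} (hE : E ∈ J (Fin 2) B ^ D)
    {a b a' b' : MvPowerSeries τ B} (ha : a ∈ J τ B) (hb : b ∈ J τ B) (ha' : a - a' ∈ J τ B ^ 2)
    (hb' : b - b' ∈ J τ B ^ 2) {d : τ →₀ ℕ} (hd : d.degree = D) :
    coeff d (subst ![a, b] E) = coeff d (T E D a' b') := by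
  rw [← sub_eq_zero, ← map_sub]
  exact mem_pow.1 (top hE ha hb ha' hb') d (by omega)

theorem fg_lin (F : FormalGroup B) : F.toPowerSeries - (X 0 + X 1) ∈ J (Fin 2) B ^ 2 := by
  obtain ⟨r, hr⟩ := fg_exists_eq F
  rw [hr, add_sub_cancel_left, pow_two]
  exact Ideal.mul_mem_right _ _ (Ideal.mul_mem_mul (X_mem 0) (X_mem 1))

omit [Finite τ] in
theorem self_mem (a : MvPowerSeries τ B) : a - a ∈ J τ B ^ 2 := by simp

theorem T01 (E : MvPowerSeries (Fin 2) B) {D i j k : ℕ} (h : i + j + k = D) :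
    coeff (m3 i j k) (T E D (X 0) (X 1)) = if k = 0 then cf E D i else 0 := by
  have e : ∀ t, (C (cf E D t) * X 0 ^ t * X 1 ^ (D - t) : MvPowerSeries (Fin 3) B) =
      C (cf E D t) * (X 0 ^ t * X 1 ^ (D - t) * X 2 ^ 0) := fun t => by ring
  rw [T, map_sum]
  simp only [e, coeff_m3]
  rw [sum_eq_single i (fun t _ ht => if_neg fun h => ht h.1.symm)
    fun hi => absurd (mem_range.2 (by omega)) hi]
  exact if_congr (by omega) rfl rfl

theorem T12 (E : MvPowerSeries (Fin 2) B) {D i j k : ℕ} (h : i + j + k = D) :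
    coeff (m3 i j k) (T E D (X 1) (X 2)) = if i = 0 then cf E D j else 0 := by
  have e : ∀ t, (C (cf E D t) * X 1 ^ t * X 2 ^ (D - t) : MvPowerSeries (Fin 3) B) =
      C (cf E D t) * (X 0 ^ 0 * X 1 ^ t * X 2 ^ (D - t)) := fun t => by ring
  rw [T, map_sum]
  simp only [e, coeff_m3]
  rw [sum_eq_single j (fun t _ ht => if_neg fun h => ht h.2.1.symm)
    fun hi => absurd (mem_range.2 (by omega)) hi]
  exact if_congr (by omega) rfl rfl

theorem T012 (E : MvPowerSeries (Fin 2) B) {D i j k : ℕ} (h : i + j + k = D) :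
    coeff (m3 i j k) (T E D (X 0 + X 1) (X 2)) = (i + j).choose i • cf E D (i + j) := by
  have e : ∀ t, (C (cf E D t) * (X 0 + X 1) ^ t * X 2 ^ (D - t) : MvPowerSeries (Fin 3) B) =
      ∑ s ∈ range (t + 1),
        C (t.choose s • cf E D t) * (X 0 ^ s * X 1 ^ (t - s) * X 2 ^ (D - t)) := fun t => by
    rw [add_pow, mul_sum, sum_mul]
    refine sum_congr rfl fun s _ => ?_
    rw [nsmul_eq_mul, map_mul, map_natCast]; ring
  rw [T, map_sum]
  simp only [e, map_sum, coeff_m3]
  rw [sum_eq_single (i + j), sum_eq_single i (fun t _ ht => if_neg fun h => ht h.1.symm)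
    (fun hi => absurd (mem_range.2 (by omega)) hi), if_pos (by omega)]
  · intro t ht h1
    refine sum_eq_zero fun s hs => if_neg ?_
    have := mem_range.1 hs
    omega
  · exact fun hi => absurd (mem_range.2 (by omega)) hi

theorem T012' (E : MvPowerSeries (Fin 2) B) {D i j k : ℕ} (h : i + j + k = D) :
    coeff (m3 i j k) (T E D (X 0) (X 1 + X 2)) = (D - i).choose j • cf E D i := by
  have e : ∀ t, (C (cf E D t) * X 0 ^ t * (X 1 + X 2) ^ (D - t) : MvPowerSeries (Fin 3) B) =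
      ∑ s ∈ range (D - t + 1),
        C ((D - t).choose s • cf E D t) * (X 0 ^ t * X 1 ^ s * X 2 ^ (D - t - s)) := fun t => by
    rw [add_pow, mul_sum]
    refine sum_congr rfl fun s _ => ?_
    rw [nsmul_eq_mul, map_mul, map_natCast]; ring
  rw [T, map_sum]
  simp only [e, map_sum, coeff_m3]
  rw [sum_eq_single i, sum_eq_single j (fun t _ ht => if_neg fun h => ht h.2.1.symm)
    (fun hi => absurd (mem_range.2 (by omega)) hi), if_pos (by omega)]
  · exact fun t _ h1 => sum_eq_zero fun s _ => if_neg fun h => h1 h.1.symm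
  · exact fun hi => absurd (mem_range.2 (by omega)) hi

end Cocycle

open Cocycle LTGroup in
theorem lowest_cocycle (F : FormalGroup B) (E : MvPowerSeries (Fin 2) B) (D : ℕ) (hD : 0 < D)
    (hE : ∀ d : Fin 2 →₀ ℕ, d.degree < D → coeff d E = 0)
    (hc : ∀ d : Fin 3 →₀ ℕ, d.degree = D →
      coeff d (E.subst ![(X 0 : MvPowerSeries (Fin 3) B), X 1] +
        E.subst ![F.toPowerSeries.subst ![(X 0 : MvPowerSeries (Fin 3) B), X 1], X 2]) =
      coeff d (E.subst ![(X 1 : MvPowerSeries (Fin 3) B), X 2] +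
        E.subst ![X 0, F.toPowerSeries.subst ![(X 1 : MvPowerSeries (Fin 3) B), X 2]])) :
    cf E D 0 = 0 ∧ cf E D D = 0 ∧ ∀ i j, 0 < i → 0 < j → i + j < D →
      (i + j).choose i • cf E D (i + j) = (D - i).choose j • cf E D i := by
  have h1 := mem_pow.2 hE
  have h2 : ∀ i j : Fin 3, subst ![(X i : MvPowerSeries (Fin 3) B), X j] F.toPowerSeries ∈ J _ B :=
    fun i j => mem_J.2 (cc_subst2 (by simp) (by simp) F)
  have h3 : ∀ i j : Fin 3, subst ![(X i : MvPowerSeries (Fin 3) B), X j] F.toPowerSeries -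
      (X i + X j) ∈ J _ B ^ 2 := fun i j =>
    lin_two (fg_lin F) (X_mem i) (X_mem j) (self_mem _) (self_mem _)
  have key : ∀ i j k, i + j + k = D → (if k = 0 then cf E D i else 0) +
      (i + j).choose i • cf E D (i + j) =
        (if i = 0 then cf E D j else 0) + (D - i).choose j • cf E D i := by
    intro i j k h
    have hd : (m3 i j k).degree = D := by rw [deg3, h]
    have h4 := hc _ hd
    rwa [map_add, map_add, top_coeff h1 (X_mem 0) (X_mem 1) (self_mem _) (self_mem _) hd,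
      top_coeff h1 (X_mem 1) (X_mem 2) (self_mem _) (self_mem _) hd,
      top_coeff h1 (h2 0 1) (X_mem 2) (h3 0 1) (self_mem _) hd,
      top_coeff h1 (X_mem 0) (h2 1 2) (self_mem _) (h3 1 2) hd, T01 E h, T12 E h, T012 E h,
      T012' E h] at h4
  refine ⟨?_, ?_, fun i j hi hj h => ?_⟩
  · simpa [hD.ne'] using key 0 0 D (by omega)
  · simpa [hD.ne'] using key D 0 0 (by omega)
  · have h4 := key i j (D - (i + j)) (by omega)
    rwa [if_neg (by omega), if_neg (by omega), zero_add, zero_add] at h4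

theorem lowest_symm (E : MvPowerSeries (Fin 2) B)
    (hs : E.subst ![(X 1 : MvPowerSeries (Fin 2) B), X 0] = E) (D i : ℕ) (hi : i ≤ D) :
    cf E D i = cf E D (D - i) := by
  have h1 : (X ∘ (Equiv.swap (0 : Fin 2) 1).toEmbedding : Fin 2 → MvPowerSeries (Fin 2) B) =
      ![X 1, X 0] := by
    funext j; fin_cases j <;> simp
  have h2 := coeff_embDomain_rename (Equiv.swap (0 : Fin 2) 1).toEmbedding E (Cocycle.m2 i (D - i))
  rw [rename_eq_subst, h1, hs] at h2
  rw [cf, cf, ← h2, Nat.sub_sub_self hi, Finsupp.embDomain_add, Finsupp.embDomain_single,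
    Finsupp.embDomain_single, add_comm]
  simp

open Cocycle LTGroup in
theorem lowest_pSum (F : FormalGroup B) (p : ℕ) (E : MvPowerSeries (Fin 2) B) (D : ℕ)
    (hE : ∀ d : Fin 2 →₀ ℕ, d.degree < D → coeff d E = 0) :
    PowerSeries.coeff D (pSum F p E) = ∑ i ∈ range p, ∑ t ∈ range (D + 1), i ^ t • cf E D t := by
  rw [pSum, map_sum]
  refine sum_congr rfl fun i _ => ?_
  have h1 : mulSeries F i - PowerSeries.C (i : B) * PowerSeries.X ∈ J Unit B ^ 2 :=
    mem_pow.2 fun d hd => by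
      have h2 : d.degree = d () := by rw [Finsupp.degree_eq_sum]; simp
      rw [coeff_unit]
      rw [h2] at hd
      generalize d () = m at hd
      interval_cases m
      · simp [Ideals.cc_mul]
      · simp [coeff_one_mulSeries]
  have h2 := top_coeff (mem_pow.2 hE) (mem_J.2 (Ideals.cc_mul F i)) (X_mem ()) h1 (self_mem _)
    (d := Finsupp.single () D) (by simp)
  refine h2.trans ?_
  rw [T, map_sum]
  refine sum_congr rfl fun t ht => ?_
  change PowerSeries.coeff D (PowerSeries.C (cf E D t) * (PowerSeries.C (i : B) * PowerSeries.X) ^ t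
    * PowerSeries.X ^ (D - t)) = _
  rw [mul_pow, ← map_pow, ← mul_assoc, ← map_mul, mul_assoc, ← pow_add,
    show t + (D - t) = D by have := mem_range.1 ht; omega, PowerSeries.coeff_C_mul,
    PowerSeries.coeff_X_pow_self, mul_one, nsmul_eq_mul, Nat.cast_pow, mul_comm]

open Cocycle LTGroup in
theorem lowest_cobound (F : FormalGroup B) (b : B) (D : ℕ) (hD : 0 < D) :
    (∀ d : Fin 2 →₀ ℕ, d.degree < D →
      coeff d (cobound F (PowerSeries.C b * PowerSeries.X ^ D)) = 0) ∧
    ∀ i ≤ D, cf (cobound F (PowerSeries.C b * PowerSeries.X ^ D)) D i =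
      if i = 0 ∨ i = D then 0 else D.choose i • b := by
  have h1 : ∀ a : MvPowerSeries (Fin 2) B, constantCoeff a = 0 →
      (PowerSeries.C b * PowerSeries.X ^ D).subst a = C b * a ^ D := fun a ha => by
    have h2 := PowerSeries.HasSubst.of_constantCoeff_zero ha
    rw [PowerSeries.subst_mul h2, PowerSeries.subst_pow h2, PowerSeries.subst_X h2,
      PowerSeries.subst_C]
  have hF : F.toPowerSeries ∈ J (Fin 2) B := mem_J.2 F.zero_constantCoeff
  rw [cobound, h1 _ F.zero_constantCoeff, h1 _ (constantCoeff_X 0), h1 _ (constantCoeff_X 1)]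
  refine ⟨mem_pow.1 (sub_mem (sub_mem (Ideal.mul_mem_left _ _ (Ideal.pow_mem_pow hF D))
    (Ideal.mul_mem_left _ _ (Ideal.pow_mem_pow (X_mem 0) D)))
    (Ideal.mul_mem_left _ _ (Ideal.pow_mem_pow (X_mem 1) D))), fun i hi => ?_⟩
  have h2 := mem_pow.1 (Ideal.mul_mem_left _ (C b) (pow_cong hF (fg_lin F) D)) (m2 i (D - i))
    (by rw [deg2]; simp; omega)
  have e : (C b * (X 0 + X 1) ^ D : MvPowerSeries (Fin 2) B) =
      ∑ s ∈ range (D + 1), C (D.choose s • b) * X 0 ^ s * X 1 ^ (D - s) := by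
    rw [add_pow, mul_sum]
    refine sum_congr rfl fun s _ => ?_
    rw [nsmul_eq_mul, map_mul, map_natCast]; ring
  have e0 : (C b * X 0 ^ D : MvPowerSeries (Fin 2) B) = C b * X 0 ^ D * X 1 ^ 0 := by ring
  have e1 : (C b * X 1 ^ D : MvPowerSeries (Fin 2) B) = C b * X 0 ^ 0 * X 1 ^ D := by ring
  rw [mul_sub, map_sub, sub_eq_zero, e, map_sum] at h2
  simp only [coeff_m2] at h2
  rw [sum_eq_single i (fun t _ ht => if_neg fun h => ht h.1.symm)
    (fun h => absurd (mem_range.2 (by omega)) h), if_pos ⟨rfl, rfl⟩] at h2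
  rw [cf, map_sub, map_sub, h2, e0, e1, coeff_m2, coeff_m2]
  rcases Nat.eq_zero_or_pos i with rfl | h0
  · simp [hD.ne]
  rcases hi.lt_or_eq with h | rfl
  · rw [if_neg (by omega), if_neg (by omega), if_neg (by omega), sub_zero, sub_zero]
  · simp [hD.ne']

theorem isCocycle_cobound (F : FormalGroup B) [F.IsComm] (b : PowerSeries B)
    (hb : PowerSeries.constantCoeff b = 0) : IsCocycle F (cobound F b) := by
  let _ := Adic.discrete B
  refine isCocycle_of_pt ?_ (fun x y => ?_) fun x y z => ?_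
  · rw [cobound, map_sub, map_sub, cc_psubst F.zero_constantCoeff hb, cc_psubst (by simp) hb,
      cc_psubst (by simp) hb, sub_zero, sub_zero]
  · rw [ev_cobound, ev_cobound, add_comm x y]; ring
  · rw [ev_cobound, ev_cobound, ev_cobound, ev_cobound, add_assoc x y z]; ring

theorem pSum_cobound (F : FormalGroup B) (p : ℕ) (b : PowerSeries B)
    (hb : PowerSeries.constantCoeff b = 0) :
    pSum F p (cobound F b) = b.subst (mulSeries F p) - p • b := by
  let _ := Adic.discrete B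
  let u : Pt F (PowerSeries.C : B →+* PowerSeries B) := ⟨PowerSeries.X, pX_mem_rad⟩
  have h1 := ev_pSum p (cobound F b) PowerSeries.C u
  have h2 : ∀ m : ℕ, ∑ i ∈ range m, ev PowerSeries.C ![(i • u).val, u.val] (cobound F b) =
      ev1 PowerSeries.C (m • u).val b - m • b := fun m => by
    induction m with
    | zero => simp [ev1_zero, hb]
    | succ m ih =>
      rw [sum_range_succ, ih, ev_cobound, succ_nsmul, succ_nsmul, ev1_C_X]; ring
  rw [h2, Pt.nsmul_val, ev1_C_X, ev1_C_X] at h1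
  rw [h1, psubst_eq_ev1' (Ideals.cc_mul F p)]

namespace Cocycle

open LTGroup

theorem subst_mem {σ τ : Type} {N : Ideal B} {a : σ → MvPowerSeries τ B} (ha : HasSubst a)
    {f : MvPowerSeries σ B} (hf : ∀ d, coeff d f ∈ N) (e : τ →₀ ℕ) : coeff e (subst a f) ∈ N := by
  rw [coeff_subst ha]
  exact finsum_induction (· ∈ N) (zero_mem _) (fun _ _ => add_mem)
    fun d => Ideal.mul_mem_right _ _ (hf d)

theorem psubst_mem {τ : Type} {N : Ideal B} {a : MvPowerSeries τ B} (ha : constantCoeff a = 0)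
    {f : PowerSeries B} (hf : ∀ i, PowerSeries.coeff i f ∈ N) (e : τ →₀ ℕ) :
    coeff e (f.subst a) ∈ N :=
  subst_mem (PowerSeries.HasSubst.of_constantCoeff_zero ha).const
    (fun d => by rw [coeff_unit]; exact hf _) e

theorem cobound_mem (F : FormalGroup B) {N : Ideal B} {b : PowerSeries B}
    (hb : ∀ i, PowerSeries.coeff i b ∈ N) (d : Fin 2 →₀ ℕ) : coeff d (cobound F b) ∈ N := by
  rw [cobound, map_sub, map_sub]
  exact sub_mem (sub_mem (psubst_mem F.zero_constantCoeff hb d) (psubst_mem (by simp) hb d))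
    (psubst_mem (by simp) hb d)

theorem has_mul (F : FormalGroup B) (i : ℕ) :
    HasSubst (![mulSeries F i, PowerSeries.X] : Fin 2 → MvPowerSeries Unit B) :=
  Ideals.has_two (Ideals.cc_mul F i) PowerSeries.constantCoeff_X

theorem pSum_mem (F : FormalGroup B) (p : ℕ) {N : Ideal B} {E : MvPowerSeries (Fin 2) B}
    (hE : ∀ d, coeff d E ∈ N) (m : ℕ) : PowerSeries.coeff m (pSum F p E) ∈ N := by
  rw [pSum, map_sum]
  exact Ideal.sum_mem _ fun i _ => subst_mem (has_mul F i) hE _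

theorem pSum_sub (F : FormalGroup B) (p : ℕ) (E E' : MvPowerSeries (Fin 2) B) :
    pSum F p (E - E') = pSum F p E - pSum F p E' := by
  rw [pSum, pSum, pSum, ← sum_sub_distrib]
  exact sum_congr rfl fun i _ => subst_sub (has_mul F i) E E'

theorem cobound_add (F : FormalGroup B) (a b : PowerSeries B) :
    cobound F (a + b) = cobound F a + cobound F b := by
  rw [cobound, cobound, cobound,
    PowerSeries.subst_add (PowerSeries.HasSubst.of_constantCoeff_zero F.zero_constantCoeff),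
    PowerSeries.subst_add (PowerSeries.HasSubst.X 0),
    PowerSeries.subst_add (PowerSeries.HasSubst.X 1)]
  ring

theorem cobound_pow (F : FormalGroup B) {k : ℕ} {b : PowerSeries B} (hb : b ∈ J Unit B ^ k) :
    cobound F b ∈ J (Fin 2) B ^ k := by
  have h1 : ∀ a ∈ J (Fin 2) B, b.subst a ∈ J (Fin 2) B ^ k := fun a ha => by
    have h2 := map_pow_mem (sb (fun _ : Unit => a) fun _ => ha) (fun i => by rwa [sb_X]) hb
    rwa [sb_apply] at h2
  exact sub_mem (sub_mem (h1 _ (mem_J.2 F.zero_constantCoeff)) (h1 _ (X_mem 0))) (h1 _ (X_mem 1))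

theorem isCocycle_sub {F : FormalGroup B} {E E' : MvPowerSeries (Fin 2) B} (h : IsCocycle F E)
    (h' : IsCocycle F E') : IsCocycle F (E - E') := by
  let _ := Adic.discrete B
  refine isCocycle_of_pt (by rw [map_sub, h.zero, h'.zero, sub_zero]) (fun x y => ?_)
    fun x y z => ?_
  · rw [map_sub, map_sub, h.ev_symm _ x.mem y.mem, h'.ev_symm _ x.mem y.mem]
  · simp only [map_sub]
    linear_combination h.ev_cocycle _ x y z - h'.ev_cocycle _ x y z

variable {p n : ℕ} [Fact p.Prime] {F : FormalGroup B} {N : Ideal B}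

theorem p_smul (hn : 0 < n)
    (hF : ∀ x ∈ N, ∀ i, x * PowerSeries.coeff i (mulSeries F p - PowerSeries.X ^ p ^ n) = 0)
    {x : B} (hx : x ∈ N) : p • x = 0 := by
  have h1 := hF x hx 1
  rwa [map_sub, coeff_one_mulSeries, PowerSeries.coeff_X_pow,
    if_neg (Nat.one_lt_pow hn.ne' (Fact.out : p.Prime).one_lt).ne, sub_zero, mul_comm,
    ← nsmul_eq_mul] at h1

theorem pSum_cob (hn : 0 < n)
    (hF : ∀ x ∈ N, ∀ i, x * PowerSeries.coeff i (mulSeries F p - PowerSeries.X ^ p ^ n) = 0)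
    {b : PowerSeries B} (h0 : PowerSeries.constantCoeff b = 0)
    (hb : ∀ i, PowerSeries.coeff i b ∈ N) (m : ℕ) :
    PowerSeries.coeff m (pSum F p (cobound F b)) =
      if p ^ n ∣ m then PowerSeries.coeff (m / p ^ n) b else 0 := by
  have hq : p ^ n ≠ 0 := pow_ne_zero _ (Fact.out : p.Prime).ne_zero
  have h1 := PowerSeries.coeff_subst_X_pow (S := B) hq b m
  rw [pSum_cobound F p b h0, map_sub, map_nsmul, p_smul hn hF (hb m), sub_zero]
  refine Eq.trans ?_ h1
  rw [PowerSeries.coeff_subst' (.of_constantCoeff_zero' (Ideals.cc_mul F p)),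
    PowerSeries.coeff_subst' (.X_pow hq)]
  refine finsum_congr fun d => ?_
  obtain ⟨g, hg⟩ := sub_dvd_pow_sub_pow (mulSeries F p) (PowerSeries.X ^ p ^ n) d
  have h2 : PowerSeries.C (PowerSeries.coeff d b) * (mulSeries F p - PowerSeries.X ^ p ^ n) = 0 := by
    ext i
    rw [PowerSeries.coeff_C_mul, hF _ (hb d), map_zero]
  rw [← sub_eq_zero, ← smul_sub, ← map_sub, hg, smul_eq_mul, ← PowerSeries.coeff_C_mul,
    ← mul_assoc, h2, zero_mul, map_zero]

variable (p F N) in
/-- Cocycles with coefficients in `N` and without obstruction. -/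
structure Good (E : MvPowerSeries (Fin 2) B) : Prop where
  coc : IsCocycle F E
  mem : ∀ d, coeff d E ∈ N
  obs : ∀ j, 1 ≤ j → PowerSeries.coeff (p ^ j) (pSum F p E) = 0

theorem succ_mem {E : MvPowerSeries (Fin 2) B} {D : ℕ} (hE : E ∈ J (Fin 2) B ^ D)
    (h : ∀ i ≤ D, cf E D i = 0) : E ∈ J (Fin 2) B ^ (D + 1) := by
  have h1 := sub_T hE
  rwa [T, sum_eq_zero fun i hi => by
    rw [h i (Nat.lt_succ_iff.1 (mem_range.1 hi)), map_zero, zero_mul, zero_mul], sub_zero] at h1

theorem step [F.IsComm] (hn : 0 < n)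
    (hF : ∀ x ∈ N, ∀ i, x * PowerSeries.coeff i (mulSeries F p - PowerSeries.X ^ p ^ n) = 0)
    {E : MvPowerSeries (Fin 2) B} (hE : Good p F N E) {D : ℕ} (hD : 0 < D)
    (h : E ∈ J (Fin 2) B ^ D) : ∃ β ∈ N,
      Good p F N (E - cobound F (PowerSeries.C β * PowerSeries.X ^ D)) ∧
        E - cobound F (PowerSeries.C β * PowerSeries.X ^ D) ∈ J (Fin 2) B ^ (D + 1) := by
  obtain ⟨h0, h1, h2⟩ := lowest_cocycle F E D hD (mem_pow.1 h) fun d _ => by rw [hE.coc.cocycle]
  obtain ⟨h3, h4⟩ := lazard_hom (p := p) (M := N) (fun x => Subtype.ext (p_smul hn hF x.2)) D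
    (fun i => ⟨cf E D i, hE.mem _⟩)
    (fun i _ hi => Subtype.ext (lowest_symm E hE.coc.symm D i hi.le))
    fun i j hi hj hij => Subtype.ext (h2 i j hi hj hij)
  by_cases hp : ∃ e, D = p ^ e
  · have h5 : cobound F (PowerSeries.C (0 : B) * PowerSeries.X ^ D) = 0 := by
      have h6 := cobound_add F 0 0
      rw [add_zero, left_eq_add] at h6
      rw [map_zero, zero_mul, h6]
    have h6 := h4 hp (Subtype.ext (by
      obtain ⟨e, rfl⟩ := hp
      rcases Nat.eq_zero_or_pos e with rfl | he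
      · simp [show Ioo 0 1 = ∅ from rfl]
      have h7 := hE.obs e he
      rw [lowest_pSum F p E _ (mem_pow.1 h)] at h7
      simp only [AddSubmonoidClass.coe_finsetSum, AddSubmonoidClass.coe_nsmul,
        ZeroMemClass.coe_zero]
      refine Eq.trans (sum_congr rfl fun i _ => ?_) h7
      rw [sum_range_succ, h1, smul_zero, add_zero, range_eq_Ico, ← Ioo_insert_left hD,
        sum_insert (by simp), h0, smul_zero, zero_add]))
    refine ⟨0, zero_mem _, by rwa [h5, sub_zero], ?_⟩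
    rw [h5, sub_zero]
    refine succ_mem h fun i hi => ?_
    rcases Nat.eq_zero_or_pos i with rfl | hi0
    · exact h0
    rcases hi.lt_or_eq with hi | rfl
    · exact congrArg Subtype.val (h6 i hi0 hi)
    · exact h1
  · have hD2 : 2 ≤ D := by
      by_contra h5
      exact hp ⟨0, by rw [pow_zero]; omega⟩
    obtain ⟨M, i₀, -, -, h5⟩ := h3 hp hD2
    have hβ : M • cf E D i₀ ∈ N := nsmul_mem (hE.mem _) M
    have hc : ∀ i, PowerSeries.coeff i (PowerSeries.C (M • cf E D i₀) * PowerSeries.X ^ D) ∈ N :=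
      fun i => by rw [PowerSeries.coeff_C_mul]; exact Ideal.mul_mem_right _ _ hβ
    have hz : PowerSeries.constantCoeff
        (PowerSeries.C (M • cf E D i₀) * PowerSeries.X ^ D) = 0 := by simp [hD.ne']
    obtain ⟨h6, h7⟩ := lowest_cobound F (M • cf E D i₀) D hD
    refine ⟨_, hβ, ⟨isCocycle_sub hE.coc (isCocycle_cobound F _ hz), fun d => ?_, fun j hj => ?_⟩,
      succ_mem (sub_mem h (mem_pow.2 h6)) fun i hi => ?_⟩
    · rw [map_sub]; exact sub_mem (hE.mem d) (cobound_mem F hc d)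
    · rw [pSum_sub, map_sub, hE.obs j hj, pSum_cob hn hF hz hc, zero_sub, neg_eq_zero]
      split_ifs with h8
      · rw [PowerSeries.coeff_C_mul, PowerSeries.coeff_X_pow, if_neg, mul_zero]
        intro h9
        obtain ⟨e, -, he⟩ := (Nat.dvd_prime_pow (Fact.out : p.Prime)).1
          (h9 ▸ Nat.div_dvd_of_dvd h8 : D ∣ p ^ j)
        exact hp ⟨e, he⟩
      · rfl
    · have h8 := h7 i hi
      rw [cf] at h8
      rw [cf, map_sub, h8, sub_eq_zero]
      split_ifs with h9
      · rcases h9 with rfl | rfl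
        exacts [h0, h1]
      · exact congrArg Subtype.val (h5 i (by omega) (by omega))

theorem good_eq [F.IsComm] (hn : 0 < n)
    (hF : ∀ x ∈ N, ∀ i, x * PowerSeries.coeff i (mulSeries F p - PowerSeries.X ^ p ^ n) = 0)
    {E : MvPowerSeries (Fin 2) B} (hE : Good p F N E) :
    ∃ b : PowerSeries B, PowerSeries.constantCoeff b = 0 ∧ (∀ i, PowerSeries.coeff i b ∈ N) ∧
      E = cobound F b := by
  have h1 : ∀ (k : ℕ) (b : PowerSeries B), ∃ β ∈ N, Good p F N (E - cobound F b) →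
      E - cobound F b ∈ J (Fin 2) B ^ (k + 1) →
      Good p F N (E - cobound F (b + PowerSeries.C β * PowerSeries.X ^ (k + 1))) ∧
        E - cobound F (b + PowerSeries.C β * PowerSeries.X ^ (k + 1)) ∈
          J (Fin 2) B ^ (k + 1 + 1) := fun k b => by
    by_cases h : Good p F N (E - cobound F b) ∧ E - cobound F b ∈ J (Fin 2) B ^ (k + 1)
    · obtain ⟨β, h2, h3⟩ := step hn hF h.1 k.succ_pos h.2
      refine ⟨β, h2, fun _ _ => ?_⟩
      rwa [cobound_add, ← sub_sub]
    · exact ⟨0, zero_mem _, fun h2 h3 => absurd ⟨h2, h3⟩ h⟩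
  choose β hβ hs using h1
  let s : ℕ → PowerSeries B := fun k =>
    Nat.rec 0 (fun k b => b + PowerSeries.C (β k b) * PowerSeries.X ^ (k + 1)) k
  have hs' : ∀ k, s (k + 1) = s k + PowerSeries.C (β k (s k)) * PowerSeries.X ^ (k + 1) :=
    fun k => rfl
  have h0 : cobound F 0 = 0 := by
    have h6 := cobound_add F 0 0
    rwa [add_zero, left_eq_add] at h6
  have h2 : ∀ k, (PowerSeries.constantCoeff (s k) = 0 ∧ ∀ i, PowerSeries.coeff i (s k) ∈ N) ∧
      Good p F N (E - cobound F (s k)) ∧ E - cobound F (s k) ∈ J (Fin 2) B ^ (k + 1) := fun k => by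
    induction k with
    | zero =>
      change (PowerSeries.constantCoeff 0 = 0 ∧ ∀ i, PowerSeries.coeff i 0 ∈ N) ∧
        Good p F N (E - cobound F 0) ∧ E - cobound F 0 ∈ _
      rw [h0, sub_zero, zero_add, pow_one]
      exact ⟨⟨map_zero _, fun i => by simp⟩, hE, mem_J.2 hE.coc.zero⟩
    | succ k ih =>
      refine ⟨⟨by simp [hs', ih.1.1], fun i => ?_⟩, hs k (s k) ih.2.1 ih.2.2⟩
      rw [hs', map_add, PowerSeries.coeff_C_mul]
      exact add_mem (ih.1.2 i) (Ideal.mul_mem_right _ _ (hβ k _))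
  obtain ⟨L, hL⟩ := prec (σ := Unit) s fun k => by
    rw [hs', add_sub_cancel_left]
    exact Ideal.mul_mem_left _ _
      (Ideal.pow_le_pow_right k.le_succ (Ideal.pow_mem_pow (X_mem ()) (k + 1)))
  have h3 : ∀ i, PowerSeries.coeff i L = PowerSeries.coeff i (s (i + 1)) := fun i => by
    rw [← sub_eq_zero, ← map_sub]
    exact mem_pow.1 (hL (i + 1)) (Finsupp.single () i) (by simp)
  refine ⟨L, ?_, fun i => h3 i ▸ (h2 (i + 1)).1.2 i, sub_eq_zero.1 (haus _ fun k => ?_)⟩
  · rw [← PowerSeries.coeff_zero_eq_constantCoeff_apply, h3,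
      PowerSeries.coeff_zero_eq_constantCoeff_apply, (h2 (0 + 1)).1.1]
  · have h4 := cobound_add F (s k) (L - s k)
    rw [add_sub_cancel] at h4
    rw [h4, ← sub_sub]
    exact sub_mem (Ideal.pow_le_pow_right k.le_succ (h2 k).2.2) (cobound_pow F (hL k))

end Cocycle

open Cocycle in
theorem cocycle_eq_cobound {p n : ℕ} [Fact p.Prime] (hn : 0 < n) (F : FormalGroup B) [F.IsComm]
    (N : Ideal B)
    (hF : ∀ x ∈ N, ∀ i, x * PowerSeries.coeff i (mulSeries F p - PowerSeries.X ^ p ^ n) = 0)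
    (E : MvPowerSeries (Fin 2) B) (hE : IsCocycle F E) (hN : ∀ d, coeff d E ∈ N)
    (hj : ∀ j, 1 ≤ j → j < n → PowerSeries.coeff (p ^ j) (pSum F p E) = 0) :
    ∃ b : PowerSeries B, PowerSeries.constantCoeff b = 0 ∧ (∀ i, PowerSeries.coeff i b ∈ N) ∧
      E = cobound F b := by
  classical
  have hp : p.Prime := Fact.out
  let a : PowerSeries B := PowerSeries.mk fun m =>
    if ∃ e, m = p ^ e then PowerSeries.coeff (p ^ n * m) (pSum F p E) else 0
  have h0 : PowerSeries.constantCoeff a = 0 := by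
    rw [← PowerSeries.coeff_zero_eq_constantCoeff_apply, PowerSeries.coeff_mk, if_neg]
    exact fun ⟨e, he⟩ => pow_ne_zero e hp.ne_zero he.symm
  have h1 : ∀ i, PowerSeries.coeff i a ∈ N := fun i => by
    rw [PowerSeries.coeff_mk]
    split_ifs
    exacts [pSum_mem F p hN _, zero_mem _]
  obtain ⟨b, h2, h3, h4⟩ := good_eq hn hF (E := E - cobound F a)
    ⟨isCocycle_sub hE (isCocycle_cobound F a h0), fun d => by
      rw [map_sub]; exact sub_mem (hN d) (cobound_mem F h1 d), fun j h5 => by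
      rw [pSum_sub, map_sub, pSum_cob hn hF h0 h1, sub_eq_zero]
      split_ifs with h6
      · have h7 := (Nat.pow_dvd_pow_iff_le_right hp.one_lt).1 h6
        rw [PowerSeries.coeff_mk, if_pos ⟨j - n, Nat.pow_div h7 hp.pos⟩, Nat.mul_div_cancel' h6]
      · exact hj j h5 (lt_of_not_ge fun h7 => h6 (pow_dvd_pow p h7))⟩
  refine ⟨a + b, by rw [map_add, h0, h2, add_zero], fun i => ?_, ?_⟩
  · rw [map_add]; exact add_mem (h1 i) (h3 i)
  · rw [cobound_add, ← h4, add_sub_cancel]

end Vale.Agent.P217
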