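import Vale.Agent.P217.Setup

namespace Vale.Agent.P217

open Finset

section ell
variable {R S : Type} [CommRing R] [CommRing S] [Adic S] {F : FormalGroup R} {φ : R →+* S} {p : ℕ}

theorem Log.exists_succ_val (p k : ℕ) (x : Pt F φ) :
    ∃ r, (p ^ (k + 1) • x).val = p * (p ^ k • x).val + (p ^ k • x).val ^ 2 * r := by
  rw [pow_succ', mul_smul]
  exact Pt.exists_nsmul_val _ _

theorem IsEll.mem {x : Pt F φ} {a : S} (ha : IsEll p x a) (k : ℕ) :
    (p ^ k • x).val ∈ Ideal.span {(p : S) ^ (k + 1)} := by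
  obtain ⟨c, hc⟩ := Ideal.mem_span_singleton'.1 (ha k)
  refine Ideal.mem_span_singleton'.2 ⟨a + c * (p : S) ^ k, ?_⟩
  linear_combination hc

omit [Adic S] in
theorem Log.span_mul_le (c : S) (k : ℕ) :
    Ideal.span {c ^ (k + 1)} * Ideal.span {c ^ (k + 1)} ≤ Ideal.span {c ^ (2 * k + 1)} := by
  rw [Ideal.span_singleton_mul_span_singleton, Ideal.span_singleton_le_span_singleton, ← pow_add]
  exact pow_dvd_pow _ (by omega)

theorem exists_isEll (hp : (p : S) ∈ rad S) (x : Pt F φ) (hx : x.val ∈ Ideal.span {(p : S)}) :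
    ∃ ℓ, IsEll p x ℓ := by
  obtain ⟨c, hc⟩ := Ideal.mem_span_singleton'.1 hx
  choose r hr using fun k : ℕ => Log.exists_succ_val p k x
  let s : ℕ → S := fun k => Nat.rec c (fun k s => s + (p : S) ^ k * (s ^ 2 * r k)) k
  have hs : ∀ k, s (k + 1) = s k + (p : S) ^ k * (s k ^ 2 * r k) := fun k => rfl
  have h1 : ∀ k, (p ^ k • x).val = (p : S) ^ (k + 1) * s k := by
    intro k
    induction k with
    | zero =>
      rw [pow_zero, one_smul, ← hc, zero_add, pow_one, mul_comm]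
      rfl
    | succ k ih =>
      rw [hr, ih, hs]
      ring
  obtain ⟨t, ht⟩ := exists_tail hp fun k => s k ^ 2 * r k
  have h2 : ∀ k, s 0 + t 0 = s k + (p : S) ^ k * t k := by
    intro k
    induction k with
    | zero => simp
    | succ k ih =>
      rw [ih, hs, ht k]
      ring
  refine ⟨s 0 + t 0, fun k => Ideal.mem_span_singleton'.2 ⟨-t k, ?_⟩⟩
  rw [h1, h2 k]
  ring

theorem IsEll.unique (hp : (p : S) ∈ rad S) (htf : ∀ a : S, (p : S) * a = 0 → a = 0) {x : Pt F φ}
    {a b : S} (ha : IsEll p x a) (hb : IsEll p x b) : a = b := by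
  have h : ∀ (k : ℕ) (y : S), (p : S) ^ k * y = 0 → y = 0 := by
    intro k
    induction k with
    | zero => simp
    | succ k ih => exact fun y hy => ih y (htf _ (by rw [← mul_assoc, ← pow_succ', hy]))
  refine eq_of_forall_sub_mem fun n => ?_
  obtain ⟨N, hN⟩ := exists_pow_mem hp n
  obtain ⟨c, hc⟩ := Ideal.mem_span_singleton'.1 (sub_mem (hb N) (ha N))
  have e : a - b = c * (p : S) ^ N := sub_eq_zero.1 (h (N + 1) _ (by linear_combination -hc))
  rw [e]
  exact Ideal.mul_mem_left _ _ hN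

theorem isEll_zero : IsEll p (0 : Pt F φ) 0 := by
  intro k
  simp

theorem IsEll.add [F.IsComm] {x y : Pt F φ} {a b : S} (ha : IsEll p x a) (hb : IsEll p y b) :
    IsEll p (x + y) (a + b) := by
  intro k
  have h := add_mem (Log.span_mul_le _ k (Pt.add_val_sub_mem (ha.mem k) (hb.mem k)))
    (add_mem (ha k) (hb k))
  rw [nsmul_add]
  exact (congrArg (· ∈ _) (by ring)).mp h

theorem IsEll.sub [F.IsComm] {x y : Pt F φ} {a b : S} (ha : IsEll p x a) (hb : IsEll p y b) :
    IsEll p (x - y) (a - b) := by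
  intro k
  have h := add_mem (Log.span_mul_le _ k
    (Pt.sub_val_sub_mem (sub_mem (ha.mem k) (hb.mem k)) (hb.mem k))) (sub_mem (ha k) (hb k))
  rw [nsmul_sub]
  exact (congrArg (· ∈ _) (by ring)).mp h

theorem IsEll.map {R' T : Type} [CommRing R'] [CommRing T] [Adic T] {G : FormalGroup R'}
    {φ' : R' →+* T} (f : Pt F φ →+ Pt G φ') (ψ : S →+* T) (hf : ∀ x, (f x).val = ψ x.val)
    {x : Pt F φ} {a : S} (ha : IsEll p x a) : IsEll p (f x) (ψ a) := by
  intro k
  obtain ⟨c, hc⟩ := Ideal.mem_span_singleton'.1 (ha k)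
  refine Ideal.mem_span_singleton'.2 ⟨ψ c, ?_⟩
  have := congrArg ψ hc
  rw [← map_nsmul, hf]
  simpa using this

end ell

section lg
variable {K : Type} [NormedField K] [IsUltrametricDist K] [HasPi K] [CompleteSpace K]
  {R : Type} [CommRing R] {F : FormalGroup R} {φ : R →+* O K} {p : ℕ}
  (hp0 : (p : K) ≠ 0) (hp1 : ‖(p : K)‖ < 1)
include hp0 hp1

theorem IsEll.tendsto {x : Pt F φ} {a : O K} (ha : IsEll p x a) :
    Filter.Tendsto (fun k : ℕ => ((p ^ k • x).val : K) / (p : K) ^ k) Filter.atTop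
      (nhds (p * (a : K))) := by
  rw [tendsto_iff_norm_sub_tendsto_zero]
  refine squeeze_zero (fun _ => norm_nonneg _) (fun k => ?_)
    (tendsto_pow_atTop_nhds_zero_of_lt_one (norm_nonneg _) hp1)
  obtain ⟨c, hc⟩ := Ideal.mem_span_singleton'.1 (ha k)
  have h := congrArg (fun y : O K => (y : K)) hc
  push_cast at h
  have e : ((p ^ k • x).val : K) / (p : K) ^ k - p * a = c * p * (p : K) ^ k := by
    field_simp
    linear_combination -h
  rw [e, norm_mul, norm_mul, norm_pow]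
  exact mul_le_of_le_one_left (by positivity) (mul_le_one₀ (norm_O_le c) (norm_nonneg _) hp1.le)

theorem IsEll.lg_eq {x : Pt F φ} {a : O K} (ha : IsEll p x a) : lg p x = p * (a : K) := by
  exact (ha.tendsto hp0 hp1).limUnder_eq

theorem exists_nsmul_small {r : ℝ} (hr : r < 1) : ∃ j : ℕ, ∀ x : Pt F φ, ‖(x.val : K)‖ ≤ r →
    ‖((p ^ j • x).val : K)‖ ≤ ‖(p : K)‖ := by
  have h0 : 0 < max ‖(p : K)‖ r := lt_max_of_lt_left (norm_pos_iff.2 hp0)
  have h1 : max ‖(p : K)‖ r < 1 := max_lt hp1 hr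
  obtain ⟨j, hj⟩ := exists_pow_lt_of_lt_one (norm_pos_iff.2 hp0) h1
  refine ⟨j, fun x hx => le_trans ?_ ((pow_le_pow_of_le_one h0.le h1.le j.le_succ).trans hj.le)⟩
  clear hj
  induction j with
  | zero => simpa using Or.inr hx
  | succ j ih =>
    obtain ⟨c, hc⟩ := Log.exists_succ_val p j x
    have h2 : ‖((p ^ j • x).val : K)‖ ≤ max ‖(p : K)‖ r :=
      ih.trans (pow_le_of_le_one h0.le h1.le j.succ_ne_zero)
    rw [hc]
    push_cast
    refine (IsUltrametricDist.norm_add_le_max _ _).trans (max_le ?_ ?_)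
    · rw [norm_mul, pow_succ']
      exact mul_le_mul (le_max_left _ _) ih (norm_nonneg _) h0.le
    · rw [norm_mul, norm_pow, pow_two, pow_succ']
      exact (mul_le_of_le_one_right (by positivity) (norm_O_le c)).trans
        (mul_le_mul h2 ih (norm_nonneg _) h0.le)

theorem tendsto_lg (x : Pt F φ) :
    Filter.Tendsto (fun k : ℕ => ((p ^ k • x).val : K) / (p : K) ^ k) Filter.atTop
      (nhds (lg p x)) := by
  obtain ⟨j, hj⟩ := exists_nsmul_small (F := F) (φ := φ) hp0 hp1 (mem_rad_O.1 x.mem)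
  obtain ⟨a, ha⟩ := exists_isEll (p := p) (mem_rad_O.2 (by simpa using hp1)) (p ^ j • x)
    (mem_span_O.2 (by simpa using hj x le_rfl))
  refine tendsto_nhds_limUnder ⟨p * (a : K) / (p : K) ^ j, ?_⟩
  rw [← Filter.tendsto_add_atTop_iff_nat j]
  refine ((ha.tendsto hp0 hp1).div_const ((p : K) ^ j)).congr fun k => ?_
  rw [smul_smul, ← pow_add, div_div, ← pow_add]

theorem Log.tendsto_val (x : Pt F φ) :
    Filter.Tendsto (fun k : ℕ => ((p ^ k • x).val : K)) Filter.atTop (nhds 0) := by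
  have h := (tendsto_lg hp0 hp1 x).mul (tendsto_pow_atTop_nhds_zero_of_norm_lt_one hp1)
  rw [mul_zero] at h
  exact h.congr fun k => div_mul_cancel₀ _ (pow_ne_zero k hp0)

theorem Log.first_order (x : Pt F φ) (u : ℕ → K) (e : K) (A : ℝ)
    (h : ∀ᶠ k in Filter.atTop, ‖u k - e * (p ^ k • x).val‖ ≤ A * ‖((p ^ k • x).val : K)‖ ^ 2) :
    Filter.Tendsto (fun k : ℕ => u k / (p : K) ^ k) Filter.atTop (nhds (e * lg p x)) := by
  have h1 := (((tendsto_lg hp0 hp1 x).mul (Log.tendsto_val hp0 hp1 x)).norm).const_mul A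
  rw [mul_zero, norm_zero, mul_zero] at h1
  have h2 : Filter.Tendsto (fun k : ℕ => (u k - e * (p ^ k • x).val) / (p : K) ^ k) Filter.atTop
      (nhds 0) := by
    refine squeeze_zero_norm' (h.mono fun k hk => ?_) h1
    rw [norm_div, norm_mul, norm_div, div_mul_eq_mul_div, ← mul_div_assoc, ← pow_two]
    exact div_le_div_of_nonneg_right hk (norm_nonneg _)
  have h3 := h2.add ((tendsto_lg hp0 hp1 x).const_mul e)
  rw [zero_add] at h3
  exact h3.congr fun k => by ring

theorem lg_add [F.IsComm] (x y : Pt F φ) : lg p (x + y) = lg p x + lg p y := by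
  have h : Filter.Tendsto (fun k : ℕ => ((p ^ k • (x + y)).val : K) / (p : K) ^ k -
      (((p ^ k • x).val : K) / (p : K) ^ k + ((p ^ k • y).val : K) / (p : K) ^ k)) Filter.atTop
      (nhds 0) := by
    have h1 := ((tendsto_lg hp0 hp1 x).mul (Log.tendsto_val hp0 hp1 y)).norm
    rw [mul_zero, norm_zero] at h1
    refine squeeze_zero_norm (fun k => ?_) h1
    obtain ⟨c, hc⟩ := Pt.exists_add_val (p ^ k • x) (p ^ k • y)
    have e : ((p ^ k • (x + y)).val : K) / (p : K) ^ k -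
        (((p ^ k • x).val : K) / (p : K) ^ k + ((p ^ k • y).val : K) / (p : K) ^ k) =
        ((p ^ k • x).val : K) / (p : K) ^ k * ((p ^ k • y).val : K) * c := by
      rw [nsmul_add, hc]
      push_cast
      ring
    rw [e, norm_mul]
    exact mul_le_of_le_one_right (norm_nonneg _) (norm_O_le c)
  exact sub_eq_zero.1 (tendsto_nhds_unique ((tendsto_lg hp0 hp1 (x + y)).sub
    ((tendsto_lg hp0 hp1 x).add (tendsto_lg hp0 hp1 y))) h)

theorem lg_sub [F.IsComm] (x y : Pt F φ) : lg p (x - y) = lg p x - lg p y := by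
  have h := lg_add hp0 hp1 (x - y) y
  rw [sub_add_cancel] at h
  rw [h, add_sub_cancel_right]

theorem lg_zero : lg p (0 : Pt F φ) = 0 := by
  simpa using IsEll.lg_eq hp0 hp1 (isEll_zero (F := F) (φ := φ) (p := p))

theorem lg_nsmul [F.IsComm] (m : ℕ) (x : Pt F φ) : lg p (m • x) = m * lg p x := by
  induction m with
  | zero => simpa using lg_zero hp0 hp1
  | succ m ih =>
    rw [succ_nsmul, lg_add hp0 hp1, ih]
    push_cast
    ring

theorem lg_sum [F.IsComm] {ι : Type} (s : Finset ι) (x : ι → Pt F φ) :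
    lg p (∑ i ∈ s, x i) = ∑ i ∈ s, lg p (x i) := by
  induction s using Finset.cons_induction with
  | empty => simpa using lg_zero hp0 hp1
  | cons a s ha ih => rw [sum_cons, sum_cons, lg_add hp0 hp1, ih]

theorem norm_lg_sub_le (x : Pt F φ) (hx : ‖(x.val : K)‖ ≤ ‖(p : K)‖) :
    ‖lg p x - x.val‖ ≤ ‖(x.val : K)‖ ^ 2 / ‖(p : K)‖ := by
  have h0 : 0 < ‖(p : K)‖ := norm_pos_iff.2 hp0
  have hB : ‖(x.val : K)‖ ^ 2 / ‖(p : K)‖ ≤ ‖(x.val : K)‖ := by
    rw [div_le_iff₀ h0, pow_two]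
    exact mul_le_mul_of_nonneg_left hx (norm_nonneg _)
  refine le_of_tendsto' ((tendsto_lg hp0 hp1 x).sub_const (x.val : K)).norm fun k => ?_
  induction k with
  | zero =>
    simp only [pow_zero, one_smul, div_one, sub_self, norm_zero]
    positivity
  | succ k ih =>
    obtain ⟨c, hc⟩ := Log.exists_succ_val p k x
    have h1 : ‖((p ^ k • x).val : K) / (p : K) ^ k‖ ≤ ‖(x.val : K)‖ := by
      have := IsUltrametricDist.norm_add_le_max
        (((p ^ k • x).val : K) / (p : K) ^ k - x.val) (x.val : K)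
      rw [sub_add_cancel] at this
      exact this.trans (max_le (ih.trans hB) le_rfl)
    have e : ((p ^ (k + 1) • x).val : K) / (p : K) ^ (k + 1) - x.val =
        (((p ^ k • x).val : K) / (p : K) ^ k - x.val) +
          (((p ^ k • x).val : K) / (p : K) ^ k) ^ 2 / p * ((p : K) ^ k * c) := by
      rw [hc]
      push_cast
      field_simp
      ring
    rw [e]
    refine (IsUltrametricDist.norm_add_le_max _ _).trans (max_le ih ?_)
    rw [norm_mul, norm_mul, norm_div, norm_pow, norm_pow]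
    refine (mul_le_of_le_one_right (by positivity)
      (mul_le_one₀ (pow_le_one₀ h0.le hp1.le) (norm_nonneg _) (norm_O_le c))).trans ?_
    gcongr

theorem exists_lg_bound [F.IsComm] {r : ℝ} (hr : r < 1) :
    ∃ A : ℝ, ∀ x : Pt F φ, ‖(x.val : K)‖ ≤ r → ‖lg p x‖ ≤ A := by
  have h0 : 0 < ‖(p : K)‖ := norm_pos_iff.2 hp0
  obtain ⟨j, hj⟩ := exists_nsmul_small (F := F) (φ := φ) hp0 hp1 hr
  refine ⟨2 / ‖(p : K)‖ ^ j, fun x hx => ?_⟩
  have h1 := norm_lg_sub_le hp0 hp1 _ (hj x hx)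
  have h2 : ‖((p ^ j • x).val : K)‖ ^ 2 / ‖(p : K)‖ ≤ 1 := by
    rw [div_le_one h0, pow_two]
    exact (mul_le_of_le_one_right (norm_nonneg _) (norm_O_le _)).trans (hj x hx)
  have h3 := norm_sub_norm_le (lg p (p ^ j • x)) ((p ^ j • x).val : K)
  have h4 := norm_O_le (p ^ j • x).val
  rw [le_div_iff₀ (by positivity), mul_comm, ← norm_pow, ← norm_mul, ← Nat.cast_pow,
    ← lg_nsmul hp0 hp1]
  linarith

theorem lg_hom {R' : Type} [CommRing R'] {G : FormalGroup R'} {φ' : R' →+* O K}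
    (f : Pt F φ →+ Pt G φ') (g : PowerSeries (O K)) (h0 : PowerSeries.constantCoeff g = 0)
    (hf : ∀ x, (f x).val = ev1 (RingHom.id _) x.val g) (x : Pt F φ) :
    lg p (f x) = (PowerSeries.coeff 1 g : O K) * lg p x := by
  refine tendsto_nhds_unique (tendsto_lg hp0 hp1 (f x))
    (Log.first_order hp0 hp1 x _ _ 1 (Filter.Eventually.of_forall fun k => ?_))
  obtain ⟨c, hc⟩ := ev1_eq_lin (RingHom.id _) (p ^ k • x).mem g
  rw [← map_nsmul, hf, hc, h0]
  simp only [RingHom.id_apply, zero_add, one_mul]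
  push_cast
  rw [add_sub_cancel_left, norm_mul, norm_pow]
  exact mul_le_of_le_one_right (by positivity) (norm_O_le c)

/-- An additive function with a first order expansion is a multiple of the logarithm. -/
theorem eq_mul_lg (Φ : Pt F φ →+ K) (e : K) (A r : ℝ) (hr : 0 < r)
    (h : ∀ x : Pt F φ, ‖(x.val : K)‖ ≤ r → ‖Φ x - e * x.val‖ ≤ A * ‖(x.val : K)‖ ^ 2)
    (x : Pt F φ) : Φ x = e * lg p x := by
  have h1 := (Log.tendsto_val hp0 hp1 x).norm
  rw [norm_zero] at h1
  refine tendsto_nhds_unique ?_ (Log.first_order hp0 hp1 x (fun k => Φ (p ^ k • x)) e A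
    ((h1.eventually (ge_mem_nhds hr)).mono fun k hk => h _ hk))
  refine tendsto_const_nhds.congr fun k => ?_
  rw [map_nsmul, nsmul_eq_mul, Nat.cast_pow, mul_div_cancel_left₀ _ (pow_ne_zero k hp0)]

end lg

end Vale.Agent.P217
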