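import Vale.Agent.P217.Cocycle
import Vale.Agent.P217.Log

namespace Vale.Agent.P217

open Finset MvPowerSeries

variable {S : Type} [CommRing S] [Adic S] {p n : ℕ} [Fact p.Prime]

namespace Decomp

theorem mem_span_of_coeff {τ : Type} [Finite τ] {c : S} {f : MvPowerSeries τ S}
    (hf : ∀ d, coeff d f ∈ Ideal.span {c}) : f ∈ Ideal.span {(C c : MvPowerSeries τ S)} := by
  rw [← ev_C_X f]
  refine ev_mem_span_of_coeff (C : S →+* MvPowerSeries τ S) X_mem_rad fun d => ?_
  obtain ⟨a, ha⟩ := Ideal.mem_span_singleton'.1 (hf d)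
  exact Ideal.mem_span_singleton'.2 ⟨C a, by rw [← map_mul, ha]⟩

omit [Fact p.Prime] in
theorem p_rad {τ : Type} [Finite τ] (hp : (p : S) ∈ rad S) :
    (p : MvPowerSeries τ S) ∈ rad (MvPowerSeries τ S) := by
  rw [← map_natCast (C : S →+* MvPowerSeries τ S)]
  exact C_mem_rad hp

omit [Adic S] [Fact p.Prime] in
theorem tf_ps {τ : Type} (htf : ∀ a : S, (p : S) * a = 0 → a = 0) (a : MvPowerSeries τ S)
    (h : (p : MvPowerSeries τ S) * a = 0) : a = 0 := by
  ext d
  refine htf _ ?_
  have := congrArg (coeff d) h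
  rwa [← map_natCast (C : S →+* MvPowerSeries τ S), coeff_C_mul] at this

theorem eq_zero_of_seq {c : S} (hc : c ∈ rad S) (r : ℕ → S) (h : ∀ k, r k = c * r (k + 1)) :
    r 0 = 0 := by
  have h1 : ∀ k, r 0 = c ^ k * r k := fun k => by
    induction k with
    | zero => simp
    | succ k ih => rw [ih, h k, pow_succ, mul_assoc]
  refine Adic.haus _ fun m => ?_
  obtain ⟨N, hN⟩ := exists_pow_mem hc m
  rw [h1 N]
  exact Ideal.mul_mem_right _ _ hN

section
variable {B B' : Type} [CommRing B] [CommRing B'] {F G : FormalGroup B}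

theorem coeff_mem_of_homMod {𝔠 : Ideal B} {β : PowerSeries B} (h : IsHomMod 𝔠 F G β)
    (d : Fin 2 →₀ ℕ) : coeff d (β.subst F.toPowerSeries - G.toPowerSeries.subst
      ![β.subst (X 0 : MvPowerSeries (Fin 2) B), β.subst (X 1 : MvPowerSeries (Fin 2) B)]) ∈ 𝔠 := by
  rw [← Ideal.Quotient.eq_zero_iff_mem, ← coeff_map, map_sub,
    PowerSeries.map_subst (PowerSeries.HasSubst.of_constantCoeff_zero F.zero_constantCoeff),
    MvPowerSeries.map_subst
      (Ideals.has_two (cc_psubst (by simp) h.zero) (cc_psubst (by simp) h.zero)),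
    comp2, PowerSeries.map_subst (PowerSeries.HasSubst.X _),
    PowerSeries.map_subst (PowerSeries.HasSubst.X _), map_X, map_X]
  exact (congrArg (coeff d) (sub_eq_zero.2 h.hom.2)).trans (map_zero _)

theorem cocycle_zero : IsCocycle F 0 := by
  let _ := Adic.discrete B
  exact isCocycle_of_pt (by simp) (fun x y => by simp) fun x y z => by simp

theorem cocycle_lin {E E' : MvPowerSeries (Fin 2) B} (h : IsCocycle F E) (h' : IsCocycle F E')
    (c : B) : IsCocycle F (E + C c * E') := by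
  let _ := Adic.discrete B
  refine isCocycle_of_pt (by simp [h.zero, h'.zero]) (fun x y => ?_) fun x y z => ?_
  · simp only [map_add, map_mul, ev_C]
    rw [h.ev_symm C x.mem y.mem, h'.ev_symm C x.mem y.mem]
  · simp only [map_add, map_mul, ev_C]
    linear_combination h.ev_cocycle C x y z + C c * h'.ev_cocycle C x y z

theorem cocycle_sub {E E' : MvPowerSeries (Fin 2) B} (h : IsCocycle F E) (h' : IsCocycle F E') :
    IsCocycle F (E - E') := by
  have := cocycle_lin h h' (-1)
  rwa [map_neg, map_one, neg_one_mul, ← sub_eq_add_neg] at this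

theorem cocycle_sum (s : Finset ℕ) (c : ℕ → B) {γ : ℕ → MvPowerSeries (Fin 2) B}
    (h : ∀ j ∈ s, IsCocycle F (γ j)) : IsCocycle F (∑ j ∈ s, C (c j) * γ j) := by
  induction s using Finset.induction_on with
  | empty => exact cocycle_zero
  | insert a s ha ih =>
    rw [sum_insert ha, add_comm]
    exact cocycle_lin (ih fun j hj => h j (mem_insert_of_mem hj)) (h a (mem_insert_self _ _)) _

omit [Fact p.Prime] in
theorem cocycle_of_mul (htf : ∀ a : B, (p : B) * a = 0 → a = 0) {E : MvPowerSeries (Fin 2) B}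
    (h : IsCocycle F (p * E)) : IsCocycle F E := by
  let _ := Adic.discrete B
  refine isCocycle_of_pt (htf _ (by simpa using h.zero)) (fun x y => ?_) fun x y z => ?_
  · refine sub_eq_zero.1 (tf_ps htf _ ?_)
    have := h.ev_symm C x.mem y.mem
    simp only [map_mul, map_natCast] at this
    linear_combination this
  · refine sub_eq_zero.1 (tf_ps htf _ ?_)
    have := h.ev_cocycle C x y z
    simp only [map_mul, map_natCast] at this
    linear_combination this

theorem cocycle_map {E : MvPowerSeries (Fin 2) B} (h : IsCocycle F E) (χ : B →+* B') :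
    IsCocycle (F.map χ) (MvPowerSeries.map χ E) := by
  let _ := Adic.discrete B'
  refine isCocycle_of_pt (by rw [constantCoeff_map, h.zero, map_zero]) (fun x y => ?_)
    fun x y z => ?_
  · rw [ev_map _ _ (rad2 x.mem y.mem), ev_map _ _ (rad2 y.mem x.mem)]
    exact h.ev_symm _ x.mem y.mem
  · rw [ev_map _ _ (rad2 x.mem y.mem), ev_map _ _ (rad2 y.mem z.mem),
      ev_map _ _ (rad2 (x + y).mem z.mem), ev_map _ _ (rad2 x.mem (y + z).mem)]
    let t := Pt.tr (fg_map_map F χ (C : B' →+* MvPowerSeries (Fin 3) B'))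
    have := h.ev_cocycle _ (t x) (t y) (t z)
    rwa [← map_add, ← map_add] at this

theorem pSum_map (p : ℕ) (E : MvPowerSeries (Fin 2) B) (χ : B →+* B') :
    PowerSeries.map χ (pSum F p E) = pSum (F.map χ) p (MvPowerSeries.map χ E) := by
  rw [pSum, pSum, map_sum]
  refine sum_congr rfl fun i _ => ?_
  refine (MvPowerSeries.map_subst (Ideals.has_two (Ideals.cc_mul F i) PowerSeries.constantCoeff_X) E).trans ?_
  rw [comp2, Ideals.map_mul_series]
  exact congrArg (fun a => subst ![_, a] _) (PowerSeries.map_X χ)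

theorem cobound_map (b : PowerSeries B) (χ : B →+* B') :
    MvPowerSeries.map χ (cobound F b) = cobound (F.map χ) (PowerSeries.map χ b) := by
  rw [cobound, cobound, map_sub, map_sub,
    PowerSeries.map_subst (PowerSeries.HasSubst.of_constantCoeff_zero F.zero_constantCoeff),
    PowerSeries.map_subst (PowerSeries.HasSubst.X _),
    PowerSeries.map_subst (PowerSeries.HasSubst.X _), map_X, map_X]
  rfl

theorem pSum_sub_sum (p : ℕ) (E : MvPowerSeries (Fin 2) B) (s : Finset ℕ) (c : ℕ → B)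
    (γ : ℕ → MvPowerSeries (Fin 2) B) : pSum F p (E - ∑ j ∈ s, C (c j) * γ j) =
      pSum F p E - ∑ j ∈ s, PowerSeries.C (c j) * pSum F p (γ j) := by
  let _ := Adic.discrete B
  let u : Pt F (PowerSeries.C : B →+* PowerSeries B) := ⟨PowerSeries.X, pX_mem_rad⟩
  have h : ∀ E, pSum F p E = ∑ i ∈ range p, ev PowerSeries.C ![(i • u).val, u.val] E := fun E => by
    rw [← ev_pSum, ev1_C_X]
  simp only [h, map_sub, map_sum, map_mul, ev_C, sum_sub_distrib, mul_sum]
  rw [sum_comm]

theorem cobound_lin (p : ℕ) (b t : PowerSeries B) :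
    cobound F (b + p * t) = cobound F b + p * cobound F t := by
  let _ := Adic.discrete B
  simp only [cobound, psubst_eq_ev1 F.zero_constantCoeff, psubst_eq_ev1 (constantCoeff_X _),
    map_add, map_mul, map_natCast]
  ring

end

end Decomp

open Decomp

/-- The cocycle attached to a homomorphism modulo `p`. -/
theorem exists_ell_cocycle (hp : (p : S) ∈ rad S) (htf : ∀ a : S, (p : S) * a = 0 → a = 0)
    (F G : FormalGroup S) [F.IsComm] [G.IsComm] (β : PowerSeries S)
    (hβ : IsHomMod (Ideal.span {(p : S)}) F G β) :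
    ∃ E : MvPowerSeries (Fin 2) S, IsCocycle F E ∧
      ∀ (T : Type) [CommRing T] [Adic T] (ψ : S →+* T), (∀ s ∈ rad S, ψ s ∈ rad T) →
        ∀ x y : Pt F ψ,
        IsEll p (Pt.app G ψ ψ β hβ.zero (x + y) - Pt.app G ψ ψ β hβ.zero x -
          Pt.app G ψ ψ β hβ.zero y) (ev ψ ![x.val, y.val] E) := by
  let u : Fin 2 → Pt F (C : S →+* MvPowerSeries (Fin 2) S) := Pt.univ F
  have h0 := hβ.zero
  obtain ⟨E, hE⟩ := exists_isEll (p_rad hp) (Pt.app G C C β h0 (u 0 + u 1) -
      Pt.app G C C β h0 (u 0) - Pt.app G C C β h0 (u 1)) (by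
    rw [sub_sub, Pt.sub_val_mem_iff, ← map_natCast (C : S →+* MvPowerSeries (Fin 2) S)]
    refine mem_span_of_coeff fun d => ?_
    have := coeff_mem_of_homMod hβ d
    rw [psubst_eq_ev1 F.zero_constantCoeff,
      subst_eq_ev (cc2 (cc_psubst (by simp) h0) (cc_psubst (by simp) h0)),
      psubst_eq_ev1 (by simp), psubst_eq_ev1 (by simp)] at this
    rw [Pt.app_val, Pt.univ_add_val]
    exact this)
  have key : ∀ (T : Type) [CommRing T] [Adic T] (ψ : S →+* T), (∀ s ∈ rad S, ψ s ∈ rad T) →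
      ∀ x y : Pt F ψ, IsEll p (Pt.app G ψ ψ β h0 (x + y) - Pt.app G ψ ψ β h0 x -
        Pt.app G ψ ψ β h0 y) (ev ψ ![x.val, y.val] E) := by
    intro T _ _ ψ hψ x y
    have h2 := rad2 x.mem y.mem
    have hr := ev_rad_of ψ hψ h2
    have ha : ∀ w, Pt.map G _ hr (ev_comp_C ψ _) (Pt.app G C C β h0 w) =
        Pt.app G ψ ψ β h0 (Pt.map F _ hr (ev_comp_C ψ _) w) := fun w => Pt.ext (by
      rw [Pt.map_val, Pt.app_val, hom_ev1 _ _ w.mem (hr _ w.mem), ev_comp_C]; rfl)
    have e0 : Pt.map F _ hr (ev_comp_C ψ _) (u 0) = x := Pt.ext (ev_X ψ h2 0)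
    have e1 : Pt.map F _ hr (ev_comp_C ψ _) (u 1) = y := Pt.ext (ev_X ψ h2 1)
    have := hE.map (Pt.map G _ hr (ev_comp_C ψ _)) _ fun _ => rfl
    rwa [map_sub, map_sub, ha, ha, ha, map_add, e0, e1] at this
  refine ⟨E, isCocycle_of_pt ?_ (fun x y => ?_) fun x y z => ?_, key⟩
  · have := key S (RingHom.id S) (fun _ h => h) 0 0
    have e : ![(0 : Pt F (RingHom.id S)).val, (0 : Pt F (RingHom.id S)).val] = fun _ => 0 := by
      funext i; fin_cases i <;> rfl
    have z : Pt.app G (RingHom.id S) (RingHom.id S) β h0 (0 : Pt F (RingHom.id S)) = 0 :=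
      Pt.ext (by simp [ev1_zero, h0])
    rw [e, ev_zero, add_zero, z, sub_zero, sub_zero] at this
    exact this.unique hp htf isEll_zero
  · have h1 := key _ C (fun _ => C_mem_rad) y x
    rw [add_comm, sub_right_comm] at h1
    exact (key _ C (fun _ => C_mem_rad) x y).unique (p_rad hp) (tf_ps htf) h1
  · have h1 := (key _ C (fun _ => C_mem_rad) x y).add (key _ C (fun _ => C_mem_rad) (x + y) z)
    have h2 := (key _ C (fun _ => C_mem_rad) y z).add (key _ C (fun _ => C_mem_rad) x (y + z))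
    refine h1.unique (p_rad hp) (tf_ps htf) (Eq.mpr (congrArg (fun w => IsEll p w _) ?_) h2)
    rw [add_assoc x y z]
    abel

theorem IsLT.isHomMod_pow {G : FormalGroup (Zp p)} (φ : Zp p →+* S) (j : ℕ) :
    IsHomMod (Ideal.span {(p : S)}) (G.map φ) (G.map φ) (PowerSeries.X ^ p ^ j) := by
  have hp : p.Prime := Fact.out
  refine ⟨by rw [map_pow, PowerSeries.constantCoeff_X, zero_pow (pow_pos hp.pos j).ne'], ?_⟩
  rcases subsingleton_or_nontrivial (S ⧸ Ideal.span {(p : S)}) with hS | hS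
  · exact ⟨Subsingleton.elim _ _, MvPowerSeries.ext fun _ => Subsingleton.elim _ _⟩
  have : CharP (S ⧸ Ideal.span {(p : S)}) p := (CharP.charP_iff_prime_eq_zero hp).2 (by
    rw [← map_natCast (Ideal.Quotient.mk _), Ideal.Quotient.eq_zero_iff_mem]
    exact Ideal.mem_span_singleton_self _)
  have h := isHom_frobenius p (G.map ((Ideal.Quotient.mk (Ideal.span {(p : S)})).comp φ)) j
  rw [fg_map_map, zp_hom_eq ((iterateFrobenius _ p j).comp _)
    ((Ideal.Quotient.mk (Ideal.span {(p : S)})).comp φ)] at h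
  rwa [fg_map_map, map_pow, PowerSeries.map_X]

/-- The cocycles of the Frobenius powers. -/
theorem IsLT.coeff_pSum (hp : (p : S) ∈ rad S) (htf : ∀ a : S, (p : S) * a = 0 → a = 0)
    {G : FormalGroup (Zp p)} [G.IsComm] (hG : IsLT p n G) (φ : Zp p →+* S) {j : ℕ} (hj : 1 ≤ j)
    (hjn : j < n) (E : MvPowerSeries (Fin 2) S)
    (hE : ∀ x y : Pt (G.map φ) (PowerSeries.C : S →+* PowerSeries S),
      IsEll p (Pt.app (G.map φ) PowerSeries.C PowerSeries.C _ (IsLT.isHomMod_pow (G := G) φ j).zero (x + y) -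
        Pt.app (G.map φ) PowerSeries.C PowerSeries.C _ (IsLT.isHomMod_pow (G := G) φ j).zero x -
        Pt.app (G.map φ) PowerSeries.C PowerSeries.C _ (IsLT.isHomMod_pow (G := G) φ j).zero y)
        (ev PowerSeries.C ![x.val, y.val] E))
    (i : ℕ) (hi : i < p ^ n) :
    PowerSeries.coeff i (pSum (G.map φ) p E + PowerSeries.X ^ p ^ j) ∈ Ideal.span {(p : S)} := by
  have hpp : p.Prime := Fact.out
  have htf' : ∀ a : PowerSeries S, (p : PowerSeries S) * a = 0 → a = 0 := tf_ps htf
  let x : Pt (G.map φ) (PowerSeries.C : S →+* PowerSeries S) := ⟨PowerSeries.X, pX_mem_rad⟩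
  set A : Pt (G.map φ) (PowerSeries.C : S →+* PowerSeries S) → Pt (G.map φ) PowerSeries.C :=
    Pt.app (G.map φ) PowerSeries.C PowerSeries.C _ (IsLT.isHomMod_pow (G := G) φ j).zero with hA
  have hAv : ∀ w, (A w).val = w.val ^ p ^ j := fun w => by
    rw [hA, Pt.app_val, map_pow, ev1_X _ w.mem]
  have hpv : ∀ w : Pt (G.map φ) (PowerSeries.C : S →+* PowerSeries S),
      (p • w).val = p * w.val + w.val ^ p ^ n := fun w => by
    rw [Pt.nsmul_val, Ideals.map_mul_series, ev1_map _ _ w.mem, hG.mul_p]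
    simp only [map_add, map_mul, map_pow, map_natCast, ev1_X _ w.mem]
  have h1 : ∀ m : ℕ, IsEll p (A (m • x) - m • A x)
      (∑ i ∈ range m, ev PowerSeries.C ![(i • x).val, x.val] E) := fun m => by
    induction m with
    | zero =>
      have : A 0 = 0 := Pt.ext (by rw [hAv, Pt.zero_val, zero_pow (pow_pos hpp.pos j).ne'])
      rw [zero_nsmul, zero_nsmul, this, sub_zero, sum_range_zero]
      exact isEll_zero
    | succ m ih =>
      rw [sum_range_succ, succ_nsmul, succ_nsmul]
      refine Eq.mpr (congrArg (fun w => IsEll p w _) ?_) (ih.add (hE (m • x) x))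
      abel
  have h2 := h1 p 1
  rw [← ev_pSum, ev1_C_X] at h2
  obtain ⟨r, hu, hr⟩ := Pt.exists_sub_val (A (p • x)) (p • A x)
  obtain ⟨v, hv⟩ := hu.exists_right_inv
  rw [hAv, hpv, hpv, hAv] at hr
  rw [hpv, hAv] at hv
  rw [pow_one, hpv] at h2
  generalize (A (p • x) - p • A x).val = d at hr h2
  obtain ⟨s, hs⟩ := Ideal.mem_span_singleton'.1 h2
  obtain ⟨w, hw⟩ : (p : PowerSeries S) ^ 2 ∣
      (p * x.val + x.val ^ p ^ n) ^ p ^ j - (x.val ^ p ^ n) ^ p ^ j :=
    (pow_dvd_pow _ (by omega)).trans (dvd_sub_pow_of_dvd_sub (by simp) j)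
  obtain ⟨q, hq⟩ : ∃ q, p ^ n = q + 3 := ⟨p ^ n - 3, by
    have h3 : 2 ^ 2 ≤ p ^ n :=
      (Nat.pow_le_pow_left hpp.two_le 2).trans (Nat.pow_le_pow_right hpp.pos (by omega))
    omega⟩
  have hd : d = (p : PowerSeries S) * (((p : PowerSeries S) * w - x.val ^ p ^ j) * v) := by
    rw [← pow_mul, mul_comm (p ^ n), pow_mul] at hw
    linear_combination (-v) * hr - d * hv + v * hw
  have hl : pSum (G.map φ) p E = ((p : PowerSeries S) * w - x.val ^ p ^ j) * v +
      (p : PowerSeries S) * ((p : PowerSeries S) ^ q *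
        (((p : PowerSeries S) * w - x.val ^ p ^ j) * v) ^ p ^ n - s) := by
    refine sub_eq_zero.1 (htf' _ (htf' _ ?_))
    rw [hd, mul_pow, hq, pow_add] at hs
    rw [hq]
    linear_combination hs
  obtain ⟨k, hk⟩ : ∃ k, p ^ j = k + 1 := ⟨p ^ j - 1, by have := pow_pos hpp.pos j; omega⟩
  have hm : pSum (G.map φ) p E + PowerSeries.X ^ p ^ j =
      PowerSeries.C (p : S) * (w * v +
        ((p : PowerSeries S) ^ q *
          (((p : PowerSeries S) * w - x.val ^ p ^ j) * v) ^ p ^ n - s) +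
        x.val ^ p ^ j * x.val ^ p ^ j * r * v) +
      PowerSeries.X ^ p ^ n * ((x.val ^ p ^ n) ^ k * x.val ^ p ^ j * r * v) := by
    have e : (x.val ^ p ^ j) ^ p ^ n = x.val ^ p ^ n * (x.val ^ p ^ n) ^ k := by
      rw [← pow_mul, mul_comm, pow_mul, hk, pow_succ']
    rw [e] at hv
    rw [hl, map_natCast]
    change _ + x.val ^ p ^ j = _ + x.val ^ p ^ n * _
    linear_combination (-x.val ^ p ^ j) * hv
  rw [hm, map_add, PowerSeries.coeff_C_mul, PowerSeries.X_pow_dvd_iff.1 (dvd_mul_right _ _) i hi,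
    add_zero]
  exact Ideal.mul_mem_right _ _ (Ideal.mem_span_singleton_self _)

theorem cocycle_decomp (hn : 0 < n) (hp : (p : S) ∈ rad S)
    (htf : ∀ a : S, (p : S) * a = 0 → a = 0) (F : FormalGroup S) [F.IsComm]
    (hF : ∀ i, PowerSeries.coeff i (mulSeries F p - PowerSeries.X ^ p ^ n) ∈ Ideal.span {(p : S)})
    (γ : ℕ → MvPowerSeries (Fin 2) S) (hγ : ∀ j, 1 ≤ j → j < n → IsCocycle F (γ j))
    (hγ' : ∀ j, 1 ≤ j → j < n → ∀ i < p ^ n,
      PowerSeries.coeff i (pSum F p (γ j) + PowerSeries.X ^ p ^ j) ∈ Ideal.span {(p : S)})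
    (E : MvPowerSeries (Fin 2) S) (hE : IsCocycle F E) :
    ∃ (c : ℕ → S) (b : PowerSeries S), PowerSeries.constantCoeff b = 0 ∧
      E = ∑ j ∈ Ico 1 n, C (c j) * γ j + cobound F b := by
  have hpp : p.Prime := Fact.out
  have step : ∀ E : {E // IsCocycle F E}, ∃ (a : ℕ → S) (b : PowerSeries S)
      (E' : {E // IsCocycle F E}), PowerSeries.constantCoeff b = 0 ∧
      E.1 = ∑ j ∈ Ico 1 n, C (a j) * γ j + cobound F b + p * E'.1 := by
    rintro ⟨E, hE⟩
    let a : ℕ → S := fun j => -PowerSeries.coeff (p ^ j) (pSum F p E)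
    let π := Ideal.Quotient.mk (Ideal.span {(p : S)})
    have h1 : IsCocycle F (E - ∑ j ∈ Ico 1 n, C (a j) * γ j) :=
      cocycle_sub hE (cocycle_sum _ _ fun j hj => hγ j (mem_Ico.1 hj).1 (mem_Ico.1 hj).2)
    obtain ⟨b, hb0, -, hb⟩ := cocycle_eq_cobound (p := p) hn (F.map π) ⊤ (fun x _ i => by
        rw [Ideals.map_mul_series, ← PowerSeries.map_X π, ← map_pow, ← map_sub,
          PowerSeries.coeff_map, Ideal.Quotient.eq_zero_iff_mem.2 (hF i), mul_zero])
      _ (cocycle_map h1 π) (fun _ => trivial) fun j hj hjn => by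
        rw [← pSum_map, PowerSeries.coeff_map, Ideal.Quotient.eq_zero_iff_mem, pSum_sub_sum]
        have h2 : ∑ i ∈ Ico 1 n, a i * PowerSeries.coeff (p ^ j) (PowerSeries.X ^ p ^ i) = a j := by
          rw [sum_eq_single j (fun i _ hi => by
            rw [PowerSeries.coeff_X_pow, if_neg fun h => hi (Nat.pow_right_injective hpp.two_le h).symm,
              mul_zero]) fun h => absurd (mem_Ico.2 ⟨hj, hjn⟩) h, PowerSeries.coeff_X_pow_self,
            mul_one]
        have h3 := neg_mem (Ideal.sum_mem _ fun i (hi : i ∈ Ico 1 n) => Ideal.mul_mem_left _ (a i)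
          (hγ' i (mem_Ico.1 hi).1 (mem_Ico.1 hi).2 (p ^ j) (Nat.pow_lt_pow_right hpp.one_lt hjn)))
        simp only [map_add, mul_add, sum_add_distrib, h2] at h3
        simp only [map_sub, map_sum, PowerSeries.coeff_C_mul]
        refine Eq.mpr (congrArg (· ∈ Ideal.span {(p : S)}) ?_) h3
        simp only [a]
        ring
    choose σ hσ using Ideal.Quotient.mk_surjective (I := Ideal.span {(p : S)})
    let b' : PowerSeries S := PowerSeries.mk fun i =>
      if i = 0 then 0 else σ (PowerSeries.coeff i b)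
    have hb1 : PowerSeries.constantCoeff b' = 0 := by
      rw [← PowerSeries.coeff_zero_eq_constantCoeff_apply, PowerSeries.coeff_mk, if_pos rfl]
    have hb2 : PowerSeries.map π b' = b := by
      ext i
      rw [PowerSeries.coeff_map, PowerSeries.coeff_mk]
      split_ifs with h
      · rw [h, map_zero, PowerSeries.coeff_zero_eq_constantCoeff_apply, hb0]
      · exact hσ _
    obtain ⟨E', hE'⟩ := Ideal.mem_span_singleton'.1 (mem_span_of_coeff (c := (p : S))
      (f := E - ∑ j ∈ Ico 1 n, C (a j) * γ j - cobound F b') fun d => by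
        rw [← Ideal.Quotient.eq_zero_iff_mem, ← coeff_map, map_sub, cobound_map, hb2, hb, sub_self,
          map_zero])
    rw [map_natCast, mul_comm] at hE'
    refine ⟨a, b', ⟨E', cocycle_of_mul htf ?_⟩, hb1, by linear_combination -hE'⟩
    rw [hE']
    exact cocycle_sub h1 (isCocycle_cobound F b' hb1)
  choose a b nxt hb he using step
  let e : ℕ → {E // IsCocycle F E} := fun k => nxt^[k] ⟨E, hE⟩
  have he' : ∀ k, e (k + 1) = nxt (e k) := fun k => Function.iterate_succ_apply' _ _ _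
  choose s hs using fun j => exists_tail hp fun k => a (e k) j
  obtain ⟨t, ht⟩ := exists_tail (S := PowerSeries S) (p_rad (τ := Unit) hp) fun k => b (e k)
  refine ⟨fun j => s j 0, t 0, eq_zero_of_seq hp (fun k => PowerSeries.constantCoeff (t k))
    fun k => by rw [ht k, map_add, hb, zero_add, map_mul, map_natCast], sub_eq_zero.1 ?_⟩
  refine eq_zero_of_seq (p_rad hp)
    (fun k => (e k).1 - (∑ j ∈ Ico 1 n, C (s j k) * γ j + cobound F (t k))) fun k => ?_
  have h1 : ∑ j ∈ Ico 1 n, C (s j k) * γ j =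
      ∑ j ∈ Ico 1 n, C (a (e k) j) * γ j +
        (p : MvPowerSeries (Fin 2) S) * ∑ j ∈ Ico 1 n, C (s j (k + 1)) * γ j := by
    rw [mul_sum, ← sum_add_distrib]
    refine sum_congr rfl fun j _ => ?_
    rw [hs j k, map_add, map_mul, map_natCast]
    ring
  rw [h1, ht k, cobound_lin, he', he (e k)]
  ring

end Vale.Agent.P217
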