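import Mathlib

namespace Vale.Agent.P217

/-- The Lubin-Tate ring `W(F_{p^n})[[u_1, ..., u_{n-1}]]`; the variable `X i` is `u_{i+1}`. -/
abbrev LTRing (p n : ℕ) [Fact p.Prime] : Type :=
  MvPowerSeries (Fin (n - 1)) (WittVector p (GaloisField p n))

/-- The height ideals `I_0 = 0` and `I_h = (p, u_1, ..., u_{h-1})`. -/
noncomputable def heightIdeal (p n : ℕ) [Fact p.Prime] (h : ℕ) : Ideal (LTRing p n) :=
  if h = 0 then ⊥ else
    Ideal.span ({(p : LTRing p n)} ∪
      {x | ∃ i : Fin (n - 1), i.val + 1 < h ∧ x = MvPowerSeries.X i})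

/-- The `m`-series `[m]_F(x)` of a formal group law: `[0] = 0`, `[m+1](x) = F([m](x), x)`. -/
noncomputable def mulSeries {R : Type} [CommRing R] (F : FormalGroup R) : ℕ → PowerSeries R
  | 0 => 0
  | m + 1 => F.toPowerSeries.subst ![mulSeries F m, PowerSeries.X]

/-- `g` is a homomorphism of formal group laws from `F` to `G`: `g(0) = 0` and
`g(F(x, y)) = G(g(x), g(y))`. -/
def IsHom {R : Type} [CommRing R] (F G : FormalGroup R) (g : PowerSeries R) : Prop :=
  PowerSeries.constantCoeff g = 0 ∧
    g.subst F.toPowerSeries =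
      G.toPowerSeries.subst
        ![g.subst (MvPowerSeries.X 0 : MvPowerSeries (Fin 2) R),
          g.subst (MvPowerSeries.X 1 : MvPowerSeries (Fin 2) R)]

/-- `F` is a universal deformation in Lubin-Tate coordinates: a commutative formal group law over
the Lubin-Tate ring with `[p](x) = x^(p^n)` modulo the maximal ideal `I_n`, and
`[p](x) = u_j x^(p^j)` modulo `I_j` and terms of higher degree, for `1 ≤ j ≤ n - 1`. -/
def IsLubinTate (p n : ℕ) [Fact p.Prime] (F : FormalGroup (LTRing p n)) : Prop :=
  F.IsComm ∧
    (∀ m : ℕ, PowerSeries.coeff m (mulSeries F p - PowerSeries.X ^ p ^ n) ∈ heightIdeal p n n) ∧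
    ∀ i : Fin (n - 1), ∀ m : ℕ, m ≤ p ^ (i.val + 1) →
      PowerSeries.coeff m (mulSeries F p -
        PowerSeries.C (MvPowerSeries.X i) * PowerSeries.X ^ p ^ (i.val + 1)) ∈
          heightIdeal p n (i.val + 1)

/-- `φ` is the automorphism of the Lubin-Tate ring given by an element of the extended Morava
stabilizer group: it acts on the coefficients through an automorphism of the residue field, and
the deformations `F` and `φ_* F` are isomorphic (they differ by a change of the marking). -/
def IsStabilizerAction (p n : ℕ) [Fact p.Prime] (F : FormalGroup (LTRing p n))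
    (φ : LTRing p n ≃+* LTRing p n) : Prop :=
  (∃ σ : GaloisField p n ≃+* GaloisField p n, ∀ w : WittVector p (GaloisField p n),
      φ (MvPowerSeries.C w) = MvPowerSeries.C (WittVector.map σ.toRingHom w)) ∧
    ∃ g : PowerSeries (LTRing p n),
      IsUnit (PowerSeries.coeff 1 g) ∧ IsHom F (F.map φ.toRingHom) g

/-- An ideal is invariant if every element of the extended stabilizer group maps it onto itself. -/
def IsInvariant (p n : ℕ) [Fact p.Prime] (F : FormalGroup (LTRing p n))
    (J : Ideal (LTRing p n)) : Prop :=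
  ∀ φ : LTRing p n ≃+* LTRing p n, IsStabilizerAction p n F φ → J.map φ.toRingHom = J

end Vale.Agent.P217
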