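import Vale.Agent.P217.Adic

/-! Evaluation of one-variable power series. -/

namespace Vale.Agent.P217

open Finset PowerSeries

section
variable {R S : Type} [CommRing R] [CommRing S] [Adic S]

/-- Evaluation of a one-variable power series at a topologically nilpotent element. -/
noncomputable def ev1 (φ : R →+* S) (a : S) : PowerSeries R →+* S := ev φ fun _ : Unit => a

theorem ev1_def (φ : R →+* S) (a : S) : ev1 φ a = ev φ fun _ : Unit => a := rfl

@[simp] theorem ev1_C (φ : R →+* S) (a : S) (r : R) : ev1 φ a (C r) = φ r := ev_C _ _ _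

theorem ev1_X (φ : R →+* S) {a : S} (ha : a ∈ rad S) : ev1 φ a X = a :=
  ev_X φ (a := fun _ : Unit => a) (fun _ => ha) ()

theorem ev1_comp_C (φ : R →+* S) (a : S) : (ev1 φ a).comp C = φ := RingHom.ext (ev1_C φ a)

theorem eq_ev1 {φ : R →+* S} {a : S} (ha : a ∈ rad S) (ψ : PowerSeries R →+* S)
    (hC : ∀ r, ψ (C r) = φ r) (hX : ψ X = a) : ψ = ev1 φ a :=
  eq_ev (fun _ => ha) ψ hC fun _ => hX

theorem hom_ev1 {T : Type} [CommRing T] [Adic T] (ψ : S →+* T) (φ : R →+* S) {a : S}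
    (ha : a ∈ rad S) (hb : ψ a ∈ rad T) (f : PowerSeries R) :
    ψ (ev1 φ a f) = ev1 (ψ.comp φ) (ψ a) f :=
  hom_ev ψ φ (fun _ => ha) (fun _ => hb) f

theorem ev1_map {R' : Type} [CommRing R'] (χ : R' →+* R) (φ : R →+* S) {a : S} (ha : a ∈ rad S)
    (f : PowerSeries R') : ev1 φ a (PowerSeries.map χ f) = ev1 (φ.comp χ) a f :=
  ev_map χ φ (fun _ => ha) f

theorem ev1_coe (φ : R →+* S) {a : S} (ha : a ∈ rad S) (P : Polynomial R) :
    ev1 φ a P = P.eval₂ φ a := by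
  induction P using Polynomial.induction_on with
  | C r => simp
  | add p q hp hq => simp [Polynomial.eval₂_add, hp, hq]
  | monomial n r _ => simp [ev1_X φ ha, Polynomial.eval₂_mul]

theorem ev1_mem_pow (φ : R →+* S) {a : S} (ha : a ∈ rad S) {𝔠 : Ideal S} (h : a ∈ 𝔠) (N : ℕ)
    {f : PowerSeries R} (hf : ∀ i < N, coeff i f = 0) : ev1 φ a f ∈ 𝔠 ^ N := by
  obtain ⟨g, rfl⟩ := X_pow_dvd_iff.2 hf
  rw [map_mul, map_pow, ev1_X φ ha]
  exact Ideal.mul_mem_right _ _ (Ideal.pow_mem_pow h N)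

theorem ev1_sub_constantCoeff_mem (φ : R →+* S) {a : S} (ha : a ∈ rad S) {𝔠 : Ideal S}
    (h : a ∈ 𝔠) (f : PowerSeries R) : ev1 φ a f - φ (constantCoeff f) ∈ 𝔠 :=
  ev_sub_constantCoeff_mem φ (fun _ => ha) (fun _ => h) f

theorem ev1_mem (φ : R →+* S) {a : S} (ha : a ∈ rad S) {𝔠 : Ideal S}
    (h : a ∈ 𝔠) {f : PowerSeries R} (hf : constantCoeff f = 0) : ev1 φ a f ∈ 𝔠 := by
  simpa [hf] using ev1_sub_constantCoeff_mem φ ha h f

theorem ev1_mem_rad (φ : R →+* S) {a : S} (ha : a ∈ rad S) {f : PowerSeries R}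
    (hf : constantCoeff f = 0) : ev1 φ a f ∈ rad S := ev1_mem φ ha ha hf

theorem ev1_zero (φ : R →+* S) (f : PowerSeries R) : ev1 φ 0 f = φ (constantCoeff f) :=
  ev_zero φ f

/-- Expansion to second order. -/
theorem ev1_eq_lin (φ : R →+* S) {a : S} (ha : a ∈ rad S) (f : PowerSeries R) :
    ∃ r, ev1 φ a f = φ (constantCoeff f) + φ (coeff 1 f) * a + a ^ 2 * r := by
  have hd : X ^ 2 ∣ f - C (constantCoeff f) - C (coeff 1 f) * X := by
    refine X_pow_dvd_iff.2 fun m hm => ?_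
    interval_cases m <;> simp [coeff_C]
  obtain ⟨g, hg⟩ := hd
  have := congrArg (ev1 φ a) hg
  simp only [map_sub, map_mul, map_pow, ev1_C, ev1_X φ ha] at this
  exact ⟨ev1 φ a g, by linear_combination this⟩

theorem ev_psubst {τ : Type} [Finite τ] (φ : R →+* S) {a : τ → S} (ha : ∀ i, a i ∈ rad S)
    {b : MvPowerSeries τ R} (hb : MvPowerSeries.constantCoeff b = 0) (f : PowerSeries R) :
    ev φ a (f.subst b) = ev1 φ (ev φ a b) f :=
  ev_subst φ ha (b := fun _ : Unit => b) (fun _ => hb) f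

theorem ev1_psubst (φ : R →+* S) {a : S} (ha : a ∈ rad S) {b : PowerSeries R}
    (hb : constantCoeff b = 0) (f : PowerSeries R) :
    ev1 φ a (f.subst b) = ev1 φ (ev1 φ a b) f :=
  ev_psubst φ (fun _ => ha) hb f

theorem ev1_subst {σ : Type} [Finite σ] (φ : R →+* S) {a : S} (ha : a ∈ rad S)
    {b : σ → PowerSeries R} (hb : ∀ i, constantCoeff (b i) = 0) (f : MvPowerSeries σ R) :
    ev1 φ a (MvPowerSeries.subst b f) = ev φ (fun i => ev1 φ a (b i)) f :=
  ev_subst φ (fun _ => ha) hb f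

theorem ev1_congr (φ : R →+* S) {a b : S} (ha : a ∈ rad S) (hb : b ∈ rad S) {𝔠 : Ideal S}
    (h : b - a ∈ 𝔠) (f : PowerSeries R) : ev1 φ b f - ev1 φ a f ∈ 𝔠 :=
  ev_congr φ (fun _ => ha) (fun _ => hb) (fun _ => h) f

theorem coeff_unit (f : PowerSeries R) (d : Unit →₀ ℕ) :
    MvPowerSeries.coeff d f = coeff (d ()) f := by
  rw [PowerSeries.coeff, ← Finsupp.unique_single d]

theorem ev1_mem_of_coeff (φ : R →+* S) {a : S} (ha : a ∈ rad S) {𝔠 : Ideal S}
    (hopen : ∃ N, (Adic.I : Ideal S) ^ N ≤ 𝔠) {f : PowerSeries R}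
    (hf : ∀ i, φ (coeff i f) ∈ 𝔠) : ev1 φ a f ∈ 𝔠 :=
  ev_mem_of_coeff φ (fun _ => ha) hopen fun d => by rw [coeff_unit]; exact hf _

theorem ev1_mem_span_of_coeff (φ : R →+* S) {a : S} (ha : a ∈ rad S) {c : S} {f : PowerSeries R}
    (hf : ∀ i, φ (coeff i f) ∈ Ideal.span {c}) : ev1 φ a f ∈ Ideal.span {c} :=
  ev_mem_span_of_coeff φ (fun _ => ha) fun d => by rw [coeff_unit]; exact hf _

theorem psubst_eq_ev1 {τ : Type} [Finite τ] {b : MvPowerSeries τ S}
    (hb : MvPowerSeries.constantCoeff b = 0) (f : PowerSeries S) :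
    f.subst b = ev1 MvPowerSeries.C b f :=
  subst_eq_ev (b := fun _ : Unit => b) (fun _ => hb) f

theorem psubst_eq_ev1' {b : PowerSeries S} (hb : constantCoeff b = 0) (f : PowerSeries S) :
    f.subst b = ev1 C b f := psubst_eq_ev1 hb f

theorem pX_mem_rad : (X : PowerSeries S) ∈ rad (PowerSeries S) := X_mem_rad ()

theorem mem_rad_ps1 {f : PowerSeries S} : f ∈ rad (PowerSeries S) ↔ constantCoeff f ∈ rad S :=
  mem_rad_ps

theorem mem_I_pow_ps1 {N : ℕ} {f : PowerSeries S} :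
    f ∈ (Adic.I : Ideal (PowerSeries S)) ^ N ↔ ∀ i, coeff i f ∈ (Adic.I : Ideal S) ^ (N - i) := by
  rw [mem_I_pow_ps]
  constructor
  · intro h i
    simpa using h (Finsupp.single () i)
  · intro h d
    rw [coeff_unit]
    have : d.degree = d () := by
      conv_lhs => rw [Finsupp.unique_single d]
      simp
    rw [this]; exact h _

theorem ev1_C_X (f : PowerSeries S) : ev1 C X f = f := ev_C_X f

theorem ev1_map_X (φ : R →+* S) (f : PowerSeries R) :
    ev1 (C.comp φ) X f = PowerSeries.map φ f := ev_map_X φ f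

/-- Translation of a series. -/
theorem ev1_shift (φ : R →+* S) {a δ : S} (ha : a ∈ rad S) (hδ : δ ∈ rad S) (f : PowerSeries R) :
    ev1 (RingHom.id S) δ (ev1 (C.comp φ) (C a + X) f) = ev1 φ (a + δ) f :=
  ev_shift φ (a := fun _ : Unit => a) (δ := fun _ => δ) (fun _ => ha) (fun _ => hδ) f

theorem constantCoeff_ev1_shift (φ : R →+* S) {a : S} (ha : a ∈ rad S) (f : PowerSeries R) :
    constantCoeff (ev1 (C.comp φ) (C a + X) f) = ev1 φ a f :=
  constantCoeff_ev_shift φ (a := fun _ : Unit => a) (fun _ => ha) f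

theorem coeff_one_shift_sub_mem (φ : R →+* S) {a : S} (ha : a ∈ rad S) {𝔠 : Ideal S} (h : a ∈ 𝔠)
    (f : PowerSeries R) : coeff 1 (ev1 (C.comp φ) (C a + X) f) - φ (coeff 1 f) ∈ 𝔠 := by
  have h1 := ev1_congr (C.comp φ) (a := X) (b := C a + X) pX_mem_rad
    (add_mem (C_mem_rad ha) pX_mem_rad) (𝔠 := Ideal.span {C a}) (by simp) f
  rw [ev1_map_X, Ideal.mem_span_singleton'] at h1
  obtain ⟨g, hg⟩ := h1
  have := congrArg (coeff 1) hg
  rw [map_sub, coeff_map, coeff_mul_C] at this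
  rw [← this]
  exact Ideal.mul_mem_left _ _ h

/-- Difference quotients. -/
theorem ev1_sub_eq (φ : R →+* S) {a b : S} (ha : a ∈ rad S) (hb : b ∈ rad S) {𝔠 : Ideal S}
    (ha' : a ∈ 𝔠) (hb' : b ∈ 𝔠) (f : PowerSeries R) :
    ∃ u, ev1 φ b f - ev1 φ a f = (b - a) * u ∧ u - φ (coeff 1 f) ∈ 𝔠 := by
  obtain ⟨r, hr⟩ := ev1_eq_lin (RingHom.id S) (sub_mem hb ha) (ev1 (C.comp φ) (C a + X) f)
  rw [ev1_shift φ ha (sub_mem hb ha), add_sub_cancel, constantCoeff_ev1_shift φ ha] at hr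
  refine ⟨coeff 1 (ev1 (C.comp φ) (C a + X) f) + (b - a) * r, ?_, ?_⟩
  · rw [hr]; simp only [RingHom.id_apply]; ring
  · have := add_mem (coeff_one_shift_sub_mem φ ha ha' f) (Ideal.mul_mem_right r _ (sub_mem hb' ha'))
    rwa [sub_add_eq_add_sub] at this

theorem ev1_injective (φ : R →+* S) {a b : S} (ha : a ∈ rad S) (hb : b ∈ rad S)
    {f : PowerSeries R} (hf : IsUnit (φ (coeff 1 f))) (h : ev1 φ a f = ev1 φ b f) : a = b := by
  obtain ⟨u, hu, hu'⟩ := ev1_sub_eq φ ha hb ha hb f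
  rw [h, sub_self] at hu
  exact (sub_eq_zero.1 ((isUnit_of_sub_mem hf hu').mul_left_eq_zero.1 hu.symm)).symm

/-- Solving `f(y) = b`; the solution lies in every ideal containing `b - f(0)`. -/
theorem exists_root (φ : R →+* S) {f : PowerSeries R} (hf : IsUnit (φ (coeff 1 f))) {b : S}
    (hb : b - φ (constantCoeff f) ∈ rad S) :
    ∃ y ∈ rad S, ev1 φ y f = b ∧ y ∈ Ideal.span {b - φ (constantCoeff f)} := by
  set g : PowerSeries S := PowerSeries.map φ (f - C (constantCoeff f)) with hg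
  have g0 : constantCoeff g = 0 := by
    rw [hg, ← coeff_zero_eq_constantCoeff_apply, coeff_map]; simp
  have g1 : IsUnit (coeff 1 g) := by simpa [hg, coeff_C] using hf
  have hi := constantCoeff_substInvOfIsUnit g g1
  have hy := ev1_mem_rad (RingHom.id S) hb hi
  refine ⟨_, hy, ?_, ev1_mem _ hb (Ideal.mem_span_singleton_self _) hi⟩
  have := ev1_psubst (RingHom.id S) hb hi g
  rw [subst_substInvOfIsUnit_right g g0 g1, ev1_X _ hb] at this
  generalize ev1 (RingHom.id S) (b - φ (constantCoeff f)) (g.substInvOfIsUnit g1) = y at this hy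
  rw [hg, ev1_map _ _ hy, map_sub, ev1_C] at this
  simp only [RingHom.id_comp] at this
  linear_combination -this

end

end Vale.Agent.P217
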