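import Vale.Agent.P217.ExistsB

/-! Existence of the universal deformation in Lubin-Tate coordinates. -/

namespace Vale.Agent.P217

open Finset

namespace Exists

/-- Killing the first `j` variables. -/
noncomputable def kill (N j : ℕ) (R : Type) [CommRing R] :
    MvPolynomial (Fin N) R →+* MvPolynomial (Fin N) R :=
  (MvPolynomial.aeval fun i : Fin N =>
    if i.val < j then (0 : MvPolynomial (Fin N) R) else MvPolynomial.X i).toRingHom

theorem kill_X (N j : ℕ) (R : Type) [CommRing R] (i : Fin N) :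
    kill N j R (MvPolynomial.X i) = if i.val < j then 0 else MvPolynomial.X i :=
  MvPolynomial.aeval_X _ _

theorem kill_C (N j : ℕ) (R : Type) [CommRing R] (c : R) :
    kill N j R (MvPolynomial.C c) = MvPolynomial.C c :=
  MvPolynomial.aeval_C _ _

theorem kill_map (N j : ℕ) (x : MvPolynomial (Fin N) ℤ) :
    kill N j ℚ (MvPolynomial.map (Int.castRingHom ℚ) x) =
      MvPolynomial.map (Int.castRingHom ℚ) (kill N j ℤ x) := by
  refine RingHom.congr_fun (f := (kill N j ℚ).comp (MvPolynomial.map (Int.castRingHom ℚ)))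
    (g := (MvPolynomial.map (Int.castRingHom ℚ)).comp (kill N j ℤ))
    (MvPolynomial.ringHom_ext' (RingHom.ext_int _ _) fun i => ?_) x
  simp only [RingHom.comp_apply, MvPolynomial.map_X, kill_X]
  split_ifs <;> simp

theorem kill_expand (N j : ℕ) {q : ℕ} (hq : q ≠ 0) (x : MvPolynomial (Fin N) ℚ) :
    kill N j ℚ (MvPolynomial.expand q x) = MvPolynomial.expand q (kill N j ℚ x) := by
  induction x using MvPolynomial.induction_on with
  | C c => rw [MvPolynomial.expand_C, kill_C, MvPolynomial.expand_C]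
  | add x y hx hy => rw [map_add, map_add, map_add, map_add, hx, hy]
  | mul_X x i hx =>
    rw [map_mul, map_mul, map_mul, map_mul, hx, MvPolynomial.expand_X, map_pow, kill_X]
    split_ifs <;> simp [hq]

theorem expand_kill (N q : ℕ) (x : MvPolynomial (Fin N) ℚ) :
    MvPolynomial.expand q (kill N N ℚ x) = kill N N ℚ x := by
  induction x using MvPolynomial.induction_on with
  | C c => rw [kill_C, MvPolynomial.expand_C]
  | add x y hx hy => rw [map_add, map_add, hx, hy]
  | mul_X x i hx => rw [map_mul, kill_X, if_pos i.2, mul_zero, map_zero]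

theorem expand_lift (N p i : ℕ) [Fact p.Prime] (x : MvPolynomial (Fin N) ℤ) :
    ∃ c : MvPolynomial (Fin N) ℤ, MvPolynomial.expand (p ^ i) (MvPolynomial.map (Int.castRingHom ℚ) x) =
      MvPolynomial.map (Int.castRingHom ℚ) (x ^ p ^ i + (p : MvPolynomial (Fin N) ℤ) * c) := by
  have h : MvPolynomial.C (p : ℤ) ∣ MvPolynomial.expand (p ^ i) x - x ^ p ^ i := by
    rw [MvPolynomial.C_dvd_iff_zmod, map_sub, map_pow, MvPolynomial.map_expand, sub_eq_zero]
    induction i with
    | zero => simp
    | succ i ih => rw [pow_succ', MvPolynomial.expand_mul, ih, MvPolynomial.expand_zmod,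
        ← pow_mul, mul_comm]
  obtain ⟨c, hc⟩ := h
  refine ⟨c, ?_⟩
  rw [← MvPolynomial.map_expand, sub_eq_iff_eq_add'.1 hc, map_natCast]

variable (p n : ℕ) [Fact p.Prime]

/-- The map to the Lubin-Tate ring. -/
noncomputable def psi : MvPolynomial (Fin (n - 1)) ℤ →+* LTRing p n :=
  MvPolynomial.eval₂Hom (Int.castRingHom _) MvPowerSeries.X

theorem psi_X (i : Fin (n - 1)) : psi p n (MvPolynomial.X i) = MvPowerSeries.X i :=
  MvPolynomial.eval₂Hom_X' _ _ _

theorem p_mem {h : ℕ} (hh : h ≠ 0) : (p : LTRing p n) ∈ heightIdeal p n h := by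
  rw [heightIdeal, if_neg hh]
  exact Ideal.subset_span (Or.inl rfl)

theorem X_mem {h : ℕ} (i : Fin (n - 1)) (hh : i.val + 1 < h) :
    MvPowerSeries.X i ∈ heightIdeal p n h := by
  rw [heightIdeal, if_neg (by omega)]
  exact Ideal.subset_span (Or.inr ⟨i, hh, rfl⟩)

theorem psi_mem (j : ℕ) (x : MvPolynomial (Fin (n - 1)) ℤ)
    (hx : (p : MvPolynomial (Fin (n - 1)) ℤ) ∣ kill (n - 1) j ℤ x) :
    psi p n x ∈ heightIdeal p n (j + 1) := by
  have h1 : (Ideal.Quotient.mk (heightIdeal p n (j + 1))).comp (psi p n) =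
      ((Ideal.Quotient.mk (heightIdeal p n (j + 1))).comp (psi p n)).comp (kill (n - 1) j ℤ) := by
    refine MvPolynomial.ringHom_ext' (RingHom.ext_int _ _) fun i => ?_
    simp only [RingHom.comp_apply, kill_X]
    split_ifs with h
    · rw [map_zero, map_zero, psi_X, Ideal.Quotient.eq_zero_iff_mem]
      exact X_mem p n i (by omega)
    · rfl
  obtain ⟨c, hc⟩ := hx
  have h2 := RingHom.congr_fun h1 x
  simp only [RingHom.comp_apply] at h2
  rw [← Ideal.Quotient.eq_zero_iff_mem, h2, hc, Ideal.Quotient.eq_zero_iff_mem, map_mul,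
    map_natCast]
  exact Ideal.mul_mem_right _ _ (p_mem p n (Nat.succ_ne_zero j))

theorem psi_nat (hn : 0 < n) (x : MvPolynomial (Fin (n - 1)) ℤ) :
    ∃ a : ℕ, psi p n x - a ∈ heightIdeal p n n := by
  induction x using MvPolynomial.induction_on with
  | C z =>
    have hp : (p : ℤ) ≠ 0 := Nat.cast_ne_zero.2 (Fact.out : p.Prime).ne_zero
    refine ⟨(z % p).toNat, ?_⟩
    rw [eq_intCast MvPolynomial.C, map_intCast, ← Int.cast_natCast,
      Int.toNat_of_nonneg (Int.emod_nonneg z hp), ← Int.cast_sub, Int.emod_def, sub_sub_cancel,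
      Int.cast_mul, Int.cast_natCast]
    exact Ideal.mul_mem_right _ _ (p_mem p n hn.ne')
  | add x y hx hy =>
    obtain ⟨a, ha⟩ := hx
    obtain ⟨b, hb⟩ := hy
    refine ⟨a + b, ?_⟩
    rw [map_add, Nat.cast_add, add_sub_add_comm]
    exact add_mem ha hb
  | mul_X x i _ =>
    refine ⟨0, ?_⟩
    rw [Nat.cast_zero, sub_zero, map_mul, psi_X]
    exact Ideal.mul_mem_left _ _ (X_mem p n i (by have := i.2; omega))

end Exists

section

variable (p n : ℕ) [Fact p.Prime]

open _root_.Vale.Agent.P217.Exists in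
theorem exists_isLubinTate (hn : 0 < n) : ∃ F : FormalGroup (LTRing p n), IsLubinTate p n F ∧
    ∀ d, ∃ a : ℕ, MvPowerSeries.coeff d F.toPowerSeries - (a : LTRing p n) ∈ heightIdeal p n n := by
  have hp : p.Prime := Fact.out
  obtain ⟨n, rfl⟩ : ∃ m, n = m + 1 := ⟨n - 1, by omega⟩
  obtain ⟨l, hl⟩ := exists_log (ι := MvPolynomial.map (σ := Fin n) (Int.castRingHom ℚ)) (p := p)
    (r := MvPolynomial.C (p : ℚ)⁻¹) (σ := fun i => (MvPolynomial.expand (p ^ (i + 1))).toRingHom)
    (n + 1) (fun i => if h : i < n then MvPolynomial.X ⟨i, h⟩ else 1)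
    (fun h => hp.one_lt.ne' (by
      have := h.map MvPolynomial.constantCoeff
      rw [map_natCast, Int.isUnit_iff_natAbs_eq, Int.natAbs_natCast] at this
      exact this))
    (MvPolynomial.map_injective _ Int.cast_injective)
    (by rw [← map_natCast MvPolynomial.C, ← map_mul,
      inv_mul_cancel₀ (Nat.cast_ne_zero.2 hp.ne_zero), map_one])
    fun i x => expand_lift n p (i + 1) x
  obtain ⟨F, h1, h2⟩ := hl.law
  have hk := fun j => hl.kill (kill_map n j)
    (fun i x => kill_expand n j (pow_ne_zero _ hp.ne_zero) x) (kill_C n j ℚ _)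
  have h3 : ∀ j, (l.map (kill n j ℚ)).subst (MvPowerSeries.map
      (MvPolynomial.map (Int.castRingHom ℚ)) (MvPowerSeries.map (kill n j ℤ) (mulSeries F p))) =
      (p : PowerSeries _) * l.map (kill n j ℚ) := fun j => by
    have h4 := congrArg (MvPowerSeries.map (kill n j ℚ)) h2
    rw [PowerSeries.map_subst ((mul_O F p).map _).hs, map_mul, map_natCast] at h4
    refine Eq.trans (congrArg (fun x => (l.map (kill n j ℚ)).subst x) ?_) h4
    exact MvPowerSeries.ext fun d => by simp only [MvPowerSeries.coeff_map, kill_map]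
  have h5 : ∀ j i, i < j → j ≤ n → kill n j ℤ
      (if h : i < n then MvPolynomial.X ⟨i, h⟩ else 1) = 0 := fun j i h h' => by
    rw [dif_pos (h.trans_le h'), kill_X, if_pos h]
  refine ⟨F.map (psi p (n + 1)), ⟨comm_map _ F h1, fun m => ?_, fun i m hm => ?_⟩,
    fun d => psi_nat p (n + 1) hn _⟩
  · have h6 := (hk n).pser_top (fun i hi => h5 n i hi le_rfl)
      (by simp only [lt_irrefl, dite_false, map_one])
      (PowerSeries.ext fun j => expand_kill n _ _) ((mul_O F p).map _) (h3 n) m
    have h7 := psi_mem p (n + 1) n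
      (PowerSeries.coeff m (mulSeries F p - PowerSeries.X ^ p ^ (n + 1))) (by
        rw [← PowerSeries.coeff_map, map_sub, map_pow, PowerSeries.map_X]
        exact h6)
    rw [← PowerSeries.coeff_map, map_sub, map_pow, PowerSeries.map_X] at h7
    rw [mul_map]
    exact h7
  · have hi : i.val < n := i.2
    have h6 := (hk i).pser (j := i) (by omega) (fun k hk => h5 i k hk hi.le)
      ((mul_O F p).map _) (h3 i) m hm
    have h7 := psi_mem p (n + 1) i (PowerSeries.coeff m (mulSeries F p -
      PowerSeries.C (MvPolynomial.X i) * PowerSeries.X ^ p ^ (i.val + 1))) (by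
        rw [← PowerSeries.coeff_map, map_sub, map_mul, map_pow, PowerSeries.map_X,
          PowerSeries.map_C]
        rw [dif_pos hi] at h6
        exact h6)
    rw [← PowerSeries.coeff_map, map_sub, map_mul, map_pow, PowerSeries.map_X, PowerSeries.map_C,
      psi_X] at h7
    rw [mul_map]
    exact h7

end

end Vale.Agent.P217
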