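import Vale.Agent.P217.Defs

/-! The functional equation lemma. -/

namespace Vale.Agent.P217.Exists

open Finset MvPowerSeries

variable {B K τ : Type} [CommRing B] [CommRing K]

/-- All coefficients of degree `< m` vanish. -/
def O (m : ℕ) (f : MvPowerSeries τ K) : Prop := ∀ d : τ →₀ ℕ, d.degree < m → coeff d f = 0

variable {m k : ℕ} {f g a b : MvPowerSeries τ K}

theorem O.mono (h : O m f) (hk : k ≤ m) : O k f := fun d hd => h d (hd.trans_le hk)

theorem O.add (h : O m f) (h' : O m g) : O m (f + g) := fun d hd => by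
  rw [map_add, h d hd, h' d hd, add_zero]

theorem O.sub (h : O m f) (h' : O m g) : O m (f - g) := fun d hd => by
  rw [map_sub, h d hd, h' d hd, sub_zero]

theorem O.mul (h : O m f) (h' : O k g) : O (m + k) (f * g) := fun d hd => by
  classical
  rw [coeff_mul]
  refine sum_eq_zero fun x hx => ?_
  have h1 : x.1.degree + x.2.degree = d.degree := by rw [← map_add, mem_antidiagonal.1 hx]
  by_cases h2 : x.1.degree < m
  · rw [h _ h2, zero_mul]
  · rw [h' _ (by omega), mul_zero]

theorem O_zero (f : MvPowerSeries τ K) : O 0 f := fun _ hd => absurd hd (Nat.not_lt_zero _)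

theorem O_one : O 1 f ↔ constantCoeff f = 0 := by
  refine ⟨fun h => h 0 (by simp), fun h d hd => ?_⟩
  obtain rfl : d = 0 := (Finsupp.degree_eq_zero_iff d).1 (by omega)
  exact h

theorem O.hs (h : O 1 f) : PowerSeries.HasSubst f := .of_constantCoeff_zero (O_one.1 h)

theorem O.of_dvd (h : O m f) (h' : f ∣ g) : O m g := by
  obtain ⟨c, rfl⟩ := h'
  exact h.mul (O_zero c)

theorem O.pow (h : O 1 f) (j : ℕ) : O j (f ^ j) := by
  induction j with
  | zero => exact O_zero _
  | succ j ih =>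
    rw [pow_succ]
    exact ih.mul h

theorem O.pow_sub (ha : O 1 a) (hb : O 1 b) (h : O m (a - b)) {j : ℕ} (hj : 2 ≤ j) :
    O (m + 1) (a ^ j - b ^ j) := by
  obtain ⟨j, rfl⟩ : ∃ i, j = i + 1 := ⟨j - 1, by omega⟩
  have : a ^ (j + 1) - b ^ (j + 1) = (a ^ j - b ^ j) * a + (a - b) * b ^ j := by ring
  rw [this]
  exact ((h.of_dvd (sub_dvd_pow_sub_pow a b j)).mul ha).add (h.mul ((hb.pow j).mono (by omega)))

theorem O.map {K' : Type} [CommRing K'] (h : O m f) (φ : K →+* K') : O m (map φ f) :=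
  fun d hd => by rw [coeff_map, h d hd, map_zero]

theorem O.expand (h : O m f) {q : ℕ} (hq : q ≠ 0) : O (q * m) (expand q hq f) := by
  intro d hd
  by_cases h1 : ∀ i, q ∣ d i
  · obtain ⟨e, rfl⟩ : ∃ e, q • e = d := ⟨d.mapRange (fun a => a / q) (by simp),
      by ext i; simp [Nat.mul_div_cancel' (h1 i)]⟩
    rw [coeff_expand_smul]
    rw [map_nsmul, smul_eq_mul] at hd
    exact h e (lt_of_mul_lt_mul_left' hd)
  · obtain ⟨i, hi⟩ := not_forall.1 h1
    exact coeff_expand_of_not_dvd q hq f hi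

theorem coeff_sub_subst (ha : O 1 a) (hb : O 1 b) (h : PowerSeries K) (d : τ →₀ ℕ) :
    coeff d (h.subst a - h.subst b) = ∑ᶠ j, PowerSeries.coeff j h * coeff d (a ^ j - b ^ j) := by
  rw [map_sub, PowerSeries.coeff_subst ha.hs, PowerSeries.coeff_subst hb.hs,
    ← finsum_sub_distrib (PowerSeries.coeff_subst_finite ha.hs h d)
      (PowerSeries.coeff_subst_finite hb.hs h d)]
  exact finsum_congr fun j => by rw [map_sub, mul_sub, smul_eq_mul, smul_eq_mul]

theorem O.subst (ha : O 1 a) (hb : O 1 b) (h : O m (a - b)) (l : PowerSeries K) :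
    O m (l.subst a - l.subst b) := fun d hd => by
  rw [coeff_sub_subst ha hb]
  exact finsum_eq_zero_of_forall_eq_zero fun j => by
    rw [h.of_dvd (sub_dvd_pow_sub_pow a b j) d hd, mul_zero]

theorem O.subst' (ha : O 1 a) (hb : O 1 b) (h : O m (a - b)) {l : PowerSeries K}
    (hl : PowerSeries.coeff 1 l = 1) : O (m + 1) (l.subst a - l.subst b - (a - b)) := fun d hd => by
  rw [map_sub, coeff_sub_subst ha hb, finsum_eq_single _ 1, hl, pow_one, pow_one, one_mul, sub_self]
  intro j hj
  rcases Nat.eq_zero_or_pos j with rfl | h1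
  · simp
  · rw [ha.pow_sub hb h (by omega) d hd, mul_zero]

theorem O.subst_zero (ha : O 1 a) (h : O m a) {l : PowerSeries K}
    (h0 : PowerSeries.constantCoeff l = 0) (hl : PowerSeries.coeff 1 l = 1) :
    O (m + 1) (l.subst a - a) := by
  have := ha.subst' (O_one.2 (map_zero _)) (by rwa [sub_zero]) hl
  rwa [PowerSeries.subst_zero_of_constantCoeff_zero h0, sub_zero, sub_zero] at this

theorem exists_coeff (c : (τ →₀ ℕ) → B) : ∃ w : MvPowerSeries τ B, ∀ d, coeff d w = c d :=
  ⟨c, fun _ => rfl⟩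

theorem dvd_of_coeff {p : ℕ} {w : MvPowerSeries τ B} (h : ∀ d, (p : B) ∣ coeff d w) :
    (p : MvPowerSeries τ B) ∣ w := by
  choose c hc using h
  obtain ⟨e, he⟩ := exists_coeff c
  refine ⟨e, MvPowerSeries.ext fun d => ?_⟩
  rw [← map_natCast (C (σ := τ) (R := B)), coeff_C_mul, he, hc]

variable (ι : B →+* K) (p : ℕ)

/-- Series of logarithmic type. -/
def Lg (l : PowerSeries K) : Prop :=
  ∀ j, ∃ k, p ^ k ∣ j ∧ ∃ c, (p : K) ^ k * PowerSeries.coeff j l = ι c

variable {ι p}

theorem Lg.sub {l : PowerSeries K} (hl : Lg ι p l) {u w : MvPowerSeries τ B}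
    (hu : O 1 (map ι u)) (hw : O 1 (map ι w)) (h : (p : MvPowerSeries τ B) ∣ u - w) (d : τ →₀ ℕ) :
    ∃ c, coeff d (l.subst (map ι u) - l.subst (map ι w)) = p * ι c := by
  rw [coeff_sub_subst hu hw]
  refine finsum_induction (fun x => ∃ c, x = p * ι c) ⟨0, by simp⟩ ?_ fun j => ?_
  · rintro _ _ ⟨c, rfl⟩ ⟨c', rfl⟩
    exact ⟨c + c', by rw [map_add, mul_add]⟩
  · obtain ⟨k, ⟨j, rfl⟩, c, hc⟩ := hl j
    obtain ⟨e, he⟩ := (dvd_sub_pow_of_dvd_sub h k).trans (sub_dvd_pow_sub_pow _ _ j)
    rw [← pow_mul, ← pow_mul] at he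
    refine ⟨c * coeff d e, ?_⟩
    rw [← map_pow, ← map_pow, ← map_sub, he, coeff_map, ← map_natCast (C (σ := τ) (R := B)),
      ← map_pow, coeff_C_mul, map_mul, map_mul, ← hc, map_pow, map_natCast]
    ring

theorem Lg.cong {l : PowerSeries K} (hl : Lg ι p l) (h1 : PowerSeries.coeff 1 l = 1)
    (hι : Function.Injective ι) {u w : MvPowerSeries τ B} (hu : O 1 u) (hw : O 1 w) (N : ℕ)
    (h : ∀ d : τ →₀ ℕ, d.degree < N →
      ∃ c, coeff d (l.subst (map ι u) - l.subst (map ι w)) = p * ι c) :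
    ∀ d : τ →₀ ℕ, d.degree < N → (p : B) ∣ coeff d (u - w) := by
  have key : ∀ m, ∀ d : τ →₀ ℕ, d.degree < m + 1 → d.degree < N → (p : B) ∣ coeff d (u - w) := by
    intro m
    induction m with
    | zero => exact fun d hd _ => by rw [hu.sub hw d hd]; exact dvd_zero _
    | succ m ih =>
      intro d hd hN
      by_cases hm : d.degree < m + 1
      · exact ih d hm hN
      let e : MvPowerSeries τ B := fun x => if x.degree < m + 1 then coeff x (u - w) else 0
      have he : ∀ x, coeff x e = if x.degree < m + 1 then coeff x (u - w) else 0 := fun _ => rfl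
      have h2 : O (m + 1) (u - (w + e)) := fun x hx => by
        rw [← sub_sub, map_sub, he, if_pos hx, sub_self]
      have h3 : O 1 (w + e) := by
        have := hu.sub (h2.mono (Nat.le_add_left 1 m))
        rwa [sub_sub_cancel] at this
      have h4 : (p : MvPowerSeries τ B) ∣ w + e - w := by
        rw [add_sub_cancel_left]
        refine dvd_of_coeff fun x => ?_
        rw [he]
        split_ifs with hx
        · exact ih x hx (by omega)
        · exact dvd_zero _
      obtain ⟨c, hc⟩ := hl.sub (h3.map ι) (hw.map ι) h4 d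
      obtain ⟨c', hc'⟩ := h d hN
      have h5 := (hu.map ι).subst' (h3.map ι) (map_sub (map ι) u _ ▸ h2.map ι) h1 d hd
      refine ⟨c' - c, hι ?_⟩
      have h6 : coeff d (map ι u - map ι (w + e)) = ι (coeff d (u - w)) := by
        rw [← map_sub, coeff_map, ← sub_sub, map_sub (coeff d), he, if_neg hm, sub_zero]
      rw [map_sub, h6] at h5
      simp only [map_sub, map_mul, map_natCast] at hc hc' h5 ⊢
      linear_combination hc' - hc - h5
  exact fun d hd => key d.degree d (Nat.lt_succ_self _) hd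

theorem frob [hp : Fact p.Prime] (hB : (p : B) ∈ nonunits B) {σ : K →+* K} {i : ℕ}
    (hσ : ∀ x, ∃ c, σ (ι x) = ι (x ^ p ^ i + p * c)) (u : MvPowerSeries τ B) :
    ∃ w, expand (p ^ i) (pow_ne_zero i hp.out.ne_zero) (map σ (map ι u)) = map ι w ∧
      (p : MvPowerSeries τ B) ∣ w - u ^ p ^ i := by
  choose c hc using hσ
  have hq := pow_ne_zero i hp.out.ne_zero
  let w : MvPowerSeries τ B := fun d =>
    coeff d (expand (p ^ i) hq u) ^ p ^ i + p * c (coeff d (expand (p ^ i) hq u))
  have hw : ∀ d, coeff d w =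
    coeff d (expand (p ^ i) hq u) ^ p ^ i + p * c (coeff d (expand (p ^ i) hq u)) := fun _ => rfl
  refine ⟨w, MvPowerSeries.ext fun d => ?_, dvd_of_coeff fun d => ?_⟩
  · rw [← map_expand, ← map_expand, coeff_map, coeff_map, coeff_map, hc, hw]
  · have := CharP.quotient B p hB
    have h1 := congrArg (coeff d) (map_iterateFrobenius_expand p hp.out.ne_zero
      (map (Ideal.Quotient.mk (Ideal.span {(p : B)})) u) i)
    rw [← map_expand, coeff_map, coeff_map, iterateFrobenius_def,
      ← map_pow (Ideal.Quotient.mk _), ← map_pow (MvPowerSeries.map _), coeff_map,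
      Ideal.Quotient.eq, Ideal.mem_span_singleton] at h1
    rw [map_sub, hw, add_sub_right_comm]
    exact dvd_add h1 (dvd_mul_right _ _)

/-- The functional equation. -/
structure FE (ι : B →+* K) (p n : ℕ) (r : K) (σ : ℕ → K →+* K) (v : ℕ → B) (l : PowerSeries K) :
    Prop where
  nonunit : (p : B) ∈ nonunits B
  inj : Function.Injective ι
  inv : r * p = 1
  lift : ∀ i x, ∃ c, σ i (ι x) = ι (x ^ p ^ (i + 1) + p * c)
  zero : PowerSeries.constantCoeff l = 0
  eq : l = PowerSeries.X + PowerSeries.C r * ∑ i ∈ range n, PowerSeries.C (ι (v i)) *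
    (l.map (σ i)).subst (PowerSeries.X ^ p ^ (i + 1) : PowerSeries K)

variable [hp : Fact p.Prime] {n : ℕ} {r : K} {σ : ℕ → K →+* K} {v : ℕ → B} {l : PowerSeries K}

theorem FE.coeff_eq (h : FE ι p n r σ v l) (j : ℕ) :
    PowerSeries.coeff j l = (if j = 1 then 1 else 0) + r * ∑ i ∈ range n, ι (v i) *
      if p ^ (i + 1) ∣ j then σ i (PowerSeries.coeff (j / p ^ (i + 1)) l) else 0 := by
  conv_lhs => rw [h.eq]
  rw [map_add, PowerSeries.coeff_X, PowerSeries.coeff_C_mul, map_sum]
  refine congrArg (fun x => _ + r * x) (sum_congr rfl fun i _ => ?_)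
  rw [PowerSeries.coeff_C_mul, PowerSeries.coeff_subst_X_pow (pow_ne_zero _ hp.out.ne_zero),
    PowerSeries.coeff_map]
  rfl

theorem FE.one (h : FE ι p n r σ v l) : PowerSeries.coeff 1 l = 1 := by
  rw [h.coeff_eq, if_pos rfl, sum_eq_zero, mul_zero, add_zero]
  intro i _
  rw [if_neg, mul_zero]
  exact fun h1 => (Nat.one_lt_pow (Nat.succ_ne_zero i) hp.out.one_lt).ne' (Nat.dvd_one.1 h1)

theorem FE.den (h : FE ι p n r σ v l) (k j : ℕ) (hj : ¬ p ^ (k + 1) ∣ j) :
    (p : K) ^ k * PowerSeries.coeff j l ∈ ι.range := by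
  induction k generalizing j with
  | zero =>
    rw [h.coeff_eq, sum_eq_zero, mul_zero, add_zero, pow_zero, one_mul]
    · split_ifs
      · exact one_mem _
      · exact zero_mem _
    · intro i _
      rw [if_neg, mul_zero]
      exact fun h1 => hj ((pow_dvd_pow p (by omega)).trans h1)
  | succ k ih =>
    rw [h.coeff_eq, mul_add, ← mul_assoc, pow_succ, mul_assoc _ _ r, mul_comm _ r, h.inv, mul_one,
      mul_sum]
    refine add_mem (mul_mem (mul_mem (pow_mem (natCast_mem _ p) _) (natCast_mem _ p)) ?_)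
      (sum_mem fun i _ => ?_)
    · split_ifs
      · exact one_mem _
      · exact zero_mem _
    · rw [mul_left_comm]
      refine mul_mem ⟨_, rfl⟩ ?_
      split_ifs with h1
      · obtain ⟨x, hx⟩ := ih (j / p ^ (i + 1)) fun h2 => hj <|
          (pow_dvd_pow p (show k + 1 + 1 ≤ i + 1 + (k + 1) by omega)).trans
            (pow_add p _ _ ▸ (Nat.dvd_div_iff_mul_dvd h1).1 h2)
        obtain ⟨c, hc⟩ := h.lift i x
        refine ⟨_, hc.symm.trans ?_⟩
        rw [hx, map_mul, map_pow, map_natCast]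
      · rw [mul_zero]
        exact zero_mem _

theorem FE.lg (h : FE ι p n r σ v l) : Lg ι p l := by
  intro j
  rcases eq_or_ne j 0 with rfl | hj
  · exact ⟨0, dvd_zero _, 0, by simp [h.zero]⟩
  · obtain ⟨x, hx⟩ := h.den (padicValNat p j) j (pow_succ_padicValNat_not_dvd hj)
    exact ⟨_, pow_padicValNat_dvd, x, hx.symm⟩

theorem FE.lg' (h : FE ι p n r σ v l) (i : ℕ) : Lg ι p (l.map (σ i)) := by
  intro j
  obtain ⟨k, hk, x, hx⟩ := h.lg j
  obtain ⟨c, hc⟩ := h.lift i x
  refine ⟨k, hk, _, Eq.trans ?_ hc⟩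
  rw [← hx, map_mul, map_pow, map_natCast, PowerSeries.coeff_map]

theorem FE.subst_eq (h : FE ι p n r σ v l) (ha : O 1 a) :
    l.subst a = a + C r * ∑ i ∈ range n, C (ι (v i)) * (l.map (σ i)).subst (a ^ p ^ (i + 1)) := by
  conv_lhs => rw [h.eq, ← PowerSeries.coe_substAlgHom ha.hs]
  simp only [map_add, map_mul, map_sum, PowerSeries.coe_substAlgHom, PowerSeries.subst_C,
    PowerSeries.subst_X ha.hs]
  refine congrArg (fun x => a + C r * x) (sum_congr rfl fun i _ => ?_)
  rw [PowerSeries.subst_comp_subst_apply (.X_pow (pow_ne_zero _ hp.out.ne_zero)) ha.hs,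
    PowerSeries.subst_pow ha.hs, PowerSeries.subst_X ha.hs]

theorem FE.integral (h : FE ι p n r σ v l) (ha : O 1 a) (t : MvPowerSeries τ B)
    (ht : l.subst a = map ι t + C r * ∑ i ∈ range n, C (ι (v i)) *
      expand (p ^ (i + 1)) (pow_ne_zero _ hp.out.ne_zero) (map (σ i) (l.subst a))) :
    ∃ u, a = map ι u := by
  have key : ∀ m, ∀ d : τ →₀ ℕ, d.degree < m + 1 → coeff d a ∈ ι.range := by
    intro m
    induction m with
    | zero => exact fun d hd => by rw [ha d hd]; exact zero_mem _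
    | succ m ih =>
      intro d hd
      choose! u' hu using ih
      obtain ⟨u, hu'⟩ := exists_coeff u'
      have h2 : O (m + 1) (a - map ι u) := fun x hx => by
        rw [map_sub, coeff_map, ← hu x hx, hu', sub_self]
      have h3 : O 1 (map ι u) := by
        have := ha.sub (h2.mono (Nat.le_add_left 1 m))
        rwa [sub_sub_cancel] at this
      have h4 : a = map ι t + C r * ∑ i ∈ range n, C (ι (v i)) *
          (expand (p ^ (i + 1)) (pow_ne_zero _ hp.out.ne_zero) (map (σ i) (l.subst a)) -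
            (l.map (σ i)).subst (a ^ p ^ (i + 1))) := by
        simp only [mul_sub, sum_sub_distrib]
        linear_combination ht - h.subst_eq ha
      rw [h4, map_add, coeff_C_mul, map_sum, mul_sum]
      refine add_mem ⟨_, (coeff_map _ _ _).symm⟩ (sum_mem fun i _ => ?_)
      rw [coeff_C_mul, mul_left_comm]
      refine mul_mem ⟨_, rfl⟩ ?_
      have hq : 2 ≤ p ^ (i + 1) := Nat.one_lt_pow (Nat.succ_ne_zero i) hp.out.one_lt
      have e1 : ∀ {x : MvPowerSeries τ K}, O 1 x → O 1 (expand (p ^ (i + 1))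
          (pow_ne_zero _ hp.out.ne_zero) (map (σ i) x)) := fun hx =>
        ((hx.map _).expand _).mono (by omega)
      have e2 : ∀ {x : MvPowerSeries τ K}, O 1 x → O 1 (x ^ p ^ (i + 1)) := fun hx =>
        (hx.pow _).mono (by omega)
      obtain ⟨w, h5, h6⟩ := frob h.nonunit (h.lift i) u
      obtain ⟨c, hc⟩ := (h.lg' i).sub (h5 ▸ e1 h3) (map_pow (map ι) _ _ ▸ e2 h3) h6 d
      have h7 := (e1 ha).subst (e1 h3) (m := m + 1 + 1) (by
        rw [← map_sub, ← map_sub]
        exact ((h2.map _).expand _).mono (by nlinarith)) (l.map (σ i)) d hd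
      have h8 := (e2 ha).subst (e2 h3) (ha.pow_sub h3 h2 hq) (l.map (σ i)) d hd
      rw [PowerSeries.map_subst ha.hs, PowerSeries.expand_subst _ _ (ha.map _).hs]
      rw [← h5, map_pow] at hc
      refine ⟨c, ?_⟩
      simp only [map_sub] at hc h7 h8 ⊢
      linear_combination -r * (hc + h7 - h8) - ι c * h.inv
  choose u hu using fun d : τ →₀ ℕ => key d.degree d (Nat.lt_succ_self _)
  exact ⟨u, MvPowerSeries.ext fun d => (hu d).symm⟩

end Vale.Agent.P217.Exists
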