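import Vale.Agent.P217.ExistsA

/-! The formal group law with a given logarithm, descent to the integral subring, `p`-series. -/

namespace Vale.Agent.P217.Exists

open Finset MvPowerSeries

variable {B K τ : Type} [CommRing B] [CommRing K]

theorem hs2 {a b : MvPowerSeries τ K} (ha : O 1 a) (hb : O 1 b) : HasSubst ![a, b] :=
  hasSubst_of_constantCoeff_zero fun s => by
    fin_cases s
    · exact O_one.1 ha
    · exact O_one.1 hb

theorem O_X (s : τ) : O 1 (X s : MvPowerSeries τ K) := O_one.2 (constantCoeff_X s)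

theorem O.subst0 {a : MvPowerSeries τ K} (ha : O 1 a) {l : PowerSeries K}
    (h0 : PowerSeries.constantCoeff l = 0) : O 1 (l.subst a) :=
  O_one.2 (PowerSeries.constantCoeff_subst_eq_zero (O_one.1 ha) l h0)

theorem subst_psubst {υ : Type} {c : MvPowerSeries υ K} (hc : O 1 c) {f : υ → MvPowerSeries τ K}
    (hf : HasSubst f) (l : PowerSeries K) : subst f (l.subst c) = l.subst (subst f c) := by
  rw [PowerSeries.subst, subst_comp_subst_apply hc.hs.const hf, PowerSeries.subst]

/-- The formal group law with logarithm `l`. -/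
theorem exists_law {l : PowerSeries K} (h0 : PowerSeries.constantCoeff l = 0)
    (h1 : PowerSeries.coeff 1 l = 1) : ∃ F : FormalGroup K, F.IsComm ∧
      ∀ (τ : Type) (a b : MvPowerSeries τ K), O 1 a → O 1 b →
        l.subst (subst ![a, b] F.toPowerSeries) = l.subst a + l.subst b := by
  have hu : IsUnit (PowerSeries.coeff 1 l) := h1 ▸ isUnit_one
  have hE0 := l.constantCoeff_substInvOfIsUnit hu
  have hl := l.subst_substInvOfIsUnit_right h0 hu
  set E := l.substInvOfIsUnit hu
  have e1 : ∀ {τ : Type} {a : MvPowerSeries τ K}, O 1 a → l.subst (E.subst a) = a := fun ha => by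
    rw [← PowerSeries.subst_comp_subst_apply (.of_constantCoeff_zero' hE0) ha.hs, hl,
      PowerSeries.subst_X ha.hs]
  have hT : O 1 (l.subst (X 0 : MvPowerSeries (Fin 2) K) + l.subst (X 1)) :=
    ((O_X 0).subst0 h0).add ((O_X 1).subst0 h0)
  set G : MvPowerSeries (Fin 2) K := E.subst (l.subst (X 0 : MvPowerSeries (Fin 2) K) +
    l.subst (X 1)) with hG
  have e2 : ∀ {τ : Type} {a b : MvPowerSeries τ K}, O 1 a → O 1 b →
      subst ![a, b] G = E.subst (l.subst a + l.subst b) := fun ha hb => by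
    rw [hG, subst_psubst hT (hs2 ha hb), subst_add (hs2 ha hb), subst_psubst (O_X 0) (hs2 ha hb),
      subst_psubst (O_X 1) (hs2 ha hb), subst_X (hs2 ha hb), subst_X (hs2 ha hb)]
    rfl
  have e3 : ∀ {τ : Type} {a b : MvPowerSeries τ K}, O 1 a → O 1 b →
      O 1 (l.subst a + l.subst b) := fun ha hb => (ha.subst0 h0).add (hb.subst0 h0)
  have hG1 : O 1 G := hT.subst0 hE0
  have hG2 : O 2 (G - (X 0 + X 1)) := by
    have a1 := hG1.subst_zero hG1 h0 h1
    rw [hG, e1 hT, ← hG] at a1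
    have := (((O_X (0 : Fin 2)).subst_zero (O_X 0) h0 h1).add
      ((O_X (1 : Fin 2)).subst_zero (O_X 1) h0 h1)).sub a1
    rwa [show ∀ x y z w g : MvPowerSeries (Fin 2) K,
      x - z + (y - w) - (x + y - g) = g - (z + w) from fun _ _ _ _ _ => by ring] at this
  refine ⟨⟨G, O_one.1 hG1, ?_, ?_, ?_⟩, ⟨?_⟩, fun τ a b ha hb => ?_⟩
  · have := hG2 (Finsupp.single 0 1) (by simp)
    rw [map_sub, sub_eq_zero] at this
    simpa [coeff_index_single_X] using this
  · have := hG2 (Finsupp.single 1 1) (by simp)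
    rw [map_sub, sub_eq_zero] at this
    simpa [coeff_index_single_X] using this
  · rw [e2 (O_X 0) (O_X 1), e2 (O_X 1) (O_X 2), e2 ((e3 (O_X 0) (O_X 1)).subst0 hE0) (O_X 2),
      e2 (O_X 0) ((e3 (O_X 1) (O_X 2)).subst0 hE0), e1 (e3 (O_X 0) (O_X 1)),
      e1 (e3 (O_X 1) (O_X 2)), add_assoc]
  · exact hG.trans (by rw [e2 (O_X 1) (O_X 0), add_comm])
  · rw [e2 ha hb, e1 (e3 ha hb)]

theorem map_subst2 {K' : Type} [CommRing K'] (φ : K →+* K') {a b : MvPowerSeries τ K}
    (ha : O 1 a) (hb : O 1 b) (f : MvPowerSeries (Fin 2) K) :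
    map φ (subst ![a, b] f) = subst ![map φ a, map φ b] (map φ f) := by
  rw [map_subst (hs2 ha hb)]
  exact congrArg (fun x => subst x (map φ f)) (funext fun s => by fin_cases s <;> rfl)

theorem O.subst2 {a b : MvPowerSeries τ K} (ha : O 1 a) (hb : O 1 b)
    {f : MvPowerSeries (Fin 2) K} (hf : constantCoeff f = 0) :
    O 1 (MvPowerSeries.subst ![a, b] f) :=
  O_one.2 (constantCoeff_subst_eq_zero (hs2 ha hb) (fun s => by
    fin_cases s
    · exact O_one.1 ha
    · exact O_one.1 hb) hf)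

theorem comm_map {K' : Type} [CommRing K'] (φ : K →+* K') (F : FormalGroup K) (h : F.IsComm) :
    (F.map φ).IsComm := by
  refine ⟨?_⟩
  have := congrArg (map φ) h.comm
  rwa [map_subst2 φ (O_X 1) (O_X 0), map_X, map_X] at this

theorem descend {ι : B →+* K} (hι : Function.Injective ι) (G : FormalGroup K) (hG : G.IsComm)
    (u : MvPowerSeries (Fin 2) B) (hu : G.toPowerSeries = map ι u) :
    ∃ F : FormalGroup B, F.IsComm ∧ F.map ι = G := by
  have inj : ∀ {τ : Type}, Function.Injective (map (σ := τ) ι) := fun h =>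
    MvPowerSeries.ext fun d => hι (by simpa only [coeff_map] using congrArg (coeff d) h)
  have h0 : constantCoeff u = 0 := hι (by
    rw [map_zero, ← constantCoeff_map, ← hu, G.zero_constantCoeff])
  refine ⟨⟨u, h0, hι ?_, hι ?_, inj ?_⟩, ⟨inj ?_⟩, FormalGroup.ext hu.symm⟩
  · rw [← coeff_map, ← hu, G.lin_coeff_X, map_one]
  · rw [← coeff_map, ← hu, G.lin_coeff_Y, map_one]
  · rw [map_subst2 ι ((O_X 0).subst2 (O_X 1) h0) (O_X 2), map_subst2 ι (O_X 0) (O_X 1),
      map_subst2 ι (O_X 0) ((O_X 1).subst2 (O_X 2) h0), map_subst2 ι (O_X 1) (O_X 2), ← hu,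
      map_X, map_X, map_X]
    exact G.assoc
  · rw [map_subst2 ι (O_X 1) (O_X 0), ← hu, map_X, map_X]
    exact hG.comm

theorem mul_O (F : FormalGroup K) (m : ℕ) : O 1 (mulSeries F m) := by
  induction m with
  | zero => exact O_one.2 (map_zero _)
  | succ m ih => exact ih.subst2 (O_X ()) F.zero_constantCoeff

theorem mul_map {K' : Type} [CommRing K'] (φ : K →+* K') (F : FormalGroup K) (m : ℕ) :
    mulSeries (F.map φ) m = map φ (mulSeries F m) := by
  induction m with
  | zero => exact (map_zero _).symm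
  | succ m ih =>
    rw [mulSeries, mulSeries, ih]
    refine Eq.trans ?_ (map_subst2 φ (mul_O F m) (O_X ()) _).symm
    rw [map_X]
    rfl

theorem mul_log {l : PowerSeries K} (h0 : PowerSeries.constantCoeff l = 0) (F : FormalGroup K)
    (h : ∀ (a b : MvPowerSeries Unit K), O 1 a → O 1 b →
      l.subst (subst ![a, b] F.toPowerSeries) = l.subst a + l.subst b) (m : ℕ) :
    l.subst (mulSeries F m) = (m : PowerSeries K) * l := by
  induction m with
  | zero =>
    rw [Nat.cast_zero, zero_mul]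
    exact PowerSeries.subst_zero_of_constantCoeff_zero h0
  | succ m ih =>
    rw [Nat.cast_succ, add_mul, one_mul, ← ih]
    exact (h _ _ (mul_O F m) (O_X ())).trans (congrArg _ (PowerSeries.X_subst l))

variable {ι : B →+* K} {p : ℕ} [hp : Fact p.Prime] {n : ℕ} {r : K} {σ : ℕ → K →+* K} {v : ℕ → B}
  {l : PowerSeries K}

theorem FE.law (h : FE ι p n r σ v l) : ∃ F : FormalGroup B, F.IsComm ∧
    l.subst (map ι (mulSeries F p)) = (p : PowerSeries K) * l := by
  obtain ⟨G, h1, h2⟩ := exists_law h.zero h.one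
  have h3 : l.subst G.toPowerSeries = l.subst (X 0) + l.subst (X 1) := by
    rw [← h2 _ _ _ (O_X 0) (O_X 1)]
    refine congrArg (fun x => l.subst x) ?_
    refine (congrFun subst_self _).symm.trans (congrArg (fun x => subst x G.toPowerSeries) ?_)
    exact funext fun s => by fin_cases s <;> rfl
  have h4 : ∀ (i : ℕ) (s : Fin 2), expand (p ^ (i + 1)) (pow_ne_zero _ hp.out.ne_zero)
      (map (σ i) (l.subst (X s : MvPowerSeries (Fin 2) K))) =
      (l.map (σ i)).subst (X s ^ p ^ (i + 1)) := fun i s => by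
    rw [PowerSeries.map_subst (O_X s).hs, map_X, PowerSeries.expand_subst _ _ (O_X s).hs, expand_X]
  obtain ⟨u, hu⟩ := h.integral (O_one.2 G.zero_constantCoeff) (X 0 + X 1) (by
    simp only [h3, map_add, h4, map_X, mul_add, sum_add_distrib]
    linear_combination h.subst_eq (O_X (0 : Fin 2)) + h.subst_eq (O_X (1 : Fin 2)))
  obtain ⟨F, h5, rfl⟩ := descend h.inj G h1 u hu
  exact ⟨F, h5, by rw [← mul_map, mul_log h.zero _ (h2 Unit)]⟩

/-- The coefficients of the logarithm. -/
noncomputable def cf (p : ℕ) [hp : Fact p.Prime] (n : ℕ) (r : K) (σ : ℕ → K →+* K) (w : ℕ → K)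
    (j : ℕ) : K :=
  open Classical in
  if _h : j = 0 then 0 else (if j = 1 then 1 else 0) + r * ∑ i ∈ range n, w i *
    if p ^ (i + 1) ∣ j then σ i (cf p n r σ w (j / p ^ (i + 1))) else 0
termination_by j
decreasing_by
  exact Nat.div_lt_self (Nat.pos_of_ne_zero _h) (Nat.one_lt_pow (Nat.succ_ne_zero _) hp.out.one_lt)

theorem exists_log (n : ℕ) (v : ℕ → B) (h1 : (p : B) ∈ nonunits B) (h2 : Function.Injective ι)
    (h3 : r * p = 1) (h4 : ∀ i x, ∃ c, σ i (ι x) = ι (x ^ p ^ (i + 1) + p * c)) :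
    ∃ l, FE ι p n r σ v l := by
  have h0 : cf p n r σ (fun i => ι (v i)) 0 = 0 := by rw [cf, dif_pos rfl]
  refine ⟨PowerSeries.mk (cf p n r σ fun i => ι (v i)), h1, h2, h3, h4, h0, ?_⟩
  ext j
  rw [map_add, PowerSeries.coeff_X, PowerSeries.coeff_C_mul, map_sum, PowerSeries.coeff_mk]
  simp only [PowerSeries.coeff_C_mul, PowerSeries.coeff_map, PowerSeries.coeff_mk,
    PowerSeries.coeff_subst_X_pow (pow_ne_zero _ hp.out.ne_zero), Algebra.algebraMap_self,
    RingHom.id_apply]
  rcases eq_or_ne j 0 with rfl | hj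
  · simp [h0]
  · rw [cf, dif_neg hj]

theorem FE.kill (h : FE ι p n r σ v l) {κ : K →+* K} {κ' : B →+* B} (h1 : ∀ x, κ (ι x) = ι (κ' x))
    (h2 : ∀ i x, κ (σ i x) = σ i (κ x)) (h3 : κ r = r) :
    FE ι p n r σ (fun i => κ' (v i)) (l.map κ) := by
  refine ⟨h.nonunit, h.inj, h.inv, h.lift, ?_, ?_⟩
  · rw [← PowerSeries.coeff_zero_eq_constantCoeff_apply, PowerSeries.coeff_map,
      PowerSeries.coeff_zero_eq_constantCoeff_apply, h.zero, map_zero]
  · ext j
    rw [map_add, PowerSeries.coeff_X, PowerSeries.coeff_C_mul, map_sum, PowerSeries.coeff_map,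
      h.coeff_eq]
    simp only [PowerSeries.coeff_C_mul, PowerSeries.coeff_map,
      PowerSeries.coeff_subst_X_pow (pow_ne_zero _ hp.out.ne_zero), Algebra.algebraMap_self,
      RingHom.id_apply, map_add, map_mul, map_sum, apply_ite κ, map_one, map_zero, h1, h2, h3]

omit hp in
theorem FE.pmul (h : FE ι p n r σ v l) :
    (p : PowerSeries K) * l = (p : PowerSeries K) * PowerSeries.X + ∑ i ∈ range n, PowerSeries.C (ι (v i)) *
      (l.map (σ i)).subst (PowerSeries.X ^ p ^ (i + 1) : PowerSeries K) := by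
  conv_lhs => rw [h.eq, mul_add, ← mul_assoc, ← map_natCast (PowerSeries.C (R := K)), ← map_mul,
    mul_comm _ r, h.inv, map_one, one_mul, map_natCast]

omit hp in
theorem coeff_p_X (d : Unit →₀ ℕ) :
    ∃ c, coeff d ((p : PowerSeries K) * PowerSeries.X) = p * ι c :=
  ⟨coeff d (X ()), by
    rw [← coeff_map, map_X, ← map_natCast (C (σ := Unit) (R := K))]
    exact coeff_C_mul _ _ _⟩

theorem FE.pser_top (h : FE ι p (n + 1) r σ v l) (h1 : ∀ i < n, v i = 0) (h2 : v n = 1)
    (h3 : l.map (σ n) = l) {u : PowerSeries B} (hu : O 1 u)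
    (h4 : l.subst (map ι u) = (p : PowerSeries K) * l) (m : ℕ) :
    (p : B) ∣ PowerSeries.coeff m (u - PowerSeries.X ^ p ^ (n + 1)) := by
  refine h.lg.cong h.one h.inj hu (((O_X ()).pow _).mono (Nat.one_le_pow _ _ hp.out.pos)) (m + 1)
    (fun d _ => ?_) (Finsupp.single () m) (by simp)
  rw [h4, h.pmul, sum_range_succ, sum_eq_zero, h2, h3, map_one, map_one, one_mul, zero_add,
    map_pow, map_X]
  · obtain ⟨c, hc⟩ := coeff_p_X (ι := ι) (p := p) d
    exact ⟨c, (congrArg (coeff d) (add_sub_cancel_right _ _)).trans hc⟩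
  · intro i hi
    rw [h1 i (mem_range.1 hi), map_zero, map_zero, zero_mul]

theorem FE.pser (h : FE ι p n r σ v l) {j : ℕ} (hj : j < n) (h1 : ∀ i < j, v i = 0)
    {u : PowerSeries B} (hu : O 1 u) (h4 : l.subst (map ι u) = (p : PowerSeries K) * l) (m : ℕ)
    (hm : m ≤ p ^ (j + 1)) : (p : B) ∣
      PowerSeries.coeff m (u - PowerSeries.C (v j) * PowerSeries.X ^ p ^ (j + 1)) := by
  have hq : ∀ i, 1 ≤ p ^ (i + 1) := fun i => Nat.one_le_pow _ _ hp.out.pos
  have a1 : O (p ^ (j + 1)) (C (v j) * X () ^ p ^ (j + 1) : MvPowerSeries Unit B) :=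
    ((O_X ()).pow _).of_dvd (dvd_mul_left _ _)
  have a2 : ∀ i, O (p ^ (i + 1) + 1) ((l.map (σ i)).subst (X () ^ p ^ (i + 1) :
      MvPowerSeries Unit K) - X () ^ p ^ (i + 1)) := fun i =>
    (((O_X ()).pow _).mono (hq i)).subst_zero ((O_X ()).pow _)
      (by rw [← PowerSeries.coeff_zero_eq_constantCoeff_apply, PowerSeries.coeff_map,
        PowerSeries.coeff_zero_eq_constantCoeff_apply, h.zero, map_zero])
      (by rw [PowerSeries.coeff_map, h.one, map_one])
  refine h.lg.cong h.one h.inj hu (a1.mono (hq j)) (p ^ (j + 1) + 1)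
    (fun d hd => ?_) (Finsupp.single () m) (by simpa using Nat.lt_succ_of_le hm)
  have a3 := ((a1.map ι).mono (hq j)).subst_zero (a1.map ι) h.zero h.one d hd
  obtain ⟨c, hc⟩ := coeff_p_X (ι := ι) (p := p) d
  refine ⟨c, ?_⟩
  have a4 : coeff d (∑ i ∈ range n, PowerSeries.C (ι (v i)) *
      (l.map (σ i)).subst (PowerSeries.X ^ p ^ (i + 1) : PowerSeries K)) =
      coeff d (MvPowerSeries.map ι (C (v j) * X () ^ p ^ (j + 1) : MvPowerSeries Unit B)) := by
    rw [map_sum, sum_eq_single_of_mem j (mem_range.2 hj), map_mul (MvPowerSeries.map ι), map_C,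
      map_pow, map_X, coeff_C_mul (φ := X () ^ _)]
    · refine (coeff_C_mul _ _ _).trans (congrArg _ ?_)
      exact sub_eq_zero.1 ((map_sub _ _ _).symm.trans (a2 j d hd))
    · intro i _ hi
      rcases lt_or_gt_of_ne hi with hi | hi
      · rw [h1 i hi, map_zero, map_zero, zero_mul, map_zero]
      · have a5 : p ^ (j + 1) < p ^ (i + 1) := Nat.pow_lt_pow_right hp.out.one_lt (by omega)
        have a6 := ((a2 i).mono (Nat.le_succ _)).add ((O_X ()).pow _) d (by omega)
        rw [sub_add_cancel] at a6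
        exact (coeff_C_mul _ _ _).trans ((congrArg _ a6).trans (mul_zero _))
  rw [h4, h.pmul, map_sub, map_add, hc, a4]
  rw [map_sub] at a3
  linear_combination -a3

end Vale.Agent.P217.Exists
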