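import Vale.Agent.P217.Act

/-! Identification of the special fibre with a Lubin-Tate group. -/

namespace Vale.Agent.P217

open Finset PowerSeries

variable {p n : ℕ} [Fact p.Prime]

theorem IsLT.mul_p_map {G : FormalGroup (Zp p)} (hG : IsLT p n G) {S : Type} [CommRing S]
    (hp : (p : S) = 0) (φ : Zp p →+* S) : mulSeries (G.map φ) p = X ^ p ^ n := by
  rw [Ideals.map_mul_series, hG.mul_p, map_add, map_mul, map_C, map_natCast, hp]
  simp

theorem isHom_pow_zp (G : FormalGroup (Zp p)) {S : Type} [CommRing S] [CharP S p]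
    (φ : Zp p →+* S) (l : ℕ) : IsHom (G.map φ) (G.map φ) (X ^ p ^ l) := by
  have := isHom_frobenius p (G.map φ) l
  rwa [fg_map_map, zp_hom_eq (RingHom.comp _ φ) φ] at this

variable (p n) in
/-- The multiplicative lift of an element of the residue field. -/
noncomputable def teich (a : GaloisField p n) : LTRing p n :=
  MvPowerSeries.C (WittVector.teichmuller p a)

@[simp] theorem res_teich (a : GaloisField p n) : res p n (teich p n a) = a := by
  simp [res, teich]

theorem galois_pow_q (hn : 0 < n) (a : GaloisField p n) : a ^ p ^ n = a := by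
  have := Fintype.ofFinite (GaloisField p n)
  rw [← GaloisField.card p n hn.ne', Nat.card_eq_fintype_card, FiniteField.pow_card]

theorem teich_pow (a : GaloisField p n) (k : ℕ) : teich p n (a ^ k) = teich p n a ^ k := by
  simp [teich]

theorem teich_pow_q (hn : 0 < n) (a : GaloisField p n) : teich p n a ^ p ^ n = teich p n a := by
  rw [← teich_pow, galois_pow_q hn]

/-- Series with the same reduction have congruent values. -/
theorem ev1_congr_res (hn : 0 < n) {S : Type} [CommRing S] [Adic S] (z : LTRing p n →+* S)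
    (hz : ∀ x ∈ heightIdeal p n n, z x ∈ (Adic.I : Ideal S)) {y : S} (hy : y ∈ rad S)
    {f g : PowerSeries (LTRing p n)} (h : map (res p n) f = map (res p n) g) :
    ev1 z y f - ev1 z y g ∈ (Adic.I : Ideal S) := by
  rw [← map_sub]
  refine ev1_mem_of_coeff z hy ⟨1, by simp⟩ fun i => hz _ ((mem_top_iff p n hn).2 ?_)
  rw [← coeff_map, map_sub, h, sub_self, map_zero]

/-- A frame: lifts of mutually inverse isomorphisms between the special fibre and the
Lubin-Tate group. -/
structure IsFrame (F : FormalGroup (LTRing p n)) (G : FormalGroup (Zp p))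
    (φ : Zp p →+* GaloisField p n) (γ δ : PowerSeries (LTRing p n)) : Prop where
  γ0 : constantCoeff γ = 0
  δ0 : constantCoeff δ = 0
  γ1 : coeff 1 (map (res p n) γ) = 1
  homγ : IsHom (F.map (res p n)) (G.map φ) (map (res p n) γ)
  homδ : IsHom (G.map φ) (F.map (res p n)) (map (res p n) δ)
  γδ : map (res p n) (γ.subst δ) = map (res p n) X
  δγ : map (res p n) (δ.subst γ) = map (res p n) X

variable {F : FormalGroup (LTRing p n)} {G : FormalGroup (Zp p)}

theorem exists_isFrame (hn : 0 < n) (hF : IsLubinTate p n F) (hG : IsLT p n G)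
    (φ : Zp p →+* GaloisField p n) : ∃ γ δ, IsFrame F G φ γ δ := by
  have := hF.1
  have := hG.comm
  obtain ⟨γ, h1, h2⟩ := exists_strict_iso hn (F.map (res p n)) (G.map φ) (hF.mul_p_res hn)
    (hG.mul_p_map (CharP.cast_eq_zero _ p) φ)
  obtain ⟨δ, h3, -, h4, h5⟩ := h1.exists_inv (h2 ▸ isUnit_one)
  obtain ⟨γ', g0, rfl⟩ := exists_lift_series p n γ h1.1
  obtain ⟨δ', d0, rfl⟩ := exists_lift_series p n δ h3.1
  exact ⟨γ', δ', g0, d0, h2, h1, h3, by rw [pmap_subst _ d0, h4, map_X],
    by rw [pmap_subst _ g0, h5, map_X]⟩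

theorem IsFrame.cc {φ : Zp p →+* GaloisField p n} {γ δ : PowerSeries (LTRing p n)}
    (H : IsFrame F G φ γ δ) (a : LTRing p n) (l : ℕ) : constantCoeff (C a * γ ^ p ^ l) = 0 := by
  rw [map_mul, map_pow, H.γ0, zero_pow (q_ne_zero p l), mul_zero]

theorem IsFrame.isEndLift (hn : 0 < n) (hG : IsLT p n G) {φ : Zp p →+* GaloisField p n}
    {γ δ : PowerSeries (LTRing p n)} (H : IsFrame F G φ γ δ) (a : GaloisField p n) (l : ℕ) :
    IsEndLift p n F (δ.subst (C (teich p n a) * γ ^ p ^ l : PowerSeries (LTRing p n))) := by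
  refine ⟨cc_psubst1 (H.cc _ l) H.δ0, ?_⟩
  have h1 := H.homδ.comp ((hG.root _ φ a (galois_pow_q hn a)).comp
    ((isHom_pow_zp G φ l).comp H.homγ))
  have hs := HasSubst.of_constantCoeff_zero' H.homγ.1
  have hs' := HasSubst.of_constantCoeff_zero' ((isHom_pow_zp G φ l).comp H.homγ).1
  rw [subst_mul hs', subst_X hs', subst_pow hs, subst_X hs, subst_C] at h1
  rw [pmap_subst _ (H.cc _ l), map_mul, map_pow, map_C, res_teich]
  exact h1

theorem IsFrame.ev1_endLift {φ : Zp p →+* GaloisField p n} {γ δ : PowerSeries (LTRing p n)}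
    (H : IsFrame F G φ γ δ) (a : LTRing p n) (l : ℕ) {S : Type} [CommRing S] [Adic S]
    (z : LTRing p n →+* S) {y : S} (hy : y ∈ rad S) :
    ev1 z y (δ.subst (C a * γ ^ p ^ l : PowerSeries (LTRing p n))) =
      ev1 z (z a * ev1 z y γ ^ p ^ l) δ := by
  rw [ev1_psubst z hy (H.cc a l), map_mul, map_pow, ev1_C]

/-- The image of `δ` at a point is a homomorphism modulo any ideal containing the image of the
maximal ideal. -/
theorem IsFrame.isHomMod (hn : 0 < n) {φ : Zp p →+* GaloisField p n}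
    {γ δ : PowerSeries (LTRing p n)} (H : IsFrame F G φ γ δ) {S : Type} [CommRing S]
    (z : LTRing p n →+* S) {𝔠 : Ideal S} (hz : ∀ x ∈ heightIdeal p n n, z x ∈ 𝔠)
    (φ' : Zp p →+* S) : IsHomMod 𝔠 (G.map φ') (F.map z) (map z δ) := by
  refine ⟨by rw [cc_pmap, H.δ0, map_zero], ?_⟩
  let κ : GaloisField p n →+* S ⧸ 𝔠 := (res p n).liftOfSurjective (res_surjective p n)
    ⟨(Ideal.Quotient.mk 𝔠).comp z, fun x hx =>
      Ideal.Quotient.eq_zero_iff_mem.2 (hz x ((mem_top_iff p n hn).2 hx))⟩
  have hκ : κ.comp (res p n) = (Ideal.Quotient.mk 𝔠).comp z :=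
    RingHom.liftOfRightInverse_comp _ _ _ _
  have := H.homδ.map κ
  rw [fg_map_map, fg_map_map, hκ, zp_hom_eq (κ.comp φ) ((Ideal.Quotient.mk 𝔠).comp φ'),
    ← RingHom.comp_apply, ← map_comp, hκ, map_comp] at this
  rw [fg_map_map, fg_map_map]
  exact this

end Vale.Agent.P217
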