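import Vale.Agent.P217.Defs

namespace Vale.Agent.P217

open Finset

namespace Ideals

theorem mem_span_X {σ R : Type} [CommRing R] [DecidableEq σ] (s : Finset σ) :
    ∀ f : MvPowerSeries σ R, (∀ d : σ →₀ ℕ, (∀ i ∈ s, d i = 0) → MvPowerSeries.coeff d f = 0) →
      f ∈ Ideal.span {x | ∃ i ∈ s, x = MvPowerSeries.X i} := by
  induction s using Finset.induction_on with
  | empty =>
    intro f hf
    have : f = 0 := by
      ext d
      exact hf d (by simp)
    rw [this]
    exact Ideal.zero_mem _
  | insert i s hi ih =>
    intro f hf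
    let f1 : MvPowerSeries σ R := fun d => if d i = 0 then MvPowerSeries.coeff d f else 0
    have hc : ∀ d, MvPowerSeries.coeff d f1 = if d i = 0 then MvPowerSeries.coeff d f else 0 :=
      fun d => rfl
    have h1 : f1 ∈ Ideal.span {x | ∃ j ∈ insert i s, x = MvPowerSeries.X j} := by
      refine Ideal.span_mono ?_ (ih f1 fun d hd => ?_)
      · rintro x ⟨j, hj, rfl⟩
        exact ⟨j, mem_insert_of_mem hj, rfl⟩
      · rw [hc]
        split_ifs with h
        · refine hf d fun j hj => ?_
          rcases mem_insert.1 hj with rfl | hj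
          · exact h
          · exact hd j hj
        · rfl
    have h2 : MvPowerSeries.X i ∣ f - f1 := by
      rw [MvPowerSeries.X_dvd_iff]
      intro d hd
      rw [map_sub, hc, if_pos hd, sub_self]
    obtain ⟨g, hg⟩ := h2
    have : f = f1 + MvPowerSeries.X i * g := by rw [← hg]; ring
    rw [this]
    exact Ideal.add_mem _ h1 (Ideal.mul_mem_right _ _
      (Ideal.subset_span ⟨i, mem_insert_self _ _, rfl⟩))

/-- set the variables with `P i` to zero -/
noncomputable def kill {σ R : Type} [CommRing R] (P : σ → Prop) :
    MvPowerSeries σ R →+* MvPowerSeries σ R := by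
  classical
  exact
  { toFun := fun f d => if ∀ i, P i → d i = 0 then MvPowerSeries.coeff d f else 0
    map_one' := by
      ext d
      change (if ∀ i, P i → d i = 0 then MvPowerSeries.coeff d 1 else 0) = _
      split_ifs with h
      · rfl
      · rw [MvPowerSeries.coeff_one, if_neg]
        rintro rfl
        exact h (by simp)
    map_mul' := by
      intro f g
      ext d
      refine Eq.trans ?_ (MvPowerSeries.coeff_mul d _ _).symm
      change (if ∀ i, P i → d i = 0 then MvPowerSeries.coeff d (f * g) else 0) = _
      rw [MvPowerSeries.coeff_mul]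
      split_ifs with h
      · refine Finset.sum_congr rfl fun q hq => ?_
        have hq' : q.1 + q.2 = d := HasAntidiagonal.mem_antidiagonal.1 hq
        have h1 : ∀ i, P i → q.1 i = 0 ∧ q.2 i = 0 := fun i hi => by
          have := h i hi
          rw [← hq', Finsupp.add_apply] at this
          omega
        change _ = (if ∀ i, P i → q.1 i = 0 then MvPowerSeries.coeff q.1 f else 0) *
          (if ∀ i, P i → q.2 i = 0 then MvPowerSeries.coeff q.2 g else 0)
        rw [if_pos fun i hi => (h1 i hi).1, if_pos fun i hi => (h1 i hi).2]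
      · symm
        refine Finset.sum_eq_zero fun q hq => ?_
        have hq' : q.1 + q.2 = d := HasAntidiagonal.mem_antidiagonal.1 hq
        change (if ∀ i, P i → q.1 i = 0 then MvPowerSeries.coeff q.1 f else 0) *
          (if ∀ i, P i → q.2 i = 0 then MvPowerSeries.coeff q.2 g else 0) = 0
        split_ifs with h1 h2
        · refine absurd (fun i hi => ?_) h
          rw [← hq', Finsupp.add_apply, h1 i hi, h2 i hi]
        · exact mul_zero _
        · exact zero_mul _
        · exact zero_mul _
    map_zero' := by
      ext d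
      change (if ∀ i, P i → d i = 0 then MvPowerSeries.coeff d 0 else 0) = _
      simp
    map_add' := by
      intro f g
      ext d
      change (if ∀ i, P i → d i = 0 then MvPowerSeries.coeff d (f + g) else 0) =
        (if ∀ i, P i → d i = 0 then MvPowerSeries.coeff d f else 0) +
          (if ∀ i, P i → d i = 0 then MvPowerSeries.coeff d g else 0)
      split_ifs <;> simp }

theorem coeff_kill_pos {σ R : Type} [CommRing R] (P : σ → Prop) (f : MvPowerSeries σ R)
    (d : σ →₀ ℕ) (h : ∀ i, P i → d i = 0) :
    MvPowerSeries.coeff d (kill P f) = MvPowerSeries.coeff d f := by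
  classical
  change (if ∀ i, P i → d i = 0 then MvPowerSeries.coeff d f else 0) = _
  exact if_pos h

theorem coeff_kill_neg {σ R : Type} [CommRing R] (P : σ → Prop) (f : MvPowerSeries σ R)
    (d : σ →₀ ℕ) (h : ¬ ∀ i, P i → d i = 0) : MvPowerSeries.coeff d (kill P f) = 0 := by
  classical
  change (if ∀ i, P i → d i = 0 then MvPowerSeries.coeff d f else 0) = _
  exact if_neg h

variable {R : Type} [CommRing R]

theorem cc_mul (F : FormalGroup R) (m : ℕ) : PowerSeries.constantCoeff (mulSeries F m) = 0 := by
  induction m with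
  | zero => simp [mulSeries]
  | succ m ih =>
    have h : ∀ i, MvPowerSeries.constantCoeff
        ((![mulSeries F m, PowerSeries.X] : Fin 2 → PowerSeries R) i) = 0 := by
      intro i
      fin_cases i
      · exact ih
      · exact PowerSeries.constantCoeff_X
    exact MvPowerSeries.constantCoeff_subst_eq_zero
      (MvPowerSeries.hasSubst_of_constantCoeff_zero h) h F.zero_constantCoeff

theorem has_two {σ : Type} {a b : MvPowerSeries σ R} (ha : MvPowerSeries.constantCoeff a = 0)
    (hb : MvPowerSeries.constantCoeff b = 0) : MvPowerSeries.HasSubst ![a, b] :=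
  MvPowerSeries.hasSubst_of_constantCoeff_zero fun i => by
    fin_cases i
    · exact ha
    · exact hb

theorem map_mul_series {S : Type} [CommRing S] (F : FormalGroup R) (φ : R →+* S) (m : ℕ) :
    mulSeries (F.map φ) m = PowerSeries.map φ (mulSeries F m) := by
  induction m with
  | zero => simp [mulSeries]
  | succ m ih =>
    have h := MvPowerSeries.map_subst (h := φ)
      (has_two (cc_mul F m) (PowerSeries.constantCoeff_X (R := R))) F.toPowerSeries
    have h2 : (fun i => MvPowerSeries.map φ
        ((![mulSeries F m, PowerSeries.X] : Fin 2 → PowerSeries R) i)) =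
        ![mulSeries (F.map φ) m, PowerSeries.X] := by
      funext i
      fin_cases i
      · exact ih.symm
      · exact PowerSeries.map_X φ
    exact (h.trans (congrArg (fun a => MvPowerSeries.subst a (MvPowerSeries.map φ F.toPowerSeries))
      h2)).symm

theorem hom_apply {F G : FormalGroup R} {g : PowerSeries R} (h : IsHom F G g)
    {a b : PowerSeries R} (ha : PowerSeries.constantCoeff a = 0)
    (hb : PowerSeries.constantCoeff b = 0) :
    g.subst (F.toPowerSeries.subst ![a, b] : PowerSeries R) =
      G.toPowerSeries.subst ![g.subst a, g.subst b] := by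
  have hab := has_two ha hb
  have hF : PowerSeries.HasSubst F.toPowerSeries :=
    PowerSeries.HasSubst.of_constantCoeff_zero F.zero_constantCoeff
  have hX : ∀ i : Fin 2, PowerSeries.HasSubst (MvPowerSeries.X i : MvPowerSeries (Fin 2) R) :=
    fun i => PowerSeries.HasSubst.of_constantCoeff_zero (MvPowerSeries.constantCoeff_X i)
  have key : ∀ c : MvPowerSeries (Fin 2) R, PowerSeries.HasSubst c →
      (MvPowerSeries.subst ![a, b] (g.subst c) : PowerSeries R) =
        g.subst (MvPowerSeries.subst ![a, b] c : PowerSeries R) :=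
    fun c hc => MvPowerSeries.subst_comp_subst_apply hc.const hab g
  have h0 : ∀ i : Fin 2, MvPowerSeries.constantCoeff
      (g.subst (MvPowerSeries.X i : MvPowerSeries (Fin 2) R)) = 0 := fun i =>
    PowerSeries.constantCoeff_subst_eq_zero (MvPowerSeries.constantCoeff_X i) g h.1
  rw [← key _ hF, h.2, MvPowerSeries.subst_comp_subst_apply (has_two (h0 0) (h0 1)) hab]
  refine congrArg (fun c => MvPowerSeries.subst c G.toPowerSeries) ?_
  funext i
  fin_cases i
  · exact (key _ (hX 0)).trans (by rw [MvPowerSeries.subst_X hab]; rfl)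
  · exact (key _ (hX 1)).trans (by rw [MvPowerSeries.subst_X hab]; rfl)

theorem hom_mul {F G : FormalGroup R} {g : PowerSeries R} (h : IsHom F G g) (m : ℕ) :
    g.subst (mulSeries F m) = (mulSeries G m).subst g := by
  have hg : PowerSeries.HasSubst g := PowerSeries.HasSubst.of_constantCoeff_zero' h.1
  induction m with
  | zero =>
    change g.subst (0 : PowerSeries R) = (0 : PowerSeries R).subst g
    rw [PowerSeries.subst_zero_of_constantCoeff_zero h.1, ← PowerSeries.coe_substAlgHom hg,
      map_zero]
  | succ m ih =>
    have e1 := hom_apply h (cc_mul F m) (PowerSeries.constantCoeff_X (R := R))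
    have e2 := MvPowerSeries.subst_comp_subst_apply
      (has_two (cc_mul G m) (PowerSeries.constantCoeff_X (R := R))) hg.const G.toPowerSeries
    refine e1.trans (Eq.trans ?_ e2.symm)
    refine congrArg (fun c => MvPowerSeries.subst c G.toPowerSeries) ?_
    funext i
    fin_cases i
    · exact ih
    · exact (PowerSeries.X_subst g).trans (PowerSeries.subst_X hg).symm

theorem cc_subst {a : PowerSeries R} (ha : PowerSeries.constantCoeff a = 0) (f : PowerSeries R) :
    PowerSeries.constantCoeff (f.subst a : PowerSeries R) = PowerSeries.constantCoeff f := by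
  have hs : PowerSeries.HasSubst a := PowerSeries.HasSubst.of_constantCoeff_zero' ha
  have h1 := PowerSeries.constantCoeff_subst_eq_zero ha
    (f - PowerSeries.C (PowerSeries.constantCoeff f)) (by simp)
  rw [← PowerSeries.coe_substAlgHom hs, map_sub, map_sub, sub_eq_zero,
    ← PowerSeries.algebraMap_eq, AlgHom.commutes] at h1
  rw [← PowerSeries.coe_substAlgHom hs]
  exact h1.trans (MvPowerSeries.constantCoeff_C _)

theorem coeff_cmp {g a b : PowerSeries R} {q : ℕ} (hq : 0 < q)
    (hg : PowerSeries.constantCoeff g = 0) (ha : ∀ m < q, PowerSeries.coeff m a = 0)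
    (hb : ∀ m < q, PowerSeries.coeff m b = 0) (h : g.subst a = b.subst g) :
    PowerSeries.coeff q a * PowerSeries.coeff 1 g =
      PowerSeries.coeff 1 g ^ q * PowerSeries.coeff q b := by
  have ha0 : PowerSeries.constantCoeff a = 0 := by
    rw [← PowerSeries.coeff_zero_eq_constantCoeff_apply]
    exact ha 0 hq
  have hsa : PowerSeries.HasSubst a := PowerSeries.HasSubst.of_constantCoeff_zero' ha0
  have hsg : PowerSeries.HasSubst g := PowerSeries.HasSubst.of_constantCoeff_zero' hg
  obtain ⟨a', ha'⟩ := PowerSeries.X_pow_dvd_iff.2 ha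
  obtain ⟨b', hb'⟩ := PowerSeries.X_pow_dvd_iff.2 hb
  obtain ⟨g', hg'⟩ := PowerSeries.X_dvd_iff.2 hg
  have c0 : ∀ f : PowerSeries R, PowerSeries.coeff q (PowerSeries.X ^ q * f) =
      PowerSeries.constantCoeff f := fun f => by
    have := PowerSeries.coeff_X_pow_mul f q 0
    rwa [zero_add, PowerSeries.coeff_zero_eq_constantCoeff_apply] at this
  have c1 : PowerSeries.coeff 1 g = PowerSeries.constantCoeff g' := by
    rw [hg', PowerSeries.coeff_succ_X_mul, PowerSeries.coeff_zero_eq_constantCoeff_apply]
  have e1 : (g.subst a : PowerSeries R) = PowerSeries.X ^ q * (a' * g'.subst a) := by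
    rw [← mul_assoc, ← ha']
    conv_lhs => rw [hg']
    rw [PowerSeries.subst_mul hsa, PowerSeries.subst_X hsa]
  have e2 : (b.subst g : PowerSeries R) = PowerSeries.X ^ q * (g' ^ q * b'.subst g) := by
    rw [← mul_assoc, ← mul_pow, ← hg', hb', PowerSeries.subst_mul hsg, PowerSeries.subst_pow hsg,
      PowerSeries.subst_X hsg]
  have e3 := congrArg (PowerSeries.coeff q) h
  rw [e1, e2, c0, c0, map_mul, map_mul, map_pow, cc_subst ha0, cc_subst hg] at e3
  have c2 : PowerSeries.coeff q a = PowerSeries.constantCoeff a' := by rw [ha', c0]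
  have c3 : PowerSeries.coeff q b = PowerSeries.constantCoeff b' := by rw [hb', c0]
  rw [c1, c2, c3, e3]

end Ideals

section

variable (p n : ℕ) [Fact p.Prime]

theorem heightIdeal_mono : Monotone (heightIdeal p n) := by
  intro a b hab
  unfold heightIdeal
  split_ifs with ha hb hb
  · exact le_rfl
  · exact bot_le
  · omega
  · refine Ideal.span_mono (Set.union_subset_union_right _ ?_)
    rintro x ⟨i, hi, rfl⟩
    exact ⟨i, by omega, rfl⟩

theorem heightIdeal_succ (i : Fin (n - 1)) : heightIdeal p n (i.val + 2) =
    heightIdeal p n (i.val + 1) ⊔ Ideal.span {MvPowerSeries.X i} := by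
  unfold heightIdeal
  rw [if_neg (by omega), if_neg (by omega), ← Ideal.span_union]
  refine congrArg Ideal.span ?_
  ext x
  simp only [Set.mem_union, Set.mem_singleton_iff, Set.mem_ofPred_eq]
  constructor
  · rintro (h | ⟨j, hj, rfl⟩)
    · exact Or.inl (Or.inl h)
    · by_cases hji : j = i
      · exact Or.inr (by rw [hji])
      · have : j.val ≠ i.val := fun h => hji (Fin.ext h)
        exact Or.inl (Or.inr ⟨j, by omega, rfl⟩)
  · rintro ((h | ⟨j, hj, rfl⟩) | rfl)
    · exact Or.inl h
    · exact Or.inr ⟨j, by omega, rfl⟩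
    · exact Or.inr ⟨i, by omega, rfl⟩

theorem heightIdeal_one : heightIdeal p n 1 = Ideal.span {(p : LTRing p n)} := by
  unfold heightIdeal
  rw [if_neg (by omega)]
  refine congrArg Ideal.span ?_
  ext x
  simp

theorem Ideals.ker_iff (h : ℕ) (f : LTRing p n) :
    f ∈ RingHom.ker ((MvPowerSeries.map (WittVector.constantCoeff (p := p))).comp
      (Ideals.kill (R := WittVector p (GaloisField p n))
        fun i : Fin (n - 1) => i.val + 1 < h)) ↔
    ∀ d : Fin (n - 1) →₀ ℕ, (∀ i : Fin (n - 1), i.val + 1 < h → d i = 0) →
      WittVector.constantCoeff (MvPowerSeries.coeff d f) = 0 := by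
  rw [RingHom.mem_ker, RingHom.comp_apply, MvPowerSeries.ext_iff]
  constructor
  · intro h1 d hd
    have := h1 d
    rwa [MvPowerSeries.coeff_map, Ideals.coeff_kill_pos _ _ _ hd, map_zero] at this
  · intro h1 d
    rw [MvPowerSeries.coeff_map, map_zero]
    by_cases hd : ∀ i : Fin (n - 1), i.val + 1 < h → d i = 0
    · rw [Ideals.coeff_kill_pos _ _ _ hd, h1 d hd]
    · rw [Ideals.coeff_kill_neg _ _ _ hd, map_zero]

theorem mem_heightIdeal_iff {h : ℕ} (hh : 0 < h) (f : LTRing p n) :
    f ∈ heightIdeal p n h ↔ ∀ d : Fin (n - 1) →₀ ℕ, (∀ i : Fin (n - 1), i.val + 1 < h → d i = 0) →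
      WittVector.constantCoeff (MvPowerSeries.coeff d f) = 0 := by
  unfold heightIdeal
  rw [if_neg (by omega)]
  constructor
  · intro hf
    rw [← Ideals.ker_iff]
    refine (Ideal.span_le.2 ?_) hf
    rintro x (rfl | ⟨i, hi, rfl⟩)
    · rw [SetLike.mem_coe, RingHom.mem_ker, map_natCast,
        ← map_natCast (MvPowerSeries.C (σ := Fin (n - 1)) (R := GaloisField p n)),
        CharP.cast_eq_zero, map_zero]
    · rw [SetLike.mem_coe, Ideals.ker_iff]
      intro d hd
      classical
      rw [MvPowerSeries.coeff_X, if_neg, map_zero]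
      rintro rfl
      simpa using hd i hi
  · intro hf
    let P : Fin (n - 1) → Prop := fun i => i.val + 1 < h
    have h1 : ∀ d, ∃ w, MvPowerSeries.coeff d (Ideals.kill P f) =
        (p : WittVector p (GaloisField p n)) * w := by
      intro d
      by_cases hd : ∀ i, P i → d i = 0
      · rw [Ideals.coeff_kill_pos _ _ _ hd]
        exact Ideal.mem_span_singleton.1
          ((WittVector.mem_span_p_iff_coeff_zero_eq_zero _).2 (hf d hd))
      · exact ⟨0, by rw [Ideals.coeff_kill_neg _ _ _ hd, mul_zero]⟩
    choose w hw using h1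
    have h2 : Ideals.kill P f = (p : LTRing p n) * (show LTRing p n from w) := by
      ext1 d
      rw [hw, ← map_natCast (MvPowerSeries.C (σ := Fin (n - 1))
        (R := WittVector p (GaloisField p n))), MvPowerSeries.coeff_C_mul]
      rfl
    have h3 := Ideals.mem_span_X (univ.filter P) (f - Ideals.kill P f) fun d hd => by
      rw [map_sub, Ideals.coeff_kill_pos _ _ _ fun i hi => hd i (by simpa using hi), sub_self]
    have : f = Ideals.kill P f + (f - Ideals.kill P f) := by ring
    rw [this]
    refine Ideal.add_mem _ ?_ (Ideal.span_mono ?_ h3)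
    · rw [h2]
      exact Ideal.mul_mem_right _ _ (Ideal.subset_span (Or.inl rfl))
    · rintro x ⟨i, hi, rfl⟩
      exact Or.inr ⟨i, by simpa using hi, rfl⟩

theorem heightIdeal_isPrime (h : ℕ) : (heightIdeal p n h).IsPrime := by
  rcases Nat.eq_zero_or_pos h with rfl | hh
  · unfold heightIdeal
    rw [if_pos rfl]
    exact Ideal.isPrime_bot
  · have : heightIdeal p n h = RingHom.ker
        ((MvPowerSeries.map (WittVector.constantCoeff (p := p))).comp
          (Ideals.kill (R := WittVector p (GaloisField p n))
            fun i : Fin (n - 1) => i.val + 1 < h)) := by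
      ext f
      rw [mem_heightIdeal_iff p n hh, Ideals.ker_iff]
    rw [this]
    have : IsDomain (MvPowerSeries (Fin (n - 1)) (GaloisField p n)) := NoZeroDivisors.to_isDomain _
    exact RingHom.ker_isPrime _

theorem heightIdeal_top (hn : 0 < n) :
    heightIdeal p n n = IsLocalRing.maximalIdeal (LTRing p n) := by
  ext f
  rw [mem_heightIdeal_iff p n hn, IsLocalRing.mem_maximalIdeal, mem_nonunits_iff,
    MvPowerSeries.isUnit_iff_constantCoeff]
  constructor
  · intro h1 h2
    exact (h2.map WittVector.constantCoeff).ne_zero (h1 0 (by simp))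
  · intro h1 d hd
    have : d = 0 := by
      ext i
      exact hd i (by have := i.2; omega)
    rw [this]
    by_contra h2
    exact h1 (WittVector.isUnit_of_coeff_zero_ne_zero _ h2)

theorem heightIdeal_invariant (F : FormalGroup (LTRing p n)) (hF : IsLubinTate p n F) (h : ℕ)
    (hh : h ≤ n) : IsInvariant p n F (heightIdeal p n h) := by
  rintro φ ⟨-, g, hu, hg⟩
  induction h using Nat.twoStepInduction with
  | zero => simp [heightIdeal]
  | one =>
    rw [heightIdeal_one, Ideal.map_span, Set.image_singleton, map_natCast]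
  | more j _ ih =>
    have ih := ih (by omega)
    let i : Fin (n - 1) := ⟨j, by omega⟩
    have hs : heightIdeal p n (j + 2) =
        heightIdeal p n (j + 1) ⊔ Ideal.span {MvPowerSeries.X i} := heightIdeal_succ p n i
    set I := heightIdeal p n (j + 1) with hI
    set q := p ^ (j + 1) with hq
    have hq0 : 0 < q := pow_pos (Fact.out : p.Prime).pos _
    have hc : ∀ m ≤ q, PowerSeries.coeff m (mulSeries F p) -
        (if m = q then MvPowerSeries.X i else 0) ∈ I := by
      intro m hm
      have := hF.2.2 i m hm
      rwa [map_sub, PowerSeries.coeff_C_mul, PowerSeries.coeff_X_pow, mul_ite, mul_one,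
        mul_zero] at this
    have hφ : ∀ x ∈ I, φ.toRingHom x ∈ I := fun x hx => ih ▸ Ideal.mem_map_of_mem _ hx
    have e0 := Ideals.hom_mul hg p
    rw [Ideals.map_mul_series] at e0
    have e1 := congrArg (MvPowerSeries.map (Ideal.Quotient.mk I)) e0
    rw [PowerSeries.map_subst (PowerSeries.HasSubst.of_constantCoeff_zero' (Ideals.cc_mul F p)),
      PowerSeries.map_subst (PowerSeries.HasSubst.of_constantCoeff_zero' hg.1)] at e1
    have e2 := Ideals.coeff_cmp (g := PowerSeries.map (Ideal.Quotient.mk I) g)
      (a := PowerSeries.map (Ideal.Quotient.mk I) (mulSeries F p))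
      (b := PowerSeries.map (Ideal.Quotient.mk I) (PowerSeries.map φ.toRingHom (mulSeries F p)))
      hq0 (by
        rw [← PowerSeries.coeff_zero_eq_constantCoeff_apply, PowerSeries.coeff_map,
          PowerSeries.coeff_zero_eq_constantCoeff_apply, hg.1, map_zero])
      (fun m hm => by
        have := hc m hm.le
        rw [if_neg hm.ne, sub_zero] at this
        rw [PowerSeries.coeff_map, Ideal.Quotient.eq_zero_iff_mem]
        exact this)
      (fun m hm => by
        have := hc m hm.le
        rw [if_neg hm.ne, sub_zero] at this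
        rw [PowerSeries.coeff_map, PowerSeries.coeff_map, Ideal.Quotient.eq_zero_iff_mem]
        exact hφ _ this) e1
    have e3 := hc q le_rfl
    rw [if_pos rfl] at e3
    have e4 := hφ _ e3
    rw [map_sub] at e4
    simp only [PowerSeries.coeff_map] at e2
    rw [Ideal.Quotient.eq.2 e3, Ideal.Quotient.eq.2 e4, ← map_pow, ← map_mul, ← map_mul,
      Ideal.Quotient.eq] at e2
    rw [hs, Ideal.map_sup, ih, Ideal.map_span, Set.image_singleton]
    apply le_antisymm
    · refine sup_le le_sup_left ((Ideal.span_singleton_le_iff_mem _).2 ?_)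
      rw [← Ideal.unit_mul_mem_iff_mem _ (hu.pow q)]
      have := Ideal.sub_mem _ (Ideal.mem_sup_right (S := I) (Ideal.mul_mem_right
        (PowerSeries.coeff 1 g) _ (Ideal.mem_span_singleton_self (MvPowerSeries.X i))))
        (Ideal.mem_sup_left e2)
      rwa [sub_sub_cancel] at this
    · refine sup_le le_sup_left ((Ideal.span_singleton_le_iff_mem _).2 ?_)
      rw [← Ideal.mul_unit_mem_iff_mem _ hu]
      have := Ideal.add_mem _ (Ideal.mem_sup_left e2) (Ideal.mem_sup_right (S := I)
        (Ideal.mul_mem_left _ (PowerSeries.coeff 1 g ^ q)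
          (Ideal.mem_span_singleton_self (φ.toRingHom (MvPowerSeries.X i)))))
      rwa [sub_add_cancel] at this

end

end Vale.Agent.P217
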