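import Vale.Agent.P217.Ev1
import Vale.Agent.P217.Ideals

/-! The group of points of a commutative formal group law. -/

namespace Vale.Agent.P217

open Finset MvPowerSeries

section basic
variable {R : Type} [CommRing R]

theorem fg_map_map {A B : Type} [CommRing A] [CommRing B] (F : FormalGroup R) (χ : R →+* A)
    (φ : A →+* B) : (F.map χ).map φ = F.map (φ.comp χ) := by
  ext1
  rw [FormalGroup.map_toPowerSeries, FormalGroup.map_toPowerSeries, FormalGroup.map_toPowerSeries,
    MvPowerSeries.map_comp]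
  rfl

theorem fg_map_id (F : FormalGroup R) : F.map (RingHom.id R) = F := by
  ext1; simp

theorem cc2 {σ : Type} {a b : MvPowerSeries σ R} (ha : constantCoeff a = 0)
    (hb : constantCoeff b = 0) : ∀ i, constantCoeff (![a, b] i) = 0 := by
  intro i; fin_cases i
  · exact ha
  · exact hb

instance fg_map_isComm {A : Type} [CommRing A] (F : FormalGroup R) [F.IsComm] (φ : R →+* A) :
    (F.map φ).IsComm where
  comm := by
    have h := congrArg (MvPowerSeries.map φ) (FormalGroup.IsComm.comm (F := F))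
    rw [MvPowerSeries.map_subst HasSubst.X_X] at h
    refine h.trans (congrArg (fun a => MvPowerSeries.subst a (MvPowerSeries.map φ F.toPowerSeries)) ?_)
    funext i; fin_cases i <;> simp

/-- `F = X + Y + X Y r`. -/
theorem fg_exists_eq (F : FormalGroup R) :
    ∃ r : MvPowerSeries (Fin 2) R, F.toPowerSeries = X 0 + X 1 + X 0 * X 1 * r := by
  let _ := Adic.discrete R
  have hX : ∀ i : Fin 2, (X i : MvPowerSeries (Fin 2) R) ∈ rad _ := X_mem_rad
  have key : ∀ (i j : Fin 2) (a : Fin 2 → MvPowerSeries (Fin 2) R), (∀ k, a k ∈ rad _) →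
      (∀ k, X k - a k ∈ Ideal.span {(X i : MvPowerSeries (Fin 2) R)}) →
      ev C a F.toPowerSeries = X j → X i ∣ F.toPowerSeries - X j := by
    intro i j a ha h h2
    have := ev_congr C ha hX h F.toPowerSeries
    rwa [ev_C_X, h2, Ideal.mem_span_singleton] at this
  have h0 : (X 0 : MvPowerSeries (Fin 2) R) ∣ F.toPowerSeries - X 1 := by
    refine key 0 1 ![0, X 1] (fun k => by fin_cases k <;> simp [hX]) (fun k => by
      fin_cases k <;> simp) ?_
    rw [← subst_eq_ev (cc2 (by simp) (by simp))]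
    exact F.zero_add (PowerSeries.HasSubst.X 1)
  have h1 : (X 1 : MvPowerSeries (Fin 2) R) ∣ F.toPowerSeries - X 0 := by
    refine key 1 0 ![X 0, 0] (fun k => by fin_cases k <;> simp [hX]) (fun k => by
      fin_cases k <;> simp) ?_
    rw [← subst_eq_ev (cc2 (by simp) (by simp))]
    exact F.add_zero (PowerSeries.HasSubst.X 0)
  have h0' : (X 0 : MvPowerSeries (Fin 2) R) ∣ F.toPowerSeries - X 0 - X 1 := by
    have := dvd_sub h0 (dvd_refl (X 0))
    rwa [sub_right_comm] at this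
  have h1' : (X 1 : MvPowerSeries (Fin 2) R) ∣ F.toPowerSeries - X 0 - X 1 :=
    dvd_sub h1 (dvd_refl _)
  obtain ⟨g, hg⟩ := h0'
  have hg1 : (X 1 : MvPowerSeries (Fin 2) R) ∣ g := by
    rw [X_dvd_iff] at h1' ⊢
    intro m hm
    have := h1' (Finsupp.single 0 1 + m) (by simp [hm])
    rwa [hg, X_def, coeff_add_monomial_mul, one_mul] at this
  obtain ⟨r, rfl⟩ := hg1
  exact ⟨r, by linear_combination hg⟩

end basic

variable {R S : Type} [CommRing R] [CommRing S] [Adic S]

theorem rad2 {a b : S} (ha : a ∈ rad S) (hb : b ∈ rad S) : ∀ i, ![a, b] i ∈ rad S := by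
  intro i; fin_cases i
  · exact ha
  · exact hb

theorem comp2 {A B : Type} (f : A → B) (a b : A) : (fun i => f (![a, b] i)) = ![f a, f b] := by
  funext i; fin_cases i <;> rfl

theorem ev_subst2 {τ : Type} [Finite τ] (φ : R →+* S) {a : τ → S} (ha : ∀ i, a i ∈ rad S)
    {b c : MvPowerSeries τ R} (hb : constantCoeff b = 0) (hc : constantCoeff c = 0)
    (f : MvPowerSeries (Fin 2) R) :
    ev φ a (subst ![b, c] f) = ev φ ![ev φ a b, ev φ a c] f := by
  rw [ev_subst φ ha (cc2 hb hc), comp2]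

theorem ev1_subst2 (φ : R →+* S) {a : S} (ha : a ∈ rad S) {b c : PowerSeries R}
    (hb : PowerSeries.constantCoeff b = 0) (hc : PowerSeries.constantCoeff c = 0)
    (f : MvPowerSeries (Fin 2) R) :
    ev1 φ a (subst ![b, c] f) = ev φ ![ev1 φ a b, ev1 φ a c] f :=
  ev_subst2 φ (fun _ => ha) hb hc f

theorem hom_ev2 {T : Type} [CommRing T] [Adic T] (ψ : S →+* T) (φ : R →+* S) {a b : S}
    (ha : a ∈ rad S) (hb : b ∈ rad S) (ha' : ψ a ∈ rad T) (hb' : ψ b ∈ rad T)
    (f : MvPowerSeries (Fin 2) R) : ψ (ev φ ![a, b] f) = ev (ψ.comp φ) ![ψ a, ψ b] f := by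
  rw [hom_ev ψ φ (rad2 ha hb) (fun i => by fin_cases i; exacts [ha', hb']), comp2]

/-- Evaluation at topologically nilpotent points preserves topological nilpotence. -/
theorem ev_rad {τ : Type} [Finite τ] {a : τ → S} (ha : ∀ i, a i ∈ rad S) :
    ∀ f ∈ rad (MvPowerSeries τ S), ev (RingHom.id S) a f ∈ rad S :=
  fun _ hf => ev_mem_of_constantCoeff _ ha ha (mem_rad_ps.1 hf)

theorem ev_rad_of {T : Type} [CommRing T] [Adic T] {τ : Type} [Finite τ] (ψ : S →+* T)
    (hψ : ∀ x ∈ rad S, ψ x ∈ rad T) {a : τ → T} (ha : ∀ i, a i ∈ rad T) :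
    ∀ f ∈ rad (MvPowerSeries τ S), ev ψ a f ∈ rad T :=
  fun _ hf => ev_mem_of_constantCoeff _ ha ha (hψ _ (mem_rad_ps.1 hf))

/-- Points of a formal group law with values in the topologically nilpotent elements. -/
@[ext] structure Pt (F : FormalGroup R) (φ : R →+* S) where
  val : S
  mem : val ∈ rad S

namespace Pt
variable {F : FormalGroup R} {φ : R →+* S}

noncomputable instance : Add (Pt F φ) :=
  ⟨fun x y => ⟨ev φ ![x.val, y.val] F.toPowerSeries,
    ev_mem_rad φ (rad2 x.mem y.mem) F.zero_constantCoeff⟩⟩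

instance : Zero (Pt F φ) := ⟨⟨0, zero_mem _⟩⟩

theorem add_val (x y : Pt F φ) : (x + y).val = ev φ ![x.val, y.val] F.toPowerSeries := rfl

@[simp] theorem zero_val : (0 : Pt F φ).val = 0 := rfl

theorem exists_add_val (x y : Pt F φ) : ∃ r, (x + y).val = x.val + y.val + x.val * y.val * r := by
  obtain ⟨r, hr⟩ := fg_exists_eq F
  refine ⟨ev φ ![x.val, y.val] r, ?_⟩
  rw [add_val, hr]
  simp [ev_X φ (rad2 x.mem y.mem)]

theorem add_assoc' (x y z : Pt F φ) : x + y + z = x + (y + z) := by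
  ext1
  have h3 : ∀ i, ![x.val, y.val, z.val] i ∈ rad S := by
    intro i; fin_cases i
    · exact x.mem
    · exact y.mem
    · exact z.mem
  have h := congrArg (ev φ ![x.val, y.val, z.val]) F.assoc
  have c : ∀ i j : Fin 3, constantCoeff (F.toPowerSeries.subst
      ![(X i : MvPowerSeries (Fin 3) R), X j]) = 0 := fun i j =>
    constantCoeff_subst_eq_zero HasSubst.X_X (cc2 (by simp) (by simp)) F.zero_constantCoeff
  rw [ev_subst2 φ h3 (c 0 1) (by simp), ev_subst2 φ h3 (by simp) (c 1 2),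
    ev_subst2 φ h3 (by simp) (by simp), ev_subst2 φ h3 (by simp) (by simp)] at h
  simp only [ev_X φ h3] at h
  exact h

theorem exists_neg (x : Pt F φ) : ∃ y : Pt F φ, y + x = 0 := by
  obtain ⟨r, hr⟩ := fg_exists_eq F
  have hx : (PowerSeries.C x.val : PowerSeries S) ∈ rad _ := C_mem_rad (τ := Unit) x.mem
  have h2 := rad2 (pX_mem_rad (S := S)) hx
  set f : PowerSeries S := ev (PowerSeries.C.comp φ) ![PowerSeries.X, PowerSeries.C x.val]
    F.toPowerSeries with hf
  have hf' : f = PowerSeries.X + PowerSeries.C x.val + PowerSeries.X * PowerSeries.C x.val *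
      ev (PowerSeries.C.comp φ) ![PowerSeries.X, PowerSeries.C x.val] r := by
    rw [hf, hr]
    simp only [map_add, map_mul, ev_X _ h2]
    rfl
  have h1 : IsUnit (RingHom.id S (PowerSeries.coeff 1 f)) := by
    rw [hf', mul_assoc]
    simp only [map_add, PowerSeries.coeff_one_X, PowerSeries.coeff_succ_C, add_zero,
      PowerSeries.coeff_succ_X_mul, PowerSeries.coeff_C_mul, RingHom.id_apply]
    exact isUnit_one_add (Ideal.mul_mem_right _ _ x.mem)
  have h0 : (0 : S) - RingHom.id S (PowerSeries.constantCoeff f) ∈ rad S := by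
    rw [hf']; simpa using x.mem
  obtain ⟨y, hy, hy', -⟩ := exists_root (RingHom.id S) h1 h0
  refine ⟨⟨y, hy⟩, Pt.ext ?_⟩
  rw [hf, hom_ev2 _ _ pX_mem_rad hx (by rw [ev1_X _ hy]; exact hy)
    (by simpa using x.mem), ← RingHom.comp_assoc, ev1_comp_C, ev1_X _ hy, ev1_C] at hy'
  exact hy'

noncomputable instance : Neg (Pt F φ) := ⟨fun x => (exists_neg x).choose⟩

noncomputable instance : AddGroup (Pt F φ) :=
  AddGroup.ofLeftAxioms add_assoc'
    (fun x => by
      obtain ⟨r, hr⟩ := exists_add_val 0 x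
      exact Pt.ext (by simpa using hr))
    fun x => (exists_neg x).choose_spec

noncomputable instance [F.IsComm] : AddCommGroup (Pt F φ) where
  add_comm x y := by
    ext1
    have h := congrArg (ev φ ![x.val, y.val]) (FormalGroup.IsComm.comm (F := F))
    rw [ev_subst2 φ (rad2 x.mem y.mem) (by simp) (by simp)] at h
    simp only [ev_X φ (rad2 x.mem y.mem)] at h
    exact h

theorem val_eq_zero {x : Pt F φ} : x.val = 0 ↔ x = 0 := ⟨fun h => Pt.ext h, fun h => h ▸ rfl⟩

/-- The difference in the group and the difference in the ring agree up to a unit. -/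
theorem exists_sub_val (x y : Pt F φ) :
    ∃ r, IsUnit (1 + y.val * r) ∧ x.val - y.val = (x - y).val * (1 + y.val * r) := by
  obtain ⟨r, hr⟩ := exists_add_val (x - y) y
  rw [sub_add_cancel] at hr
  exact ⟨r, isUnit_one_add (Ideal.mul_mem_right _ _ y.mem), by rw [hr]; ring⟩

theorem sub_val_mem_iff (x y : Pt F φ) (𝔠 : Ideal S) : (x - y).val ∈ 𝔠 ↔ x.val - y.val ∈ 𝔠 := by
  obtain ⟨r, hu, hr⟩ := exists_sub_val x y
  rw [hr, Ideal.mul_unit_mem_iff_mem _ hu]

theorem neg_val_mem_iff (x : Pt F φ) (𝔠 : Ideal S) : (-x).val ∈ 𝔠 ↔ x.val ∈ 𝔠 := by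
  rw [← zero_sub, sub_val_mem_iff]; simp

variable (F φ) in
/-- The points with value in an ideal. -/
def idealSub (𝔠 : Ideal S) : AddSubgroup (Pt F φ) where
  carrier := {x | x.val ∈ 𝔠}
  add_mem' {x y} hx hy := by
    obtain ⟨r, hr⟩ := exists_add_val x y
    change (x + y).val ∈ 𝔠
    rw [hr]
    exact add_mem (add_mem hx hy) (Ideal.mul_mem_right _ _ (Ideal.mul_mem_right _ _ hx))
  zero_mem' := zero_mem 𝔠
  neg_mem' {x} hx := (neg_val_mem_iff x 𝔠).2 hx

theorem mem_idealSub {𝔠 : Ideal S} {x : Pt F φ} : x ∈ idealSub F φ 𝔠 ↔ x.val ∈ 𝔠 := Iff.rfl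

theorem add_val_sub_mem {𝔞 𝔟 : Ideal S} {x y : Pt F φ} (hx : x.val ∈ 𝔞) (hy : y.val ∈ 𝔟) :
    (x + y).val - (x.val + y.val) ∈ 𝔞 * 𝔟 := by
  obtain ⟨r, hr⟩ := exists_add_val x y
  rw [hr, add_sub_cancel_left]
  exact Ideal.mul_mem_right _ _ (Ideal.mul_mem_mul hx hy)

theorem sub_val_sub_mem {𝔞 𝔟 : Ideal S} {x y : Pt F φ} (hx : x.val - y.val ∈ 𝔞)
    (hy : y.val ∈ 𝔟) : (x - y).val - (x.val - y.val) ∈ 𝔞 * 𝔟 := by
  have := add_val_sub_mem ((sub_val_mem_iff x y 𝔞).2 hx) hy
  rw [sub_add_cancel] at this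
  have h2 := neg_mem this
  have e : (x - y).val - (x.val - y.val) = -(x.val - ((x - y).val + y.val)) := by ring
  rw [e]; exact h2

theorem sum_val_sub_mem [F.IsComm] {ι : Type} (s : Finset ι) (x : ι → Pt F φ) {𝔞 : Ideal S}
    (hx : ∀ i ∈ s, (x i).val ∈ 𝔞) : (∑ i ∈ s, x i).val - ∑ i ∈ s, (x i).val ∈ 𝔞 ^ 2 := by
  classical
  induction s using Finset.induction_on with
  | empty => simp
  | insert a s ha ih =>
    rw [sum_insert ha, sum_insert ha]
    have h1 : (∑ i ∈ s, x i).val ∈ 𝔞 :=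
      (idealSub F φ 𝔞).sum_mem fun i hi => hx i (mem_insert_of_mem hi)
    have h2 := add_val_sub_mem (hx a (mem_insert_self _ _)) h1
    rw [← pow_two] at h2
    have := add_mem h2 (ih fun i hi => hx i (mem_insert_of_mem hi))
    have e : (x a + ∑ i ∈ s, x i).val - ((x a).val + ∑ i ∈ s, (x i).val) =
        (x a + ∑ i ∈ s, x i).val - ((x a).val + (∑ i ∈ s, x i).val) +
          ((∑ i ∈ s, x i).val - ∑ i ∈ s, (x i).val) := by ring
    rw [e]; exact this

theorem nsmul_val (m : ℕ) (x : Pt F φ) : (m • x).val = ev1 φ x.val (mulSeries F m) := by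
  induction m with
  | zero => simp [mulSeries]
  | succ m ih =>
    rw [succ_nsmul, add_val, ih, mulSeries, ev1_subst2 φ x.mem (Ideals.cc_mul F m) (by simp),
      ev1_X φ x.mem]

theorem exists_nsmul_val (m : ℕ) (x : Pt F φ) :
    ∃ r, (m • x).val = m * x.val + x.val ^ 2 * r := by
  induction m with
  | zero => exact ⟨0, by simp⟩
  | succ m ih =>
    obtain ⟨r, hr⟩ := ih
    obtain ⟨s, hs⟩ := exists_add_val (m • x) x
    refine ⟨r + (m + x.val * r) * s, ?_⟩
    rw [succ_nsmul, hs, hr]; push_cast; ring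

section map
variable {T : Type} [CommRing T] [Adic T]

/-- Base change of points. -/
def map (F : FormalGroup R) (ψ : S →+* T) (hψ : ∀ x ∈ rad S, ψ x ∈ rad T) {φ : R →+* S}
    {φ' : R →+* T} (h : ψ.comp φ = φ') : Pt F φ →+ Pt F φ' where
  toFun x := ⟨ψ x.val, hψ _ x.mem⟩
  map_zero' := Pt.ext (map_zero ψ)
  map_add' x y := Pt.ext <| by
    subst h
    exact hom_ev2 ψ φ x.mem y.mem (hψ _ x.mem) (hψ _ y.mem) _

@[simp] theorem map_val (F : FormalGroup R) (ψ : S →+* T) (hψ : ∀ x ∈ rad S, ψ x ∈ rad T)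
    {φ : R →+* S} {φ' : R →+* T} (h : ψ.comp φ = φ') (x : Pt F φ) :
    (map F ψ hψ h x).val = ψ x.val := rfl

end map

section hom
variable {R' : Type} [CommRing R'] {G : FormalGroup R'} {φ' : R' →+* S}

theorem add_val_map (x y : Pt F φ) :
    (x + y).val = ev (RingHom.id S) ![x.val, y.val] (F.map φ).toPowerSeries := by
  rw [FormalGroup.map_toPowerSeries, ev_map _ _ (rad2 x.mem y.mem)]; rfl

/-- Transport of points along an equality of group laws. -/
def tr (h : F.map φ = G.map φ') : Pt F φ →+ Pt G φ' where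
  toFun x := ⟨x.val, x.mem⟩
  map_zero' := rfl
  map_add' x y := Pt.ext <| by
    change (x + y).val = _
    rw [add_val_map, add_val_map, h]

@[simp] theorem tr_val (h : F.map φ = G.map φ') (x : Pt F φ) : (tr h x).val = x.val := rfl

/-- The map on points induced by a homomorphism of formal group laws. -/
noncomputable def hom (g : PowerSeries S) (hg : IsHom (F.map φ) (G.map φ') g) :
    Pt F φ →+ Pt G φ' where
  toFun x := ⟨ev1 (RingHom.id S) x.val g, ev1_mem_rad _ x.mem hg.1⟩
  map_zero' := Pt.ext (by simpa [ev1_zero] using hg.1)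
  map_add' x y := Pt.ext <| by
    have h2 := rad2 x.mem y.mem
    have h := congrArg (ev (RingHom.id S) ![x.val, y.val]) hg.2
    have c : ∀ i : Fin 2, constantCoeff (g.subst (X i : MvPowerSeries (Fin 2) S)) = 0 := fun i =>
      PowerSeries.constantCoeff_subst_eq_zero (by simp) g hg.1
    rw [ev_psubst _ h2 (F.map φ).zero_constantCoeff, ev_subst2 _ h2 (c 0) (c 1),
      ev_psubst _ h2 (by simp), ev_psubst _ h2 (by simp), ev_X _ h2, ev_X _ h2,
      ← add_val_map] at h
    refine h.trans ?_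
    rw [add_val_map]
    rfl

@[simp] theorem hom_val (g : PowerSeries S) (hg : IsHom (F.map φ) (G.map φ') g) (x : Pt F φ) :
    (hom g hg x).val = ev1 (RingHom.id S) x.val g := rfl

end hom

end Pt

end Vale.Agent.P217
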