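import Vale.Agent.P217.Grp

/-! Homomorphisms of formal group laws. -/

namespace Vale.Agent.P217

open Finset MvPowerSeries

section
variable {R S : Type} [CommRing R] [CommRing S]

theorem pC_mem_rad [Adic S] {x : S} (hx : x ∈ rad S) :
    (PowerSeries.C x : PowerSeries S) ∈ rad _ := C_mem_rad (τ := Unit) hx

theorem cc_psubst {τ : Type} {a : MvPowerSeries τ R} (ha : constantCoeff a = 0)
    {g : PowerSeries R} (hg : PowerSeries.constantCoeff g = 0) :
    constantCoeff (g.subst a) = 0 := PowerSeries.constantCoeff_subst_eq_zero ha g hg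

theorem cc_psubst1 {a : PowerSeries R} (ha : PowerSeries.constantCoeff a = 0)
    {g : PowerSeries R} (hg : PowerSeries.constantCoeff g = 0) :
    PowerSeries.constantCoeff (g.subst a : PowerSeries R) = 0 := cc_psubst ha hg

theorem cc_subst2 {τ : Type} {a b : MvPowerSeries τ R} (ha : constantCoeff a = 0)
    (hb : constantCoeff b = 0) (F : FormalGroup R) :
    constantCoeff (F.toPowerSeries.subst ![a, b]) = 0 :=
  constantCoeff_subst_eq_zero (Ideals.has_two ha hb) (cc2 ha hb) F.zero_constantCoeff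

theorem cc_pmap (φ : R →+* S) (g : PowerSeries R) :
    PowerSeries.constantCoeff (PowerSeries.map φ g) = φ (PowerSeries.constantCoeff g) := rfl

theorem pmap_subst (φ : R →+* S) {a : PowerSeries R} (ha : PowerSeries.constantCoeff a = 0)
    (f : PowerSeries R) : PowerSeries.map φ (f.subst a) =
      (PowerSeries.map φ f).subst (PowerSeries.map φ a) :=
  PowerSeries.map_subst (PowerSeries.HasSubst.of_constantCoeff_zero' ha) f

theorem coeff_one_subst {a : PowerSeries R} (ha : PowerSeries.constantCoeff a = 0)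
    (f : PowerSeries R) : PowerSeries.coeff 1 (f.subst a : PowerSeries R) =
      PowerSeries.coeff 1 f * PowerSeries.coeff 1 a := by
  let _ := Adic.discrete R
  obtain ⟨r, hr⟩ := ev1_eq_lin PowerSeries.C (mem_rad_of_constantCoeff_zero ha) f
  obtain ⟨b, rfl⟩ := PowerSeries.X_dvd_iff.2 ha
  rw [psubst_eq_ev1' ha, hr, mul_pow, pow_two, mul_assoc PowerSeries.X PowerSeries.X,
    mul_assoc PowerSeries.X (PowerSeries.X * _)]
  simp [PowerSeries.coeff_succ_X_mul]

theorem coeff_one_mulSeries (F : FormalGroup R) (m : ℕ) :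
    PowerSeries.coeff 1 (mulSeries F m) = m := by
  let _ := Adic.discrete R
  obtain ⟨r, hr⟩ := Pt.exists_nsmul_val m
    (⟨PowerSeries.X, pX_mem_rad⟩ : Pt F (PowerSeries.C : R →+* PowerSeries R))
  rw [Pt.nsmul_val, ev1_C_X] at hr
  rw [hr, pow_two, mul_assoc, ← map_natCast (PowerSeries.C : R →+* PowerSeries R)]
  simp [PowerSeries.coeff_succ_X_mul]

theorem IsHom.ev [Adic S] {F G : FormalGroup R} {g : PowerSeries R} (hg : IsHom F G g)
    (φ : R →+* S) {a b : S} (ha : a ∈ rad S) (hb : b ∈ rad S) :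
    ev1 φ (ev φ ![a, b] F.toPowerSeries) g = ev φ ![ev1 φ a g, ev1 φ b g] G.toPowerSeries := by
  have h2 := rad2 ha hb
  have h := congrArg (P217.ev φ ![a, b]) hg.2
  rw [ev_psubst _ h2 F.zero_constantCoeff,
    ev_subst2 _ h2 (cc_psubst (by simp) hg.1) (cc_psubst (by simp) hg.1),
    ev_psubst _ h2 (by simp), ev_psubst _ h2 (by simp), ev_X _ h2, ev_X _ h2] at h
  exact h

/-- The map on points induced by a homomorphism defined over the base ring. -/
noncomputable def Pt.homR [Adic S] {F G : FormalGroup R} (φ : R →+* S) (g : PowerSeries R)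
    (hg : IsHom F G g) : Pt F φ →+ Pt G φ where
  toFun x := ⟨ev1 φ x.val g, ev1_mem_rad _ x.mem hg.1⟩
  map_zero' := Pt.ext (by simp [ev1_zero, hg.1])
  map_add' x y := Pt.ext (hg.ev φ x.mem y.mem)

@[simp] theorem Pt.homR_val [Adic S] {F G : FormalGroup R} (φ : R →+* S) (g : PowerSeries R)
    (hg : IsHom F G g) (x : Pt F φ) : (Pt.homR φ g hg x).val = ev1 φ x.val g := rfl

/-- The universal points. -/
noncomputable def Pt.univ [Adic R] (F : FormalGroup R) {τ : Type} [Finite τ] (i : τ) :
    Pt F (C : R →+* MvPowerSeries τ R) := ⟨X i, X_mem_rad i⟩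

@[simp] theorem Pt.univ_val [Adic R] (F : FormalGroup R) {τ : Type} [Finite τ] (i : τ) :
    (Pt.univ F i).val = X i := rfl

theorem Pt.univ_add_val [Adic R] (F : FormalGroup R) :
    (Pt.univ F (0 : Fin 2) + Pt.univ F 1).val = F.toPowerSeries := by
  have : ![(X 0 : MvPowerSeries (Fin 2) R), X 1] = X := by funext i; fin_cases i <;> rfl
  rw [Pt.add_val, Pt.univ_val, Pt.univ_val, this, ev_C_X]

theorem isHom_of_ev [Adic R] {F G : FormalGroup R} {g : PowerSeries R}
    (h0 : PowerSeries.constantCoeff g = 0)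
    (h : ev1 C F.toPowerSeries g =
      ev C ![ev1 C (X 0 : MvPowerSeries (Fin 2) R) g, ev1 C (X 1) g] G.toPowerSeries) :
    IsHom F G g := by
  refine ⟨h0, ?_⟩
  rw [psubst_eq_ev1 F.zero_constantCoeff,
    subst_eq_ev (cc2 (cc_psubst (by simp) h0) (cc_psubst (by simp) h0)),
    psubst_eq_ev1 (by simp), psubst_eq_ev1 (by simp), h]

/-- A series inducing an additive map on the points with values in `R[[x, y]]` is a
homomorphism. -/
theorem isHom_of_pt [Adic R] {F G : FormalGroup R} {g : PowerSeries R}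
    (h0 : PowerSeries.constantCoeff g = 0)
    (f : Pt F (C : R →+* MvPowerSeries (Fin 2) R) →+ Pt G (C : R →+* MvPowerSeries (Fin 2) R))
    (hf : ∀ x, (f x).val = ev1 C x.val g) : IsHom F G g := by
  refine isHom_of_ev h0 ?_
  have := congrArg Pt.val (f.map_add (Pt.univ F 0) (Pt.univ F 1))
  rwa [hf, Pt.univ_add_val, Pt.add_val, hf, hf] at this

theorem IsHom.map {F G : FormalGroup R} {g : PowerSeries R} (hg : IsHom F G g) (φ : R →+* S) :
    IsHom (F.map φ) (G.map φ) (PowerSeries.map φ g) := by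
  refine ⟨by rw [cc_pmap, hg.1, map_zero], ?_⟩
  have h := congrArg (MvPowerSeries.map φ) hg.2
  rw [PowerSeries.map_subst (PowerSeries.HasSubst.of_constantCoeff_zero F.zero_constantCoeff),
    MvPowerSeries.map_subst (Ideals.has_two (cc_psubst (by simp) hg.1) (cc_psubst (by simp) hg.1)),
    comp2, PowerSeries.map_subst (PowerSeries.HasSubst.X _),
    PowerSeries.map_subst (PowerSeries.HasSubst.X _), map_X, map_X] at h
  exact h

theorem mv_map_injective {σ : Type} {φ : R →+* S} (hφ : Function.Injective φ) :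
    Function.Injective (MvPowerSeries.map (σ := σ) φ) := by
  intro f g h
  ext d
  exact hφ (by simpa using congrArg (coeff d) h)

theorem isHom_of_map_injective {F G : FormalGroup R} {g : PowerSeries R} {φ : R →+* S}
    (hφ : Function.Injective φ) (hg : IsHom (F.map φ) (G.map φ) (PowerSeries.map φ g)) :
    IsHom F G g := by
  have h0 : PowerSeries.constantCoeff g = 0 := hφ (by rw [map_zero]; exact hg.1)
  refine ⟨h0, mv_map_injective hφ ?_⟩
  rw [PowerSeries.map_subst (PowerSeries.HasSubst.of_constantCoeff_zero F.zero_constantCoeff),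
    MvPowerSeries.map_subst (Ideals.has_two (cc_psubst (by simp) h0) (cc_psubst (by simp) h0)),
    comp2, PowerSeries.map_subst (PowerSeries.HasSubst.X _),
    PowerSeries.map_subst (PowerSeries.HasSubst.X _), map_X, map_X]
  exact hg.2

theorem isHom_X (F : FormalGroup R) : IsHom F F PowerSeries.X := by
  let _ := Adic.discrete R
  exact isHom_of_pt (by simp) (AddMonoidHom.id _) fun x => (ev1_X _ x.mem).symm

theorem isHom_zero (F G : FormalGroup R) : IsHom F G 0 := by
  let _ := Adic.discrete R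
  exact isHom_of_pt (by simp) 0 fun x => by simp

theorem IsHom.comp {F G H : FormalGroup R} {f g : PowerSeries R} (hg : IsHom G H g)
    (hf : IsHom F G f) : IsHom F H (g.subst f) := by
  let _ := Adic.discrete R
  exact isHom_of_pt (cc_psubst1 hf.1 hg.1) ((Pt.homR C g hg).comp (Pt.homR C f hf))
    fun x => (ev1_psubst _ x.mem hf.1 g).symm

theorem IsHom.add {F G : FormalGroup R} [G.IsComm] {f g : PowerSeries R} (hf : IsHom F G f)
    (hg : IsHom F G g) : IsHom F G (G.toPowerSeries.subst ![f, g]) := by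
  let _ := Adic.discrete R
  exact isHom_of_pt (cc_subst2 hf.1 hg.1 G) (Pt.homR C f hf + Pt.homR C g hg)
    fun x => (ev1_subst2 _ x.mem hf.1 hg.1 _).symm

theorem isHom_mulSeries (F : FormalGroup R) [F.IsComm] (m : ℕ) : IsHom F F (mulSeries F m) := by
  let _ := Adic.discrete R
  exact isHom_of_pt (Ideals.cc_mul F m) (nsmulAddMonoidHom m) fun x => Pt.nsmul_val m x

/-- The additive inverse series. -/
theorem exists_negSeries (F : FormalGroup R) [F.IsComm] :
    ∃ ι : PowerSeries R, IsHom F F ι ∧ ∀ (S : Type) [CommRing S] [Adic S] (φ : R →+* S)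
      (x : Pt F φ), (-x).val = ev1 φ x.val ι := by
  let _ := Adic.discrete R
  let u : Pt F (PowerSeries.C : R →+* PowerSeries R) := ⟨PowerSeries.X, pX_mem_rad⟩
  have h0 : PowerSeries.constantCoeff (-u).val = 0 :=
    PowerSeries.X_dvd_iff.1 (Ideal.mem_span_singleton.1
      ((Pt.neg_val_mem_iff u _).2 (Ideal.mem_span_singleton_self _)))
  have key : ∀ (S : Type) [CommRing S] [Adic S] (φ : R →+* S) (x : Pt F φ),
      (-x).val = ev1 φ x.val (-u).val := by
    intro S _ _ φ x
    have hr : ∀ f ∈ rad (PowerSeries R), ev1 φ x.val f ∈ rad S := fun f hf =>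
      ev_rad_of φ (fun r hr => by
        obtain ⟨N, hN⟩ := hr
        have : r ^ N = 0 := hN
        exact ⟨N, by rw [← map_pow, this, map_zero]; exact zero_mem _⟩) (fun _ => x.mem) f hf
    have hu : Pt.map F (ev1 φ x.val) hr (ev1_comp_C φ x.val) u = x := Pt.ext (ev1_X φ x.mem)
    conv_lhs => rw [← hu, ← map_neg]
    rfl
  exact ⟨_, isHom_of_pt h0 (negAddMonoidHom) fun x => key _ _ x, key⟩

theorem IsHom.inv {F G : FormalGroup R} {f g : PowerSeries R} (hf : IsHom F G f)
    (g0 : PowerSeries.constantCoeff g = 0) (h1 : f.subst g = PowerSeries.X)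
    (h2 : g.subst f = PowerSeries.X) : IsHom G F g := by
  let _ := Adic.discrete R
  let e : Pt F (C : R →+* MvPowerSeries (Fin 2) R) ≃+ Pt G (C : R →+* MvPowerSeries (Fin 2) R) :=
    { Pt.homR C f hf with
      invFun := fun y => ⟨ev1 C y.val g, ev1_mem_rad _ y.mem g0⟩
      left_inv := fun x => Pt.ext (by
        change ev1 C (ev1 C x.val f) g = x.val
        rw [← ev1_psubst _ x.mem hf.1, h2, ev1_X _ x.mem])
      right_inv := fun x => Pt.ext (by
        change ev1 C (ev1 C x.val g) f = x.val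
        rw [← ev1_psubst _ x.mem g0, h1, ev1_X _ x.mem]) }
  exact isHom_of_pt g0 e.symm.toAddMonoidHom fun _ => rfl

/-- Compositional inverses. -/
theorem exists_psubst_inv {f : PowerSeries R} (h0 : PowerSeries.constantCoeff f = 0)
    (h1 : IsUnit (PowerSeries.coeff 1 f)) :
    ∃ g : PowerSeries R, PowerSeries.constantCoeff g = 0 ∧
      PowerSeries.coeff 1 f * PowerSeries.coeff 1 g = 1 ∧
      f.subst g = PowerSeries.X ∧ g.subst f = PowerSeries.X := by
  refine ⟨f.substInvOfIsUnit h1, PowerSeries.constantCoeff_substInvOfIsUnit f h1, ?_,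
    PowerSeries.subst_substInvOfIsUnit_right f h0 h1,
    PowerSeries.subst_substInvOfIsUnit_left f h0 h1⟩
  rw [PowerSeries.coeff_one_substInvOfIsUnit]
  exact h1.mul_val_inv

theorem IsHom.exists_inv {F G : FormalGroup R} {f : PowerSeries R} (hf : IsHom F G f)
    (h1 : IsUnit (PowerSeries.coeff 1 f)) :
    ∃ g : PowerSeries R, IsHom G F g ∧ PowerSeries.coeff 1 f * PowerSeries.coeff 1 g = 1 ∧
      f.subst g = PowerSeries.X ∧ g.subst f = PowerSeries.X := by
  obtain ⟨g, g0, g1, h2, h3⟩ := exists_psubst_inv hf.1 h1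
  exact ⟨g, hf.inv g0 h2 h3, g1, h2, h3⟩

theorem mulSeries_mul (F : FormalGroup R) (a b : ℕ) :
    mulSeries F (a * b) = (mulSeries F a).subst (mulSeries F b) := by
  let _ := Adic.discrete R
  let u : Pt F (PowerSeries.C : R →+* PowerSeries R) := ⟨PowerSeries.X, pX_mem_rad⟩
  have h : ((a * b) • u).val = (a • b • u).val := by rw [mul_nsmul']
  rw [Pt.nsmul_val, Pt.nsmul_val, Pt.nsmul_val, ev1_C_X, ev1_C_X] at h
  rw [h, psubst_eq_ev1' (Ideals.cc_mul F b)]

theorem mulSeries_one (F : FormalGroup R) : mulSeries F 1 = PowerSeries.X := by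
  let _ := Adic.discrete R
  let u : Pt F (PowerSeries.C : R →+* PowerSeries R) := ⟨PowerSeries.X, pX_mem_rad⟩
  have h := Pt.nsmul_val 1 u
  rw [one_nsmul, ev1_C_X] at h
  exact h.symm

/-- The `p`-th power map is a homomorphism to the Frobenius twist. -/
theorem isHom_frobenius (p : ℕ) [ExpChar R p] (F : FormalGroup R) (e : ℕ) :
    IsHom F (F.map (iterateFrobenius R p e)) (PowerSeries.X ^ p ^ e) := by
  let _ := Adic.discrete R
  have hp : p ^ e ≠ 0 := pow_ne_zero _ (expChar_ne_zero R p)
  have : ExpChar (MvPowerSeries (Fin 2) R) p :=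
    expChar_of_injective_ringHom (f := C) C_injective p
  refine isHom_of_ev (by rw [map_pow, PowerSeries.constantCoeff_X, zero_pow hp]) ?_
  have hF := mem_rad_of_constantCoeff_zero F.zero_constantCoeff
  simp only [map_pow, ev1_X _ hF, ev1_X _ (X_mem_rad _)]
  have h2 : ∀ i : Fin 2, (X i : MvPowerSeries (Fin 2) R) ^ p ^ e ∈ rad _ := fun i =>
    Ideal.pow_mem_of_mem _ (X_mem_rad i) _ (Nat.pos_of_ne_zero hp)
  rw [FormalGroup.map_toPowerSeries, ev_map _ _ (rad2 (h2 0) (h2 1))]
  have := eq_ev (φ := C.comp (iterateFrobenius R p e)) (rad2 (h2 0) (h2 1))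
    (iterateFrobenius (MvPowerSeries (Fin 2) R) p e) (fun r => by simp [iterateFrobenius_def])
    fun i => by fin_cases i <;> simp [iterateFrobenius_def]
  exact DFunLike.congr_fun this _

/-- Transport of a formal group law along an invertible series. -/
theorem exists_conj (F : FormalGroup R) [F.IsComm] {α : PowerSeries R}
    (h0 : PowerSeries.constantCoeff α = 0) (h1 : IsUnit (PowerSeries.coeff 1 α)) :
    ∃ G : FormalGroup R, G.IsComm ∧ IsHom F G α := by
  let _ := Adic.discrete R
  obtain ⟨β, b0, b1, h2, h3⟩ := exists_psubst_inv h0 h1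
  have hb : ∀ {τ : Type} (i : τ), constantCoeff (β.subst (X i : MvPowerSeries τ R)) = 0 :=
    fun i => cc_psubst (by simp) b0
  set g : MvPowerSeries (Fin 2) R :=
    α.subst (F.toPowerSeries.subst ![β.subst (X 0 : MvPowerSeries (Fin 2) R), β.subst (X 1)])
    with hg
  have g0 : constantCoeff g = 0 := cc_psubst (cc_subst2 (hb 0) (hb 1) F) h0
  have key : ∀ {τ : Type} [Finite τ] (x y : Pt F (C : R →+* MvPowerSeries τ R)),
      ev C ![ev1 C x.val α, ev1 C y.val α] g = ev1 C (x + y).val α := by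
    intro τ _ x y
    have hx := ev1_mem_rad C x.mem h0
    have hy := ev1_mem_rad C y.mem h0
    rw [hg, ev_psubst _ (rad2 hx hy) (cc_subst2 (hb 0) (hb 1) F), ev_subst2 _ (rad2 hx hy) (hb 0) (hb 1),
      ev_psubst _ (rad2 hx hy) (by simp), ev_psubst _ (rad2 hx hy) (by simp), ev_X _ (rad2 hx hy),
      ev_X _ (rad2 hx hy)]
    change ev1 C (ev C ![ev1 C (ev1 C x.val α) β, ev1 C (ev1 C y.val α) β] _) α = _
    rw [← ev1_psubst _ x.mem h0, ← ev1_psubst _ y.mem h0, h3, ev1_X _ x.mem, ev1_X _ y.mem]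
    rfl
  have sur : ∀ {τ : Type} [Finite τ] (a : MvPowerSeries τ R), constantCoeff a = 0 →
      ∃ x : Pt F (C : R →+* MvPowerSeries τ R), ev1 C x.val α = a := by
    intro τ _ a ha
    have hr := mem_rad_of_constantCoeff_zero ha
    exact ⟨⟨_, ev1_mem_rad C hr b0⟩, by rw [← ev1_psubst _ hr b0, h2, ev1_X _ hr]⟩
  have lin : ∀ i : Fin 2, coeff (Finsupp.single i 1) g = 1 := by
    intro i
    obtain ⟨x, hx⟩ := sur (X () : MvPowerSeries Unit R) (by simp)
    have hz : ev1 C (0 : Pt F (C : R →+* MvPowerSeries Unit R)).val α = 0 := by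
      simp [ev1_zero, h0]
    have e0 := key x 0
    have e1 := key 0 x
    rw [hz, hx, add_zero, hx] at e0
    rw [hz, hx, zero_add, hx] at e1
    have hd : g - ∑ j, C (coeff (Finsupp.single j 1) g) * X j ∈
        Ideal.span (Set.range (X : Fin 2 → MvPowerSeries (Fin 2) R)) ^ 2 := by
      refine mem_pow_span_X 2 _ fun d hd => ?_
      by_cases h : d = 0
      · subst h; simp [g0]
      · obtain ⟨j, rfl⟩ : ∃ j, d = Finsupp.single j 1 := by
          have : d.degree = 1 := by
            have := (Finsupp.degree_eq_zero_iff d).not.2 h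
            omega
          obtain ⟨j, hj⟩ := (Set.ext_iff.1 Finsupp.range_single_one d).2 this
          exact ⟨j, hj.symm⟩
        fin_cases j <;> simp [coeff_index_single_X]
    have fin : ∀ a : Fin 2 → MvPowerSeries Unit R, (∀ j, a j ∈ Ideal.span {(X () : MvPowerSeries Unit R)}) →
        PowerSeries.coeff 1 (ev C a g) =
          ∑ j, coeff (Finsupp.single j 1) g * PowerSeries.coeff 1 (a j) := by
      intro a ha
      have hr : ∀ j, a j ∈ rad _ := fun j =>
        (Ideal.span_singleton_le_iff_mem _).2 (X_mem_rad ()) (ha j)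
      have h1 := Ideal.mem_map_of_mem (ev C a) hd
      rw [Ideal.map_pow] at h1
      have h2 := Ideal.pow_right_mono (J := Ideal.span {(X () : MvPowerSeries Unit R)})
        (by rw [Ideal.map_span, Ideal.span_le]
            rintro _ ⟨_, ⟨j, rfl⟩, rfl⟩
            rw [ev_X _ hr]; exact ha j) 2 h1
      rw [Ideal.span_singleton_pow, Ideal.mem_span_singleton] at h2
      have h3 := PowerSeries.X_pow_dvd_iff.1 h2 1 (by norm_num)
      simp only [map_sub, map_sum, map_mul, ev_C, ev_X _ hr, sub_eq_zero] at h3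
      rw [h3]
      exact sum_congr rfl fun j _ => PowerSeries.coeff_C_mul _ _ _
    have f0 := fin ![X (), 0] (fun j => by fin_cases j <;> simp)
    have f1 := fin ![0, X ()] (fun j => by fin_cases j <;> simp)
    have c1 : PowerSeries.coeff 1 (X () : MvPowerSeries Unit R) = 1 := PowerSeries.coeff_one_X
    rw [e0] at f0
    rw [e1] at f1
    fin_cases i
    · simpa [c1] using f0.symm
    · simpa [c1] using f1.symm
  have cg : ∀ {τ : Type} {a b : MvPowerSeries τ R}, constantCoeff a = 0 → constantCoeff b = 0 →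
      constantCoeff (g.subst ![a, b]) = 0 := fun ha hb =>
    constantCoeff_subst_eq_zero (Ideals.has_two ha hb) (cc2 ha hb) g0
  refine ⟨⟨g, g0, lin 0, lin 1, ?_⟩, ⟨?_⟩, isHom_of_ev h0 ?_⟩
  · obtain ⟨x, hx⟩ := sur (X 0 : MvPowerSeries (Fin 3) R) (by simp)
    obtain ⟨y, hy⟩ := sur (X 1 : MvPowerSeries (Fin 3) R) (by simp)
    obtain ⟨z, hz⟩ := sur (X 2 : MvPowerSeries (Fin 3) R) (by simp)
    rw [subst_eq_ev (cc2 (cg (by simp) (by simp)) (by simp)),
      subst_eq_ev (cc2 (by simp) (cg (by simp) (by simp))),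
      subst_eq_ev (cc2 (by simp) (by simp)), subst_eq_ev (cc2 (by simp) (by simp)),
      ← hx, ← hy, ← hz, key, key, key, key, add_assoc]
  · obtain ⟨x, hx⟩ := sur (X 0 : MvPowerSeries (Fin 2) R) (by simp)
    obtain ⟨y, hy⟩ := sur (X 1 : MvPowerSeries (Fin 2) R) (by simp)
    have e : ![(X 0 : MvPowerSeries (Fin 2) R), X 1] = X := by funext i; fin_cases i <;> rfl
    change g = subst ![X 1, X 0] g
    rw [subst_eq_ev (cc2 (by simp) (by simp))]
    conv_lhs => rw [← ev_C_X g, ← e]
    rw [← hx, ← hy, key, key, add_comm]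
  · have := key (Pt.univ F (0 : Fin 2)) (Pt.univ F 1)
    rw [Pt.univ_add_val] at this
    exact this.symm

end

end Vale.Agent.P217
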