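import Mathlib

/-! A point of a Noetherian local ring in a complete algebraically closed normed field. -/

namespace Vale.Agent.P217.Point

open Finset Polynomial IsLocalRing Filter Topology
open scoped NNReal

section Closed
variable {C : Type} [NormedField C]

theorem eval_sub_le {f g : C[X]} {n : ℕ} (hf : f.natDegree = n) (hg : g.natDegree = n) {δ M : ℝ}
    (hδ : ∀ i, ‖g.coeff i - f.coeff i‖ < δ) (hM : 1 ≤ M) {z : C} (hz : ‖z‖ ≤ M) :
    ‖g.eval z - f.eval z‖ ≤ (n + 1) * (δ * M ^ n) := by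
  rw [eval_eq_sum_range, eval_eq_sum_range, hf, hg, ← sum_sub_distrib]
  refine (norm_sum_le _ _).trans ((sum_le_card_nsmul _ _ (δ * M ^ n) fun i hi => ?_).trans ?_)
  · rw [← sub_mul, norm_mul, norm_pow]
    exact mul_le_mul (hδ i).le ((pow_le_pow_left₀ (norm_nonneg _) hz i).trans
      (pow_le_pow_right₀ hM (Nat.lt_succ_iff.1 (mem_range.1 hi)))) (by positivity)
      ((norm_nonneg _).trans (hδ i).le)
  · rw [card_range, nsmul_eq_mul, Nat.cast_succ]

theorem exists_root_near {g : C[X]} (hg : g.Monic) (hs : g.Splits) (h0 : g.natDegree ≠ 0)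
    (x : C) : ∃ r, g.eval r = 0 ∧ ‖x - r‖ ^ g.natDegree ≤ ‖g.eval x‖ := by
  classical
  have hc := hs.natDegree_eq_card_roots
  have hne : g.roots.toFinset.Nonempty := by
    rw [Multiset.toFinset_nonempty]
    intro h
    rw [h] at hc
    exact h0 hc
  obtain ⟨r, hr, hmin⟩ := exists_min_image _ (fun r => ‖x - r‖) hne
  refine ⟨r, (mem_roots hg.ne_zero).1 (Multiset.mem_toFinset.1 hr), ?_⟩
  have h1 := Multiset.prod_map_le_prod_map₀ (s := g.roots) (fun _ => ‖x - r‖) (fun b => ‖x - b‖)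
    (fun _ _ => norm_nonneg _) fun b hb => hmin b (Multiset.mem_toFinset.2 hb)
  rw [Multiset.map_const', Multiset.prod_replicate, ← hc] at h1
  refine h1.trans (le_of_eq ?_)
  rw [hs.eval_eq_prod_roots_of_monic hg]
  exact g.roots.prod_hom' (normHom : C →*₀ ℝ) fun b => x - b

variable {K : Type} [Field K] [IsAlgClosed K] [Algebra K C]

theorem step (hd : DenseRange (algebraMap K C)) {f : C[X]} (hf : f.Monic) (h0 : f.natDegree ≠ 0)
    (x : C) {ε : ℝ} (hε : 0 < ε) :
    ∃ r, ‖x - r‖ ^ f.natDegree ≤ ‖f.eval x‖ + ε ∧ ‖f.eval r‖ ≤ ε := by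
  set M := ‖x‖ + (‖f.eval x‖ + ε + 1) with hM
  have hM1 : 1 ≤ M := by
    have := norm_nonneg x
    have := norm_nonneg (f.eval x)
    linarith
  have hδ : 0 < ε / ((f.natDegree + 1) * M ^ f.natDegree) := by positivity
  have e : (f.natDegree + 1) * (ε / ((f.natDegree + 1) * M ^ f.natDegree) * M ^ f.natDegree) =
      ε := by field_simp
  obtain ⟨g, hg, hn, hc⟩ :=
    exists_monic_and_natDegree_eq_and_norm_map_algebraMap_coeff_sub_lt hd hf hδ
  have hn' : (g.map (algebraMap K C)).natDegree = f.natDegree := by rw [natDegree_map, hn]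
  obtain ⟨r, hr, h1⟩ := exists_root_near (hg.map (algebraMap K C))
    ((IsAlgClosed.splits g).map _) (by rwa [hn']) x
  rw [hn'] at h1
  have h2 := eval_sub_le rfl hn' hc hM1 (z := x) (le_add_of_nonneg_right (by positivity))
  rw [e] at h2
  have h3 : ‖x - r‖ ^ f.natDegree ≤ ‖f.eval x‖ + ε :=
    h1.trans (by linarith [norm_sub_norm_le ((g.map (algebraMap K C)).eval x) (f.eval x)])
  have h4 : ‖x - r‖ ≤ ‖f.eval x‖ + ε + 1 := by
    by_cases h : ‖x - r‖ ≤ 1
    · exact h.trans (le_add_of_nonneg_left (by positivity))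
    · linarith [le_self_pow₀ (not_le.1 h).le h0]
  have h5 := eval_sub_le rfl hn' hc hM1 (z := r)
    (by linarith [norm_sub_norm_le r x, norm_sub_rev x r])
  rw [e, hr, zero_sub, norm_neg] at h5
  exact ⟨r, h3, h5⟩

theorem isAlgClosed_of_dense [CompleteSpace C] (hd : DenseRange (algebraMap K C)) :
    IsAlgClosed C := by
  refine IsAlgClosed.of_exists_root C fun f hf hi => ?_
  have h0 : f.natDegree ≠ 0 := hi.natDegree_pos.ne'
  let ε : ℕ → ℝ := fun k => ((1 / 2) ^ k) ^ f.natDegree / 2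
  have hε : ∀ k, 0 < ε k := fun k => by positivity
  choose st h1 h2 using fun x k => step hd hf h0 x (hε k)
  let x : ℕ → C := fun k => Nat.rec (st 0 0) (fun k y => st y (k + 1)) k
  have h3 : ∀ k, ‖f.eval (x k)‖ ≤ ε k := fun k => by
    cases k with
    | zero => exact h2 _ _
    | succ k => exact h2 _ _
  have h4 : CauchySeq x := by
    refine cauchySeq_of_le_geometric (1 / 2) 1 (by norm_num) fun k => ?_
    rw [one_mul, dist_eq_norm, ← pow_le_pow_iff_left₀ (norm_nonneg _) (by positivity) h0]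
    have h5 : ((1 / 2 : ℝ) ^ (k + 1)) ^ f.natDegree ≤ ((1 / 2) ^ k) ^ f.natDegree :=
      pow_le_pow_left₀ (by positivity) (pow_le_pow_of_le_one (by norm_num) (by norm_num)
        (Nat.le_succ k)) _
    have h6 := h3 k
    refine (h1 (x k) (k + 1)).trans ?_
    simp only [ε] at h6 ⊢
    linarith
  obtain ⟨y, hy⟩ := cauchySeq_tendsto_of_complete h4
  refine ⟨y, tendsto_nhds_unique ((f.continuous.tendsto y).comp hy) ?_⟩
  refine squeeze_zero_norm (fun k => (h3 k).trans ?_)
    (tendsto_pow_atTop_nhds_zero_of_lt_one (r := (1 / 2 : ℝ)) (by norm_num) (by norm_num))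
  have h5 : ((1 / 2 : ℝ) ^ k) ^ f.natDegree ≤ (1 / 2) ^ k :=
    pow_le_of_le_one (by positivity) (pow_le_one₀ (by norm_num) (by norm_num)) h0
  have h6 := hε k
  simp only [ε] at h6 ⊢
  linarith
end Closed

theorem exists_of_valuation {L Γ : Type} [Field L] [IsAlgClosed L]
    [LinearOrderedCommGroupWithZero Γ] [MulArchimedean Γ] (v : Valuation L Γ) {a : L} (ha : a ≠ 0)
    (ha1 : v a < 1) :
    ∃ (C : Type) (_ : NontriviallyNormedField C), IsUltrametricDist C ∧ CompleteSpace C ∧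
      IsAlgClosed C ∧ ∃ z : L →+* C, (∀ x, v x ≤ 1 → ‖z x‖ ≤ 1) ∧ ∀ x, v x < 1 → ‖z x‖ < 1 := by
  have : v.IsNontrivial := ⟨a, (v.ne_zero_iff).2 ha, ha1.ne⟩
  have : MulArchimedean (MonoidWithZeroHom.ValueGroup₀ (.ofClass v)) :=
    MulArchimedean.comap MonoidWithZeroHom.ValueGroup₀.embedding.toMonoidHom
      MonoidWithZeroHom.ValueGroup₀.embedding_strictMono
  obtain ⟨hv⟩ := (v.nonempty_rankOne_iff_mulArchimedean).2 this
  have hs := Valuation.RankOne.strictMono v
  let w : Valuation L ℝ≥0 := v.restrict.map (Valuation.RankOne.hom v) hs.monotone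
  have hw1 : ∀ x, v x ≤ 1 → w x ≤ 1 := fun x hx =>
    (hs.monotone (v.restrict_le_one_iff.2 hx)).trans_eq (map_one _)
  have hw2 : ∀ x, v x < 1 → w x < 1 := fun x hx =>
    (hs (v.restrict_lt_one_iff.2 hx)).trans_eq (map_one _)
  have hw3 : ∀ x y, (w (x + y) : ℝ) ≤ max (w x : ℝ) (w y) := fun x y => by
    exact_mod_cast w.map_add x y
  let ab : AbsoluteValue L ℝ :=
    { toFun := fun x => w x
      map_mul' := fun x y => by rw [map_mul, NNReal.coe_mul]
      nonneg' := fun x => NNReal.coe_nonneg _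
      eq_zero' := fun x => by rw [NNReal.coe_eq_zero, Valuation.zero_iff]
      add_le' := fun x y => (hw3 x y).trans (max_le_add_of_nonneg (w x).2 (w y).2) }
  let C := UniformSpace.Completion (WithAbs ab)
  let z : L →+* C := UniformSpace.Completion.coeRingHom.comp (WithAbs.equiv ab).symm.toRingHom
  have hz : ∀ x, ‖z x‖ = w x := fun x => UniformSpace.Completion.norm_coe _
  let _ : Algebra L C := z.toAlgebra
  have hd : DenseRange (algebraMap L C) := by
    refine Dense.mono ?_ (UniformSpace.Completion.denseRange_coe (α := WithAbs ab))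
    rintro _ ⟨x, rfl⟩
    exact ⟨x.ofAbs, rfl⟩
  refine ⟨C, .ofNormNeOne ⟨z a, (map_ne_zero z).2 ha, ?_⟩, ?_, inferInstance,
    isAlgClosed_of_dense hd, z, fun x hx => ?_, fun x hx => ?_⟩
  · rw [hz]
    exact_mod_cast (hw2 a ha1).ne
  · refine IsUltrametricDist.isUltrametricDist_of_forall_norm_add_le_max_norm fun x y => ?_
    refine UniformSpace.Completion.induction_on₂ x y (isClosed_le (by fun_prop) (by fun_prop))
      fun x y => ?_
    rw [← UniformSpace.Completion.coe_add, UniformSpace.Completion.norm_coe,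
      UniformSpace.Completion.norm_coe, UniformSpace.Completion.norm_coe]
    exact hw3 _ _
  · rw [hz]
    exact_mod_cast hw1 x hx
  · rw [hz]
    exact_mod_cast hw2 x hx

theorem max_le_radical {A : Type} [CommRing A] [IsDomain A] [IsNoetherianRing A] [IsLocalRing A]
    {a : A} (ha : a ∈ maximalIdeal A) (ha0 : a ≠ 0) (hdiv : ∀ x : A, x ≠ 0 → ∃ n, x ∣ a ^ n) :
    maximalIdeal A ≤ (Ideal.span {a}).radical := by
  have h1 : (maximalIdeal A : Set A) ⊆ ⋃ p ∈ (Ideal.span {a}).minimalPrimes, (id p : Ideal A) := by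
    intro x hx
    simp only [Set.mem_iUnion, id, SetLike.mem_coe]
    by_cases hx0 : x = 0
    · obtain ⟨p, hp, -⟩ := Ideal.exists_minimalPrimes_le ((Ideal.span_singleton_le_iff_mem _).2 ha)
      exact ⟨p, hp, hx0 ▸ p.zero_mem⟩
    obtain ⟨q, hq, -⟩ := Ideal.exists_minimalPrimes_le
      ((Ideal.span_singleton_le_iff_mem (maximalIdeal A)).2 hx)
    have hqp := hq.isPrime
    have hxq : x ∈ q := (Ideal.span_singleton_le_iff_mem _).1 hq.le
    obtain ⟨n, c, hc⟩ := hdiv x hx0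
    have haq : a ∈ q := hqp.mem_of_pow_mem n (hc ▸ q.mul_mem_right c hxq)
    refine ⟨q, ⟨⟨hqp, (Ideal.span_singleton_le_iff_mem _).2 haq⟩, fun q' hq' hle => ?_⟩, hxq⟩
    by_contra hne
    have h2 := (Ideal.height_le_iff (n := 1)).1
      (Ideal.height_le_one_of_isPrincipal_of_mem_minimalPrimes _ q hq) q' hq'.1
      (lt_of_le_of_ne hle fun e => hne e.ge)
    rw [Nat.cast_one, Order.lt_one_iff, Ideal.height_eq_zero_iff_eq_bot] at h2
    exact ha0 ((Submodule.mem_bot A).1 (h2 ▸ (Ideal.span_singleton_le_iff_mem _).1 hq'.2))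
  obtain ⟨p, hp, hle⟩ := (Ideal.subset_union_prime_finite
    (Ideal.finite_minimalPrimes_of_isNoetherianRing A _) ⊥ ⊥ fun p hp _ _ => hp.isPrime).1 h1
  rw [Ideal.radical_eq_sInf]
  refine le_sInf fun J hJ => le_trans hle (hp.2 ⟨hJ.2, hJ.1⟩ ?_)
  exact (le_maximalIdeal hJ.2.ne_top).trans hle

theorem radical_isPrime {V : Type} [CommRing V] [IsDomain V] [ValuationRing V] {I : Ideal V}
    (hI : I ≠ ⊤) : I.radical.IsPrime := by
  refine ⟨fun h => hI (Ideal.radical_eq_top.1 h), fun {x y} h => ?_⟩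
  obtain ⟨c, hc | hc⟩ := ValuationRing.cond x y
  · refine Or.inr (Ideal.mem_radical_of_pow_mem (m := 2) ?_)
    rw [pow_two]
    nth_rewrite 1 [← hc]
    rw [mul_right_comm]
    exact Ideal.mul_mem_right _ _ h
  · refine Or.inl (Ideal.mem_radical_of_pow_mem (m := 2) ?_)
    rw [pow_two]
    nth_rewrite 2 [← hc]
    rw [← mul_assoc]
    exact Ideal.mul_mem_right _ _ h

theorem exists_point_dom {A : Type} [CommRing A] [IsDomain A] [IsNoetherianRing A] [IsLocalRing A]
    {a : A} (ha : a ∈ maximalIdeal A) (ha0 : a ≠ 0) (hdiv : ∀ x : A, x ≠ 0 → ∃ n, x ∣ a ^ n) :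
    ∃ (C : Type) (_ : NontriviallyNormedField C), IsUltrametricDist C ∧ CompleteSpace C ∧
      IsAlgClosed C ∧ ∃ z : A →+* C, (∀ x, ‖z x‖ ≤ 1) ∧
        (∀ x ∈ maximalIdeal A, ‖z x‖ < 1) ∧ z a ≠ 0 := by
  let L := AlgebraicClosure (FractionRing A)
  have halg : Algebra.IsAlgebraic A L :=
    IsFractionRing.comap_isAlgebraic_iff.2 (AlgebraicClosure.isAlgebraic (FractionRing A))
  have hinj : Function.Injective (algebraMap A L) := by
    rw [IsScalarTower.algebraMap_eq A (FractionRing A) L]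
    exact (algebraMap (FractionRing A) L).injective.comp (IsFractionRing.injective A _)
  have ha' : algebraMap A L a ≠ 0 := (map_ne_zero_iff _ hinj).2 ha0
  obtain ⟨V, hV, hloc⟩ := IsLocalRing.exists_factor_valuationRing (algebraMap A L)
  let f : A →+* V := (algebraMap A L).codRestrict V.toSubring hV
  have hP : (Ideal.span {f a}).radical.IsPrime := radical_isPrime fun h =>
    ha (hloc.1 a (Ideal.span_singleton_eq_top.1 h))
  let W := V.ofPrime (Ideal.span {f a}).radical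
  have h1 : ∀ y ∈ V, W.valuation y ≤ 1 := fun y hy =>
    (W.valuation_le_one_iff y).2 (V.le_ofPrime _ hy)
  have h2 : ∀ y : V, W.valuation y < 1 ↔ y ∈ (Ideal.span {f a}).radical := fun y => by
    rw [lt_iff_le_and_ne, and_iff_right (h1 y y.2), Ne,
      V.ofPrime_valuation_eq_one_iff_mem_primeCompl]
    exact not_not
  have h3 : ∀ x ∈ maximalIdeal A, W.valuation (algebraMap A L x) < 1 := fun x hx => by
    obtain ⟨n, hn⟩ := max_le_radical ha ha0 hdiv hx
    obtain ⟨c, hc⟩ := Ideal.mem_span_singleton'.1 hn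
    exact (h2 (f x)).2 ⟨n, Ideal.mem_span_singleton'.2 ⟨f c, by rw [← map_mul, hc, map_pow]⟩⟩
  have h4 : ∀ y : L, y ≠ 0 → ∃ n, W.valuation (algebraMap A L a) ^ n ≤ W.valuation y := by
    intro y hy
    by_cases hyV : y ∈ V
    · obtain ⟨t, ht, r, hr, e⟩ := (halg.1 y).exists_nonzero_eq_adjoin_mul
        (mem_nonZeroDivisors_of_ne_zero hy)
      obtain ⟨n, c, hc⟩ := hdiv r hr
      have ht' : t ∈ V := Algebra.adjoin_le (S := { V.toSubring with algebraMap_mem' := hV })
        (Set.singleton_subset_iff.2 hyV) ht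
      refine ⟨n, ?_⟩
      rw [← map_pow, ← map_pow, hc, map_mul, ← e, mul_assoc, map_mul]
      exact mul_le_of_le_one_right' (h1 _ (V.mul_mem _ _ ht' (hV c)))
    · refine ⟨0, ?_⟩
      have h5 := h1 _ ((V.mem_or_inv_mem y).resolve_left hyV)
      rwa [pow_zero, ← inv_le_one₀ ((Valuation.pos_iff _).2 hy), ← map_inv₀]
  have harch : MulArchimedean W.ValueGroup := ⟨fun x y hy => by
    obtain ⟨u, rfl⟩ := W.valuation_surjective x
    obtain ⟨t, rfl⟩ := W.valuation_surjective y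
    by_cases hu : u = 0
    · exact ⟨0, by simp [hu]⟩
    have ht0 : 0 < W.valuation t := zero_lt_one.trans hy
    have ht : t⁻¹ ∈ V := (V.mem_or_inv_mem t).resolve_left fun h => (h1 t h).not_gt hy
    obtain ⟨m, hm⟩ := (h2 ⟨_, ht⟩).1 (by rwa [map_inv₀, inv_lt_one₀ ht0])
    obtain ⟨c, hc⟩ := Ideal.mem_span_singleton'.1 hm
    have h5 : (W.valuation t)⁻¹ ^ m ≤ W.valuation (algebraMap A L a) := by
      have h6 : (c : L) * algebraMap A L a = t⁻¹ ^ m := congrArg Subtype.val hc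
      rw [← map_inv₀, ← map_pow, ← h6, map_mul]
      exact mul_le_of_le_one_left' (h1 _ c.2)
    obtain ⟨n, hn⟩ := h4 u⁻¹ (inv_ne_zero hu)
    refine ⟨m * n, ?_⟩
    have h7 := (pow_le_pow_left' h5 n).trans hn
    rwa [map_inv₀, ← pow_mul, inv_pow, inv_le_inv₀ (pow_pos ht0 _) ((Valuation.pos_iff _).2 hu)]
      at h7⟩
  obtain ⟨C, i, c1, c2, c3, z, z1, z2⟩ := exists_of_valuation W.valuation ha' (h3 a ha)
  exact ⟨C, i, c1, c2, c3, z.comp (algebraMap A L), fun x => z1 _ (h1 _ (hV x)),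
    fun x hx => z2 _ (h3 x hx), (map_ne_zero z).2 ha'⟩

end Vale.Agent.P217.Point

namespace Vale.Agent.P217

open Finset

theorem exists_point (R : Type) [CommRing R] [IsNoetherianRing R] [IsLocalRing R]
    (P : Ideal R) [P.IsPrime] (a : R) (ha : a ∈ IsLocalRing.maximalIdeal R) (haP : a ∉ P) :
    ∃ (C : Type) (_ : NontriviallyNormedField C), IsUltrametricDist C ∧ CompleteSpace C ∧
      IsAlgClosed C ∧ ∃ z : R →+* C, (∀ x, ‖z x‖ ≤ 1) ∧
        (∀ x ∈ IsLocalRing.maximalIdeal R, ‖z x‖ < 1) ∧ (∀ x ∈ P, z x = 0) ∧ z a ≠ 0 := by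
  obtain ⟨Q, ⟨hQ, hPQ, haQ⟩, hmax⟩ := set_has_maximal_iff_noetherian.2
    (inferInstance : IsNoetherian R R) {Q : Ideal R | Q.IsPrime ∧ P ≤ Q ∧ a ∉ Q}
    ⟨P, inferInstance, le_rfl, haP⟩
  have hs : Function.Surjective (Ideal.Quotient.mk Q) := Ideal.Quotient.mk_surjective
  have : IsLocalRing (R ⧸ Q) := IsLocalRing.of_surjective' _ hs
  have : IsLocalHom (Ideal.Quotient.mk Q) := IsLocalHom.of_surjective _ hs
  obtain ⟨C, i, c1, c2, c3, z, z1, z2, z3⟩ := Point.exists_point_dom (A := R ⧸ Q)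
    (a := Ideal.Quotient.mk Q a) (map_nonunit _ a ha)
    (fun h => haQ (Ideal.Quotient.eq_zero_iff_mem.1 h)) fun x hx => by
      obtain ⟨x, rfl⟩ := hs x
      by_contra hn
      obtain ⟨p, hp, hle, hdis⟩ := Ideal.exists_le_prime_disjoint (Q ⊔ Ideal.span {x})
        (Submonoid.powers a) (Set.disjoint_left.2 fun y hy ⟨n, hyn⟩ => hn ⟨n, by
          obtain ⟨q, hq, s, hs, e⟩ := Submodule.mem_sup.1 hy
          obtain ⟨c, rfl⟩ := Ideal.mem_span_singleton'.1 hs
          refine ⟨Ideal.Quotient.mk Q c, ?_⟩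
          have h1 : a ^ n = y := hyn
          rw [← map_pow, h1, ← e, map_add, Ideal.Quotient.eq_zero_iff_mem.2 hq, zero_add, map_mul,
            mul_comm]⟩)
      refine hmax p ⟨hp, hPQ.trans (le_sup_left.trans hle), fun h =>
        Set.disjoint_left.1 hdis h (Submonoid.mem_powers a)⟩
        (lt_of_le_of_ne (le_sup_left.trans hle) fun e => hx ?_)
      exact Ideal.Quotient.eq_zero_iff_mem.2
        (e ▸ hle (Ideal.mem_sup_right (Ideal.mem_span_singleton_self x)))
  exact ⟨C, i, c1, c2, c3, z.comp (Ideal.Quotient.mk Q), fun x => z1 _,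
    fun x hx => z2 _ (map_nonunit _ x hx), fun x hx => by
      rw [RingHom.comp_apply, Ideal.Quotient.eq_zero_iff_mem.2 (hPQ hx), map_zero], z3⟩

end Vale.Agent.P217
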