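import Vale.Agent.P217.CharP
import Vale.Agent.P217.CharZero
import Vale.Agent.P217.Point
import Vale.Agent.P217.Exists

/-! Classification of the invariant ideals. -/

namespace Vale.Agent.P217

open Finset

variable {p n : ℕ} [Fact p.Prime] {F : FormalGroup (LTRing p n)}

theorem exists_point_O (hn : 0 < n) (P : Ideal (LTRing p n)) [P.IsPrime] (a : LTRing p n)
    (ha : a ∈ heightIdeal p n n) (haP : a ∉ P) :
    ∃ (C : Type) (_ : NormedField C) (_ : IsUltrametricDist C) (_ : HasPi C) (_ : CompleteSpace C)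
      (_ : IsAlgClosed C) (z : LTRing p n →+* O C),
      (∀ x ∈ heightIdeal p n n, z x ∈ (Adic.I : Ideal (O C))) ∧ (∀ x ∈ P, z x = 0) ∧ z a ≠ 0 := by
  obtain ⟨C, _, _, _, _, z, h1, h2, h3, h4⟩ :=
    exists_point (LTRing p n) P a (heightIdeal_top p n hn ▸ ha) haP
  rw [← heightIdeal_top p n hn] at h2
  let g : Option (Option (Fin (n - 1))) → LTRing p n := fun o =>
    o.elim a fun o => o.elim p MvPowerSeries.X
  obtain ⟨o, ho⟩ := Finite.exists_max fun o => ‖z (g o)‖
  have hg : g o ∈ heightIdeal p n n := by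
    rcases o with _ | _ | j
    exacts [ha, p_mem_heightIdeal hn, X_mem_top j]
  let _ : HasPi C := ⟨z (g o), fun h0 => h4 (norm_le_zero_iff.1
    ((ho none).trans (by rw [h0, norm_zero]))),
    h2 _ hg⟩
  refine ⟨C, _, inferInstance, inferInstance, inferInstance, inferInstance,
    z.codRestrict (O C) h1, ?_, fun x hx => Subtype.ext (h3 x hx),
    fun h0 => h4 (congrArg Subtype.val h0)⟩
  exact heightIdeal_le_of (J := Ideal.comap (z.codRestrict (O C) h1) Adic.I)
    (mem_I_O.2 (ho (some none))) fun j _ => mem_I_O.2 (ho (some (some j)))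

theorem prime_eq_height (hn : 0 < n) (hF : IsLubinTate p n F) (P : Ideal (LTRing p n))
    [hP : P.IsPrime] (m₀ : ℕ)
    (H : ∀ m, m₀ ≤ m → ∀ ξ φ, IsEndLift p n F ξ → IsAct p n F m ξ φ → ∀ x ∈ P, φ x ∈ P) :
    ∃ h ≤ n, P = heightIdeal p n h := by
  classical
  have := hF.1
  by_cases hp : (p : LTRing p n) ∈ P
  swap
  · obtain ⟨C, _, _, _, _, _, z, h1, h2, h3⟩ := exists_point_O hn P p (p_mem_heightIdeal hn) hp
    refine ⟨0, n.zero_le, le_antisymm (fun f hf => ?_) (by simp [heightIdeal])⟩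
    rw [char_zero_case hn hF (fun h0 => h3 (Subtype.ext (by simpa using h0))) z h1 f m₀
      fun m hm ξ φ hξ hφ => h2 _ (H m hm ξ φ hξ hφ f hf)]
    exact zero_mem _
  have h1 : heightIdeal p n 1 ≤ P := by
    rw [heightIdeal_one]; exact (Ideal.span_singleton_le_iff_mem _).2 hp
  set h := Nat.findGreatest (fun h => heightIdeal p n h ≤ P) n with hh
  have hle : heightIdeal p n h ≤ P :=
    Nat.findGreatest_spec (P := fun h => heightIdeal p n h ≤ P) hn h1
  have hpos : 1 ≤ h := Nat.le_findGreatest (P := fun h => heightIdeal p n h ≤ P) hn h1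
  have hhn : h ≤ n := Nat.findGreatest_le n
  refine ⟨h, hhn, le_antisymm (fun f hf => ?_) hle⟩
  rcases hhn.eq_or_lt with e | hlt
  · rw [e, heightIdeal_top p n hn]
    exact IsLocalRing.le_maximalIdeal hP.ne_top hf
  let j₀ : Fin (n - 1) := ⟨h - 1, by omega⟩
  have hj : j₀.val + 1 = h := by simp only [j₀]; omega
  have hX : MvPowerSeries.X j₀ ∉ P := fun hX => by
    refine Nat.findGreatest_is_greatest (P := fun h => heightIdeal p n h ≤ P)
      (Nat.lt_succ_self h) hlt ?_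
    have := heightIdeal_succ p n j₀
    rw [show j₀.val + 2 = h.succ by omega, hj] at this
    rw [this]
    exact sup_le hle ((Ideal.span_singleton_le_iff_mem _).2 hX)
  obtain ⟨C, _, _, _, _, _, z, h1, h2, h3⟩ := exists_point_O hn P _ (X_mem_top j₀) hX
  have : CharP C p := (CharP.charP_iff_prime_eq_zero Fact.out).2
    (by simpa using congrArg Subtype.val (h2 _ hp))
  exact char_p_case hF j₀ hj h1 (fun x hx => h2 x (hle hx)) h3 f m₀
    fun m hm ξ φ hξ hφ => h2 _ (H m hm ξ φ hξ hφ f hf)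

theorem exists_not_mem_sup_pow (hn : 0 < n) (P : Ideal (LTRing p n)) [hP : P.IsPrime]
    {x : LTRing p n} (hx : x ∉ P) : ∃ M, x ∉ P ⊔ heightIdeal p n n ^ M := by
  by_contra hc
  push Not at hc
  have : IsLocalRing (LTRing p n ⧸ P) :=
    IsLocalRing.of_surjective' (Ideal.Quotient.mk P) Ideal.Quotient.mk_surjective
  have hne : (heightIdeal p n n).map (Ideal.Quotient.mk P) ≠ ⊤ := by
    intro h
    have h1 := congrArg (Ideal.comap (Ideal.Quotient.mk P)) h
    rw [Ideal.comap_map_of_surjective _ Ideal.Quotient.mk_surjective, Ideal.comap_top,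
      ← RingHom.ker_eq_comap_bot, Ideal.mk_ker, heightIdeal_top p n hn,
      sup_eq_left.2 (IsLocalRing.le_maximalIdeal hP.ne_top)] at h1
    exact (IsLocalRing.maximalIdeal.isMaximal _).ne_top h1
  have h2 := Ideal.iInf_pow_eq_bot_of_isLocalRing _ hne
  refine hx (Ideal.Quotient.eq_zero_iff_mem.1 ?_)
  rw [← Ideal.mem_bot, ← h2, Ideal.mem_iInf]
  intro M
  have := Ideal.mem_map_of_mem (Ideal.Quotient.mk P) (hc M)
  rwa [Ideal.map_sup, Ideal.map_quotient_self, bot_sup_eq, Ideal.map_pow] at this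

theorem radical_eq_height (hn : 0 < n) (hF : IsLubinTate p n F) (J : Ideal (LTRing p n))
    (hJ : J.IsRadical) (hI : IsInvariant p n F J) (hne : J ≠ ⊤) :
    ∃ h ≤ n, J = heightIdeal p n h := by
  have hfin := Ideal.finite_minimalPrimes_of_isNoetherianRing _ J
  have key : ∀ P ∈ J.minimalPrimes, ∃ h ≤ n, P = heightIdeal p n h := by
    intro P hP
    have := hP.1.1
    have h1 : ∀ Q : J.minimalPrimes, ∃ M, Q.1 ≤ P ⊔ heightIdeal p n n ^ M → Q.1 ≤ P := by
      intro Q
      by_cases hQ : Q.1 ≤ P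
      · exact ⟨0, fun _ => hQ⟩
      · obtain ⟨x, hx, hxP⟩ := Set.not_subset.1 hQ
        obtain ⟨M, hM⟩ := exists_not_mem_sup_pow hn P hxP
        exact ⟨M, fun h => absurd (h hx) hM⟩
    choose M hM using h1
    have := hfin.to_subtype
    obtain ⟨M₀, hM₀⟩ := (Set.finite_range M).bddAbove
    refine prime_eq_height hn hF P (M₀ + 1) fun m hm ξ φ hξ hφ x hx => ?_
    have hm0 : 0 < m := by omega
    obtain ⟨e, he, hs⟩ := hφ.exists_equiv hn hF hm0 hξ
    have hb : Function.Bijective φ := he ▸ e.bijective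
    have hJφ : J.map φ = J := he ▸ hI e hs
    have hQ : P.map φ ∈ J.minimalPrimes := by
      have hpr : (P.map φ).IsPrime := Ideal.map_isPrime_of_surjective hb.2
        (by rw [(RingHom.injective_iff_ker_eq_bot φ).1 hb.1]; exact bot_le)
      refine ⟨⟨hpr, hJφ ▸ Ideal.map_mono hP.1.2⟩, fun Q hQ hle => ?_⟩
      have := hQ.1
      rw [Ideal.map_le_iff_le_comap]
      refine hP.2 ⟨Ideal.comap_isPrime φ Q, ?_⟩ ?_
      · rw [← Ideal.map_le_iff_le_comap, hJφ]; exact hQ.2
      · exact (Ideal.comap_mono hle).trans (Ideal.comap_map_of_bijective φ hb).le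
    refine hM ⟨_, hQ⟩ (Ideal.map_le_iff_le_comap.2 fun y hy => ?_) (Ideal.mem_map_of_mem φ hx)
    have h2 := Ideal.pow_le_pow_right (m := M ⟨_, hQ⟩)
      (by have := hM₀ ⟨⟨_, hQ⟩, rfl⟩; omega) (hφ.sub_mem_pow hn hF hm0 hξ y)
    have := add_mem (Ideal.mem_sup_left (T := heightIdeal p n n ^ M ⟨_, hQ⟩) hy)
      (Ideal.mem_sup_right h2)
    rwa [add_sub_cancel] at this
  obtain ⟨P, hP⟩ := Ideal.nonempty_minimalPrimes hne
  obtain ⟨h, hh, rfl⟩ := key P hP
  refine ⟨h, hh, le_antisymm hP.1.2 ?_⟩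
  rw [← hJ.radical, ← Ideal.sInf_minimalPrimes]
  refine le_sInf fun Q hQ => ?_
  obtain ⟨h', -, rfl⟩ := key Q hQ
  rcases le_total h h' with hle | hle
  · exact heightIdeal_mono p n hle
  · exact hP.2 hQ.1 (heightIdeal_mono p n hle)

theorem chai (p n : ℕ) [Fact p.Prime] (hn : 1 ≤ n) :
    (∃ F : FormalGroup (LTRing p n), IsLubinTate p n F) ∧
    ∀ F : FormalGroup (LTRing p n), IsLubinTate p n F →
      (∀ P : Ideal (LTRing p n),
        (P.IsPrime ∧ IsInvariant p n F P) ↔ ∃ h ≤ n, P = heightIdeal p n h) ∧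
      ∀ J : Ideal (LTRing p n),
        (J.IsRadical ∧ IsInvariant p n F J) ↔ (J = ⊤ ∨ ∃ h ≤ n, J = heightIdeal p n h) := by
  refine ⟨(exists_isLubinTate p n hn).imp fun _ h => h.1, fun F hF => ⟨fun P => ⟨?_, ?_⟩,
    fun J => ⟨?_, ?_⟩⟩⟩
  · rintro ⟨h1, h2⟩
    exact radical_eq_height hn hF P h1.isRadical h2 h1.ne_top
  · rintro ⟨h, hh, rfl⟩
    exact ⟨heightIdeal_isPrime p n h, heightIdeal_invariant p n F hF h hh⟩
  · rintro ⟨h1, h2⟩
    exact or_iff_not_imp_left.2 (radical_eq_height hn hF J h1 h2)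
  · rintro (rfl | ⟨h, hh, rfl⟩)
    · exact ⟨fun _ _ => trivial, fun φ _ => Ideal.map_top _⟩
    · exact ⟨(heightIdeal_isPrime p n h).isRadical, heightIdeal_invariant p n F hF h hh⟩

end Vale.Agent.P217
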