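import Vale.Agent.P217.Tilt
import Vale.Agent.P217.LTDefs

/-! Definitions shared by the remaining files. -/

namespace Vale.Agent.P217

open Finset MvPowerSeries

section cocycle
variable {B : Type} [CommRing B]

/-- Symmetric `2`-cocycles of a formal group law with additive values. -/
structure IsCocycle (F : FormalGroup B) (E : MvPowerSeries (Fin 2) B) : Prop where
  zero : constantCoeff E = 0
  symm : E.subst ![(X 1 : MvPowerSeries (Fin 2) B), X 0] = E
  cocycle : E.subst ![(X 0 : MvPowerSeries (Fin 3) B), X 1] +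
      E.subst ![F.toPowerSeries.subst ![(X 0 : MvPowerSeries (Fin 3) B), X 1], X 2] =
    E.subst ![(X 1 : MvPowerSeries (Fin 3) B), X 2] +
      E.subst ![X 0, F.toPowerSeries.subst ![(X 1 : MvPowerSeries (Fin 3) B), X 2]]

/-- The sum `∑_{i < p} E([i] x, x)`. -/
noncomputable def pSum (F : FormalGroup B) (p : ℕ) (E : MvPowerSeries (Fin 2) B) : PowerSeries B :=
  ∑ i ∈ range p, E.subst ![mulSeries F i, PowerSeries.X]

/-- The coboundary `b(F(x, y)) - b(x) - b(y)`. -/
noncomputable def cobound (F : FormalGroup B) (b : PowerSeries B) : MvPowerSeries (Fin 2) B :=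
  b.subst F.toPowerSeries - b.subst (X 0 : MvPowerSeries (Fin 2) B) -
    b.subst (X 1 : MvPowerSeries (Fin 2) B)

variable {S : Type} [CommRing S] [Adic S] {F : FormalGroup B} {E : MvPowerSeries (Fin 2) B}

theorem IsCocycle.ev_symm (h : IsCocycle F E) (φ : B →+* S) {a b : S} (ha : a ∈ rad S)
    (hb : b ∈ rad S) : ev φ ![a, b] E = ev φ ![b, a] E := by
  conv_lhs => rw [← h.symm]
  rw [ev_subst2 φ (rad2 ha hb) (by simp) (by simp), ev_X φ (rad2 ha hb), ev_X φ (rad2 ha hb)]
  rfl

theorem rad3 {a b c : S} (ha : a ∈ rad S) (hb : b ∈ rad S) (hc : c ∈ rad S) :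
    ∀ i, ![a, b, c] i ∈ rad S := by
  intro i; fin_cases i
  exacts [ha, hb, hc]

theorem IsCocycle.ev_cocycle (h : IsCocycle F E) (φ : B →+* S) (x y z : Pt F φ) :
    ev φ ![x.val, y.val] E + ev φ ![(x + y).val, z.val] E =
      ev φ ![y.val, z.val] E + ev φ ![x.val, (y + z).val] E := by
  have h3 := rad3 x.mem y.mem z.mem
  have := congrArg (ev φ ![x.val, y.val, z.val]) h.cocycle
  rw [map_add, map_add, ev_subst2 φ h3 (cc_subst2 (by simp) (by simp) F) (by simp),
    ev_subst2 φ h3 (b := X 0) (by simp) (cc_subst2 (by simp) (by simp) F),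
    ev_subst2 φ h3 (by simp) (by simp), ev_subst2 φ h3 (by simp) (by simp),
    ev_subst2 φ h3 (by simp) (by simp), ev_subst2 φ h3 (by simp) (by simp)] at this
  simp only [ev_X φ h3] at this
  exact this

theorem isCocycle_of_pt [Adic B] (h0 : constantCoeff E = 0)
    (h1 : ∀ x y : Pt F (C : B →+* MvPowerSeries (Fin 2) B),
      ev C ![x.val, y.val] E = ev C ![y.val, x.val] E)
    (h2 : ∀ x y z : Pt F (C : B →+* MvPowerSeries (Fin 3) B),
      ev C ![x.val, y.val] E + ev C ![(x + y).val, z.val] E =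
        ev C ![y.val, z.val] E + ev C ![x.val, (y + z).val] E) : IsCocycle F E := by
  refine ⟨h0, ?_, ?_⟩
  · have e : ![(X 0 : MvPowerSeries (Fin 2) B), X 1] = X := by funext i; fin_cases i <;> rfl
    have := h1 (Pt.univ F 1) (Pt.univ F 0)
    rw [Pt.univ_val, Pt.univ_val, e, ev_C_X] at this
    rw [subst_eq_ev (cc2 (by simp) (by simp)), this]
  · rw [subst_eq_ev (cc2 (cc_subst2 (by simp) (by simp) F) (by simp)),
      subst_eq_ev (cc2 (a := X 0) (by simp) (cc_subst2 (by simp) (by simp) F)),
      subst_eq_ev (cc2 (by simp) (by simp)), subst_eq_ev (cc2 (by simp) (by simp)),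
      subst_eq_ev (cc2 (by simp) (by simp)), subst_eq_ev (cc2 (by simp) (by simp))]
    exact h2 (Pt.univ F 0) (Pt.univ F 1) (Pt.univ F 2)

theorem ev_pSum (p : ℕ) (E : MvPowerSeries (Fin 2) B) (φ : B →+* S) (x : Pt F φ) :
    ev1 φ x.val (pSum F p E) = ∑ i ∈ range p, ev φ ![(i • x).val, x.val] E := by
  rw [pSum, map_sum]
  refine sum_congr rfl fun i _ => ?_
  rw [ev1_subst2 φ x.mem (Ideals.cc_mul F i) (by simp), ev1_X φ x.mem, Pt.nsmul_val]

theorem ev_cobound (b : PowerSeries B) (φ : B →+* S) (x y : Pt F φ) :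
    ev φ ![x.val, y.val] (cobound F b) =
      ev1 φ (x + y).val b - ev1 φ x.val b - ev1 φ y.val b := by
  have h2 := rad2 x.mem y.mem
  rw [cobound, map_sub, map_sub, ev_psubst φ h2 F.zero_constantCoeff, ev_psubst φ h2 (by simp),
    ev_psubst φ h2 (by simp), ev_X φ h2, ev_X φ h2]
  rfl

/-- The value of a series without constant term at a point, as a point of another group. -/
noncomputable def Pt.app {R R' A : Type} [CommRing R] [CommRing R'] [CommRing A]
    {F : FormalGroup R} {φ : R →+* S} (G : FormalGroup R') (φ' : R' →+* S) (χ : A →+* S)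
    (β : PowerSeries A) (h0 : PowerSeries.constantCoeff β = 0) (x : Pt F φ) : Pt G φ' :=
  ⟨ev1 χ x.val β, ev1_mem_rad χ x.mem h0⟩

@[simp] theorem Pt.app_val {R R' A : Type} [CommRing R] [CommRing R'] [CommRing A]
    {F : FormalGroup R} {φ : R →+* S} (G : FormalGroup R') (φ' : R' →+* S) (χ : A →+* S)
    (β : PowerSeries A) (h0 : PowerSeries.constantCoeff β = 0) (x : Pt F φ) :
    (Pt.app G φ' χ β h0 x).val = ev1 χ x.val β := rfl

/-- The series `β(x + y) - β(x) - β(y)`, differences taken in the group `G`. -/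
theorem exists_defect (F G : FormalGroup B) [G.IsComm] (β : PowerSeries B)
    (h0 : PowerSeries.constantCoeff β = 0) :
    ∃ E : MvPowerSeries (Fin 2) B, constantCoeff E = 0 ∧
      ∀ (S : Type) [CommRing S] [Adic S] (φ : B →+* S) (x y : Pt F φ),
        ev φ ![x.val, y.val] E = (Pt.app G φ φ β h0 (x + y) - Pt.app G φ φ β h0 x -
          Pt.app G φ φ β h0 y).val := by
  let _ := Adic.discrete B
  let u : Fin 2 → Pt F (C : B →+* MvPowerSeries (Fin 2) B) := Pt.univ F
  have key : ∀ (S : Type) [CommRing S] [Adic S] (φ : B →+* S) (x y : Pt F φ),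
      ev φ ![x.val, y.val] (Pt.app G C C β h0 (u 0 + u 1) - Pt.app G C C β h0 (u 0) -
        Pt.app G C C β h0 (u 1)).val = (Pt.app G φ φ β h0 (x + y) - Pt.app G φ φ β h0 x -
          Pt.app G φ φ β h0 y).val := by
    intro S _ _ φ x y
    have h2 := rad2 x.mem y.mem
    have hr : ∀ f ∈ rad (MvPowerSeries (Fin 2) B), ev φ ![x.val, y.val] f ∈ rad S :=
      ev_rad_of φ (map_mem_rad φ fun r hr => by rw [show r = 0 from hr, map_zero]; exact zero_mem _) h2
    have ha : ∀ w, Pt.map G _ hr (ev_comp_C φ _) (Pt.app G C C β h0 w) =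
        Pt.app G φ φ β h0 (Pt.map F _ hr (ev_comp_C φ _) w) := fun w => Pt.ext (by
      rw [Pt.map_val, Pt.app_val, hom_ev1 _ _ w.mem (hr _ w.mem), ev_comp_C]; rfl)
    have e0 : Pt.map F _ hr (ev_comp_C φ _) (u 0) = x := Pt.ext (ev_X φ h2 0)
    have e1 : Pt.map F _ hr (ev_comp_C φ _) (u 1) = y := Pt.ext (ev_X φ h2 1)
    rw [← Pt.map_val G _ hr (ev_comp_C φ _), map_sub, map_sub, ha, ha, ha, map_add, e0, e1]
  refine ⟨_, ?_, key⟩
  have := key B (RingHom.id B) 0 0
  have e : ![(0 : Pt F (RingHom.id B)).val, (0 : Pt F (RingHom.id B)).val] = fun _ => 0 := by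
    funext i; fin_cases i <;> rfl
  have z : Pt.app G (RingHom.id B) (RingHom.id B) β h0 (0 : Pt F (RingHom.id B)) = 0 :=
    Pt.ext (by simp [ev1_zero, h0])
  rw [e, ev_zero, add_zero, z] at this
  simpa using this

/-- `β` is a homomorphism modulo the ideal `𝔠`. -/
structure IsHomMod (𝔠 : Ideal B) (F G : FormalGroup B) (β : PowerSeries B) : Prop where
  zero : PowerSeries.constantCoeff β = 0
  hom : IsHom (F.map (Ideal.Quotient.mk 𝔠)) (G.map (Ideal.Quotient.mk 𝔠))
    (PowerSeries.map (Ideal.Quotient.mk 𝔠) β)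

/-- The coefficient of `x ^ i y ^ (D - i)`. -/
noncomputable def cf (E : MvPowerSeries (Fin 2) B) (D i : ℕ) : B :=
  coeff (Finsupp.single 0 i + Finsupp.single 1 (D - i)) E

end cocycle

section log
variable {R S : Type} [CommRing R] [CommRing S] [Adic S] {F : FormalGroup R} {φ : R →+* S}

/-- `p * ℓ` is the logarithm of the point `x`, which is divisible by `p`. -/
def IsEll (p : ℕ) (x : Pt F φ) (ℓ : S) : Prop :=
  ∀ k, (p ^ k • x).val - (p : S) ^ (k + 1) * ℓ ∈ Ideal.span {(p : S) ^ (2 * k + 1)}

/-- The logarithm of a point with values in the integers of a valued field. -/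
noncomputable def lg {K : Type} [NormedField K] [IsUltrametricDist K] [HasPi K] [CompleteSpace K]
    {F : FormalGroup R} {φ : R →+* O K} (p : ℕ) (x : Pt F φ) : K :=
  Filter.limUnder Filter.atTop fun k : ℕ => ((p ^ k • x).val : K) / (p : K) ^ k

end log

/-- Independence of leading terms. -/
def Adapted (p n : ℕ) {C ι : Type} [NormedField C] [Fintype ι] (X : ι → C) : Prop :=
  ∀ (k c : ι → ℕ) (R : ℝ), (∀ i, (c i : C) ≠ 0 → ‖X i ^ (p ^ n) ^ k i‖ = R) →
    ‖∑ i, (c i : C) * X i ^ (p ^ n) ^ k i‖ < R → ∀ i, (c i : C) = 0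

section LT
variable (p n : ℕ) [Fact p.Prime]

noncomputable instance adicW : Adic (WittVector p (GaloisField p n)) where
  I := Ideal.span {(p : WittVector p (GaloisField p n))}
  haus x h := IsHausdorff.haus (I := Ideal.span {(p : WittVector p (GaloisField p n))})
    inferInstance x fun n => by simpa [SModEq.zero] using h n
  prec f h := by
    obtain ⟨L, hL⟩ := IsPrecomplete.prec
      (I := Ideal.span {(p : WittVector p (GaloisField p n))}) inferInstance (f := f)
      fun {a b} hab => by
        obtain ⟨k, rfl⟩ := Nat.exists_eq_add_of_le hab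
        refine SModEq.symm ?_
        rw [SModEq.sub_mem, smul_eq_mul, Ideal.mul_top]
        induction k with
        | zero => simp
        | succ k ih =>
          have := add_mem (Ideal.pow_le_pow_right (Nat.le_add_right a k) (h (a + k)))
            (ih (Nat.le_add_right a k))
          rwa [sub_add_sub_cancel] at this
    exact ⟨L, fun n => by simpa [SModEq.sub_mem] using (hL n).symm⟩

/-- The residue map. -/
noncomputable def res : LTRing p n →+* GaloisField p n :=
  WittVector.constantCoeff.comp constantCoeff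

theorem mem_top_iff {x : LTRing p n} (hn : 0 < n) : x ∈ heightIdeal p n n ↔ res p n x = 0 := by
  rw [mem_heightIdeal_iff p n hn]
  constructor
  · intro h; exact h 0 fun _ _ => rfl
  · intro h d hd
    have : d = 0 := Finsupp.ext fun i => hd i (by have := i.2; omega)
    subst this; exact h

theorem I_LT (hn : 0 < n) : (Adic.I : Ideal (LTRing p n)) = heightIdeal p n n := by
  ext x
  rw [mem_I_ps, mem_top_iff p n hn]
  exact WittVector.mem_span_p_iff_coeff_zero_eq_zero _

theorem res_surjective : Function.Surjective (res p n) := fun a =>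
  ⟨C (WittVector.teichmuller p a), by simp [res]⟩

theorem exists_lift_series (g : PowerSeries (GaloisField p n))
    (h0 : PowerSeries.constantCoeff g = 0) : ∃ g' : PowerSeries (LTRing p n),
      PowerSeries.constantCoeff g' = 0 ∧ PowerSeries.map (res p n) g' = g := by
  refine ⟨PowerSeries.mk fun i => C (WittVector.teichmuller p (PowerSeries.coeff i g)), ?_, ?_⟩
  · rw [← PowerSeries.coeff_zero_eq_constantCoeff_apply, PowerSeries.coeff_mk,
      PowerSeries.coeff_zero_eq_constantCoeff_apply, h0]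
    simp
  · ext i; simp [res]

variable {p n} in
theorem IsLubinTate.mul_p_res {F : FormalGroup (LTRing p n)} (hF : IsLubinTate p n F)
    (hn : 0 < n) : mulSeries (F.map (res p n)) p = PowerSeries.X ^ p ^ n := by
  rw [Ideals.map_mul_series, ← sub_eq_zero, ← PowerSeries.map_X (res p n), ← map_pow, ← map_sub]
  ext i
  rw [PowerSeries.coeff_map, map_zero]
  exact (mem_top_iff p n hn).1 (hF.2.1 i)

/-- `ξ` is a lift of an endomorphism of the special fibre. -/
structure IsEndLift (F : FormalGroup (LTRing p n)) (ξ : PowerSeries (LTRing p n)) : Prop where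
  zero : PowerSeries.constantCoeff ξ = 0
  hom : IsHom (F.map (res p n)) (F.map (res p n)) (PowerSeries.map (res p n) ξ)

/-- `φ` is the action of `1 - p ^ m ξ`. -/
structure IsAct (F : FormalGroup (LTRing p n)) (m : ℕ) (ξ : PowerSeries (LTRing p n))
    (φ : LTRing p n →+* LTRing p n) : Prop where
  const : ∀ w, φ (C w) = C w
  loc : ∀ x ∈ heightIdeal p n n, φ x ∈ heightIdeal p n n
  hom : ∃ g, IsHom F (F.map φ) g ∧
    (F.map (res p n)).toPowerSeries.subst
      ![PowerSeries.map (res p n) g, PowerSeries.map (res p n) ξ ^ (p ^ n) ^ m] = PowerSeries.X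

/-- The indices of the variables `u_j` with `j ≥ h`. -/
abbrev Ix (n h : ℕ) : Type := {j : Fin (n - 1) // h ≤ j.val + 1}

variable {p n} in
/-- The family of deformations `z + c ε`. -/
noncomputable def fam {S : Type} [CommRing S] [Adic S] (z : LTRing p n →+* S) (h : ℕ) (c : S) :
    LTRing p n →+* MvPowerSeries (Ix n h) S :=
  ev (C.comp (z.comp C)) fun j =>
    C (z (X j)) + if hj : h ≤ j.val + 1 then C c * X ⟨j, hj⟩ else 0

end LT

end Vale.Agent.P217
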