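import Vale.Agent.P217.Setup
import Vale.Agent.P217.Weier

/-! Auxiliary lemmas on ultrametric norms and on `p`-torsion groups. -/

namespace Vale.Agent.P217.TateAux

open Finset

section norm
variable {C : Type} [NormedField C] [IsUltrametricDist C]

theorem norm_add_lt {a b : C} {R : ℝ} (ha : ‖a‖ < R) (hb : ‖b‖ < R) : ‖a + b‖ < R :=
  (IsUltrametricDist.norm_add_le_max a b).trans_lt (max_lt ha hb)

theorem norm_sum_lt {ι : Type} (s : Finset ι) (f : ι → C) {R : ℝ} (hR : 0 < R)
    (h : ∀ i ∈ s, ‖f i‖ < R) : ‖∑ i ∈ s, f i‖ < R :=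
  sum_induction f (fun x => ‖x‖ < R) (fun _ _ => norm_add_lt) (by simpa using hR) h

theorem norm_eq_of_sub_lt {a b : C} (h : ‖b - a‖ < ‖a‖) : ‖b‖ = ‖a‖ := by
  have := IsUltrametricDist.norm_add_eq_max_of_norm_ne_norm h.ne
  rw [sub_add_cancel, max_eq_right h.le] at this
  exact this

theorem sum_cast_pow {A ι : Type} [CommRing A] (p : ℕ) [Fact p.Prime] [CharP A p]
    (s : Finset ι) (c : ι → ℕ) (x : ι → A) (j : ℕ) :
    (∑ i ∈ s, (c i : A) * x i) ^ p ^ j = ∑ i ∈ s, (c i : A) * x i ^ p ^ j := by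
  rw [← iterateFrobenius_def, map_sum]
  refine sum_congr rfl fun i _ => ?_
  rw [map_mul, map_natCast, iterateFrobenius_def]

end norm

section group
variable {G : Type} [AddCommGroup G] {p : ℕ}

theorem exists_indep [Fact p.Prime] (hfin : {x : G | p • x = 0}.Finite) {ι : Type} [Fintype ι]
    (s : Finset G) (hs : ∀ x ∈ s, p • x = 0) (hc : p ^ Fintype.card ι ≤ s.card) :
    ∃ y : ι → G, (∀ i, p • y i = 0) ∧ ∀ c : ι → ℕ, ∑ i, c i • y i = 0 → ∀ i, p ∣ c i := by
  classical
  let T : AddSubgroup G := (nsmulAddMonoidHom p : G →+ G).ker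
  have hT : ∀ x : G, x ∈ T ↔ p • x = 0 := fun x => Iff.rfl
  have : Finite T := hfin.to_subtype
  let _ : Fintype T := Fintype.ofFinite T
  let _ : Module (ZMod p) T := AddCommGroup.zmodModule fun x => Subtype.ext x.2
  have h1 : s.card ≤ Fintype.card T := by
    rw [← card_univ]
    refine card_le_card_of_injOn (fun x => if h : x ∈ T then ⟨x, h⟩ else 0)
      (fun _ _ => mem_coe.2 (mem_univ _)) fun x hx y hy hxy => ?_
    have hx' : x ∈ T := hs x hx
    have hy' : y ∈ T := hs y hy
    simp only [dif_pos hx', dif_pos hy'] at hxy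
    exact congrArg Subtype.val hxy
  rw [Module.card_eq_pow_finrank (K := ZMod p), ZMod.card] at h1
  have h2 : Fintype.card ι ≤ Module.finrank (ZMod p) T :=
    (Nat.pow_le_pow_iff_right (Fact.out : p.Prime).one_lt).1 (hc.trans h1)
  obtain ⟨f, hf⟩ := exists_linearIndependent_of_le_finrank h2
  have hf' := hf.comp _ (Fintype.equivFin ι).injective
  refine ⟨fun i => (f (Fintype.equivFin ι i) : G), fun i => (f _).2, fun c hc i => ?_⟩
  rw [← ZMod.natCast_eq_zero_iff]
  refine Fintype.linearIndependent_iff.1 hf' (fun i => (c i : ZMod p)) (Subtype.ext ?_) i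
  simp only [Nat.cast_smul_eq_nsmul]
  simpa using hc

theorem indep_update (hp : p.Prime) {ι : Type} [Fintype ι] [DecidableEq ι] {y : ι → G}
    (hy : ∀ c : ι → ℕ, ∑ i, c i • y i = 0 → ∀ i, p ∣ c i) (a : ι → ℕ) (i₀ : ι)
    (ha : ¬ p ∣ a i₀) (c : ι → ℕ)
    (hc : ∑ i, c i • Function.update y i₀ (∑ j, a j • y j) i = 0) (i : ι) : p ∣ c i := by
  have h1 : ∑ i, ((if i = i₀ then 0 else c i) + c i₀ * a i) • y i = 0 := by
    rw [← hc]
    simp only [add_nsmul, sum_add_distrib]
    rw [← add_sum_erase _ _ (mem_univ i₀), ← add_sum_erase _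
      (fun i => c i • Function.update y i₀ (∑ j, a j • y j) i) (mem_univ i₀), if_pos rfl,
      zero_nsmul, zero_add, Function.update_self, add_comm, smul_sum]
    refine congrArg₂ (· + ·) (sum_congr rfl fun j _ => mul_nsmul' _ _ _)
      (sum_congr rfl fun j hj => ?_)
    rw [if_neg (ne_of_mem_erase hj), Function.update_of_ne (ne_of_mem_erase hj)]
  have h2 := hy _ h1
  have h3 : p ∣ c i₀ := by
    have := h2 i₀
    rw [if_pos rfl, zero_add] at this
    exact (hp.dvd_mul.1 this).resolve_right ha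
  by_cases hi : i = i₀
  · rw [hi]; exact h3
  · have := h2 i
    rw [if_neg hi] at this
    exact (Nat.dvd_add_left (h3.mul_right _)).1 this

theorem ne_zero_of_indep (hp : p.Prime) {ι : Type} [Fintype ι] {y : ι → G}
    (hy : ∀ c : ι → ℕ, ∑ i, c i • y i = 0 → ∀ i, p ∣ c i) (i : ι) : y i ≠ 0 := by
  classical
  intro h0
  have := hy (fun j => if j = i then 1 else 0) (by simp [h0]) i
  rw [if_pos rfl] at this
  exact hp.one_lt.ne' (Nat.dvd_one.1 this)

theorem finite_pow_torsion (h : ∀ y : G, {x : G | p • x = y}.Finite) (k : ℕ) :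
    {x : G | p ^ k • x = 0}.Finite := by
  induction k with
  | zero => simp
  | succ k ih =>
    refine (ih.preimage' (f := fun x => p • x) fun y _ => h y).subset fun x hx => ?_
    change p ^ k • p • x = 0
    rw [← mul_nsmul', ← pow_succ]
    exact hx

end group

end Vale.Agent.P217.TateAux
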