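import Vale.Agent.P217.Hom

/-! The map from approximate division systems to points (universal cover). -/

namespace Vale.Agent.P217

open Finset

variable {R S : Type} [CommRing R] [CommRing S] [Adic S] {F : FormalGroup R} {φ : R →+* S}

theorem Pt.add_val_mem {𝔠 : Ideal S} {x y : Pt F φ} (hx : x.val ∈ 𝔠) (hy : y.val ∈ 𝔠) :
    (x + y).val ∈ 𝔠 := (Pt.idealSub F φ 𝔠).add_mem hx hy

theorem Pt.sub_val_mem {𝔠 : Ideal S} {x y : Pt F φ} (hx : x.val ∈ 𝔠) (hy : y.val ∈ 𝔠) :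
    (x - y).val ∈ 𝔠 := (Pt.idealSub F φ 𝔠).sub_mem hx hy

theorem Pt.nsmul_val_mem {𝔠 : Ideal S} {x : Pt F φ} (hx : x.val ∈ 𝔠) (m : ℕ) :
    (m • x).val ∈ 𝔠 := (Pt.idealSub F φ 𝔠).nsmul_mem hx m

theorem Pt.exists_lim (f : ℕ → Pt F φ)
    (h : ∀ n, (f (n + 1) - f n).val ∈ (Adic.I : Ideal S) ^ (n + 1)) :
    ∃ L : Pt F φ, ∀ n, (L - f n).val ∈ (Adic.I : Ideal S) ^ (n + 1) := by
  simp only [Pt.sub_val_mem_iff] at h ⊢
  obtain ⟨L, hL⟩ := Adic.prec (fun n => (f n).val) fun n =>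
    Ideal.pow_le_pow_right (Nat.le_succ n) (h n)
  have key : ∀ n, L - (f n).val ∈ (Adic.I : Ideal S) ^ (n + 1) := fun n => by
    simpa using add_mem (hL (n + 1)) (h n)
  refine ⟨⟨L, ?_⟩, key⟩
  have := add_mem (I_le_rad (Ideal.pow_le_self one_ne_zero (key 0))) (f 0).mem
  rwa [sub_add_cancel] at this

theorem Pt.eq_of_forall {x y : Pt F φ} (h : ∀ n : ℕ, (x - y).val ∈ (Adic.I : Ideal S) ^ (n + 1)) :
    x = y :=
  Pt.ext (eq_of_forall_sub_mem fun n =>
    Ideal.pow_le_pow_right (Nat.le_succ n) ((Pt.sub_val_mem_iff _ _ _).1 (h n)))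

theorem Pt.nsmul_mem_pow {p : ℕ} (hp : (p : S) ∈ (Adic.I : Ideal S)) {j : ℕ} {x : Pt F φ}
    (hx : x.val ∈ (Adic.I : Ideal S) ^ (j + 1)) (k : ℕ) :
    (p ^ k • x).val ∈ (Adic.I : Ideal S) ^ (j + k + 1) := by
  induction k with
  | zero => simpa using hx
  | succ k ih =>
    obtain ⟨r, hr⟩ := Pt.exists_nsmul_val p (p ^ k • x)
    rw [pow_succ' p, mul_nsmul', hr, ← add_assoc]
    refine add_mem ?_ (Ideal.mul_mem_right _ _ ?_)
    · rw [pow_succ']; exact Ideal.mul_mem_mul hp ih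
    · rw [pow_two, pow_succ]
      exact Ideal.mul_mem_mul ih (Ideal.pow_le_self (Nat.succ_ne_zero _) ih)

/-- Approximate division systems. -/
def IsSys (p : ℕ) (y : ℕ → Pt F φ) : Prop :=
  ∀ k, (p • y (k + 1) - y k).val ∈ (Adic.I : Ideal S)

/-- `x` is the limit of `p ^ k • y k`. -/
def IsTheta (p : ℕ) (y : ℕ → Pt F φ) (x : Pt F φ) : Prop :=
  ∀ k, (x - p ^ k • y k).val ∈ (Adic.I : Ideal S) ^ (k + 1)

open Classical in
/-- The limit of `p ^ k • y k`. -/
noncomputable def theta (p : ℕ) (y : ℕ → Pt F φ) : Pt F φ :=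
  if h : ∃ x, IsTheta p y x then h.choose else 0

variable [F.IsComm] {p : ℕ}

omit [F.IsComm] in
theorem IsTheta.unique {y : ℕ → Pt F φ} {x x' : Pt F φ} (h : IsTheta p y x)
    (h' : IsTheta p y x') : x = x' :=
  Pt.eq_of_forall fun n => by
    have := Pt.sub_val_mem (h n) (h' n)
    rwa [sub_sub_sub_cancel_right] at this

omit [F.IsComm] in
theorem IsTheta.theta_eq {y : ℕ → Pt F φ} {x : Pt F φ} (h : IsTheta p y x) : theta p y = x := by
  have h' : ∃ x, IsTheta p y x := ⟨x, h⟩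
  rw [theta, dif_pos h']
  exact h'.choose_spec.unique h

theorem IsSys.isTheta (hp : (p : S) ∈ (Adic.I : Ideal S)) {y : ℕ → Pt F φ} (hy : IsSys p y) :
    IsTheta p y (theta p y) := by
  obtain ⟨L, hL⟩ := Pt.exists_lim (fun k => p ^ k • y k) fun k => by
    have := Pt.nsmul_mem_pow hp (j := 0) (by simpa using hy k) k
    rwa [nsmul_sub, ← mul_nsmul', ← pow_succ, zero_add] at this
  rw [IsTheta.theta_eq hL]; exact hL

theorem IsSys.add {y y' : ℕ → Pt F φ} (hy : IsSys p y) (hy' : IsSys p y') :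
    IsSys p fun k => y k + y' k := fun k => by
  have := Pt.add_val_mem (hy k) (hy' k)
  rwa [← add_sub_add_comm, ← nsmul_add] at this

theorem IsSys.nsmul {y : ℕ → Pt F φ} (hy : IsSys p y) (m : ℕ) :
    IsSys p fun k => m • y k := fun k => by
  have := Pt.nsmul_val_mem (hy k) m
  rwa [nsmul_sub, smul_comm] at this

theorem IsSys.congr {y y' : ℕ → Pt F φ} (hy : IsSys p y)
    (h : ∀ k, (y' k).val - (y k).val ∈ (Adic.I : Ideal S)) : IsSys p y' := fun k => by
  have h' : ∀ k, (y' k - y k).val ∈ (Adic.I : Ideal S) := fun k => (Pt.sub_val_mem_iff _ _ _).2 (h k)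
  have := Pt.sub_val_mem (Pt.add_val_mem (hy k)
    (Pt.nsmul_val_mem (h' (k + 1)) p)) (h' k)
  have e : p • y' (k + 1) - y' k =
      p • y (k + 1) - y k + p • (y' (k + 1) - y (k + 1)) - (y' k - y k) := by
    rw [nsmul_sub]; abel
  rw [e]; exact this

omit [F.IsComm] in
theorem IsSys.shift {y : ℕ → Pt F φ} (hy : IsSys p y) (j : ℕ) : IsSys p fun k => y (k + j) :=
  fun k => by simpa only [add_right_comm k 1 j] using hy (k + j)

section
variable (hp : (p : S) ∈ (Adic.I : Ideal S))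
include hp

theorem theta_sub_mem {y : ℕ → Pt F φ} (hy : IsSys p y) :
    (theta p y).val - (y 0).val ∈ (Adic.I : Ideal S) := by
  simpa [Pt.sub_val_mem_iff] using hy.isTheta hp 0

theorem theta_add {y y' : ℕ → Pt F φ} (hy : IsSys p y) (hy' : IsSys p y') :
    theta p (fun k => y k + y' k) = theta p y + theta p y' :=
  IsTheta.theta_eq fun k => by
    have := Pt.add_val_mem (hy.isTheta hp k) (hy'.isTheta hp k)
    rwa [← add_sub_add_comm, ← nsmul_add] at this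

theorem theta_nsmul {y : ℕ → Pt F φ} (hy : IsSys p y) (m : ℕ) :
    theta p (fun k => m • y k) = m • theta p y :=
  IsTheta.theta_eq fun k => by
    have := Pt.nsmul_val_mem (hy.isTheta hp k) m
    rwa [nsmul_sub, smul_comm] at this

theorem theta_congr {y y' : ℕ → Pt F φ} (hy : IsSys p y)
    (h : ∀ k, (y' k).val - (y k).val ∈ (Adic.I : Ideal S)) : theta p y' = theta p y :=
  IsTheta.theta_eq fun k => by
    have h1 := Pt.nsmul_mem_pow hp (j := 0) (x := y' k - y k)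
      (by simpa [Pt.sub_val_mem_iff] using h k) k
    rw [zero_add] at h1
    have := Pt.sub_val_mem (hy.isTheta hp k) h1
    rwa [nsmul_sub, sub_sub, add_sub_cancel] at this

theorem theta_shift {y : ℕ → Pt F φ} (hy : IsSys p y) (j : ℕ) :
    p ^ j • theta p (fun k => y (k + j)) = theta p y :=
  Pt.eq_of_forall fun k => by
    have h1 := Pt.nsmul_val_mem ((hy.shift j).isTheta hp k) (p ^ j)
    have h2 : (theta p y - p ^ (k + j) • y (k + j)).val ∈ (Adic.I : Ideal S) ^ (k + 1) :=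
      Ideal.pow_le_pow_right (by omega) (hy.isTheta hp (k + j))
    have := Pt.sub_val_mem h1 h2
    rwa [nsmul_sub, ← mul_nsmul', ← pow_add, add_comm j k, sub_sub_sub_cancel_right] at this

end

omit [F.IsComm] in
theorem theta_of_exact {y : ℕ → Pt F φ} (hy : ∀ k, p • y (k + 1) = y k) : theta p y = y 0 :=
  IsTheta.theta_eq fun k => by
    have : p ^ k • y k = y 0 := by
      induction k with
      | zero => simp
      | succ k ih => rw [pow_succ, mul_nsmul', hy, ih]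
    simp [this]

section map
variable {R' T : Type} [CommRing R'] [CommRing T] [Adic T] {G : FormalGroup R'} [G.IsComm]
  {φ' : R' →+* T}

omit [F.IsComm] [G.IsComm] in
theorem IsSys.map {y : ℕ → Pt F φ} (hy : IsSys p y) (f : Pt F φ →+ Pt G φ')
    (hf : ∀ x : Pt F φ, x.val ∈ (Adic.I : Ideal S) → (f x).val ∈ (Adic.I : Ideal T)) :
    IsSys p fun k => f (y k) := fun k => by
  simpa only [map_sub, map_nsmul] using hf _ (hy k)

theorem theta_map (hp : (p : S) ∈ (Adic.I : Ideal S)) {y : ℕ → Pt F φ} (hy : IsSys p y)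
    (f : Pt F φ →+ Pt G φ')
    (hf : ∀ (k : ℕ) (x : Pt F φ), x.val ∈ (Adic.I : Ideal S) ^ k →
      (f x).val ∈ (Adic.I : Ideal T) ^ k) :
    theta p (fun k => f (y k)) = f (theta p y) :=
  IsTheta.theta_eq fun k => by simpa only [map_sub, map_nsmul] using hf _ _ (hy.isTheta hp k)

end map

theorem map_mem_I_pow {T : Type} [CommRing T] [Adic T] (ψ : S →+* T)
    (h : ∀ x ∈ (Adic.I : Ideal S), ψ x ∈ (Adic.I : Ideal T)) (k : ℕ) :
    ∀ x ∈ (Adic.I : Ideal S) ^ k, ψ x ∈ (Adic.I : Ideal T) ^ k := fun x hx => by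
  have h1 := Ideal.mem_map_of_mem ψ hx
  rw [Ideal.map_pow] at h1
  exact Ideal.pow_right_mono (Ideal.map_le_iff_le_comap.2 h) k h1

theorem map_mem_rad {T : Type} [CommRing T] [Adic T] (ψ : S →+* T)
    (h : ∀ x ∈ (Adic.I : Ideal S), ψ x ∈ (Adic.I : Ideal T)) :
    ∀ x ∈ rad S, ψ x ∈ rad T := fun x ⟨N, hN⟩ => ⟨N, by rw [← map_pow]; exact h _ hN⟩

theorem C_mem_I {τ : Type} [Finite τ] : ∀ x ∈ (Adic.I : Ideal S),
    (MvPowerSeries.C x : MvPowerSeries τ S) ∈ (Adic.I : Ideal (MvPowerSeries τ S)) :=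
  fun x hx => mem_I_ps.2 (by simpa using hx)

theorem ev_mem_I {τ : Type} [Finite τ] {a : τ → S} (ha : ∀ i, a i ∈ (Adic.I : Ideal S)) :
    ∀ f ∈ (Adic.I : Ideal (MvPowerSeries τ S)), ev (RingHom.id S) a f ∈ (Adic.I : Ideal S) :=
  fun _ hf => ev_mem_of_constantCoeff _ (fun i => I_le_rad (ha i)) ha (mem_I_ps.1 hf)

/-- Sequences of approximate `q`-th roots. -/
structure IsRootSys (q : ℕ) (y : ℕ → S) : Prop where
  mem : ∀ k, y k ∈ rad S
  pow : ∀ k, y (k + 1) ^ q - y k ∈ (Adic.I : Ideal S)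

variable (F φ) in
/-- The sequence of points attached to a sequence of approximate roots. -/
def IsRootSys.pt {q : ℕ} {y : ℕ → S} (hy : IsRootSys q y) : ℕ → Pt F φ := fun k => ⟨y k, hy.mem k⟩

omit [F.IsComm] in
@[simp] theorem IsRootSys.pt_val {q : ℕ} {y : ℕ → S} (hy : IsRootSys q y) (k : ℕ) :
    (hy.pt F φ k).val = y k := rfl

omit [F.IsComm] in
theorem nsmul_val_sub_pow_mem {q : ℕ}
    (hF : ∀ i, φ (PowerSeries.coeff i (mulSeries F p - PowerSeries.X ^ q)) ∈ (Adic.I : Ideal S))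
    (x : Pt F φ) : (p • x).val - x.val ^ q ∈ (Adic.I : Ideal S) := by
  have := ev1_mem_of_coeff φ x.mem ⟨1, by simp⟩ hF
  rwa [map_sub, map_pow, ev1_X φ x.mem, ← Pt.nsmul_val] at this

omit [F.IsComm] in
theorem IsRootSys.isSys {q : ℕ} {y : ℕ → S} (hy : IsRootSys q y)
    (hF : ∀ i, φ (PowerSeries.coeff i (mulSeries F p - PowerSeries.X ^ q)) ∈ (Adic.I : Ideal S)) :
    IsSys p (hy.pt F φ) := fun k => by
  rw [Pt.sub_val_mem_iff]
  simpa using add_mem (nsmul_val_sub_pow_mem hF (hy.pt F φ (k + 1))) (hy.pow k)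

theorem IsRootSys.map {T : Type} [CommRing T] [Adic T] {q : ℕ} {y : ℕ → S} (hy : IsRootSys q y)
    (ψ : S →+* T) (h : ∀ x ∈ (Adic.I : Ideal S), ψ x ∈ (Adic.I : Ideal T)) :
    IsRootSys q fun k => ψ (y k) :=
  ⟨fun k => map_mem_rad ψ h _ (hy.mem k), fun k => by simpa using h _ (hy.pow k)⟩

theorem IsRootSys.pow' {q : ℕ} {y : ℕ → S} (hy : IsRootSys q y) {e : ℕ} (he : 0 < e) :
    IsRootSys q fun k => y k ^ e :=
  ⟨fun k => Ideal.pow_mem_of_mem _ (hy.mem k) _ he, fun k => by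
    rw [← pow_mul, mul_comm, pow_mul]
    exact Ideal.mem_of_dvd _ (sub_dvd_pow_sub_pow _ _ e) (hy.pow k)⟩

theorem IsRootSys.const_mul {q : ℕ} {y : ℕ → S} (hy : IsRootSys q y) {a : S} (ha : a ^ q = a) :
    IsRootSys q fun k => a * y k :=
  ⟨fun k => Ideal.mul_mem_left _ _ (hy.mem k), fun k => by
    rw [mul_pow, ha, ← mul_sub]; exact Ideal.mul_mem_left _ _ (hy.pow k)⟩

theorem IsRootSys.shift {q : ℕ} {y : ℕ → S} (hy : IsRootSys q y) (j : ℕ) :
    IsRootSys q fun k => y (k + j) :=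
  ⟨fun _ => hy.mem _, fun k => by simpa only [add_right_comm k 1 j] using hy.pow (k + j)⟩

end Vale.Agent.P217
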