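import Vale.Agent.P217.Ev1

/-! The ring of integers of a complete ultrametric field as an adic ring. -/

namespace Vale.Agent.P217

open Finset

/-- A chosen pseudo-uniformizer. -/
class HasPi (K : Type) [NormedField K] where
  ϖ : K
  ne : ϖ ≠ 0
  lt : ‖ϖ‖ < 1

section
variable (K : Type) [NormedField K] [IsUltrametricDist K]

/-- The ring of integers. -/
def O : Subring K where
  carrier := {x | ‖x‖ ≤ 1}
  mul_mem' {a b} ha hb := by
    simp only [Set.mem_ofPred_eq, norm_mul] at *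
    exact mul_le_one₀ ha (norm_nonneg _) hb
  one_mem' := by simp
  add_mem' {a b} ha hb := (IsUltrametricDist.norm_add_le_max a b).trans (max_le ha hb)
  zero_mem' := by simp
  neg_mem' ha := by simpa using ha

/-- The closed ball of radius `r` (at least `0`) as an ideal of the ring of integers. -/
def ball (r : ℝ) : Ideal (O K) where
  carrier := {x | ‖(x : K)‖ ≤ max r 0}
  add_mem' {a b} ha hb := (IsUltrametricDist.norm_add_le_max (a : K) b).trans (max_le ha hb)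
  zero_mem' := by simp
  smul_mem' c x hx := by
    simp only [Set.mem_ofPred_eq, smul_eq_mul, Subring.coe_mul, norm_mul] at *
    exact (mul_le_of_le_one_left (norm_nonneg _) c.2).trans hx

variable {K}

theorem mem_O {x : K} : x ∈ O K ↔ ‖x‖ ≤ 1 := Iff.rfl

theorem norm_O_le (x : O K) : ‖(x : K)‖ ≤ 1 := x.2

theorem mem_ball {r : ℝ} (hr : 0 ≤ r) {x : O K} : x ∈ ball K r ↔ ‖(x : K)‖ ≤ r := by
  change ‖(x : K)‖ ≤ max r 0 ↔ _
  rw [max_eq_left hr]

theorem ball_mono {r s : ℝ} (h : r ≤ s) : ball K r ≤ ball K s :=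
  fun _ hx => le_trans hx (max_le_max_right 0 h)

theorem ball_mul {r s : ℝ} (hr : 0 ≤ r) (hs : 0 ≤ s) : ball K r * ball K s ≤ ball K (r * s) := by
  refine Ideal.mul_le.2 fun a ha b hb => ?_
  rw [mem_ball hr] at ha
  rw [mem_ball hs] at hb
  rw [mem_ball (mul_nonneg hr hs), Subring.coe_mul, norm_mul]
  exact mul_le_mul ha hb (norm_nonneg _) hr

theorem ball_pow {r : ℝ} (hr : 0 ≤ r) (N : ℕ) : ball K r ^ N ≤ ball K (r ^ N) := by
  induction N with
  | zero => intro x _; rw [mem_ball (by positivity)]; simpa using norm_O_le x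
  | succ N ih =>
    rw [pow_succ, pow_succ]
    exact (Ideal.mul_mono_left ih).trans (ball_mul (by positivity) hr)

theorem mem_span_O {c x : O K} : x ∈ Ideal.span {c} ↔ ‖(x : K)‖ ≤ ‖(c : K)‖ := by
  rw [Ideal.mem_span_singleton']
  constructor
  · rintro ⟨a, rfl⟩
    rw [Subring.coe_mul, norm_mul]
    exact mul_le_of_le_one_left (norm_nonneg _) a.2
  · intro h
    by_cases hc : (c : K) = 0
    · refine ⟨0, Subtype.ext ?_⟩
      rw [hc, norm_zero, norm_le_zero_iff] at h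
      simp [h]
    · refine ⟨⟨x / c, ?_⟩, Subtype.ext ?_⟩
      · rw [mem_O, norm_div]
        exact div_le_one_of_le₀ h (norm_nonneg _)
      · simp [hc]

theorem span_eq_ball (c : O K) : Ideal.span {c} = ball K ‖(c : K)‖ := by
  ext x; rw [mem_span_O, mem_ball (norm_nonneg _)]

theorem isUnit_O {x : O K} : IsUnit x ↔ ‖(x : K)‖ = 1 := by
  rw [← Ideal.span_singleton_eq_top, Ideal.eq_top_iff_one, mem_span_O]
  simp only [OneMemClass.coe_one, norm_one]
  exact ⟨fun h => le_antisymm x.2 h, fun h => h.ge⟩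

variable [HasPi K]

variable (K) in
/-- The pseudo-uniformizer as an element of the ring of integers. -/
def piO : O K := ⟨HasPi.ϖ, HasPi.lt.le⟩

@[simp] theorem coe_piO : (piO K : K) = HasPi.ϖ := rfl

omit [IsUltrametricDist K] in
theorem norm_pi_pos : 0 < ‖(HasPi.ϖ : K)‖ := norm_pos_iff.2 HasPi.ne

theorem mem_span_pi_pow {N : ℕ} {x : O K} :
    x ∈ Ideal.span {piO K} ^ N ↔ ‖(x : K)‖ ≤ ‖(HasPi.ϖ : K)‖ ^ N := by
  rw [Ideal.span_singleton_pow, mem_span_O]; simp

omit [IsUltrametricDist K] in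
theorem exists_pi_pow_lt {r : ℝ} (hr : 0 < r) : ∃ N : ℕ, ‖(HasPi.ϖ : K)‖ ^ N < r :=
  exists_pow_lt_of_lt_one hr HasPi.lt

variable [CompleteSpace K]

noncomputable instance adicO : Adic (O K) where
  I := Ideal.span {piO K}
  haus x h := by
    by_contra hx
    obtain ⟨N, hN⟩ := exists_pi_pow_lt (K := K) (r := ‖(x : K)‖)
      (norm_pos_iff.2 fun h0 => hx (Subtype.ext h0))
    exact absurd (mem_span_pi_pow.1 (h N)) (not_le.2 hN)
  prec f h := by
    simp only [mem_span_pi_pow] at h ⊢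
    have h0 := (norm_pi_pos (K := K)).le
    have tel : ∀ n k, ‖(f (n + k) : K) - f n‖ ≤ ‖(HasPi.ϖ : K)‖ ^ n := by
      intro n k
      induction k with
      | zero => simp
      | succ k ih =>
        have h1 : ‖(f (n + k + 1) : K) - f (n + k)‖ ≤ ‖(HasPi.ϖ : K)‖ ^ n :=
          (h (n + k)).trans (pow_le_pow_of_le_one h0 HasPi.lt.le (by omega))
        have := IsUltrametricDist.norm_add_le_max ((f (n + k + 1) : K) - f (n + k))
          ((f (n + k) : K) - f n)
        rw [sub_add_sub_cancel] at this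
        exact this.trans (max_le h1 ih)
    have hc : CauchySeq fun n => (f n : K) := by
      refine cauchySeq_of_le_geometric ‖(HasPi.ϖ : K)‖ 1 HasPi.lt fun n => ?_
      rw [dist_comm, dist_eq_norm, one_mul]
      exact h n
    obtain ⟨L, hL⟩ := cauchySeq_tendsto_of_complete hc
    have key : ∀ n, ‖L - f n‖ ≤ ‖(HasPi.ϖ : K)‖ ^ n := by
      intro n
      refine le_of_tendsto ((hL.sub_const (f n : K)).norm) (Filter.eventually_atTop.2 ⟨n, ?_⟩)
      intro m hm
      obtain ⟨k, rfl⟩ := Nat.exists_eq_add_of_le hm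
      exact tel n k
    refine ⟨⟨L, ?_⟩, key⟩
    have := IsUltrametricDist.norm_add_le_max (L - f 0) (f 0 : K)
    rw [sub_add_cancel] at this
    exact this.trans (max_le (by simpa using key 0) (f 0).2)

theorem I_O : (Adic.I : Ideal (O K)) = Ideal.span {piO K} := rfl

theorem mem_I_pow_O {N : ℕ} {x : O K} :
    x ∈ (Adic.I : Ideal (O K)) ^ N ↔ ‖(x : K)‖ ≤ ‖(HasPi.ϖ : K)‖ ^ N := mem_span_pi_pow

theorem mem_I_O {x : O K} : x ∈ (Adic.I : Ideal (O K)) ↔ ‖(x : K)‖ ≤ ‖(HasPi.ϖ : K)‖ :=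
  mem_span_O

theorem mem_rad_O {x : O K} : x ∈ rad (O K) ↔ ‖(x : K)‖ < 1 := by
  rw [rad, Ideal.mem_radical_iff]
  constructor
  · rintro ⟨N, hN⟩
    rw [mem_I_O, SubmonoidClass.coe_pow, norm_pow] at hN
    by_contra hc
    rw [le_antisymm x.2 (not_lt.1 hc), one_pow] at hN
    exact absurd HasPi.lt (not_lt.2 hN)
  · intro h
    obtain ⟨N, hN⟩ := exists_pow_lt_of_lt_one (norm_pi_pos (K := K)) h
    exact ⟨N, by rw [mem_I_O, SubmonoidClass.coe_pow, norm_pow]; exact hN.le⟩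

theorem ball_le_rad {r : ℝ} (hr : r < 1) : ball K r ≤ rad (O K) :=
  fun _ hx => mem_rad_O.2 (lt_of_le_of_lt hx (max_lt hr one_pos))

theorem ball_open {r : ℝ} (hr : 0 < r) : ∃ N, (Adic.I : Ideal (O K)) ^ N ≤ ball K r := by
  obtain ⟨N, hN⟩ := exists_pi_pow_lt (K := K) hr
  exact ⟨N, fun x hx => (mem_ball hr.le).2 ((mem_I_pow_O.1 hx).trans hN.le)⟩

variable {R σ : Type} [CommRing R] [Finite σ]

/-- A series of order at least `N` is small at small points. -/
theorem norm_ev_le_pow (φ : R →+* O K) {a : σ → O K} {r : ℝ} (hr0 : 0 ≤ r) (hr : r < 1)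
    (ha : ∀ i, ‖(a i : K)‖ ≤ r) (N : ℕ) {f : MvPowerSeries σ R}
    (hf : ∀ d : σ →₀ ℕ, d.degree < N → MvPowerSeries.coeff d f = 0) :
    ‖(ev φ a f : K)‖ ≤ r ^ N :=
  (mem_ball (by positivity)).1 (ball_pow hr0 N (ev_mem_pow φ
    (fun i => mem_rad_O.2 ((ha i).trans_lt hr)) (fun i => (mem_ball hr0).2 (ha i)) N hf))

/-- Evaluation is `1`-Lipschitz in the point. -/
theorem norm_ev_sub_le (φ : R →+* O K) {a b : σ → O K} (ha : ∀ i, ‖(a i : K)‖ < 1)
    (hb : ∀ i, ‖(b i : K)‖ < 1) {r : ℝ} (hr0 : 0 ≤ r) (h : ∀ i, ‖(b i : K) - a i‖ ≤ r)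
    (f : MvPowerSeries σ R) : ‖(ev φ b f : K) - ev φ a f‖ ≤ r :=
  (mem_ball hr0).1 (ev_congr φ (fun i => mem_rad_O.2 (ha i)) (fun i => mem_rad_O.2 (hb i))
    (fun i => (mem_ball hr0).2 (h i)) f)

/-- Small coefficients give small values. -/
theorem norm_ev_le_of_coeff (φ : R →+* O K) {a : σ → O K} (ha : ∀ i, ‖(a i : K)‖ < 1) {r : ℝ}
    (hr0 : 0 < r) {f : MvPowerSeries σ R} (hf : ∀ d, ‖(φ (MvPowerSeries.coeff d f) : K)‖ ≤ r) :
    ‖(ev φ a f : K)‖ ≤ r :=
  (mem_ball hr0.le).1 (ev_mem_of_coeff φ (fun i => mem_rad_O.2 (ha i)) (ball_open hr0)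
    fun d => (mem_ball hr0.le).2 (hf d))

end

end Vale.Agent.P217
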