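import Vale.Agent.P217.Theta
import Vale.Agent.P217.Valued

/-! The universal cover in characteristic `p`. -/

namespace Vale.Agent.P217

open Finset

variable {C : Type} [NormedField C] [IsUltrametricDist C] {p : ℕ} [Fact p.Prime] [CharP C p]

omit [Fact p.Prime] in
theorem O_cast_p : (p : O C) = 0 := Subtype.ext (by simp)

variable [PerfectRing C p]

instance perfectO : PerfectRing (O C) p :=
  PerfectRing.ofSurjective _ _ fun x => by
    obtain ⟨y, hy⟩ := surjective_frobenius C p (x : C)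
    refine ⟨⟨y, ?_⟩, Subtype.ext hy⟩
    rw [mem_O]
    have h1 : ‖y‖ ^ p ≤ 1 := by
      rw [← norm_pow, ← frobenius_def, hy]; exact x.2
    exact (pow_le_one_iff_of_nonneg (norm_nonneg _) (Fact.out : p.Prime).ne_zero).1 h1

variable (p) in
/-- The `(p ^ n) ^ k`-th root. -/
noncomputable def rt (n k : ℕ) : O C ≃+* O C := (iterateFrobeniusEquiv (O C) p (n * k)).symm

theorem rt_pow (n k : ℕ) (x : O C) : rt p n k x ^ (p ^ n) ^ k = x := by
  rw [← pow_mul p, ← iterateFrobeniusEquiv_def]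
  exact RingEquiv.apply_symm_apply _ x

theorem pow_q_injective (n k : ℕ) {x y : O C} (h : x ^ (p ^ n) ^ k = y ^ (p ^ n) ^ k) : x = y := by
  rw [← pow_mul p] at h
  exact (iterateFrobeniusEquiv (O C) p (n * k)).injective h

@[simp] theorem rt_zero (n : ℕ) (x : O C) : rt p n 0 x = x := by simpa using rt_pow (p := p) n 0 x

theorem rt_succ_pow (n k : ℕ) (x : O C) : rt p n (k + 1) x ^ p ^ n = rt p n k x :=
  pow_q_injective (p := p) n k (by rw [← pow_mul, ← pow_succ', rt_pow, rt_pow])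

theorem rt_rt (n j k : ℕ) (x : O C) : rt p n k (rt p n j x) = rt p n (k + j) x :=
  pow_q_injective (p := p) n (k + j) (by rw [rt_pow, pow_add, pow_mul, rt_pow, rt_pow])

theorem rt_of_fixed (n k : ℕ) {a : O C} (ha : a ^ p ^ n = a) : rt p n k a = a :=
  pow_q_injective (p := p) n k (by
    rw [rt_pow]
    induction k with
    | zero => simp
    | succ k ih => rw [pow_succ, pow_mul, ← ih, ha])

variable [HasPi C] [CompleteSpace C]

theorem rt_mem_rad (n k : ℕ) {x : O C} : rt p n k x ∈ rad (O C) ↔ x ∈ rad (O C) := by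
  conv_rhs => rw [← rt_pow (p := p) n k x]
  rw [mem_rad_O, mem_rad_O, SubmonoidClass.coe_pow, norm_pow,
    pow_lt_one_iff_of_nonneg (norm_nonneg _)
      (pow_ne_zero _ (pow_ne_zero _ (Fact.out : p.Prime).ne_zero))]

variable (p) in
theorem isRootSys_rt (n : ℕ) {x : O C} (hx : x ∈ rad (O C)) :
    IsRootSys (p ^ n) fun k => rt p n k x :=
  ⟨fun k => (rt_mem_rad n k).2 hx, fun k => by rw [rt_succ_pow, sub_self]; exact zero_mem _⟩

/-- Every sequence of approximate roots is congruent to a sequence of exact roots. -/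
theorem IsRootSys.exists_tilt {n : ℕ} (hn : 0 < n) {y : ℕ → O C} (hy : IsRootSys (p ^ n) y) :
    ∃ x ∈ rad (O C), ∀ k, rt p n k x - y k ∈ (Adic.I : Ideal (O C)) := by
  have hq : ∀ k, k + 1 ≤ (p ^ n) ^ k := fun k =>
    Nat.lt_pow_self (Nat.one_lt_pow hn.ne' (Fact.out : p.Prime).one_lt)
  have hsub : ∀ (a b : O C) k, (a - b) ^ (p ^ n) ^ k = a ^ (p ^ n) ^ k - b ^ (p ^ n) ^ k := by
    intro a b k; rw [← pow_mul p, sub_pow_char_pow]
  have step : ∀ k, y (k + 1) ^ (p ^ n) ^ (k + 1) - y k ^ (p ^ n) ^ k ∈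
      (Adic.I : Ideal (O C)) ^ (p ^ n) ^ k := fun k => by
    rw [pow_succ' (p ^ n), pow_mul, ← hsub]
    exact Ideal.pow_mem_pow (hy.pow k) _
  obtain ⟨x, hx⟩ := Adic.prec (fun k => y k ^ (p ^ n) ^ k) fun k =>
    Ideal.pow_le_pow_right (by have := hq k; omega) (step k)
  have tel : ∀ k j, y (k + j) ^ (p ^ n) ^ (k + j) - y k ^ (p ^ n) ^ k ∈
      (Adic.I : Ideal (O C)) ^ (p ^ n) ^ k := by
    intro k j
    induction j with
    | zero => simp
    | succ j ih =>
      have := add_mem (Ideal.pow_le_pow_right (Nat.pow_le_pow_right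
        (pow_pos (Fact.out : p.Prime).pos n) (Nat.le_add_right k j)) (step (k + j))) ih
      rwa [sub_add_sub_cancel] at this
  have key : ∀ k, rt p n k x - y k ∈ (Adic.I : Ideal (O C)) := by
    intro k
    have h1 := add_mem (Ideal.pow_le_pow_right (Nat.le_add_left _ k) (hx (k + (p ^ n) ^ k)))
      (tel k ((p ^ n) ^ k))
    rw [sub_add_sub_cancel, ← rt_pow (p := p) n k x, ← hsub, mem_I_pow_O, SubmonoidClass.coe_pow,
      norm_pow, pow_le_pow_iff_left₀ (norm_nonneg _) (norm_nonneg _) (by have := hq k; omega)] at h1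
    exact mem_I_O.2 h1
  refine ⟨x, ?_, key⟩
  have := add_mem (I_le_rad (key 0)) (hy.mem 0)
  rwa [sub_add_cancel, rt_zero] at this

variable {R S : Type} [CommRing R] [CommRing S] [Adic S]

variable (p) in
/-- `φ` is a deformation of the point `z₀` at which `[p](x) = x ^ p ^ n`. -/
structure Near (n : ℕ) (F : FormalGroup R) (z₀ : R →+* O C) (φ : R →+* S) (ψ : O C →+* S) :
    Prop where
  pos : 0 < n
  mul_p : PowerSeries.map z₀ (mulSeries F p) = PowerSeries.X ^ p ^ n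
  loc : ∀ x ∈ (Adic.I : Ideal (O C)), ψ x ∈ (Adic.I : Ideal S)
  cong : ∀ r, φ r - ψ (z₀ r) ∈ (Adic.I : Ideal S)

variable {n : ℕ} {F : FormalGroup R} {z₀ : R →+* O C} {φ : R →+* S} {ψ : O C →+* S}

namespace Near

omit [Fact p.Prime] [PerfectRing C p] in
theorem p_mem (H : Near p n F z₀ φ ψ) : (p : S) ∈ (Adic.I : Ideal S) := by
  simpa [O_cast_p] using H.cong p

omit [Fact p.Prime] [CharP C p] [PerfectRing C p] in
theorem coeff_mem (H : Near p n F z₀ φ ψ) (i : ℕ) :
    φ (PowerSeries.coeff i (mulSeries F p - PowerSeries.X ^ p ^ n)) ∈ (Adic.I : Ideal S) := by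
  have h1 := H.cong (PowerSeries.coeff i (mulSeries F p - PowerSeries.X ^ p ^ n))
  rwa [← PowerSeries.coeff_map (f := z₀), map_sub (PowerSeries.map z₀), H.mul_p, map_pow, PowerSeries.map_X,
    sub_self, map_zero, map_zero, sub_zero] at h1

omit [Fact p.Prime] [CharP C p] [PerfectRing C p] in
theorem nsmul_val (H : Near p n F z₀ φ ψ) (X : Pt F z₀) : (p • X).val = X.val ^ p ^ n := by
  have := ev1_map z₀ (RingHom.id _) X.mem (mulSeries F p)
  rw [H.mul_p, map_pow, ev1_X _ X.mem] at this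
  rw [Pt.nsmul_val, this]; rfl

omit [Fact p.Prime] [CharP C p] [PerfectRing C p] in
theorem pow_nsmul_val (H : Near p n F z₀ φ ψ) (k : ℕ) (X : Pt F z₀) :
    (p ^ k • X).val = X.val ^ (p ^ n) ^ k := by
  induction k with
  | zero => simp
  | succ k ih => rw [pow_succ' p, mul_nsmul', H.nsmul_val, ih, ← pow_mul, ← pow_succ]

omit [Fact p.Prime] [CharP C p] [PerfectRing C p] in
theorem comp (H : Near p n F z₀ φ ψ) {T : Type} [CommRing T] [Adic T] (χ : S →+* T)
    (hχ : ∀ x ∈ (Adic.I : Ideal S), χ x ∈ (Adic.I : Ideal T)) {φ' : R →+* T} {ψ' : O C →+* T}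
    (h1 : χ.comp φ = φ') (h2 : χ.comp ψ = ψ') : Near p n F z₀ φ' ψ' :=
  ⟨H.pos, H.mul_p, fun x hx => h2 ▸ hχ _ (H.loc x hx), fun r => by
    subst h1 h2
    simpa using hχ _ (H.cong r)⟩

end Near

variable (p) in
/-- The `(p ^ n) ^ k`-th root of a point. -/
noncomputable def Pt.rt (n k : ℕ) (X : Pt F z₀) : Pt F z₀ :=
  ⟨P217.rt p n k X.val, (rt_mem_rad n k).2 X.mem⟩

@[simp] theorem Pt.rt_val (n k : ℕ) (X : Pt F z₀) : (X.rt p n k).val = P217.rt p n k X.val := rfl

namespace Near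

theorem nsmul_rt (H : Near p n F z₀ φ ψ) (k : ℕ) (X : Pt F z₀) : p ^ k • X.rt p n k = X :=
  Pt.ext (by rw [H.pow_nsmul_val, Pt.rt_val, rt_pow])

theorem pow_nsmul_injective (H : Near p n F z₀ φ ψ) (k : ℕ) {X Y : Pt F z₀}
    (h : p ^ k • X = p ^ k • Y) : X = Y :=
  Pt.ext (pow_q_injective (p := p) n k (by rw [← H.pow_nsmul_val, ← H.pow_nsmul_val, h]))

theorem rootSys (H : Near p n F z₀ φ ψ) (X : Pt F z₀) :
    IsRootSys (p ^ n) fun k => ψ (rt p n k X.val) := (isRootSys_rt p n X.mem).map ψ H.loc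

theorem isSys (H : Near p n F z₀ φ ψ) (X : Pt F z₀) : IsSys p ((H.rootSys X).pt F φ) :=
  (H.rootSys X).isSys H.coeff_mem

variable [F.IsComm]

theorem rt_add (H : Near p n F z₀ φ ψ) (k : ℕ) (X Y : Pt F z₀) :
    (X + Y).rt p n k = X.rt p n k + Y.rt p n k :=
  H.pow_nsmul_injective k (by rw [nsmul_add, H.nsmul_rt, H.nsmul_rt, H.nsmul_rt])

/-- The projection from the universal cover. -/
noncomputable def th (H : Near p n F z₀ φ ψ) : Pt F z₀ →+ Pt F φ :=
  AddMonoidHom.mk' (fun X => theta p ((H.rootSys X).pt F φ)) fun X Y => by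
    rw [← theta_add H.p_mem (H.isSys X) (H.isSys Y)]
    refine theta_congr H.p_mem ((H.isSys X).add (H.isSys Y)) fun k => ?_
    have hr := map_mem_rad ψ H.loc
    have e : ((H.rootSys (X + Y)).pt F φ k).val =
        (Pt.map F ψ hr rfl (X.rt p n k) + Pt.map F ψ hr rfl (Y.rt p n k)).val := by
      rw [← map_add, ← H.rt_add]; rfl
    have h2 := rad2 (hr _ (X.rt p n k).mem) (hr _ (Y.rt p n k).mem)
    rw [e, Pt.add_val_map, Pt.add_val_map]
    change ev _ ![ψ (X.rt p n k).val, ψ (Y.rt p n k).val] _ -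
      ev _ ![ψ (X.rt p n k).val, ψ (Y.rt p n k).val] _ ∈ _
    rw [← map_sub]
    refine ev_mem_of_coeff _ h2 ⟨1, by simp⟩ fun d => ?_
    simpa using neg_mem (H.cong (MvPowerSeries.coeff d F.toPowerSeries))

theorem th_def (H : Near p n F z₀ φ ψ) (X : Pt F z₀) :
    H.th X = theta p ((H.rootSys X).pt F φ) := rfl

theorem th_sub_mem (H : Near p n F z₀ φ ψ) (X : Pt F z₀) :
    (H.th X).val - ψ X.val ∈ (Adic.I : Ideal S) := by
  have := theta_sub_mem H.p_mem (H.isSys X)
  rwa [IsRootSys.pt_val, rt_zero] at this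

theorem th_comp (H : Near p n F z₀ φ ψ) {T : Type} [CommRing T] [Adic T] (χ : S →+* T)
    (hχ : ∀ x ∈ (Adic.I : Ideal S), χ x ∈ (Adic.I : Ideal T)) {φ' : R →+* T} {ψ' : O C →+* T}
    (h1 : χ.comp φ = φ') (h2 : χ.comp ψ = ψ') (H' : Near p n F z₀ φ' ψ') (X : Pt F z₀) :
    (H'.th X).val = χ (H.th X).val := by
  have := theta_map H.p_mem (H.isSys X) (Pt.map F χ (map_mem_rad χ hχ) h1)
    fun k x hx => map_mem_I_pow χ hχ k _ hx
  subst h2
  exact congrArg Pt.val this

end Near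

end Vale.Agent.P217
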